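import Mathlib

/-! Row 128 (positive Lyapunov exponent of the standard map): definitions and linear algebra.

In the coordinates `x (n+1) + x (n-1) = 2 x n + k sin (2 π x n)` the derivative cocycle is the
transfer matrix of `u (n+1) = a n * u n - u (n-1)` with `a n = 2 + 2 π k cos (2 π x n)`.
One-sided sequences `b : ℕ → ℝ` use the coefficients `b 1, b 2, …` (never `b 0`). -/

set_option autoImplicit false

namespace Crest.Agent.R128

open Real

/-- one step `(p, q) ↦ (a p - q, p)` -/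
noncomputable def stp (a : ℝ) : (ℝ × ℝ) →L[ℝ] (ℝ × ℝ) :=
  (a • ContinuousLinearMap.fst ℝ ℝ ℝ - ContinuousLinearMap.snd ℝ ℝ ℝ).prod
    (ContinuousLinearMap.fst ℝ ℝ ℝ)

/-- the transfer matrix over the sites `1, …, n` -/
noncomputable def tr (b : ℕ → ℝ) : ℕ → (ℝ × ℝ) →L[ℝ] (ℝ × ℝ)
  | 0 => ContinuousLinearMap.id ℝ _
  | n + 1 => (stp (b (n + 1))).comp (tr b n)

/-- solutions of the linearised recursion -/
def IsSol (b u : ℕ → ℝ) : Prop := ∀ j, u (j + 2) = b (j + 1) * u (j + 1) - u j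

/-- the solution with `u 0 = q`, `u 1 = p` -/
def sol (b : ℕ → ℝ) (q p : ℝ) : ℕ → ℝ
  | 0 => q
  | 1 => p
  | j + 2 => b (j + 1) * sol b q p (j + 1) - sol b q p j

/-- sup norm of the pair `(u (j+1), u j)` -/
noncomputable def nv (u : ℕ → ℝ) (j : ℕ) : ℝ := max |u (j + 1)| |u j|

/-- Wronskian -/
def wr (u w : ℕ → ℝ) (j : ℕ) : ℝ := u j * w (j + 1) - u (j + 1) * w j

/-- the index among `j, j+1` at which `|w|` is larger -/
noncomputable def gi (w : ℕ → ℝ) (j : ℕ) : ℕ := if |w j| ≤ |w (j + 1)| then j + 1 else j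

/-- all steps have norm at most `K` -/
def Bd (K : ℝ) (b : ℕ → ℝ) : Prop := ∀ j, |b j| + 1 ≤ K

/-- the defect of growth -/
noncomputable def dfc (K : ℝ) (b : ℕ → ℝ) (n : ℕ) : ℝ := n - logb K ‖tr b n‖

/-- good up to the horizon `H` -/
def Good (K δ : ℝ) (b : ℕ → ℝ) (H : ℕ) : Prop := ∀ n ≤ H, dfc K b n ≤ δ * (n + 1)

/-- weak goodness in multiplicative form (`K = κ ^ 1000`) -/
def WG (κ : ℝ) (b : ℕ → ℝ) (n : ℕ) : Prop := ∀ j ≤ n, κ ^ (999 * j) ≤ κ * ‖tr b j‖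

/-- the forward sequence seen from the cut `v` (sites `v+1, v+2, …`) -/
def fw (a : ℤ → ℝ) (v : ℤ) : ℕ → ℝ := fun j => a (v + j)

/-- the backward sequence seen from the cut `v` (sites `v, v-1, …`) -/
def bw (a : ℤ → ℝ) (v : ℤ) : ℕ → ℝ := fun j => a (v + 1 - j)

/-- both horizons end before `H` (`b` forward, `b'` backward) -/
def QE (K δ : ℝ) (H : ℕ) (b b' : ℕ → ℝ) : Prop := ¬ Good K δ b H ∧ ¬ Good K δ b' H

/-- resonance: almost maximal growth on both sides and a solution bounded at both ends -/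
def RE (K ε : ℝ) (T : ℕ) (b b' : ℕ → ℝ) : Prop :=
  dfc K b T ≤ ε * T ∧ dfc K b' T ≤ ε * T ∧
    ∃ p q : ℝ, max |p| |q| = 1 ∧ ‖tr b T (p, q)‖ ≤ 1 ∧ ‖tr b' T (q, p)‖ ≤ 1

/-- resonance with a normalised witness -/
def RE1 (K ε : ℝ) (T : ℕ) (b b' : ℕ → ℝ) : Prop :=
  dfc K b T ≤ ε * T ∧ dfc K b' T ≤ ε * T ∧
    ∃ p : ℝ, |p| ≤ 1 ∧ ‖tr b T (p, 1)‖ ≤ 1 ∧ ‖tr b' T (1, p)‖ ≤ 1

open Classical in
/-- indicator of a proposition -/
noncomputable def ind (P : Prop) : ℝ := if P then 1 else 0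

/-- the coefficient of `q` in `p` at time `j` -/
noncomputable def zt (p q : ℕ → ℝ) (j : ℕ) : ℝ := p (gi q j) / q (gi q j)

/-- first failure of goodness at a time in `(H, H']` -/
def FA (K δ : ℝ) (H H' : ℕ) (b : ℕ → ℝ) : Prop :=
  ∃ h, H ≤ h ∧ h < H' ∧ Good K δ b h ∧ δ * (h + 2) < dfc K b (h + 1)

/-- the robust version of `FA` -/
def FB (K δ : ℝ) (H H' : ℕ) (b : ℕ → ℝ) : Prop :=
  (∀ n ≤ H, dfc K b n ≤ δ * (n + 1) + logb K 8) ∧
    ∃ h, H ≤ h ∧ h < H' ∧ δ * (h + 2) - logb K 8 ≤ dfc K b (h + 1)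

/-- the defect of a single step -/
noncomputable def bb (K x : ℝ) : ℝ := 1 - logb K (max 1 (|x| - 1))

/-- two-sided Pliss time of `w` in `[0, T]` -/
def Pl (κ : ℝ) (w : ℕ → ℝ) (T j : ℕ) : Prop :=
  j ≤ T ∧ (∀ i ≤ j, nv w i * κ ^ (990 * (j - i)) ≤ nv w j) ∧
    ∀ i, j ≤ i → i ≤ T → nv w j * κ ^ (990 * (i - j)) ≤ nv w i

/-- what is known at a clean index `ω` about a growing solution `w` and a decaying solution `u` -/
structure Cl (κ : ℝ) (b u w : ℕ → ℝ) (ϖ : ℝ) (ω : ℕ) : Prop where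
  one_le : 1 ≤ ω
  pos : 0 < |w (ω + 1)|
  env : ∀ i, 1 ≤ i → i ≤ ω + 1 → |w i| * κ ^ (990 * (ω + 1 - i)) ≤ |w (ω + 1)|
  nvw : nv w ω = |w (ω + 1)|
  nxt : nv w (ω + 1) = |w (ω + 2)|
  uw : |u ω * w (ω + 1) - ϖ| ≤ 1 / κ ^ 900
  nvu : nv u ω * |w (ω + 1)| ≤ 2
  big : κ ^ 990 / 2 ≤ |b (ω + 1)|
  small : |u (ω + 1)| ≤ |u ω| / κ ^ 900
  ratio : |u (ω + 1) * b (ω + 1) - u ω| ≤ |u ω| / κ ^ 900

/-! ### the dynamics -/

/-- the force -/
noncomputable def ph (k x : ℝ) : ℝ := 2 * x + k * sin (2 * π * x)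

/-- its derivative -/
noncomputable def ac (k x : ℝ) : ℝ := 2 + 2 * π * k * cos (2 * π * x)

/-- one-sided real orbit -/
noncomputable def ro (k y0 y1 : ℝ) : ℕ → ℝ
  | 0 => y0
  | 1 => y1
  | j + 2 => ph k (ro k y0 y1 (j + 1)) - ro k y0 y1 j

/-- coefficients along a one-sided orbit -/
noncomputable def rb (k y0 y1 : ℝ) : ℕ → ℝ := fun j => ac k (ro k y0 y1 j)

/-- one-sided complex orbit -/
noncomputable def co (k : ℝ) (z0 z1 : ℂ) : ℕ → ℂ
  | 0 => z0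
  | 1 => z1
  | j + 2 => 2 * co k z0 z1 (j + 1) + k * Complex.sin (2 * π * co k z0 z1 (j + 1)) - co k z0 z1 j

/-- the two-sided orbit with `x 0 = p.1`, `x 1 = p.2` -/
noncomputable def orb (k : ℝ) (p : ℝ × ℝ) (j : ℤ) : ℝ :=
  if 0 ≤ j then ro k p.1 p.2 j.toNat else ro k p.2 p.1 (1 - j).toNat

/-- the coefficient sequence of a point -/
noncomputable def aseq (k : ℝ) (p : ℝ × ℝ) : ℤ → ℝ := fun j => ac k (orb k p j)

/-- Lebesgue measure on the unit square -/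
noncomputable def Psq : MeasureTheory.Measure (ℝ × ℝ) :=
  MeasureTheory.volume.restrict (Set.Ico (0 : ℝ) 1 ×ˢ Set.Ico (0 : ℝ) 1)

/-- the pair of coordinates after `m` steps -/
noncomputable def adv (k : ℝ) (m : ℕ) (p : ℝ × ℝ) : ℝ × ℝ :=
  (ro k p.1 p.2 m, ro k p.1 p.2 (m + 1))

/-- the pair `(y 0, y 1)` of the orbit with `y G = ξ`, `y (G - 1) = t` -/
noncomputable def lf (k : ℝ) (G : ℕ) (ξ t : ℝ) : ℝ × ℝ := (ro k ξ t G, ro k ξ t (G - 1))

/-- `FA` together with the index of the boundary condition -/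
def FC (K k δ : ℝ) (H H' G : ℕ) (p : ℝ × ℝ) : Prop :=
  FA K δ H H' (rb k p.1 p.2) ∧ gi (sol (rb k p.1 p.2) 0 1) H = G

/-- `ℤ²`-periodic sets -/
def Per (S : Set (ℝ × ℝ)) : Prop := ∀ (p : ℝ × ℝ) (i j : ℤ), (p.1 + i, p.2 + j) ∈ S ↔ p ∈ S

/-- the mean defect -/
noncomputable def Dn (K k : ℝ) (N : ℕ) : ℝ := (∫ p, dfc K (rb k p.1 p.2) N ∂Psq) / N

/-- a line of initial data `(y0 + s w0, y1 + s w1)` -/
structure Side where
  y0 : ℝ
  y1 : ℝ
  w0 : ℝ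
  w1 : ℝ

namespace Side

/-- the same line seen in the other time direction -/
def rev (S : Side) : Side := ⟨S.y1, S.y0, S.w1, S.w0⟩

/-- orbit of the point with parameter `s` -/
noncomputable def x (S : Side) (k s : ℝ) : ℕ → ℝ := ro k (S.y0 + s * S.w0) (S.y1 + s * S.w1)

/-- its coefficients -/
noncomputable def b (S : Side) (k s : ℝ) : ℕ → ℝ := rb k (S.y0 + s * S.w0) (S.y1 + s * S.w1)

/-- the tangent solution -/
noncomputable def w (S : Side) (k s : ℝ) : ℕ → ℝ := sol (S.b k s) S.w0 S.w1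

/-- the complexified orbit -/
noncomputable def xc (S : Side) (k : ℝ) (z : ℂ) : ℕ → ℂ :=
  co k (S.y0 + z * S.w0) (S.y1 + z * S.w1)

@[simp] theorem rev_rev (S : Side) : S.rev.rev = S := rfl

end Side

/-- the point `s` of the line `S` carries a two-sided solution that is clean at `ω` forward and at
`α` backward -/
def Pt (κ k : ℝ) (S : Side) (s ϖ : ℝ) (ω α : ℕ) : Prop :=
  ∃ u u' : ℕ → ℝ, IsSol (S.b k s) u ∧ IsSol (S.rev.b k s) u' ∧ u' 0 = u 1 ∧ u' 1 = u 0 ∧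
    wr u (S.w k s) 0 = ϖ ∧ Cl κ (S.b k s) u (S.w k s) ϖ ω ∧
    Cl κ (S.rev.b k s) u' (S.rev.w k s) (-ϖ) α

/-- the window of sizes that belongs to the dyadic level `n` -/
def Win (κ : ℝ) (n : ℕ) (x : ℝ) : Prop := 2 ^ n ≤ κ ^ 1000 * x ∧ x ≤ 2 ^ n * κ ^ 6000

/-- the dyadic level `n` is good for the point `s` -/
def Lvl (κ k : ℝ) (S : Side) (T n : ℕ) (s : ℝ) : Prop :=
  (∃ ω α, ω + 2 ≤ T ∧ α + 2 ≤ T ∧ 2 ^ n * κ ^ 2000 ≤ nv (S.w k s) ω ∧
    nv (S.w k s) ω ≤ 2 ^ n * κ ^ 3000 ∧ nv (S.w k s) ω ≤ κ ^ 500 * nv (S.rev.w k s) α ∧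
    nv (S.rev.w k s) α ≤ κ ^ 500 * nv (S.w k s) ω) ∧
  ∀ ω α, 1 ≤ ω → 1 ≤ α → ω + 1 ≤ T → α + 1 ≤ T → Win κ n (nv (S.w k s) ω) →
    Win κ n (nv (S.w k s) (ω + 1)) → Win κ n (nv (S.rev.w k s) α) →
    Win κ n (nv (S.rev.w k s) (α + 1)) → Pt κ k S s 1 ω α

/-- dyadic interval -/
def dy (n : ℕ) (j : ℤ) : Set ℝ := Set.Ico ((j : ℝ) / 2 ^ n) ((j + 1 : ℝ) / 2 ^ n)

/-- the dyadic interval of level `n` that contains `s` -/
noncomputable def cell (n : ℕ) (s : ℝ) : Set ℝ := dy n ⌊2 ^ n * s⌋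

/-- union of the cells of level `n` that meet `E` -/
def sat (n : ℕ) (E : Set ℝ) : Set ℝ := ⋃ s ∈ E, cell n s

/-! ### linear algebra -/

@[simp] theorem stp_apply (a : ℝ) (v : ℝ × ℝ) : stp a v = (a * v.1 - v.2, v.1) := rfl

@[simp] theorem tr_zero (b : ℕ → ℝ) : tr b 0 = ContinuousLinearMap.id ℝ _ := rfl

theorem tr_succ (b : ℕ → ℝ) (n : ℕ) : tr b (n + 1) = (stp (b (n + 1))).comp (tr b n) := rfl

@[simp] theorem sol_zero (b : ℕ → ℝ) (q p : ℝ) : sol b q p 0 = q := rfl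

@[simp] theorem sol_one (b : ℕ → ℝ) (q p : ℝ) : sol b q p 1 = p := rfl

theorem isSol_sol (b : ℕ → ℝ) (q p : ℝ) : IsSol b (sol b q p) := fun _ => rfl

theorem IsSol.tr_apply {b u : ℕ → ℝ} (h : IsSol b u) (n : ℕ) :
    tr b n (u 1, u 0) = (u (n + 1), u n) := by
  induction n with
  | zero => rfl
  | succ n ih => rw [tr_succ, ContinuousLinearMap.comp_apply, ih, stp_apply, h n]

theorem tr_apply (b : ℕ → ℝ) (n : ℕ) (p q : ℝ) :
    tr b n (p, q) = (sol b q p (n + 1), sol b q p n) := (isSol_sol b q p).tr_apply n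

theorem nv_eq (u : ℕ → ℝ) (j : ℕ) : nv u j = ‖(u (j + 1), u j)‖ := rfl

theorem nv_nonneg (u : ℕ → ℝ) (j : ℕ) : 0 ≤ nv u j := le_max_of_le_left (abs_nonneg _)

theorem abs_le_nv (u : ℕ → ℝ) (j : ℕ) : |u j| ≤ nv u j := le_max_right _ _

theorem abs_succ_le_nv (u : ℕ → ℝ) (j : ℕ) : |u (j + 1)| ≤ nv u j := le_max_left _ _

theorem norm_tr_apply (b : ℕ → ℝ) (n : ℕ) (p q : ℝ) : ‖tr b n (p, q)‖ = nv (sol b q p) n := by
  rw [tr_apply]; rfl

theorem IsSol.unique {b u w : ℕ → ℝ} (hu : IsSol b u) (hw : IsSol b w) (h0 : u 0 = w 0)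
    (h1 : u 1 = w 1) : u = w := by
  funext n
  have h := hu.tr_apply n
  rw [h0, h1, hw.tr_apply n] at h
  exact (congrArg Prod.snd h).symm

theorem IsSol.lin {b u w : ℕ → ℝ} (hu : IsSol b u) (hw : IsSol b w) (α β : ℝ) :
    IsSol b fun i => α * u i + β * w i := fun j => by
  simp only [hu j, hw j]; ring

theorem IsSol.shift {b u : ℕ → ℝ} (hu : IsSol b u) (m : ℕ) :
    IsSol (fun j => b (m + j)) fun j => u (m + j) := fun j => hu (m + j)

theorem nv_lin_le (u w : ℕ → ℝ) (α β : ℝ) (j : ℕ) :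
    nv (fun i => α * u i + β * w i) j ≤ |α| * nv u j + |β| * nv w j := by
  refine max_le ?_ ?_
  · refine (abs_add_le _ _).trans ?_
    rw [abs_mul, abs_mul]
    gcongr <;> exact abs_succ_le_nv _ _
  · refine (abs_add_le _ _).trans ?_
    rw [abs_mul, abs_mul]
    gcongr <;> exact abs_le_nv _ _

theorem wr_succ {b b' u w : ℕ → ℝ} (hu : IsSol b u) (hw : IsSol b' w) (j : ℕ) :
    wr u w (j + 1) = wr u w j + (b' (j + 1) - b (j + 1)) * u (j + 1) * w (j + 1) := by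
  simp only [wr, hu j, hw j]; ring

theorem wr_const {b u w : ℕ → ℝ} (hu : IsSol b u) (hw : IsSol b w) (j : ℕ) :
    wr u w j = wr u w 0 := by
  induction j with
  | zero => rfl
  | succ j ih => rw [wr_succ hu hw, ih]; ring

theorem abs_wr_le (u w : ℕ → ℝ) (j : ℕ) : |wr u w j| ≤ 2 * (nv u j * nv w j) := by
  have h1 : |u j * w (j + 1)| ≤ nv u j * nv w j := by
    rw [abs_mul]
    exact mul_le_mul (abs_le_nv _ _) (abs_succ_le_nv _ _) (abs_nonneg _) (nv_nonneg _ _)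
  have h2 : |u (j + 1) * w j| ≤ nv u j * nv w j := by
    rw [abs_mul]
    exact mul_le_mul (abs_succ_le_nv _ _) (abs_le_nv _ _) (abs_nonneg _) (nv_nonneg _ _)
  exact (abs_sub _ _).trans (by linarith)

theorem Bd.one_le {K : ℝ} {b : ℕ → ℝ} (hb : Bd K b) : 1 ≤ K := by
  have := hb 0; have := abs_nonneg (b 0); linarith

theorem Bd.shift {K : ℝ} {b : ℕ → ℝ} (hb : Bd K b) (m : ℕ) : Bd K fun j => b (m + j) :=
  fun j => hb (m + j)

theorem nv_succ_le {K : ℝ} {b u : ℕ → ℝ} (hb : Bd K b) (hu : IsSol b u) (j : ℕ) :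
    nv u (j + 1) ≤ K * nv u j := by
  have h1 := abs_le_nv u j
  have h2 := abs_succ_le_nv u j
  have h3 := hb (j + 1)
  have h4 := abs_nonneg (b (j + 1))
  have h5 := nv_nonneg u j
  refine max_le ?_ (by nlinarith [hb.one_le])
  rw [hu j]
  refine (abs_sub _ _).trans ?_
  rw [abs_mul]
  nlinarith [mul_le_mul_of_nonneg_left h2 h4]

theorem nv_le_succ {K : ℝ} {b u : ℕ → ℝ} (hb : Bd K b) (hu : IsSol b u) (j : ℕ) :
    nv u j ≤ K * nv u (j + 1) := by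
  have h1 := abs_le_nv u (j + 1)
  have h2 := abs_succ_le_nv u (j + 1)
  have h3 := hb (j + 1)
  have h4 := abs_nonneg (b (j + 1))
  have h5 := nv_nonneg u (j + 1)
  refine max_le (by nlinarith [hb.one_le]) ?_
  have : u j = b (j + 1) * u (j + 1) - u (j + 1 + 1) := by rw [hu j]; ring
  rw [this]
  refine (abs_sub _ _).trans ?_
  rw [abs_mul]
  nlinarith [mul_le_mul_of_nonneg_left h1 h4]

theorem nv_add_le {K : ℝ} {b u : ℕ → ℝ} (hb : Bd K b) (hu : IsSol b u) (j n : ℕ) :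
    nv u (j + n) ≤ K ^ n * nv u j := by
  induction n with
  | zero => simp
  | succ n ih =>
    have := hb.one_le
    calc nv u (j + n + 1) ≤ K * nv u (j + n) := nv_succ_le hb hu _
      _ ≤ K * (K ^ n * nv u j) := by gcongr
      _ = _ := by ring

theorem nv_le_add {K : ℝ} {b u : ℕ → ℝ} (hb : Bd K b) (hu : IsSol b u) (j n : ℕ) :
    nv u j ≤ K ^ n * nv u (j + n) := by
  induction n with
  | zero => simp
  | succ n ih =>
    have := hb.one_le
    calc nv u j ≤ K ^ n * nv u (j + n) := ih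
      _ ≤ K ^ n * (K * nv u (j + n + 1)) := by gcongr; exact nv_le_succ hb hu _
      _ = _ := by rw [← add_assoc]; ring

theorem nv_pos {K : ℝ} {b u : ℕ → ℝ} (hb : Bd K b) (hu : IsSol b u) (h0 : 0 < nv u 0) (j : ℕ) :
    0 < nv u j := by
  have h := nv_le_add hb hu 0 j
  rw [zero_add] at h
  by_contra h'
  have : nv u j = 0 := le_antisymm (not_lt.1 h') (nv_nonneg _ _)
  rw [this, mul_zero] at h
  linarith

theorem nv_le_norm_tr {b u : ℕ → ℝ} (hu : IsSol b u) (n : ℕ) : nv u n ≤ ‖tr b n‖ * nv u 0 := by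
  rw [nv_eq, ← hu.tr_apply n]
  exact (tr b n).le_opNorm _

theorem norm_tr_le_of {b : ℕ → ℝ} {n : ℕ} {C : ℝ} (hC : 0 ≤ C)
    (h : ∀ u, IsSol b u → nv u n ≤ C * nv u 0) : ‖tr b n‖ ≤ C := by
  refine ContinuousLinearMap.opNorm_le_bound _ hC fun ⟨p, q⟩ => ?_
  rw [norm_tr_apply]
  exact h _ (isSol_sol _ _ _)

theorem norm_tr_le_basis (b : ℕ → ℝ) (n : ℕ) :
    ‖tr b n‖ ≤ nv (sol b 0 1) n + nv (sol b 1 0) n := by
  refine norm_tr_le_of (add_nonneg (nv_nonneg _ _) (nv_nonneg _ _)) fun u hu => ?_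
  have h : u = fun i => u 1 * sol b 0 1 i + u 0 * sol b 1 0 i :=
    hu.unique ((isSol_sol b 0 1).lin (isSol_sol b 1 0) _ _) (by simp) (by simp)
  have h1 := nv_lin_le (sol b 0 1) (sol b 1 0) (u 1) (u 0) n
  rw [← h] at h1
  have h2 := abs_le_nv u 0
  have h3 := abs_succ_le_nv u 0
  rw [zero_add] at h3
  nlinarith [nv_nonneg (sol b 0 1) n, nv_nonneg (sol b 1 0) n]

theorem tr_add (b : ℕ → ℝ) (m n : ℕ) :
    tr b (m + n) = (tr (fun j => b (m + j)) n).comp (tr b m) := by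
  induction n with
  | zero => rfl
  | succ n ih => rw [← add_assoc, tr_succ, ih, tr_succ]; rfl

theorem tr_congr {b b' : ℕ → ℝ} {n : ℕ} (h : ∀ j, 1 ≤ j → j ≤ n → b j = b' j) :
    tr b n = tr b' n := by
  induction n with
  | zero => rfl
  | succ n ih =>
    rw [tr_succ, tr_succ, ih fun j h1 h2 => h j h1 (by omega), h _ (by omega) le_rfl]

theorem norm_tr_le {K : ℝ} {b : ℕ → ℝ} (hb : Bd K b) (n : ℕ) : ‖tr b n‖ ≤ K ^ n := by
  refine norm_tr_le_of (pow_nonneg (by linarith [hb.one_le]) _) fun u hu => ?_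
  simpa using nv_add_le hb hu 0 n

theorem nv_basis_zero (b : ℕ → ℝ) : nv (sol b 0 1) 0 = 1 := by simp [nv]

theorem norm_tr_pos {K : ℝ} {b : ℕ → ℝ} (hb : Bd K b) (n : ℕ) : 0 < ‖tr b n‖ := by
  have h := nv_le_norm_tr (isSol_sol b 0 1) n
  rw [nv_basis_zero, mul_one] at h
  exact (nv_pos hb (isSol_sol b 0 1) (by rw [nv_basis_zero]; norm_num) n).trans_le h

theorem norm_tr_add_le (b : ℕ → ℝ) (m n : ℕ) :
    ‖tr b (m + n)‖ ≤ ‖tr (fun j => b (m + j)) n‖ * ‖tr b m‖ := by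
  rw [tr_add]; exact ContinuousLinearMap.opNorm_comp_le _ _

theorem norm_tr_le_add {K : ℝ} {b : ℕ → ℝ} (hb : Bd K b) (m n : ℕ) :
    ‖tr b m‖ ≤ K ^ n * ‖tr b (m + n)‖ := by
  have hK := hb.one_le
  refine norm_tr_le_of (by positivity) fun u hu => ?_
  calc nv u m ≤ K ^ n * nv u (m + n) := nv_le_add hb hu m n
    _ ≤ K ^ n * (‖tr b (m + n)‖ * nv u 0) := by gcongr; exact nv_le_norm_tr hu _
    _ = _ := by ring

/-- a solution can be prescribed at any pair of consecutive sites -/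
theorem exists_sol_at (b : ℕ → ℝ) (m : ℕ) (q p : ℝ) :
    ∃ u, IsSol b u ∧ u m = q ∧ u (m + 1) = p := by
  induction m generalizing p q with
  | zero => exact ⟨sol b q p, isSol_sol _ _ _, rfl, rfl⟩
  | succ m ih =>
    obtain ⟨u, hu, h0, h1⟩ := ih (b (m + 1) * q - p) q
    exact ⟨u, hu, h1, by rw [hu m, h0, h1]; ring⟩

theorem norm_tr_shift_le {K : ℝ} {b : ℕ → ℝ} (hb : Bd K b) (m n : ℕ) :
    ‖tr (fun j => b (m + j)) n‖ ≤ K ^ m * ‖tr b (m + n)‖ := by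
  have hK := hb.one_le
  refine norm_tr_le_of (by positivity) fun u hu => ?_
  obtain ⟨U, hU, h0, h1⟩ := exists_sol_at b m (u 0) (u 1)
  have h : (fun j => U (m + j)) = u := (hU.shift m).unique hu h0 h1
  have h2 : nv u n = nv U (m + n) := by rw [← h]; rfl
  have h3 : nv u 0 = nv U m := by rw [← h]; rfl
  have h4 := nv_le_add hb hU 0 m
  rw [zero_add] at h4
  rw [h2, h3]
  calc nv U (m + n) ≤ ‖tr b (m + n)‖ * nv U 0 := nv_le_norm_tr hU _
    _ ≤ ‖tr b (m + n)‖ * (K ^ m * nv U m) := by gcongr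
    _ = _ := by ring

theorem dfc_zero (K : ℝ) (b : ℕ → ℝ) : dfc K b 0 = 0 := by simp [dfc]

theorem dfc_nonneg {K : ℝ} {b : ℕ → ℝ} (hK : 1 < K) (hb : Bd K b) (n : ℕ) : 0 ≤ dfc K b n := by
  have h := (logb_le_logb hK (norm_tr_pos hb n) (by positivity)).2 (norm_tr_le hb n)
  rw [logb_pow, logb_self_eq_one hK, mul_one] at h
  unfold dfc; linarith

theorem dfc_superadd {K : ℝ} {b : ℕ → ℝ} (hK : 1 < K) (hb : Bd K b) (m n : ℕ) :
    dfc K b m + dfc K (fun j => b (m + j)) n ≤ dfc K b (m + n) := by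
  have h1 := norm_tr_pos hb m
  have h2 := norm_tr_pos (hb.shift m) n
  have h := (logb_le_logb hK (norm_tr_pos hb _) (by positivity)).2 (norm_tr_add_le b m n)
  rw [logb_mul h2.ne' h1.ne'] at h
  unfold dfc; push_cast; linarith

theorem dfc_add_le {K : ℝ} {b : ℕ → ℝ} (hK : 1 < K) (hb : Bd K b) (m n : ℕ) :
    dfc K b (m + n) ≤ dfc K b m + 2 * n := by
  have h2 := norm_tr_pos hb (m + n)
  have h := (logb_le_logb hK (norm_tr_pos hb _) (by positivity)).2 (norm_tr_le_add hb m n)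
  rw [logb_mul (by positivity) h2.ne', logb_pow, logb_self_eq_one hK] at h
  unfold dfc; push_cast; linarith

theorem dfc_add_le' {K : ℝ} {b : ℕ → ℝ} (hK : 1 < K) (hb : Bd K b) (m n : ℕ) :
    dfc K b (m + n) ≤ 2 * m + dfc K (fun j => b (m + j)) n := by
  have h2 := norm_tr_pos hb (m + n)
  have h := (logb_le_logb hK (norm_tr_pos (hb.shift m) _) (by positivity)).2
    (norm_tr_shift_le hb m n)
  rw [logb_mul (by positivity) h2.ne', logb_pow, logb_self_eq_one hK] at h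
  unfold dfc; push_cast; linarith

theorem dfc_le {K : ℝ} {b : ℕ → ℝ} (hK : 1 < K) (hb : Bd K b) (n : ℕ) : dfc K b n ≤ 2 * n := by
  simpa [dfc_zero] using dfc_add_le hK hb 0 n

theorem Good.mono {K δ δ' : ℝ} {b : ℕ → ℝ} {H H' : ℕ} (h : Good K δ b H) (hδ : δ ≤ δ')
    (hH : H' ≤ H) : Good K δ' b H' := fun n hn =>
  (h n (hn.trans hH)).trans (by gcongr)

theorem WG.mono {κ : ℝ} {b : ℕ → ℝ} {n m : ℕ} (h : WG κ b n) (hm : m ≤ n) : WG κ b m :=
  fun j hj => h j (hj.trans hm)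

/-- lower bound for the norm from an upper bound for the defect -/
theorem rpow_le_norm_tr {K : ℝ} {b : ℕ → ℝ} (hK : 1 < K) (hb : Bd K b) {n : ℕ} {d : ℝ}
    (h : dfc K b n ≤ d) : K ^ ((n : ℝ) - d) ≤ ‖tr b n‖ := by
  rw [← le_logb_iff_rpow_le hK (norm_tr_pos hb n)]
  unfold dfc at h; linarith

theorem wg_of_good {κ : ℝ} {b : ℕ → ℝ} (hκ : 1 < κ) (hb : Bd (κ ^ 1000) b) {n : ℕ}
    (h : Good (κ ^ 1000) (1 / 1000) b n) : WG κ b n := fun j hj => by
  have hK : 1 < κ ^ 1000 := one_lt_pow₀ hκ (by norm_num)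
  have h1 := rpow_le_norm_tr hK hb (h j hj)
  have hκ0 : 0 < κ := by linarith
  have h2 : κ * (κ ^ 1000) ^ ((j : ℝ) - 1 / 1000 * (j + 1)) = κ ^ (999 * j) := by
    rw [← rpow_natCast κ 1000, ← rpow_mul hκ0.le, mul_comm κ, ← rpow_add_one hκ0.ne',
      ← rpow_natCast]
    congr 1; push_cast; ring
  rw [← h2]; gcongr

theorem fw_shift (a : ℤ → ℝ) (v : ℤ) (m : ℕ) : (fun j => fw a v (m + j)) = fw a (v + m) := by
  funext j; simp only [fw]; congr 1; push_cast; ring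

theorem bw_shift (a : ℤ → ℝ) (v : ℤ) (m : ℕ) : (fun j => bw a v (m + j)) = bw a (v - m) := by
  funext j; simp only [bw]; congr 1; push_cast; ring

theorem gi_cases (w : ℕ → ℝ) (j : ℕ) : gi w j = j ∨ gi w j = j + 1 := by
  unfold gi; split_ifs <;> simp

theorem abs_gi (w : ℕ → ℝ) (j : ℕ) : |w (gi w j)| = nv w j := by
  unfold gi nv
  split_ifs with h
  · exact (max_eq_left h).symm
  · exact (max_eq_right (not_le.1 h).le).symm

theorem continuous_sol (q p : ℝ) (j : ℕ) : Continuous fun b : ℕ → ℝ => sol b q p j := by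
  induction j using Nat.twoStepInduction with
  | zero => exact continuous_const
  | one => exact continuous_const
  | more j h0 h1 => exact ((continuous_apply (j + 1)).mul h1).sub h0

theorem continuous_stp : Continuous stp := by
  have : stp = fun a : ℝ => a • ((ContinuousLinearMap.fst ℝ ℝ ℝ).prod 0) + stp 0 := by
    funext a; ext <;> simp
  rw [this]; fun_prop

theorem continuous_tr (n : ℕ) : Continuous fun b : ℕ → ℝ => tr b n := by
  induction n with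
  | zero => exact continuous_const
  | succ n ih => exact (continuous_stp.comp (continuous_apply (n + 1))).clm_comp ih

theorem measurable_dfc (K : ℝ) (n : ℕ) : Measurable fun b : ℕ → ℝ => dfc K b n := by
  unfold dfc logb
  exact measurable_const.sub ((continuous_tr n).norm.measurable.log.div_const _)

theorem continuous_fw (v : ℤ) : Continuous fun a : ℤ → ℝ => fw a v :=
  continuous_pi fun _ => continuous_apply _

theorem continuous_bw (v : ℤ) : Continuous fun a : ℤ → ℝ => bw a v :=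
  continuous_pi fun _ => continuous_apply _

/-! ### elementary facts on the dynamics -/

@[simp] theorem ro_zero (k y0 y1 : ℝ) : ro k y0 y1 0 = y0 := rfl

@[simp] theorem ro_one (k y0 y1 : ℝ) : ro k y0 y1 1 = y1 := rfl

theorem ro_succ (k y0 y1 : ℝ) (j : ℕ) :
    ro k y0 y1 (j + 2) = ph k (ro k y0 y1 (j + 1)) - ro k y0 y1 j := rfl

theorem ro_unique {k : ℝ} {y : ℕ → ℝ} (h : ∀ j, y (j + 2) = ph k (y (j + 1)) - y j) :
    y = ro k (y 0) (y 1) := by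
  funext j
  induction j using Nat.twoStepInduction with
  | zero => rfl
  | one => rfl
  | more j h0 h1 => rw [h j, ro_succ, ← h0, ← h1]

theorem ro_shift (k y0 y1 : ℝ) (m j : ℕ) :
    ro k (ro k y0 y1 m) (ro k y0 y1 (m + 1)) j = ro k y0 y1 (m + j) :=
  (congrFun (ro_unique (y := fun j => ro k y0 y1 (m + j)) fun j => ro_succ k y0 y1 (m + j)) j).symm

/-- running an orbit backwards -/
theorem ro_rev (k y0 y1 : ℝ) (m : ℕ) {j : ℕ} (hj : j ≤ m + 1) :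
    ro k (ro k y0 y1 (m + 1)) (ro k y0 y1 m) j = ro k y0 y1 (m + 1 - j) := by
  induction j using Nat.twoStepInduction with
  | zero => rfl
  | one => rfl
  | more j h0 h1 =>
    rw [ro_succ, h0 (by omega), h1 (by omega)]
    obtain ⟨i, rfl⟩ : ∃ i, m = i + j + 1 := ⟨m - j - 1, by omega⟩
    have e1 : i + j + 1 + 1 - (j + 1) = i + 1 := by omega
    have e2 : i + j + 1 + 1 - j = i + 2 := by omega
    have e3 : i + j + 1 + 1 - (j + 2) = i := by omega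
    rw [e1, e2, e3, ro_succ]; ring

theorem co_ofReal (k y0 y1 : ℝ) (j : ℕ) : co k y0 y1 j = (ro k y0 y1 j : ℝ) := by
  induction j using Nat.twoStepInduction with
  | zero => rfl
  | one => rfl
  | more j h0 h1 => simp only [co, ro, h0, h1, ph]; push_cast; ring

theorem Side.xc_ofReal (S : Side) (k s : ℝ) (j : ℕ) : S.xc k s j = (S.x k s j : ℝ) := by
  rw [Side.x, ← co_ofReal, Side.xc]; push_cast; rfl

theorem Side.isSol_w (S : Side) (k s : ℝ) : IsSol (S.b k s) (S.w k s) := isSol_sol _ _ _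

theorem abs_ac_le {k K : ℝ} (hk : 0 ≤ k) (hK : K = 2 * π * k + 3) (x : ℝ) : |ac k x| + 1 ≤ K := by
  have h1 := abs_cos_le_one (2 * π * x)
  have h2 : |2 * π * k * cos (2 * π * x)| ≤ 2 * π * k := by
    rw [abs_mul, abs_of_nonneg (by positivity)]
    exact mul_le_of_le_one_right (by positivity) h1
  have h3 := abs_add_le 2 (2 * π * k * cos (2 * π * x))
  rw [abs_two] at h3
  unfold ac; linarith

theorem bd_rb {k K : ℝ} (hk : 0 ≤ k) (hK : K = 2 * π * k + 3) (y0 y1 : ℝ) : Bd K (rb k y0 y1) :=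
  fun _ => abs_ac_le hk hK _

theorem Side.bd_b {k K : ℝ} (hk : 0 ≤ k) (hK : K = 2 * π * k + 3) (S : Side) (s : ℝ) :
    Bd K (S.b k s) := bd_rb hk hK _ _

theorem fw_aseq (k : ℝ) (p : ℝ × ℝ) : fw (aseq k p) 0 = rb k p.1 p.2 := by
  funext j; simp [fw, aseq, orb, rb]

theorem bw_aseq (k : ℝ) (p : ℝ × ℝ) : bw (aseq k p) 0 = rb k p.2 p.1 := by
  funext j
  rcases j with _ | _ | j
  · simp [bw, aseq, orb, rb]
  · simp [bw, aseq, orb, rb]
  · have h : ¬ (0 : ℤ) ≤ 0 + 1 - ((j + 1 + 1 : ℕ) : ℤ) := by push_cast; omega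
    have h' : (1 - (0 + 1 - ((j + 1 + 1 : ℕ) : ℤ))).toNat = j + 1 + 1 := by push_cast; omega
    simp only [bw, aseq, orb, rb, if_neg h, h']

/-- from `κ ^ 1000 = 2 π k + 3` and `1000 ≤ κ` -/
theorem k_facts {κ k : ℝ} (hκ : 1000 ≤ κ) (hK : κ ^ 1000 = 2 * π * k + 3) :
    1 ≤ k ∧ 2 * π * k ≤ κ ^ 1000 ∧ κ ^ 1000 ≤ 4 * π * k := by
  have h1 : κ ≤ κ ^ 1000 := le_self_pow₀ (by linarith) (by norm_num)
  have h2 := pi_le_four
  have h3 := pi_gt_three
  have hk : 1 ≤ k := by nlinarith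
  refine ⟨hk, by linarith, by nlinarith⟩

theorem Pt.symm {κ k : ℝ} {S : Side} {s ϖ : ℝ} {ω α : ℕ} (h : Pt κ k S s ϖ ω α) :
    Pt κ k S.rev s (-ϖ) α ω := by
  obtain ⟨u, u', hu, hu', h0, h1, hw, hc, hc'⟩ := h
  refine ⟨u', u, hu', hu, h1.symm, h0.symm, ?_, hc', by simpa using hc⟩
  rw [← hw]
  simp only [wr, Side.w, Side.rev, zero_add, sol_zero, sol_one, h0, h1]
  ring

theorem mem_cell (n : ℕ) (s : ℝ) : s ∈ cell n s := by
  have h : (0 : ℝ) < 2 ^ n := by positivity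
  refine ⟨?_, ?_⟩
  · rw [div_le_iff₀ h, mul_comm]; exact Int.floor_le _
  · rw [lt_div_iff₀ h, mul_comm]; exact Int.lt_floor_add_one _

theorem mem_dy_iff {n : ℕ} {j : ℤ} {s : ℝ} : s ∈ dy n j ↔ ⌊2 ^ n * s⌋ = j := by
  have h : (0 : ℝ) < 2 ^ n := by positivity
  rw [dy, Set.mem_Ico, div_le_iff₀ h, lt_div_iff₀ h, Int.floor_eq_iff, mul_comm s]

theorem cell_eq_of_mem {n : ℕ} {j : ℤ} {s : ℝ} (h : s ∈ dy n j) : cell n s = dy n j := by
  rw [cell, mem_dy_iff.1 h]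

theorem measurableSet_sat (n : ℕ) (E : Set ℝ) : MeasurableSet (sat n E) := by
  have : sat n E = (fun s : ℝ => ⌊2 ^ n * s⌋) ⁻¹' ((fun s : ℝ => ⌊2 ^ n * s⌋) '' E) := by
    ext t
    simp only [sat, Set.mem_iUnion, cell, mem_dy_iff, Set.mem_preimage, Set.mem_image, exists_prop]
    exact ⟨fun ⟨s, h1, h2⟩ => ⟨s, h1, h2.symm⟩, fun ⟨s, h1, h2⟩ => ⟨s, h1, h2.symm⟩⟩
  rw [this]
  exact (Int.measurable_floor.comp (measurable_id.const_mul _)) trivial

theorem ind_nonneg (P : Prop) : 0 ≤ ind P := by unfold ind; split_ifs <;> norm_num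

theorem ind_le_one (P : Prop) : ind P ≤ 1 := by unfold ind; split_ifs <;> norm_num

theorem ind_pos {P : Prop} (h : P) : ind P = 1 := if_pos h

theorem ind_neg {P : Prop} (h : ¬ P) : ind P = 0 := if_neg h

/-- the far pair is recovered from `lf` -/
theorem ro_lf (k : ℝ) {G : ℕ} (hG : 1 ≤ G) (ξ t : ℝ) {j : ℕ} (hj : j ≤ G) :
    ro k (lf k G ξ t).1 (lf k G ξ t).2 j = ro k ξ t (G - j) := by
  obtain ⟨m, rfl⟩ : ∃ m, G = m + 1 := ⟨G - 1, by omega⟩
  exact ro_rev k ξ t m hj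

theorem lf_ro (k : ℝ) {G : ℕ} (hG : 1 ≤ G) (y0 y1 : ℝ) :
    lf k G (ro k y0 y1 G) (ro k y0 y1 (G - 1)) = (y0, y1) := by
  obtain ⟨m, rfl⟩ : ∃ m, G = m + 1 := ⟨G - 1, by omega⟩
  simp only [lf, Nat.add_sub_cancel]
  rw [ro_rev k y0 y1 m le_rfl, ro_rev k y0 y1 m (Nat.le_succ m)]
  simp

theorem lf_eq_swap_adv (k : ℝ) {G : ℕ} (hG : 1 ≤ G) (ξ t : ℝ) :
    lf k G ξ t = (adv k (G - 1) (ξ, t)).swap := by
  obtain ⟨m, rfl⟩ : ∃ m, G = m + 1 := ⟨G - 1, by omega⟩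
  rfl

end Crest.Agent.R128
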