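import Crest.Agent.R128.Basic

/-! Row 128: Cauchy estimates. -/

set_option autoImplicit false

namespace Crest.Agent.R128

open Real Set

/-- Cauchy estimate (`Complex.norm_deriv_le_of_forall_mem_sphere_norm_le` for `f - b`). -/
theorem deriv_bound {f : ℂ → ℂ} (hf : Differentiable ℂ f) {c b : ℂ} {r B : ℝ} (hr : 0 < r)
    (h : ∀ z, ‖z - c‖ ≤ r → ‖f z - b‖ ≤ B) : ‖deriv f c‖ ≤ B / r := by
  have := Complex.norm_deriv_le_of_forall_mem_sphere_norm_le (f := fun z => f z - b) (C := B) hr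
    (hf.sub_const b).diffContOnCl fun z hz => h z (mem_sphere_iff_norm.1 hz).le
  rwa [deriv_sub_const] at this

/-- Recipe: `‖deriv f‖ ≤ 2B/r` on the ball of radius `r/2`, then the Schwarz lemma
(`Complex.dist_le_div_mul_dist_of_mapsTo_ball`) for `deriv f`, or `deriv_bound` twice and the mean
value inequality. -/
theorem deriv_lip {f : ℂ → ℂ} (hf : Differentiable ℂ f) {c b : ℂ} {r B : ℝ} (hr : 0 < r)
    (h : ∀ z, ‖z - c‖ ≤ r → ‖f z - b‖ ≤ B) {z : ℂ} (hz : ‖z - c‖ ≤ r / 4) :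
    ‖deriv f z - deriv f c‖ ≤ 8 * B / r ^ 2 * ‖z - c‖ := by
  have h1 : ∀ w, ‖w - c‖ ≤ r / 2 → ‖deriv f w‖ ≤ B / (r / 2) := fun w hw =>
    deriv_bound hf (half_pos hr) fun u hu =>
      h u ((norm_sub_le_norm_sub_add_norm_sub u w c).trans (by linarith))
  have h2 := Complex.dist_le_div_mul_dist_of_mapsTo_ball (f := deriv f) (c := c) (z := z)
    (R₁ := r / 2) (R₂ := B / (r / 2) + B / (r / 2)) hf.deriv.differentiableOn
    (fun w hw => mem_closedBall_iff_norm.2 ((norm_sub_le _ _).trans (add_le_add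
      (h1 w (mem_ball_iff_norm.1 hw).le) (h1 c (by simp; linarith)))))
    (mem_ball_iff_norm.2 (by linarith))
  rw [dist_eq_norm, dist_eq_norm] at h2
  refine h2.trans (le_of_eq ?_)
  field_simp
  ring

theorem cauchy_dslope {f : ℂ → ℂ} {c : ℂ} {R M : ℝ} (hR : 0 < R)
    (hf : DifferentiableOn ℂ f (Metric.ball c R)) (h : ∀ z ∈ Metric.ball c R, ‖f z‖ ≤ M) :
    DifferentiableOn ℂ (dslope f c) (Metric.ball c R) ∧
      ∀ z ∈ Metric.ball c R, ‖dslope f c z‖ ≤ (M + M) / R :=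
  ⟨(Complex.differentiableOn_dslope (Metric.ball_mem_nhds c hR)).2 hf, fun _ hz =>
    Complex.norm_dslope_le_div_of_mapsTo_ball hf (fun w hw => mem_closedBall_iff_norm.2
      ((norm_sub_le _ _).trans (add_le_add (h w hw) (h c (Metric.mem_ball_self hR))))) hz⟩

/-- Recipe: three times `dslope` (`Complex.norm_dslope_le_div_of_mapsTo_ball`,
`differentiableOn_dslope`): bounds `2M/R`, `4M/R²`, `8M/R³`. -/
theorem cubic_approx {f : ℂ → ℂ} {c : ℂ} {R M : ℝ} (hR : 0 < R)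
    (hf : DifferentiableOn ℂ f (Metric.ball c R)) (h : ∀ z ∈ Metric.ball c R, ‖f z‖ ≤ M) :
    ∃ c0 c1 c2 : ℂ, ∀ z ∈ Metric.ball c R,
      ‖f z - (c0 + c1 * (z - c) + c2 * (z - c) ^ 2)‖ ≤ 8 * M * (‖z - c‖ / R) ^ 3 := by
  obtain ⟨d1, b1⟩ := cauchy_dslope hR hf h
  obtain ⟨d2, b2⟩ := cauchy_dslope hR d1 b1
  obtain ⟨-, b3⟩ := cauchy_dslope hR d2 b2
  refine ⟨f c, dslope f c c, dslope (dslope f c) c c, fun z hz => ?_⟩
  have e1 := sub_smul_dslope f c z
  have e2 := sub_smul_dslope (dslope f c) c z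
  have e3 := sub_smul_dslope (dslope (dslope f c) c) c z
  simp only [smul_eq_mul] at e1 e2 e3
  have e : f z - (f c + dslope f c c * (z - c) + dslope (dslope f c) c c * (z - c) ^ 2) =
      dslope (dslope (dslope f c) c) c z * (z - c) ^ 3 := by
    linear_combination -e1 - (z - c) * e2 - (z - c) ^ 2 * e3
  rw [e, norm_mul, norm_pow]
  refine (mul_le_mul_of_nonneg_right (b3 z hz) (by positivity)).trans (le_of_eq ?_)
  field_simp
  ring

theorem cauchy_trig (x : ℝ) {h : ℂ} (hh : ‖h‖ ≤ 1) :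
    ‖Complex.cos h - 1‖ ≤ 3 / 5 * ‖h‖ ^ 2 ∧ ‖Complex.sin h - h‖ ≤ 1 / 5 * ‖h‖ ^ 2 ∧
      ‖Complex.sin x‖ ≤ 1 ∧ ‖Complex.cos x‖ ≤ 1 := by
  have h0 := norm_nonneg h
  have p : ∀ n : ℕ, 2 ≤ n → ‖h‖ ^ n ≤ ‖h‖ ^ 2 := fun n hn => pow_le_pow_of_le_one h0 hh hn
  refine ⟨?_, ?_, ?_, ?_⟩
  · have e : Complex.cos h - 1 = (Complex.cos h - (1 - h ^ 2 / 2)) - h ^ 2 / 2 := by ring
    rw [e]
    refine (norm_sub_le _ _).trans ?_
    rw [norm_div, norm_pow, Complex.norm_two]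
    linarith [Complex.cos_bound hh, p 4 (by norm_num), sq_nonneg ‖h‖]
  · have e : Complex.sin h - h = (Complex.sin h - (h - h ^ 3 / 6)) - h ^ 3 / 6 := by ring
    rw [e]
    refine (norm_sub_le _ _).trans ?_
    rw [norm_div, norm_pow, Complex.norm_ofNat]
    linarith [Complex.sin_bound hh, p 3 (by norm_num), p 5 (by norm_num), sq_nonneg ‖h‖]
  · rw [← Complex.ofReal_sin, Complex.norm_real]; exact abs_sin_le_one x
  · rw [← Complex.ofReal_cos, Complex.norm_real]; exact abs_cos_le_one x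

/-- `sin (x + h) = sin x cos h + cos x sin h`, `Complex.cos_bound`, `Complex.sin_bound`. -/
theorem csin_taylor (x : ℝ) {h : ℂ} (hh : ‖h‖ ≤ 1) :
    ‖Complex.sin (x + h) - Complex.sin x - h * Complex.cos x‖ ≤ ‖h‖ ^ 2 := by
  obtain ⟨h1, h2, h3, h4⟩ := cauchy_trig x hh
  have e : Complex.sin (x + h) - Complex.sin x - h * Complex.cos x =
      Complex.sin x * (Complex.cos h - 1) + Complex.cos x * (Complex.sin h - h) := by
    rw [Complex.sin_add]; ring
  rw [e]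
  refine (norm_add_le _ _).trans ?_
  rw [norm_mul, norm_mul]
  have a := mul_le_mul h3 h1 (norm_nonneg _) zero_le_one
  have b := mul_le_mul h4 h2 (norm_nonneg _) zero_le_one
  nlinarith [sq_nonneg ‖h‖]

theorem ccos_lip (x : ℝ) {h : ℂ} (hh : ‖h‖ ≤ 1) :
    ‖Complex.cos (x + h) - Complex.cos x‖ ≤ 2 * ‖h‖ := by
  obtain ⟨h1, h2, h3, h4⟩ := cauchy_trig x hh
  have e : Complex.cos (x + h) - Complex.cos x =
      Complex.cos x * (Complex.cos h - 1) - Complex.sin x * Complex.sin h := by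
    rw [Complex.cos_add]; ring
  have h5 : ‖Complex.sin h‖ ≤ 1 / 5 * ‖h‖ ^ 2 + ‖h‖ := by
    linarith [norm_le_norm_add_norm_sub' (Complex.sin h) h]
  rw [e]
  refine (norm_sub_le _ _).trans ?_
  rw [norm_mul, norm_mul]
  have a := mul_le_mul h4 h1 (norm_nonneg _) zero_le_one
  have b := mul_le_mul h3 h5 (norm_nonneg _) zero_le_one
  nlinarith [norm_nonneg h]

end Crest.Agent.R128
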