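import Crest.Agent.R128.Ricc

/-! Row 128: clean indices. -/

set_option autoImplicit false

namespace Crest.Agent.R128

open Real Finset

theorem clean_sum {K c l : ℝ} (hc : 0 ≤ c) (hl : 2 ≤ l) (hK : K = l * c) {b u w : ℕ → ℝ}
    (hb : Bd K b) (hu : IsSol b u) (hw : IsSol b w) (huw : |wr u w 0| ≤ 1) (h0 : 0 < nv w 0)
    (j m : ℕ) (h : ∀ i ≤ m, nv w j * l ^ i ≤ nv w (j + i)) :
    |zt u w (j + m) - zt u w j| ≤ 2 * c / nv w j ^ 2 * (1 - 1 / 2 ^ m) := by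
  have hp := nv_pos hb hw h0
  induction m with
  | zero => simp
  | succ m ih =>
    have h1 := ih fun i hi => h i (Nat.le_succ_of_le hi)
    have h2 := zt_step hb hu hw huw h0 (j + m)
    have h3 : K / (nv w (j + m) * nv w (j + m + 1)) ≤ c / nv w j ^ 2 / 2 ^ m := by
      have h4 := h m (Nat.le_succ m)
      have h5 := h (m + 1) le_rfl
      have h6 : (2 : ℝ) ^ m ≤ l ^ m := pow_le_pow_left₀ zero_le_two hl m
      have h7 : (1 : ℝ) ≤ l ^ m := one_le_pow₀ (by linarith)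
      have hj := hp j
      rw [div_div, div_le_div_iff₀ (mul_pos (hp _) (hp _)) (by positivity), hK]
      calc l * c * (nv w j ^ 2 * 2 ^ m) = c * ((nv w j * 2 ^ m) * (nv w j * (1 * l))) := by ring
        _ ≤ c * ((nv w j * l ^ m) * (nv w j * (l ^ m * l))) := by gcongr
        _ ≤ c * (nv w (j + m) * nv w (j + m + 1)) :=
          mul_le_mul_of_nonneg_left (mul_le_mul h4 (pow_succ l m ▸ h5) (by positivity)
            (hp _).le) hc
    have h4 := abs_sub_le (zt u w (j + m + 1)) (zt u w (j + m)) (zt u w j)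
    have h5 : 2 * c / nv w j ^ 2 * (1 - 1 / 2 ^ (m + 1)) =
        c / nv w j ^ 2 / 2 ^ m + 2 * c / nv w j ^ 2 * (1 - 1 / 2 ^ m) := by ring
    rw [h5, ← add_assoc]
    linarith

theorem clean_nv {K c l : ℝ} (hc : 1 ≤ c) (hl : 2 ≤ l) (hK : K = l * c) {b u w : ℕ → ℝ}
    (hb : Bd K b) (hu : IsSol b u) (hw : IsSol b w) (huw : |wr u w 0| ≤ 1) (h0 : 0 < nv w 0)
    (j m : ℕ) (h : ∀ i ≤ m, nv w j * l ^ i ≤ nv w (j + i)) (hT : nv u (j + m) ≤ 1)
    (h3 : nv w j ^ 2 ≤ nv w (j + m)) : nv u j * nv w j ≤ 4 * c := by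
  have hj := nv_pos hb hw h0 j
  have h1 := clean_sum (by linarith) hl hK hb hu hw huw h0 j m h
  have h2 : |zt u w (j + m)| ≤ 1 / nv w j ^ 2 :=
    (zt_le u w _).trans (div_le_div₀ zero_le_one hT (by positivity) h3)
  have h4 : 2 * c / nv w j ^ 2 * (1 - 1 / 2 ^ m) ≤ 2 * c / nv w j ^ 2 :=
    mul_le_of_le_one_right (by positivity) (sub_le_self _ (by positivity))
  have h5 : |zt u w j| ≤ (1 + 2 * c) / nv w j ^ 2 := by
    have := abs_sub_abs_le_abs_sub (zt u w j) (zt u w (j + m))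
    rw [abs_sub_comm] at h1
    rw [add_div]
    linarith
  have h6 := nv_lin_le (fun i => u i - zt u w j * w i) w 1 (zt u w j) j
  simp only [one_mul, sub_add_cancel, abs_one] at h6
  have h7 := zt_res hb hu hw huw h0 j
  rw [le_div_iff₀ hj] at h7
  rw [le_div_iff₀ (by positivity)] at h5
  nlinarith [mul_le_mul_of_nonneg_right h6 hj.le]

theorem clean_max {x y l : ℝ} (hl : 2 ≤ l) (h0 : 0 < max x y) (h : y * l ≤ max x y) :
    max x y = x := by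
  rcases le_total y x with h1 | h1
  · exact max_eq_left h1
  · rw [max_eq_right h1] at h0 h
    nlinarith

/-- Recipe: `λ = κ^990`, `ζ = zt u w`.  `0 < nv w j` since `|wr u w 0| = 1` (`abs_wr_le`).
Forward Pliss at `j = ω+1`: `|ζ j| ≤ |ζ T| + ∑_{j ≤ i < T} K / (nv w i * nv w (i+1))
≤ 1 / nv w T + 2 κ^10 / (nv w j)^2`, hence `nv u j ≤ 4 κ^10 / nv w j` (`zt_res`, `zt_le`,
`nv_lin_le`).  Backward Pliss at `ω` (`i = ω - 1`) gives `|w ω| * λ ≤ nv w ω`, hence `nvw`; at `ω+1`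
it gives `nv w ω * λ ≤ nv w (ω+1)`, hence `nxt`; `env`: `|w i| ≤ nv w (i-1)`.
`uw`: `u ω * w (ω+1) = ϖ + u (ω+1) * w ω` (`wr_const`).  `big`: `w (ω+2) = b w (ω+1) - w ω`.
`ratio`: the left side is `|u (ω+2)| ≤ 4 κ^10 / |w (ω+2)|` and `|u ω| ≥ 1 / (2 |w (ω+1)|)`. -/
theorem clean {κ : ℝ} (hκ : 1000 ≤ κ) {b u w : ℕ → ℝ} (hb : Bd (κ ^ 1000) b) (hu : IsSol b u)
    (hw : IsSol b w) {ϖ : ℝ} (hϖ : |ϖ| = 1) (huw : wr u w 0 = ϖ) {T ω : ℕ} (hT : nv u T ≤ 1)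
    (hω : 1 ≤ ω) (h1 : Pl κ w T ω) (h2 : Pl κ w T (ω + 1)) (h3 : nv w (ω + 1) ^ 2 ≤ nv w T) :
    Cl κ b u w ϖ ω := by
  have hc : 1 ≤ κ ^ 10 := one_le_pow₀ (by linarith)
  have hμ : 1000 ≤ κ ^ 900 := hκ.trans (le_self_pow₀ (by linarith) (by norm_num))
  have hν : 1000 ≤ κ ^ 80 := hκ.trans (le_self_pow₀ (by linarith) (by norm_num))
  have hl : 1000 ≤ κ ^ 990 := hκ.trans (le_self_pow₀ (by linarith) (by norm_num))
  have hK : κ ^ 1000 = κ ^ 990 * κ ^ 10 := by rw [← pow_add]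
  have hl' : κ ^ 990 = κ ^ 10 * κ ^ 900 * κ ^ 80 := by rw [← pow_add, ← pow_add]
  have h0 : 0 < nv w 0 := by
    refine (nv_nonneg w 0).lt_of_ne fun h => ?_
    have := abs_wr_le u w 0
    rw [← h, huw, hϖ] at this
    linarith
  have hp := nv_pos hb hw h0
  obtain ⟨m, rfl⟩ := Nat.exists_eq_add_of_le h2.1
  have hN := clean_nv hc (by linarith) hK hb hu hw (by rw [huw, hϖ]) h0 (ω + 1) m
    (fun i hi => by
      have := h2.2.2 (ω + 1 + i) (by omega) (by omega)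
      rwa [Nat.add_sub_cancel_left, pow_mul] at this) hT h3
  have env : ∀ i, 1 ≤ i → i ≤ ω + 1 → |w i| * κ ^ (990 * (ω + 1 - i)) ≤ nv w ω := fun i hi hi' => by
    obtain ⟨i, rfl⟩ : ∃ i', i = i' + 1 := ⟨i - 1, by omega⟩
    rw [Nat.add_sub_add_right]
    exact (mul_le_mul_of_nonneg_right (abs_succ_le_nv w i) (by positivity)).trans
      (h1.2.1 i (by omega))
  have e1 := env ω hω (Nat.le_succ ω)
  rw [Nat.add_sub_cancel_left, mul_one] at e1
  have nvw : nv w ω = |w (ω + 1)| := clean_max (l := κ ^ 990) (by linarith) (hp ω) e1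
  have e2 := h2.2.1 ω (Nat.le_succ ω)
  rw [Nat.add_sub_cancel_left, mul_one, nvw] at e2
  have nxt : nv w (ω + 1) = |w (ω + 2)| := clean_max (l := κ ^ 990) (by linarith) (hp _) e2
  have hA : 0 < |w (ω + 1)| := nvw ▸ hp ω
  rw [nvw] at env e1
  have hW : u ω * w (ω + 1) - ϖ = u (ω + 1) * w ω := by
    rw [← huw, ← wr_const hu hw ω, wr]; ring
  have hb' : |w (ω + 2)| ≤ |b (ω + 1)| * |w (ω + 1)| + |w ω| := by
    rw [hw ω, ← abs_mul]; exact abs_sub _ _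
  -- the basic estimate
  have key : ∀ x, 0 ≤ x → x ≤ nv u (ω + 1) → x * |w (ω + 1)| * κ ^ 900 ≤ 1 / 2 := fun x hx hx' => by
    have h4 : x * (|w (ω + 1)| * κ ^ 990) ≤ 4 * κ ^ 10 :=
      (mul_le_mul hx' e2 (by positivity) (nv_nonneg _ _)).trans hN
    rw [hl'] at h4
    have h5 : x * |w (ω + 1)| * κ ^ 900 * κ ^ 80 * κ ^ 10 ≤ 4 * κ ^ 10 := by linarith
    have h6 := le_of_mul_le_mul_right h5 (by linarith)
    have h7 : 0 ≤ x * |w (ω + 1)| * κ ^ 900 := by positivity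
    nlinarith
  have k1 := key _ (abs_nonneg _) (abs_le_nv u (ω + 1))
  have k2 := key _ (abs_nonneg _) (abs_succ_le_nv u (ω + 1))
  have hwω : |w ω| ≤ |w (ω + 1)| := by nlinarith [abs_nonneg (w ω)]
  have uw : |u ω * w (ω + 1) - ϖ| * κ ^ 900 ≤ 1 / 2 := by
    rw [hW, abs_mul]
    refine le_trans ?_ k1
    gcongr
  have uw' : |u ω * w (ω + 1) - ϖ| ≤ 1 / 2 := by
    nlinarith [abs_nonneg (u ω * w (ω + 1) - ϖ)]
  have lo : 1 / 2 ≤ |u ω| * |w (ω + 1)| := by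
    have := abs_sub_abs_le_abs_sub ϖ (u ω * w (ω + 1))
    rw [abs_sub_comm, abs_mul] at this
    linarith
  have hi : |u ω| * |w (ω + 1)| ≤ 2 := by
    have := abs_sub_abs_le_abs_sub (u ω * w (ω + 1)) ϖ
    rw [abs_mul] at this
    linarith
  have sm : ∀ x, x * |w (ω + 1)| * κ ^ 900 ≤ 1 / 2 → x ≤ |u ω| / κ ^ 900 := fun x hx => by
    rw [le_div_iff₀ (by linarith)]
    exact le_of_mul_le_mul_right (by linarith) hA
  refine ⟨hω, hA, env, nvw, nxt, ?_, ?_, ?_, sm _ k1, ?_⟩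
  · rw [le_div_iff₀ (by linarith)]
    linarith
  · rw [nv, max_mul_of_nonneg _ _ hA.le]
    refine max_le ?_ hi
    nlinarith [mul_nonneg (abs_nonneg (u (ω + 1))) hA.le]
  · rw [nxt] at e2
    refine le_of_mul_le_mul_right ?_ hA
    nlinarith
  · rw [mul_comm, ← hu ω]
    exact sm _ k2

end Crest.Agent.R128
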