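import Crest.Agent.R128.Basic

/-! Row 128: greedy (rising sun) covering on the integers. -/

set_option autoImplicit false

namespace Crest.Agent.R128

open Finset

/-- Recipe: prove by (strong) induction on `R - L'` that `c * #(S ∩ [L', R)) ≤ Φ L' R` for all
`L ≤ L' ≤ R`.  If `L' ∉ S` use `Φ (L'+1) R ≤ Φ L' (L'+1) + Φ (L'+1) R ≤ Φ L' R`; if `L' ∈ S` jump to
its `j'`: `#(S ∩ [L', j')) ≤ j' - L'`.  (Every `j ∈ S` has `j < R`.) -/
theorem greedy {Φ : ℤ → ℤ → ℝ} {L R : ℤ} {c : ℝ} (hc : 0 ≤ c) (hLR : L ≤ R)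
    (h0 : ∀ i j, L ≤ i → i ≤ j → j ≤ R → 0 ≤ Φ i j)
    (hs : ∀ i j l, L ≤ i → i ≤ j → j ≤ l → l ≤ R → Φ i j + Φ j l ≤ Φ i l) (S : Finset ℤ)
    (hS : ∀ j ∈ S, L ≤ j ∧ ∃ j', j < j' ∧ j' ≤ R ∧ c * (j' - j) ≤ Φ j j') :
    c * S.card ≤ Φ L R := by
  have key : ∀ (n : ℕ) (L' : ℤ), L ≤ L' → L' ≤ R → (R - L').toNat ≤ n →
      c * (S.filter (L' ≤ ·)).card ≤ Φ L' R := by
    intro n
    induction n with
    | zero =>
      intro L' h1 h2 h3
      have : S.filter (L' ≤ ·) = ∅ := by
        refine Finset.filter_eq_empty_iff.2 fun j hj hj' => ?_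
        obtain ⟨-, j', a1, a2, -⟩ := hS j hj
        omega
      rw [this]
      simpa using h0 L' R h1 h2 le_rfl
    | succ n ih =>
      intro L' h1 h2 h3
      by_cases hm : L' ∈ S
      · obtain ⟨-, j', a1, a2, a3⟩ := hS L' hm
        have b1 := ih j' (by omega) a2 (by omega)
        have b2 := hs L' j' R h1 a1.le a2 le_rfl
        have b3 : S.filter (L' ≤ ·) ⊆ Finset.Ico L' j' ∪ S.filter (j' ≤ ·) := by
          intro j hj
          rw [Finset.mem_filter] at hj
          rw [Finset.mem_union, Finset.mem_Ico, Finset.mem_filter]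
          by_cases h : j < j'
          · exact Or.inl ⟨hj.2, h⟩
          · exact Or.inr ⟨hj.1, not_lt.1 h⟩
        have b4 := (Finset.card_le_card b3).trans (Finset.card_union_le _ _)
        rw [Int.card_Ico] at b4
        have b5 : (((j' - L').toNat : ℕ) : ℝ) = j' - L' := by
          have : (((j' - L').toNat : ℕ) : ℤ) = j' - L' := by omega
          exact_mod_cast this
        have b6 : ((S.filter (L' ≤ ·)).card : ℝ) ≤ (j' - L') + (S.filter (j' ≤ ·)).card := by
          rw [← b5]; exact_mod_cast b4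
        have b7 := mul_le_mul_of_nonneg_left b6 hc
        linarith
      · rcases eq_or_lt_of_le h2 with h4 | h4
        · exact ih L' h1 h2 (by omega)
        · have b1 := ih (L' + 1) (by omega) (by omega) (by omega)
          have b2 := hs L' (L' + 1) R h1 (by omega) (by omega) le_rfl
          have b3 := h0 L' (L' + 1) h1 (by omega) (by omega)
          have b4 : S.filter (L' ≤ ·) = S.filter (L' + 1 ≤ ·) := by
            refine Finset.filter_congr fun j hj => ?_
            have : j ≠ L' := fun e => hm (e ▸ hj)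
            omega
          rw [b4]
          linarith
  have := key _ L le_rfl hLR le_rfl
  rwa [Finset.filter_true_of_mem fun j hj => (hS j hj).1] at this

/-- The mirror image: apply `greedy` to `fun i j => Φ (-j) (-i)` and `S.image (- ·)`. -/
theorem greedy' {Φ : ℤ → ℤ → ℝ} {L R : ℤ} {c : ℝ} (hc : 0 ≤ c) (hLR : L ≤ R)
    (h0 : ∀ i j, L ≤ i → i ≤ j → j ≤ R → 0 ≤ Φ i j)
    (hs : ∀ i j l, L ≤ i → i ≤ j → j ≤ l → l ≤ R → Φ i j + Φ j l ≤ Φ i l) (S : Finset ℤ)
    (hS : ∀ j ∈ S, j ≤ R ∧ ∃ j', L ≤ j' ∧ j' < j ∧ c * (j - j') ≤ Φ j' j) :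
    c * S.card ≤ Φ L R := by
  have := greedy (Φ := fun i j => Φ (-j) (-i)) (L := -R) (R := -L) hc (by omega)
    (fun i j h1 h2 h3 => h0 _ _ (by omega) (by omega) (by omega))
    (fun i j l h1 h2 h3 h4 => by
      have := hs (-l) (-j) (-i) (by omega) (by omega) (by omega) (by omega)
      linarith) (S.image (- ·)) (fun j hj => by
      obtain ⟨i, hi, rfl⟩ := Finset.mem_image.1 hj
      obtain ⟨a0, j', a1, a2, a3⟩ := hS i hi
      refine ⟨by omega, -j', by omega, by omega, ?_⟩
      simp only [neg_neg]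
      push_cast
      linarith)
  rw [Finset.card_image_of_injective _ neg_injective] at this
  simpa using this

end Crest.Agent.R128
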