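import Crest.Agent.R128.DetA
import Crest.Agent.R128.Greedy

/-! Row 128: the deterministic bound for the defect. -/

set_option autoImplicit false

namespace Crest.Agent.R128

open Real Finset

/-- A solution without dips.  Recipe: among the `N+1` solutions `sol b (t / N) 1`, `t = 0..N`
(`N ≥ 1`; `nv · 0 = 1`) two different ones have `|wr| ≥ 1 / N`, so (`abs_wr_le`, `wr_const`) at a
time `j` at most one of them has `nv · j ^ 2 < 1 / (2 N)`; pigeonhole over `j = 1..N`. -/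
theorem exists_no_dip (b : ℕ → ℝ) (N : ℕ) :
    ∃ u, IsSol b u ∧ nv u 0 = 1 ∧ ∀ j ≤ N, 1 ≤ (2 * N + 3) * nv u j ^ 2 := by
  by_contra hcon
  push Not at hcon
  have hN : (0 : ℝ) < N + 1 := by positivity
  have h1 : ∀ t : ℕ, ∃ j, t ≤ N + 1 →
      j ≤ N ∧ (2 * N + 3) * nv (sol b (t / (N + 1)) 1) j ^ 2 < 1 := by
    intro t
    by_cases ht : t ≤ N + 1
    · obtain ⟨j, hj⟩ := hcon (sol b (t / (N + 1)) 1) (isSol_sol _ _ _) (by
        have : (t : ℝ) / (N + 1) ≤ 1 := by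
          rw [div_le_one hN]; exact_mod_cast ht
        simp only [nv, zero_add, sol_one, sol_zero, abs_one]
        exact max_eq_left (by rwa [abs_of_nonneg (by positivity)]))
      exact ⟨j, fun _ => hj⟩
    · exact ⟨0, fun h => absurd h ht⟩
  choose f hf using h1
  obtain ⟨t, ht, t', ht', hne, he⟩ := exists_ne_map_eq_of_card_lt_of_maps_to
    (s := range (N + 2)) (t := range (N + 1)) (by simp) (f := f) (fun t ht => by
      have := (hf t (by have := mem_range.1 (mem_coe.1 ht); omega)).1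
      exact mem_coe.2 (mem_range.2 (by omega)))
  have b1 := (hf t (by have := mem_range.1 ht; omega)).2
  have b2 := (hf t' (by have := mem_range.1 ht'; omega)).2
  rw [← he] at b2
  have b3 := abs_wr_le (sol b (t / (N + 1)) 1) (sol b (t' / (N + 1)) 1) (f t)
  rw [wr_const (isSol_sol _ _ _) (isSol_sol _ _ _)] at b3
  have b4 : wr (sol b (t / (N + 1)) 1) (sol b (t' / (N + 1)) 1) 0 = ((t : ℝ) - t') / (N + 1) := by
    simp only [wr, zero_add, sol_zero, sol_one]; ring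
  have b5 : (1 : ℝ) ≤ |(t : ℝ) - t'| := by
    have : (1 : ℤ) ≤ |(t : ℤ) - t'| := Int.one_le_abs (sub_ne_zero.2 (by exact_mod_cast hne))
    exact_mod_cast this
  rw [b4, abs_div, abs_of_pos hN, div_le_iff₀ hN] at b3
  generalize nv (sol b (t / (N + 1)) 1) (f t) = x at *
  generalize nv (sol b (t' / (N + 1)) 1) (f t) = y at *
  have hN0 : (0 : ℝ) ≤ N := Nat.cast_nonneg N
  nlinarith [mul_nonneg hN.le (sq_nonneg (x - y)), sq_nonneg x, sq_nonneg y]

theorem det_sum_one (f : ℤ → ℝ) (N : ℕ) :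
    ∑ j ∈ Icc (1 : ℤ) N, f j = ∑ j ∈ range N, f ((j + 1 : ℕ) : ℤ) := by
  rw [Int.Icc_eq_finset_map, sum_map]
  have : ((N : ℤ) + 1 - 1).toNat = N := by omega
  rw [this]
  exact sum_congr rfl fun j _ => by simp [add_comm]

theorem det_sum_zero (f : ℤ → ℝ) (N : ℕ) :
    ∑ j ∈ Icc (0 : ℤ) N, f j = ∑ j ∈ range (N + 1), f (j : ℤ) := by
  rw [Int.Icc_eq_finset_map, sum_map]
  have : ((N : ℤ) + 1 - 0).toNat = N + 1 := by omega
  rw [this]
  exact sum_congr rfl fun j _ => by simp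

theorem det_ind_card (J : Finset ℕ) (Q : ℕ → Prop) [DecidablePred Q] :
    ∑ j ∈ J, ind (Q j) = (J.filter Q).card := by
  rw [card_filter]
  push_cast
  refine sum_congr rfl fun j _ => ?_
  by_cases h : Q j
  · rw [ind_pos h, if_pos h]
  · rw [ind_neg h, if_neg h]

theorem det_ind_le (J I : Finset ℕ) (Q : ℕ → Prop) (h : ∀ j, Q j → j ∈ I) :
    ∑ j ∈ J, ind (Q j) ≤ I.card := by
  classical
  rw [det_ind_card]
  exact_mod_cast card_le_card fun j hj => h j (mem_filter.1 hj).2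

/-- double counting -/
theorem det_count {γ : Type} (J : Finset ℕ) (C : Finset γ) (A : ℕ → Prop) (R : ℕ → γ → Prop)
    (P : γ → Prop) (B : γ → ℝ) (hA : ∀ j ∈ J, A j → ∃ c ∈ C, R j c ∧ P c)
    (hB : ∀ c ∈ C, ∑ j ∈ J, ind (R j c) ≤ B c) :
    ∑ j ∈ J, ind (A j) ≤ ∑ c ∈ C, B c * ind (P c) := by
  calc ∑ j ∈ J, ind (A j) ≤ ∑ j ∈ J, ∑ c ∈ C, ind (R j c) * ind (P c) := by
        refine sum_le_sum fun j hj => ?_
        have hnn : ∀ c ∈ C, 0 ≤ ind (R j c) * ind (P c) := fun c _ =>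
          mul_nonneg (ind_nonneg _) (ind_nonneg _)
        by_cases h : A j
        · obtain ⟨c, hc, h1, h2⟩ := hA j hj h
          refine le_trans ?_ (single_le_sum hnn hc)
          rw [ind_pos h, ind_pos h1, ind_pos h2, one_mul]
        · rw [ind_neg h]; exact sum_nonneg hnn
    _ = ∑ c ∈ C, (∑ j ∈ J, ind (R j c)) * ind (P c) := by
        rw [sum_comm]; simp only [sum_mul]
    _ ≤ _ := sum_le_sum fun c hc => mul_le_mul_of_nonneg_right (hB c hc) (ind_nonneg _)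

/-- running minimum -/
noncomputable def detMin (s : ℕ → ℝ) : ℕ → ℝ
  | 0 => s 0
  | j + 1 => min (detMin s j) (s (j + 1))

theorem le_detMin {s : ℕ → ℝ} {c : ℝ} {j : ℕ} (h : ∀ i ≤ j, c ≤ s i) : c ≤ detMin s j := by
  induction j with
  | zero => exact h 0 le_rfl
  | succ j ih => exact le_min (ih fun i hi => h i (by omega)) (h _ le_rfl)

theorem det_bb_nonneg {K x : ℝ} (hK : 1 < K) (hx : |x| + 1 ≤ K) : 0 ≤ bb K x := by
  have h : logb K (max 1 (|x| - 1)) ≤ logb K K :=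
    (logb_le_logb hK (lt_max_of_lt_left one_pos) (by linarith)).2 (max_le hK.le (by linarith))
  rw [logb_self_eq_one hK] at h
  unfold bb; linarith

theorem det_log_le {K x p q : ℝ} (hK : 1 < K) (hp : 0 < p) (h1 : p ≤ q) (h2 : (|x| - 1) * p ≤ q) :
    1 - bb K x ≤ logb K q - logb K p := by
  have hm : 0 < max 1 (|x| - 1) := lt_max_of_lt_left one_pos
  have h3 : max 1 (|x| - 1) * p ≤ q := by
    rw [max_mul_of_nonneg _ _ hp.le]; exact max_le (by linarith) h2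
  have h := (logb_le_logb hK (mul_pos hm hp) (hp.trans_le h1)).2 h3
  rw [logb_mul hm.ne' hp.ne'] at h
  unfold bb; linarith

/-- the cost of one step -/
theorem det_step {K : ℝ} (hK : 1 < K) {b u : ℕ → ℝ} (hb : Bd K b) (hu : IsSol b u)
    (h0 : 0 < nv u 0) (j : ℕ) {E : ℝ} (hE0 : 0 ≤ E)
    (hE : ∀ i < j, nv u i < nv u j → nv u (j + 1) < nv u j → 2 ≤ E) :
    1 - (logb K (nv u (j + 1)) - logb K (nv u j)) ≤ bb K (b (j + 1)) +
      2 * (ind (|u (j + 1)| < |u j|) - ind (|u (j + 1 + 1)| < |u (j + 1)|)) +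
      2 * ind (|b (j + 1)| ≤ 2) +
      2 * (detMin (fun i => logb K (nv u i)) j - detMin (fun i => logb K (nv u i)) (j + 1)) + E := by
  have hp := nv_pos hb hu h0
  have hbb := det_bb_nonneg hK (hb (j + 1))
  have hm : detMin (fun i => logb K (nv u i)) (j + 1) ≤ detMin (fun i => logb K (nv u i)) j :=
    min_le_left _ _
  have hm' : detMin (fun i => logb K (nv u i)) (j + 1) ≤ logb K (nv u (j + 1)) := min_le_right _ _
  have hi := ind_nonneg (|b (j + 1)| ≤ 2)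
  have hstep : logb K (nv u j) ≤ 1 + logb K (nv u (j + 1)) := by
    have h := (logb_le_logb hK (hp j) (mul_pos (by linarith) (hp (j + 1)))).2 (nv_le_succ hb hu j)
    rwa [logb_mul (by linarith) (hp (j + 1)).ne', logb_self_eq_one hK] at h
  have hrec : |b (j + 1)| * |u (j + 1)| ≤ |u j| + |u (j + 1 + 1)| := by
    rw [← abs_mul]
    have : b (j + 1) * u (j + 1) = u j + u (j + 1 + 1) := by rw [hu j]; ring
    rw [this]; exact abs_add_le _ _
  by_cases d1 : |u (j + 1)| < |u j|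
  · rw [ind_pos d1]
    by_cases d2 : |u (j + 1 + 1)| < |u (j + 1)|
    · rw [ind_pos d2]
      have e1 : nv u j = |u j| := max_eq_right d1.le
      have e2 : nv u (j + 1) = |u (j + 1)| := max_eq_right d2.le
      have hlt : nv u (j + 1) < nv u j := by rw [e1, e2]; exact d1
      by_cases hc : ∃ i < j, nv u i < nv u j
      · obtain ⟨i, hij, hi'⟩ := hc
        have := hE i hij hi' hlt
        linarith
      · push Not at hc
        have h1 : logb K (nv u j) ≤ detMin (fun i => logb K (nv u i)) j := by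
          refine le_detMin fun i hi' => ?_
          rcases hi'.lt_or_eq with h | h
          · exact (logb_le_logb hK (hp j) (hp i)).2 (hc i h)
          · rw [h]
        have h2 := det_log_le (x := b (j + 1)) hK (hp (j + 1)) hlt.le (by rw [e1, e2]; linarith)
        linarith
    · rw [ind_neg d2]; linarith
  · rw [ind_neg d1]
    have d1' := not_lt.1 d1
    have e1 : nv u j = |u (j + 1)| := max_eq_left d1'
    have h2 := det_log_le (x := b (j + 1)) hK (hp j) (q := nv u (j + 1))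
      (by rw [e1]; exact abs_le_nv _ _)
      (by rw [e1]; have := abs_succ_le_nv u (j + 1); linarith)
    by_cases d2 : |u (j + 1 + 1)| < |u (j + 1)|
    · have hb2 : |b (j + 1)| ≤ 2 := by
        have h3 : 0 < |u (j + 1)| := (abs_nonneg _).trans_lt d2
        by_contra h4
        have := mul_lt_mul_of_pos_right (not_le.1 h4) h3
        linarith
      rw [ind_pos d2, ind_pos hb2]; linarith
    · rw [ind_neg d2]; linarith

theorem det_count1 (Y0 N : ℕ) (a : ℤ → ℝ) :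
    ∑ j ∈ range N, ind (∃ c : ℕ, 1 ≤ c ∧ c ≤ N ∧ c ≤ j + 1 ∧ j ≤ c + Y0 ∧ |a c| ≤ 2) ≤
      (Y0 + 2) * ∑ j ∈ Icc (1 : ℤ) N, ind (|a j| ≤ 2) := by
  rw [det_sum_one (fun j => ind (|a j| ≤ 2)), mul_sum]
  refine det_count (range N) (range N) _ (fun j c => c ≤ j ∧ j ≤ c + 1 + Y0)
    (fun c => |a ((c + 1 : ℕ) : ℤ)| ≤ 2) (fun _ => (Y0 : ℝ) + 2) ?_ ?_
  · rintro j - ⟨c, h1, h2, h3, h4, h5⟩
    obtain ⟨c, rfl⟩ : ∃ c', c = c' + 1 := ⟨c - 1, by omega⟩
    exact ⟨c, mem_range.2 (by omega), ⟨by omega, h4⟩, h5⟩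
  · intro c _
    refine (det_ind_le _ (Icc c (c + 1 + Y0)) _ fun j hj => mem_Icc.2 hj).trans ?_
    rw [Nat.card_Icc]
    have : c + 1 + Y0 + 1 - c = Y0 + 2 := by omega
    rw [this]; push_cast; exact le_rfl

theorem det_count2 {Y0 : ℕ} (hY : 30 ≤ Y0) (N : ℕ) (P : ℕ → ℤ → Prop) :
    2 * ∑ j ∈ range N, ind (∃ m T : ℕ, m ≤ j ∧ j ≤ m + 30 * T ∧ Y0 / 30 ≤ T ∧ T ≤ N ∧ P T m) ≤
      ∑ T ∈ Icc (Y0 / 30) N, 64 * (T : ℝ) * ∑ v ∈ Icc (0 : ℤ) N, ind (P T v) := by
  have h := det_count (range N) (Icc (Y0 / 30) N ×ˢ range (N + 1))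
    (fun j => ∃ m T : ℕ, m ≤ j ∧ j ≤ m + 30 * T ∧ Y0 / 30 ≤ T ∧ T ≤ N ∧ P T m)
    (fun j c => c.2 ≤ j ∧ j ≤ c.2 + 30 * c.1) (fun c => P c.1 c.2) (fun c => 32 * (c.1 : ℝ)) ?_ ?_
  · rw [sum_product] at h
    refine (mul_le_mul_of_nonneg_left h (by norm_num)).trans (le_of_eq ?_)
    rw [mul_sum]
    refine sum_congr rfl fun T _ => ?_
    rw [det_sum_zero (fun v => ind (P T v)), mul_sum, mul_sum]
    exact sum_congr rfl fun m _ => by ring
  · rintro j hj ⟨m, T, h1, h2, h3, h4, h5⟩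
    have := mem_range.1 hj
    exact ⟨(T, m), mem_product.2 ⟨mem_Icc.2 ⟨h3, h4⟩, mem_range.2 (by omega)⟩, ⟨h1, h2⟩, h5⟩
  · rintro ⟨T, m⟩ hc
    have hT := (mem_Icc.1 (mem_product.1 hc).1).1
    refine (det_ind_le _ (Icc m (m + 30 * T)) _ fun j hj => mem_Icc.2 hj).trans ?_
    rw [Nat.card_Icc]
    have : m + 30 * T + 1 - m ≤ 32 * T := by simp only at hT; omega
    exact_mod_cast this

theorem det_count3 {ε : ℝ} (hε : 0 < ε) (N : ℕ) (Q : ℤ → Prop) :
    2 * ∑ j ∈ range N, ind (∃ j' : ℤ, -1 ≤ j' ∧ j' < (j : ℕ) ∧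
        ε / 500 * (((j : ℕ) : ℝ) - j') ≤ ∑ v ∈ Ioc j' (j : ℕ), ind (Q v)) ≤
      1000 / ε * ∑ v ∈ Icc (0 : ℤ) N, ind (Q v) := by
  classical
  rw [det_ind_card]
  have h := greedy' (Φ := fun i j => ∑ v ∈ Ioc i j, ind (Q v)) (L := -1) (R := N) (c := ε / 500)
    (by positivity) (by omega) (fun i j _ _ _ => sum_nonneg fun v _ => ind_nonneg _)
    (fun i j l _ h1 h2 _ => by
      rw [← sum_union (Ioc_disjoint_Ioc_of_le le_rfl), Ioc_union_Ioc_eq_Ioc h1 h2])
    (((range N).filter fun j : ℕ => ∃ j' : ℤ, -1 ≤ j' ∧ j' < (j : ℕ) ∧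
        ε / 500 * (((j : ℕ) : ℝ) - j') ≤ ∑ v ∈ Ioc j' (j : ℕ), ind (Q v)).image fun j : ℕ => (j : ℤ))
    (by
      intro j hj
      obtain ⟨j, hj', rfl⟩ := mem_image.1 hj
      obtain ⟨h1, j', h2, h3, h4⟩ := mem_filter.1 hj'
      have := mem_range.1 h1
      exact ⟨by omega, j', h2, h3, by simpa using h4⟩)
  rw [card_image_of_injective _ Nat.cast_injective] at h
  have e : Ioc (-1 : ℤ) N = Icc (0 : ℤ) N := by
    ext v; simp only [mem_Ioc, mem_Icc]; omega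
  rw [e] at h
  have h2 := mul_le_mul_of_nonneg_left h (show 0 ≤ 1000 / ε by positivity)
  refine le_trans (le_of_eq ?_) h2
  have e2 : 1000 / ε * (ε / 500) = 2 := by field_simp; norm_num
  rw [← mul_assoc, e2]

/-- Recipe: `u` from `exists_no_dip`, `s j = logb K (nv u j)`, `s 0 = 0`, steps in `[-1, 1]`,
`dfc ≤ N - s N = ∑_{j<N} (1 - (s (j+1) - s j))` (`nv_le_norm_tr`).  Let `down j` be
`|u (j+1)| < |u j|`.  Cost of step `j`: `≤ bb K (a (j+1))` if `¬ down j`; `≤ 2` if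
`down j ∧ ¬ down (j+1)` (such steps are at most `1 + #{c ∈ [1,N] : |a c| ≤ 2}` many: telescope
`ind (down j) - ind (down (j+1))`; `¬ down j ∧ down (j+1)` forces `|a (j+1)| ≤ 2`);
`≤ bb K (a (j+1)) + 2 (s j - s (j+1))` if `down j ∧ down (j+1)` (then `nv u (j+1) < nv u j`).
In the last case either all `i < j` have `nv u j ≤ nv u i` (record lows: telescope the running
minimum, total descent `≤ logb K (2N+3) / 2`), or `classify` applies and `2 (s j - s (j+1)) ≤ 2`;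
count the `j` of the three alternatives by `Y0 + 2` per `c`, `30 T + 1 ≤ 32 T` per `(m, T)`, and
`greedy'` (`L = -1`, `R = N`, `Φ i j = ∑ v ∈ Ioc i j, ind …`, `c = ε / 500`). -/
theorem det_bound {κ ε δ : ℝ} (hκ : 1000 ≤ κ) (hε : 0 < ε) (hε1 : ε ≤ 1 / 1000) (hδ0 : 0 ≤ δ)
    (hδ : δ ≤ ε / 4) {Y0 : ℕ} (hY : 1000 ≤ ε * Y0) (N : ℕ) {a : ℤ → ℝ}
    (ha : ∀ j, |a j| + 1 ≤ κ ^ 1000) :
    dfc (κ ^ 1000) (fw a 0) N ≤ ∑ j ∈ Icc (1 : ℤ) N, bb (κ ^ 1000) (a j) + 2 +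
      logb (κ ^ 1000) (2 * N + 3) + (2 * Y0 + 6) * ∑ j ∈ Icc (1 : ℤ) N, ind (|a j| ≤ 2) +
      ind (Y0 < N) * (∑ T ∈ Icc (Y0 / 30) N, 64 * T *
          ∑ v ∈ Icc (0 : ℤ) N, ind (RE (κ ^ 1000) ε T (fw a v) (bw a v)) +
        1000 / ε * ∑ v ∈ Icc (0 : ℤ) N, ind (QE (κ ^ 1000) δ (N / 2) (fw a v) (bw a v))) := by
  have hK : 1 < κ ^ 1000 := one_lt_pow₀ (by linarith) (by norm_num)
  have hcl := fun {u : ℕ → ℝ} (hu : IsSol (fw a 0) u) {i j : ℕ} (hij : i < j) (hj : j < N) =>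
    classify hκ hε hε1 hδ0 hδ hY ha hu hij hj
  generalize κ ^ 1000 = K at *
  have hY30 : 30 ≤ Y0 := by
    have h1 : (30 : ℝ) ≤ Y0 := by
      have : (0 : ℝ) ≤ Y0 := Nat.cast_nonneg _
      nlinarith
    exact_mod_cast h1
  have hb : Bd K (fw a 0) := fun j => ha _
  obtain ⟨u, hu, hu0, hdip⟩ := exists_no_dip (fw a 0) N
  have h0 : 0 < nv u 0 := by rw [hu0]; norm_num
  have hp := nv_pos hb hu h0
  set A1 : ℕ → Prop := fun j =>
    ∃ c : ℕ, 1 ≤ c ∧ c ≤ N ∧ c ≤ j + 1 ∧ j ≤ c + Y0 ∧ |a c| ≤ 2 with hA1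
  set A2 : ℕ → Prop := fun j => ∃ m T : ℕ, m ≤ j ∧ j ≤ m + 30 * T ∧ Y0 / 30 ≤ T ∧ T ≤ N ∧
    RE K ε T (fw a m) (bw a m) with hA2
  set A3 : ℕ → Prop := fun j => ∃ j' : ℤ, -1 ≤ j' ∧ j' < (j : ℕ) ∧
    ε / 500 * (((j : ℕ) : ℝ) - j') ≤
      ∑ v ∈ Ioc j' (j : ℕ), ind (QE K δ (N / 2) (fw a v) (bw a v)) with hA3
  have c1 := det_count1 Y0 N a
  have c2 := det_count2 hY30 N fun T v => RE K ε T (fw a v) (bw a v)
  have c3 := det_count3 hε N fun v => QE K δ (N / 2) (fw a v) (bw a v)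
  have hsum := sum_le_sum fun j (hj : j ∈ range N) => det_step hK hb hu h0 j
    (E := 2 * ind (A1 j) + ind (Y0 < N) * (2 * ind (A2 j) + 2 * ind (A3 j)))
    (by
      have := ind_nonneg (A1 j); have := ind_nonneg (A2 j); have := ind_nonneg (A3 j)
      have := ind_nonneg (Y0 < N)
      positivity)
    (by
      intro i hij h1 h2
      have n1 := ind_nonneg (A1 j)
      have n2 := ind_nonneg (A2 j)
      have n3 := ind_nonneg (A3 j)
      have n4 := ind_nonneg (Y0 < N)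
      rcases hcl hu hij (mem_range.1 hj) h1 h2 with h | ⟨hN, h⟩ | ⟨hN, h⟩
      · rw [ind_pos (P := A1 j) h]
        have : 0 ≤ ind (Y0 < N) * (2 * ind (A2 j) + 2 * ind (A3 j)) := by positivity
        linarith
      · rw [ind_pos (P := A2 j) h, ind_pos hN]; linarith
      · rw [ind_pos (P := A3 j) h, ind_pos hN]; linarith)
  simp only [sum_add_distrib, ← mul_sum] at hsum
  rw [sum_sub_distrib, sum_range_sub (fun j => logb K (nv u j)),
    sum_range_sub' (fun j => ind (|u (j + 1)| < |u j|)),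
    sum_range_sub' (detMin fun i => logb K (nv u i))] at hsum
  have e1 : ∑ j ∈ range N, bb K (fw a 0 (j + 1)) = ∑ j ∈ Icc (1 : ℤ) N, bb K (a j) := by
    rw [det_sum_one (fun j => bb K (a j))]
    exact sum_congr rfl fun j _ => by simp [fw]
  have e2 : ∑ j ∈ range N, ind (|fw a 0 (j + 1)| ≤ 2) = ∑ j ∈ Icc (1 : ℤ) N, ind (|a j| ≤ 2) := by
    rw [det_sum_one (fun j => ind (|a j| ≤ 2))]
    exact sum_congr rfl fun j _ => by simp [fw]
  have e3 : detMin (fun i => logb K (nv u i)) 0 = 0 := by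
    simp only [detMin, hu0, logb_one]
  have e4 : -(logb K (2 * N + 3) / 2) ≤ detMin (fun i => logb K (nv u i)) N := by
    refine le_detMin fun i hi => ?_
    have h := logb_nonneg hK (hdip i hi)
    rw [logb_mul (by positivity) (pow_pos (hp i) 2).ne', logb_pow] at h
    push_cast at h
    linarith
  have e5 : dfc K (fw a 0) N ≤ N - logb K (nv u N) := by
    have h := nv_le_norm_tr hu N
    rw [hu0, mul_one] at h
    have := (logb_le_logb hK (hp N) (norm_tr_pos hb N)).2 h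
    unfold dfc; linarith
  rw [e1, e2, e3, hu0, logb_one, sum_const, card_range, nsmul_eq_mul, mul_one] at hsum
  have i1 := ind_le_one (|u (0 + 1)| < |u 0|)
  have i2 := ind_nonneg (|u (N + 1)| < |u N|)
  have i3 := mul_le_mul_of_nonneg_left (add_le_add c2 c3) (ind_nonneg (Y0 < N))
  simp only [hA1, hA2, hA3] at hsum
  linarith

end Crest.Agent.R128
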