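import Crest.Agent.R128.Ricc

/-! Row 128: classification of the descending steps. -/

set_option autoImplicit false

namespace Crest.Agent.R128

open Real Finset

/-- A solution cannot stay in a band along a good stretch. -/
theorem da_noband {κ δ : ℝ} (hκ : 1000 ≤ κ) (hδ : δ ≤ 1 / 1000) {b w : ℕ → ℝ}
    (hb : Bd (κ ^ 1000) b) (hw : IsSol b w) (h0 : 0 < nv w 0) {H n m l l' : ℕ} (hn : n ≤ H)
    (hm : 1 ≤ m) (hmn : m ≤ n) (h1 : nv w n ≤ (κ ^ 1000) ^ l * nv w 0)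
    (h2 : nv w 0 ≤ (κ ^ 1000) ^ l' * nv w m) (e1 : 1000 * l' + 1 ≤ 990 * m)
    (e2 : 1000 * l' + 1000 * l + 1 + 1000 * m + 1 ≤ 999 * n) : ¬ Good (κ ^ 1000) δ b H := by
  intro hg
  have hκ1 : 1 ≤ κ := by linarith
  have hκ0 : 0 < κ := by linarith
  have hwg : WG κ b n := wg_of_good (by linarith) hb (hg.mono hδ hn)
  have hd := decay hκ hb hwg hw hm hmn (one_le_pow₀ (one_le_pow₀ hκ1)) h1
  have t1 : (κ ^ 1000) ^ l' * (1 / κ ^ (990 * m)) ≤ 1 / κ := by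
    rw [mul_one_div, div_le_div_iff₀ (by positivity) hκ0, one_mul, ← pow_mul, ← pow_succ]
    exact pow_le_pow_right₀ hκ1 e1
  have t2 : (κ ^ 1000) ^ l' * (8 * (κ ^ 1000) ^ l * κ * κ ^ (1000 * m) / κ ^ (999 * n)) ≤ 8 / κ := by
    rw [← mul_div_assoc, div_le_div_iff₀ (by positivity) hκ0]
    have : (κ ^ 1000) ^ l' * (8 * (κ ^ 1000) ^ l * κ * κ ^ (1000 * m)) * κ =
        8 * κ ^ (1000 * l' + 1000 * l + 1 + 1000 * m + 1) := by
      rw [← pow_mul, ← pow_mul, pow_succ, pow_add, pow_succ, pow_add]; ring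
    rw [this]
    have := pow_le_pow_right₀ hκ1 e2
    linarith
  have t3 : 1 / κ + 8 / κ < 1 := by
    rw [← add_div, div_lt_one hκ0]; linarith
  have t4 : nv w 0 ≤ (1 / κ + 8 / κ) * nv w 0 :=
    calc nv w 0 ≤ (κ ^ 1000) ^ l' * nv w m := h2
      _ ≤ (κ ^ 1000) ^ l' * ((1 / κ ^ (990 * m) +
          8 * (κ ^ 1000) ^ l * κ * κ ^ (1000 * m) / κ ^ (999 * n)) * nv w 0) := by gcongr
      _ = ((κ ^ 1000) ^ l' * (1 / κ ^ (990 * m)) + (κ ^ 1000) ^ l' *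
          (8 * (κ ^ 1000) ^ l * κ * κ ^ (1000 * m) / κ ^ (999 * n))) * nv w 0 := by
        rw [← mul_add]; exact (mul_assoc _ _ _).symm
      _ ≤ (1 / κ + 8 / κ) * nv w 0 := by gcongr
  nlinarith

theorem da_fw {a : ℤ → ℝ} {u : ℕ → ℝ} (hu : IsSol (fw a 0) u) (v : ℕ) :
    IsSol (fw a v) fun n => u (v + n) := by
  have := hu.shift v
  rwa [fw_shift, zero_add] at this

theorem da_rec {a : ℤ → ℝ} {u : ℕ → ℝ} (hu : IsSol (fw a 0) u) (t : ℕ) :
    u (t + 2) = a ((t + 1 : ℕ) : ℤ) * u (t + 1) - u t := by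
  have := hu t
  rwa [fw, zero_add] at this

theorem da_bw {a : ℤ → ℝ} {u : ℕ → ℝ} (hu : IsSol (fw a 0) u) (v : ℕ) :
    ∃ u', IsSol (bw a v) u' ∧ u' 0 = u (v + 1) ∧ u' 1 = u v ∧
      ∀ n ≤ v, nv u' n = nv u (v - n) := by
  have key : ∀ n, n ≤ v + 1 → sol (bw a v) (u (v + 1)) (u v) n = u (v + 1 - n) := by
    intro n
    induction n using Nat.twoStepInduction with
    | zero => exact fun _ => rfl
    | one => exact fun _ => rfl
    | more n h0 h1 =>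
      intro hn
      rw [isSol_sol, h0 (by omega), h1 (by omega)]
      obtain ⟨t, rfl⟩ : ∃ t, v = t + n + 1 := ⟨v - n - 1, by omega⟩
      have e1 : t + n + 1 + 1 - (n + 1) = t + 1 := by omega
      have e2 : t + n + 1 + 1 - n = t + 2 := by omega
      have e3 : t + n + 1 + 1 - (n + 2) = t := by omega
      have e4 : bw a ((t + n + 1 : ℕ) : ℤ) (n + 1) = a ((t + 1 : ℕ) : ℤ) := by
        unfold bw; congr 1; push_cast; ring
      rw [e1, e2, e3, e4, da_rec hu t]; ring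
  refine ⟨_, isSol_sol (bw a v) (u (v + 1)) (u v), rfl, rfl, fun n hn => ?_⟩
  unfold nv
  rw [key n (by omega), key (n + 1) (by omega), max_comm]
  have e1 : v + 1 - n = v - n + 1 := by omega
  have e2 : v + 1 - (n + 1) = v - n := by omega
  rw [e1, e2]

theorem da_ng_fw {κ δ : ℝ} (hκ : 1000 ≤ κ) (hδ : δ ≤ 1 / 1000) {a : ℤ → ℝ}
    (ha : ∀ j, |a j| + 1 ≤ κ ^ 1000) {u : ℕ → ℝ} (hu : IsSol (fw a 0) u) (hp : ∀ t, 0 < nv u t)
    (v : ℕ) {H n m l l' : ℕ} (hn : n ≤ H) (hm : 1 ≤ m) (hmn : m ≤ n)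
    (h1 : nv u (v + n) ≤ (κ ^ 1000) ^ l * nv u v) (h2 : nv u v ≤ (κ ^ 1000) ^ l' * nv u (v + m))
    (e1 : 1000 * l' + 1 ≤ 990 * m) (e2 : 1000 * l' + 1000 * l + 1 + 1000 * m + 1 ≤ 999 * n) :
    ¬ Good (κ ^ 1000) δ (fw a v) H :=
  da_noband hκ hδ (fun _ => ha _) (da_fw hu v) (hp v) hn hm hmn h1 h2 e1 e2

theorem da_ng_bw {κ δ : ℝ} (hκ : 1000 ≤ κ) (hδ : δ ≤ 1 / 1000) {a : ℤ → ℝ}
    (ha : ∀ j, |a j| + 1 ≤ κ ^ 1000) {u : ℕ → ℝ} (hu : IsSol (fw a 0) u) (hp : ∀ t, 0 < nv u t)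
    (v : ℕ) {H n m l l' : ℕ} (hn : n ≤ H) (hm : 1 ≤ m) (hmn : m ≤ n) (hv : n ≤ v)
    (h1 : nv u (v - n) ≤ (κ ^ 1000) ^ l * nv u v) (h2 : nv u v ≤ (κ ^ 1000) ^ l' * nv u (v - m))
    (e1 : 1000 * l' + 1 ≤ 990 * m) (e2 : 1000 * l' + 1000 * l + 1 + 1000 * m + 1 ≤ 999 * n) :
    ¬ Good (κ ^ 1000) δ (bw a v) H := by
  obtain ⟨u', hu', -, -, h⟩ := da_bw hu v
  have h0 : nv u' 0 = nv u v := h 0 (Nat.zero_le _)
  refine da_noband hκ hδ (fun _ => ha _) hu' (h0 ▸ hp v) hn hm hmn ?_ ?_ e1 e2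
  · rwa [h0, h n hv]
  · rwa [h0, h m (hmn.trans hv)]

/-- A large defect is inherited by nearby cuts. -/
theorem da_ng_dfc {K ε δ : ℝ} (hK : 1 < K) (hε : 0 < ε) (hδ : δ ≤ ε / 4)
    {b : ℕ → ℝ} (hb : Bd K b) {T H r : ℕ} (hT : T ≤ H) (hd : ε * T < dfc K b T) (h1 : 1 ≤ r)
    (hr : (r : ℝ) ≤ ε * T / 4) (hrT : r ≤ T) : ¬ Good K δ (fun j => b (r + j)) H := by
  intro hg
  obtain ⟨n, rfl⟩ := Nat.exists_eq_add_of_le hrT
  have a1 := dfc_add_le' hK hb r n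
  have a2 := hg n (by omega)
  have a3 : (1 : ℝ) ≤ r := by exact_mod_cast h1
  have a4 : (0 : ℝ) ≤ n := Nat.cast_nonneg _
  have a5 : δ * (n + 1) ≤ ε / 4 * (r + n) :=
    mul_le_mul hδ (by linarith) (by positivity) (by positivity)
  have a6 : 0 ≤ ε * (r + n) := by positivity
  push_cast at hd hr
  linarith

theorem da_count {P : ℤ → Prop} {j' : ℤ} {j A n : ℕ} (h1 : j' < A) (h2 : A + n ≤ j + 1)
    (h : ∀ v : ℕ, A ≤ v → v < A + n → P v) : (n : ℝ) ≤ ∑ v ∈ Ioc j' (j : ℤ), ind (P v) := by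
  have hs : Ico (A : ℤ) (A + n) ⊆ Ioc j' (j : ℤ) := fun v hv => by
    rw [Finset.mem_Ico] at hv
    rw [Finset.mem_Ioc]
    omega
  refine le_trans (le_of_eq ?_) (sum_le_sum_of_subset_of_nonneg hs fun _ _ _ => ind_nonneg _)
  rw [sum_congr rfl (g := fun _ => (1 : ℝ))]
  · simp
  · intro v hv
    rw [Finset.mem_Ico] at hv
    obtain ⟨v', rfl⟩ : ∃ v' : ℕ, v = v' := ⟨v.toNat, by omega⟩
    exact ind_pos (h v' (by omega) (by omega))

/-- A local maximum of the norm forces a small coefficient. -/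
theorem da_small {a : ℤ → ℝ} {u : ℕ → ℝ} (hu : IsSol (fw a 0) u) {t : ℕ} (hp : 0 < nv u (t + 1))
    (h1 : nv u t ≤ nv u (t + 1)) (h2 : nv u (t + 2) ≤ nv u (t + 1)) :
    |a ((t + 1 : ℕ) : ℤ)| ≤ 2 ∨ |a ((t + 2 : ℕ) : ℤ)| ≤ 2 := by
  have key : ∀ s : ℕ, 0 < |u (s + 1)| → |u s| ≤ |u (s + 1)| → |u (s + 2)| ≤ |u (s + 1)| →
      |a ((s + 1 : ℕ) : ℤ)| ≤ 2 := fun s a0 a1 a2 => by
    have e : a ((s + 1 : ℕ) : ℤ) * u (s + 1) = u (s + 2) + u s := by rw [da_rec hu s]; ring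
    have a3 := abs_add_le (u (s + 2)) (u s)
    rw [← e, abs_mul] at a3
    exact le_of_mul_le_mul_right (by linarith) a0
  have b0 := abs_le_nv u t
  have b1 := abs_le_nv u (t + 1)
  have b2 := abs_succ_le_nv u (t + 1)
  have b3 := abs_succ_le_nv u (t + 2)
  rcases max_choice |u (t + 1 + 1)| |u (t + 1)| with h | h
  · change nv u (t + 1) = _ at h
    exact Or.inr (key (t + 1) (h ▸ hp) (h ▸ b1) (h ▸ b3.trans h2))
  · change nv u (t + 1) = _ at h
    exact Or.inl (key t (h ▸ hp) (h ▸ b0.trans h1) (h ▸ b2))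

theorem da_norm {b w : ℕ → ℝ} (hw : IsSol b w) {c : ℝ} (hc : 0 < c) {T : ℕ} (h : nv w T ≤ c) :
    ‖tr b T (w 1 / c, w 0 / c)‖ ≤ 1 := by
  have e : ((w 1 / c, w 0 / c) : ℝ × ℝ) = c⁻¹ • (w 1, w 0) := by
    simp [div_eq_inv_mul]
  rw [e, map_smul, hw.tr_apply, norm_smul, ← nv_eq, Real.norm_eq_abs, abs_of_pos (inv_pos.2 hc),
    ← div_eq_inv_mul, div_le_one hc]
  exact h

/-- Classification of a descending step `j` that has an earlier strictly lower time `i`.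
Recipe: `u` solves the recursion for `fw a 0`; let `i` be the LAST index `< j` with
`nv u i < nv u j`, and `m` a maximiser of `nv u` on `[i, j+1]`; then `i < m ≤ j`, on `(i, j]` we have
`nv u j ≤ nv u · ≤ nv u m ≤ K^(m-i) nv u i`, and the larger of `|u m|, |u (m+1)|` is a local maximum
of `|u|`, so `|a m| ≤ 2` or `|a (m+1)| ≤ 2`.  Put `r = j - m`, `l = m - i`.
Solutions seen from a cut `v`: `fun n => u (v + n)` solves for `fw a v` (`IsSol.shift`, `fw_shift`);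
backwards take `u' = sol (bw a v) (u (v+1)) (u v)`, then `u' n = u (v + 1 - n)` for `n ≤ v + 1` and
`nv u' n = nv u (v - n)` for `n ≤ v`.
* `r ≤ Y0`: first alternative.
* `30 l < r` (band): every `v ∈ [m + 5l+5, j - 5l-5]` is in `QE`: otherwise `Good.mono`,
  `wg_of_good` give `WG κ · (5l+5)` (`5l+5 ≤ N/2`) and `decay` with `n = 5l+5`, `m = 2l+2`,
  `ρ = K^l` gives `nv < K^(-l) nv u v`, which leaves the band.  At least `r/3` such `v`; take
  `j' = m - 1`.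
* `r ≤ 30 l`: `T = min l r` (`r ≤ 30 T`, `T ≤ N/2`, `Y0/30 ≤ T`, `8 ≤ ε T`).  If both defects at the
  cut `m` are `≤ ε T` we have `RE` (normalise `(u (m+1), u m)`).  If `dfc (fw a m) T > ε T`, every
  `v = m + r'`, `1 ≤ r' ≤ ε T / 4`, is in `QE`: forward by `dfc_add_le'`
  (`dfc (fw a v) (T - r') > ε T / 2 ≥ δ (T+1)`), backward by `decay` with `n = 4 r'`, `m = r'`,
  `ρ = K^r'` (it would give `nv u m < nv u v`).  Symmetric if `dfc (bw a m) T > ε T`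
  (`v = m - r'`).  Take `j' = m - T - 1`; `j - j' ≤ 32 T`, at least `ε T / 8` sites. -/
theorem classify {κ ε δ : ℝ} (hκ : 1000 ≤ κ) (hε : 0 < ε) (hε1 : ε ≤ 1 / 1000) (hδ0 : 0 ≤ δ)
    (hδ : δ ≤ ε / 4) {Y0 N : ℕ} (hY : 1000 ≤ ε * Y0) {a : ℤ → ℝ} (ha : ∀ j, |a j| + 1 ≤ κ ^ 1000)
    {u : ℕ → ℝ} (hu : IsSol (fw a 0) u) {i j : ℕ} (hij : i < j) (hj : j < N)
    (h1 : nv u i < nv u j) (h2 : nv u (j + 1) < nv u j) :
    (∃ c : ℕ, 1 ≤ c ∧ c ≤ N ∧ c ≤ j + 1 ∧ j ≤ c + Y0 ∧ |a c| ≤ 2) ∨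
    (Y0 < N ∧ ∃ m T : ℕ, m ≤ j ∧ j ≤ m + 30 * T ∧ Y0 / 30 ≤ T ∧ T ≤ N ∧
      RE (κ ^ 1000) ε T (fw a m) (bw a m)) ∨
    (Y0 < N ∧ ∃ j' : ℤ, -1 ≤ j' ∧ j' < j ∧
      ε / 500 * (j - j') ≤ ∑ v ∈ Ioc j' j, ind (QE (κ ^ 1000) δ (N / 2) (fw a v) (bw a v))) := by
  have hκ1 : 1 < κ := by linarith
  have hK : 1 < κ ^ 1000 := one_lt_pow₀ hκ1 (by norm_num)
  have hδ1 : δ ≤ 1 / 1000 := by linarith
  have hb0 : Bd (κ ^ 1000) (fw a 0) := fun _ => ha _
  have hp : ∀ t, 0 < nv u t := by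
    refine nv_pos hb0 hu (lt_of_le_of_ne (nv_nonneg u 0) fun h0 => ?_)
    have := nv_add_le hb0 hu 0 j
    rw [zero_add, ← h0, mul_zero] at this
    linarith [nv_nonneg u i]
  -- the last lower time
  obtain ⟨i, hij, h1, hlo⟩ : ∃ i, i < j ∧ nv u i < nv u j ∧
      ∀ t, i < t → t ≤ j → nv u j ≤ nv u t := by
    obtain ⟨i', hi', hmax⟩ := ((range j).filter fun t => nv u t < nv u j).exists_max_image id
      ⟨i, by simp [hij, h1]⟩
    simp only [mem_filter, mem_range, id] at hi' hmax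
    refine ⟨i', hi'.1, hi'.2, fun t ht htj => ?_⟩
    rcases htj.eq_or_lt with rfl | htj
    · exact le_rfl
    · by_contra hc
      exact absurd (hmax t ⟨htj, not_le.1 hc⟩) (by omega)
  -- the maximiser
  obtain ⟨m, him, hmj, hhi⟩ : ∃ m, i < m ∧ m ≤ j ∧
      ∀ t, i ≤ t → t ≤ j + 1 → nv u t ≤ nv u m := by
    obtain ⟨m, hm, hmax⟩ := (Icc i (j + 1)).exists_max_image (nv u) ⟨i, by simp; omega⟩
    simp only [Finset.mem_Icc] at hm hmax
    have hjm := hmax j ⟨hij.le, by omega⟩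
    refine ⟨m, lt_of_le_of_ne hm.1 ?_, Nat.lt_succ_iff.1 (lt_of_le_of_ne hm.2 ?_),
      fun t a1 a2 => hmax t ⟨a1, a2⟩⟩
    · rintro rfl; linarith
    · rintro rfl; linarith
  obtain ⟨l, rfl⟩ := Nat.exists_eq_add_of_le him.le
  obtain ⟨r, rfl⟩ := Nat.exists_eq_add_of_le hmj
  have hl : 1 ≤ l := by omega
  by_cases c1 : r ≤ Y0
  · left
    obtain ⟨t, ht⟩ : ∃ t, i + l = t + 1 := ⟨i + l - 1, by omega⟩
    rcases da_small hu (hp (t + 1)) (ht ▸ hhi t (by omega) (by omega))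
      (ht ▸ hhi (t + 2) (by omega) (by omega)) with h | h
    · exact ⟨t + 1, by omega, by omega, by omega, by omega, h⟩
    · exact ⟨t + 2, by omega, by omega, by omega, by omega, h⟩
  right
  have hYN : Y0 < N := by omega
  have hYr : (Y0 : ℝ) ≤ r := by exact_mod_cast (not_le.1 c1).le
  have hεr : 1000 ≤ ε * r := hY.trans (by gcongr)
  have hr0 : (0 : ℝ) ≤ r := Nat.cast_nonneg _
  have hr6 : (1000000 : ℝ) ≤ r := by nlinarith
  by_cases c2 : 30 * l < r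
  · -- the band
    right
    have hband : ∀ s t, i < s → s ≤ i + l + r → i < t → t ≤ i + l + r →
        nv u s ≤ (κ ^ 1000) ^ l * nv u t := fun s t a1 a2 a3 a4 =>
      calc nv u s ≤ nv u (i + l) := hhi s a1.le (by omega)
        _ ≤ (κ ^ 1000) ^ l * nv u i := nv_add_le hb0 hu i l
        _ ≤ (κ ^ 1000) ^ l * nv u t := by gcongr; exact h1.le.trans (hlo t a3 a4)
    have hr6' : 1000000 ≤ r := by exact_mod_cast hr6
    obtain ⟨n, hn⟩ : ∃ n, r = n + 10 * l + 9 := ⟨r - (10 * l + 9), by omega⟩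
    refine ⟨hYN, ((i + l : ℕ) : ℤ) - 1, by omega, by omega, le_trans ?_
      (da_count (P := fun v => QE (κ ^ 1000) δ (N / 2) (fw a v) (bw a v)) (A := i + l + (5 * l + 5))
        (n := n) (by omega) (by omega) fun v a1 a2 => ⟨?_, ?_⟩)⟩
    · have e1 : (r : ℝ) = n + 10 * l + 9 := by exact_mod_cast hn
      have e2 : (30 * l : ℝ) ≤ r := by exact_mod_cast c2.le
      have e3 : ε / 500 * (r + 1) ≤ 1 / 1000 / 500 * (r + 1) := by gcongr
      push_cast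
      linarith
    · exact da_ng_fw hκ hδ1 ha hu hp v (n := 5 * l + 5) (m := 2 * l + 2) (l := l) (l' := l)
        (by omega) (by omega) (by omega)
        (hband _ _ (by omega) (by omega) (by omega) (by omega))
        (hband _ _ (by omega) (by omega) (by omega) (by omega)) (by omega) (by linarith)
    · exact da_ng_bw hκ hδ1 ha hu hp v (n := 5 * l + 5) (m := 2 * l + 2) (l := l) (l' := l)
        (by omega) (by omega) (by omega) (by omega)
        (hband _ _ (by omega) (by omega) (by omega) (by omega))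
        (hband _ _ (by omega) (by omega) (by omega) (by omega)) (by omega) (by linarith)
  obtain ⟨T, hTl, hTr, hT⟩ : ∃ T, T ≤ l ∧ T ≤ r ∧ r ≤ 30 * T :=
    ⟨min l r, min_le_left _ _, min_le_right _ _, by omega⟩
  have hT' : (r : ℝ) ≤ 30 * T := by exact_mod_cast hT
  have hT0 : (0 : ℝ) ≤ T := Nat.cast_nonneg _
  have hεT : 8 ≤ ε * T := by nlinarith
  have hT1 : (1 : ℝ) ≤ T := by nlinarith
  obtain ⟨R, hR1, hR2⟩ : ∃ R : ℕ, (R : ℝ) ≤ ε * T / 4 ∧ ε * T / 8 ≤ R :=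
    ⟨⌊ε * T / 4⌋₊, Nat.floor_le (by positivity), by
      have := Nat.lt_floor_add_one (ε * T / 4); linarith⟩
  have hRT : 4 * R ≤ T := by
    have : (4 * R : ℝ) ≤ T := by nlinarith
    exact_mod_cast this
  have hcnt : ε / 500 * (((i + l + r : ℕ) : ℝ) - ((((i + l : ℕ) : ℤ) - T - 1 : ℤ) : ℝ)) ≤ R := by
    have e3 : ε / 500 * (r + T + 1) ≤ ε / 500 * (32 * T) := by gcongr; linarith
    push_cast
    nlinarith
  by_cases d1 : ε * T < dfc (κ ^ 1000) (fw a ((i + l : ℕ) : ℤ)) T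
  · right
    refine ⟨hYN, ((i + l : ℕ) : ℤ) - T - 1, by omega, by omega, le_trans hcnt
      (da_count (P := fun v => QE (κ ^ 1000) δ (N / 2) (fw a v) (bw a v)) (A := i + l + 1)
        (n := R) (by omega) (by omega) fun v a1 a2 => ?_)⟩
    obtain ⟨s, rfl⟩ : ∃ s, v = i + l + s := ⟨v - (i + l), by omega⟩
    have hs : (s : ℝ) ≤ R := by exact_mod_cast (by omega : s ≤ R)
    constructor
    · have := da_ng_dfc hK hε hδ (b := fw a ((i + l : ℕ) : ℤ)) (fun _ => ha _) (H := N / 2)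
        (r := s) (by omega) d1 (by omega) (hs.trans hR1) (by omega)
      rwa [fw_shift, ← Nat.cast_add] at this
    · refine da_ng_bw hκ hδ1 ha hu hp _ (n := 4 * s) (m := s) (l := s) (l' := 0)
        (by omega) (by omega) (by omega) (by omega) ?_ ?_ (by omega) (by omega)
      · exact (hhi _ (by omega) (by omega)).trans (nv_le_add hb0 hu (i + l) s)
      · rw [pow_zero, one_mul, Nat.add_sub_cancel]
        exact hhi _ (by omega) (by omega)
  by_cases d2 : ε * T < dfc (κ ^ 1000) (bw a ((i + l : ℕ) : ℤ)) T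
  · right
    refine ⟨hYN, ((i + l : ℕ) : ℤ) - T - 1, by omega, by omega, le_trans hcnt
      (da_count (P := fun v => QE (κ ^ 1000) δ (N / 2) (fw a v) (bw a v)) (A := i + l - R)
        (n := R) (by omega) (by omega) fun v a1 a2 => ?_)⟩
    obtain ⟨s, hs⟩ : ∃ s, i + l = v + s := ⟨i + l - v, by omega⟩
    have hs' : (s : ℝ) ≤ R := by exact_mod_cast (by omega : s ≤ R)
    constructor
    · refine da_ng_fw hκ hδ1 ha hu hp _ (n := 4 * s) (m := s) (l := s) (l' := 0)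
        (by omega) (by omega) (by omega) ?_ ?_ (by omega) (by omega)
      · exact (hhi _ (by omega) (by omega)).trans (hs ▸ nv_add_le hb0 hu v s)
      · rw [pow_zero, one_mul, ← hs]
        exact hhi _ (by omega) (by omega)
    · have := da_ng_dfc hK hε hδ (b := bw a ((i + l : ℕ) : ℤ)) (fun _ => ha _) (H := N / 2)
        (r := s) (by omega) d2 (by omega) (hs'.trans hR1) (by omega)
      rwa [bw_shift, hs, Nat.cast_add, add_sub_cancel_right] at this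
  left
  refine ⟨hYN, i + l, T, by omega, by omega, by omega, by omega, not_lt.1 d1, not_lt.1 d2,
    u (i + l + 1) / nv u (i + l), u (i + l) / nv u (i + l), ?_, ?_, ?_⟩
  · rw [abs_div, abs_div, abs_of_pos (hp (i + l)), max_div_div_right (hp _).le]
    exact div_self (hp (i + l)).ne'
  · exact da_norm (da_fw hu (i + l)) (hp _) (hhi (i + l + T) (by omega) (by omega))
  · obtain ⟨u', hu', e0, e1, h⟩ := da_bw hu (i + l)
    rw [← e0, ← e1]
    refine da_norm hu' (hp _) ?_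
    rw [h T (by omega)]
    exact hhi _ (by omega) (by omega)

end Crest.Agent.R128
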