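import Crest.Agent.R128.Ricc

/-! Row 128: norms are stable under exponentially small perturbations. -/

set_option autoImplicit false

namespace Crest.Agent.R128

open Real Finset

theorem dist_abs_le {K : ℝ} {b q : ℕ → ℝ} (hb : Bd K b) (hq : IsSol b q) (h0 : nv q 0 ≤ 1) (j : ℕ) :
    |q (j + 1)| ≤ K ^ j := by
  have h := nv_add_le hb hq 0 j
  rw [zero_add] at h
  have hK := hb.one_le
  exact (abs_succ_le_nv q j).trans (h.trans (mul_le_of_le_one_right (by positivity) h0))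

theorem dist_A {κ : ℝ} (hκ : 1000 ≤ κ) {b b' u q : ℕ → ℝ} (hb' : Bd (κ ^ 1000) b') {n : ℕ}
    (hu : IsSol b u) (hq : IsSol b' q) (h0 : nv q 0 ≤ 1)
    (hun : ∀ j, 1 ≤ j → j ≤ n → nv u j * κ ^ (990 * j) ≤ 1)
    (hd : ∀ j, 1 ≤ j → j ≤ n → |b' j - b j| * κ ^ (550 * j) ≤ κ ^ 750) :
    ∀ j ≤ n, |wr u q j - wr u q 0| ≤ 1 / 100 * (1 - 1 / 2 ^ j) := by
  have hκ1 : 1 ≤ κ := by linarith
  intro j hj
  induction j with
  | zero => simp
  | succ j ih =>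
    have h1 := ih (by omega)
    have h2 := hd (j + 1) (by omega) hj
    have h3 : |u (j + 1)| * κ ^ (990 * (j + 1)) ≤ 1 :=
      le_trans (by gcongr; exact abs_le_nv _ _) (hun (j + 1) (by omega) hj)
    have h4 := dist_abs_le hb' hq h0 j
    have h5 : |(b' (j + 1) - b (j + 1)) * u (j + 1) * q (j + 1)| * (200 * 2 ^ j) ≤ 1 := by
      have e1 : (200 : ℝ) * 2 ^ j ≤ κ ^ 790 * (κ ^ 540) ^ j := by
        gcongr
        · exact le_trans (by linarith) (le_self_pow₀ hκ1 (by norm_num))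
        · exact le_trans (by linarith) (le_self_pow₀ hκ1 (by norm_num))
      have e2 : |(b' (j + 1) - b (j + 1)) * u (j + 1) * q (j + 1)| * (κ ^ 790 * (κ ^ 540) ^ j) *
          (κ ^ 750 * (κ ^ 1000) ^ j) ≤ 1 * (κ ^ 750 * (κ ^ 1000) ^ j) := by
        calc _ = (|b' (j + 1) - b (j + 1)| * κ ^ (550 * (j + 1))) *
              (|u (j + 1)| * κ ^ (990 * (j + 1))) * |q (j + 1)| := by
              rw [abs_mul, abs_mul]; ring
          _ ≤ κ ^ 750 * 1 * (κ ^ 1000) ^ j := by gcongr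
          _ = _ := by ring
      exact le_trans (by gcongr) (le_of_mul_le_mul_right e2 (by positivity))
    rw [← le_div_iff₀ (by positivity)] at h5
    have h6 : wr u q (j + 1) - wr u q 0 =
        (wr u q j - wr u q 0) + (b' (j + 1) - b (j + 1)) * u (j + 1) * q (j + 1) := by
      rw [wr_succ hu hq]; ring
    rw [h6]
    refine (abs_add_le _ _).trans ((add_le_add h1 h5).trans (le_of_eq ?_))
    field_simp
    ring

theorem dist_B {κ : ℝ} (hκ : 1000 ≤ κ) {b b' w q : ℕ → ℝ} (hb : Bd (κ ^ 1000) b)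
    (hb' : Bd (κ ^ 1000) b') {n : ℕ}
    (hw : IsSol b w) (hq : IsSol b' q) (hw0 : nv w 0 ≤ 1) (h0 : nv q 0 ≤ 1)
    (hd : ∀ j, 1 ≤ j → j ≤ n → |b' j - b j| * κ ^ (550 * j) ≤ κ ^ 750) :
    ∀ j, j + 1 ≤ n → |wr w q (j + 1) - wr w q 0| ≤ 2 * (κ ^ 200 * (κ ^ 1450) ^ j) := by
  have hκ1 : 1 ≤ κ := by linarith
  have step : ∀ j, j + 1 ≤ n →
      |wr w q (j + 1) - wr w q j| ≤ κ ^ 200 * (κ ^ 1450) ^ j := by
    intro j hj
    have h2 := hd (j + 1) (by omega) hj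
    have h3 := dist_abs_le hb hw hw0 j
    have h4 := dist_abs_le hb' hq h0 j
    rw [wr_succ hw hq, add_sub_cancel_left]
    refine le_of_mul_le_mul_right ?_ (show 0 < κ ^ (550 * (j + 1)) by positivity)
    calc _ = (|b' (j + 1) - b (j + 1)| * κ ^ (550 * (j + 1))) * |w (j + 1)| * |q (j + 1)| := by
          rw [abs_mul, abs_mul]; ring
      _ ≤ κ ^ 750 * (κ ^ 1000) ^ j * (κ ^ 1000) ^ j := by gcongr
      _ = _ := by ring
  intro j hj
  induction j with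
  | zero =>
    refine (step 0 hj).trans ?_
    have : 0 ≤ κ ^ 200 * (κ ^ 1450) ^ 0 := by positivity
    linarith
  | succ j ih =>
    have h1 := ih (by omega)
    have h2 := step (j + 1) hj
    have h3 : 2 * (κ ^ 200 * (κ ^ 1450) ^ j) ≤ κ ^ 200 * (κ ^ 1450) ^ (j + 1) := by
      calc _ ≤ κ ^ 1450 * (κ ^ 200 * (κ ^ 1450) ^ j) := by
            gcongr
            exact le_trans (by linarith) (le_self_pow₀ hκ1 (by norm_num))
        _ = _ := by rw [pow_succ (κ ^ 1450)]; ring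
    have h4 := abs_sub_le (wr w q (j + 1 + 1)) (wr w q (j + 1)) (wr w q 0)
    linarith

theorem dist_key {κ : ℝ} (hκ : 1000 ≤ κ) {b b' u q : ℕ → ℝ} (hb : Bd (κ ^ 1000) b)
    (hb' : Bd (κ ^ 1000) b') {m : ℕ} (h : WG κ b (m + 1)) (hu : IsSol b u) (hu0 : u 0 = 1)
    (hun : ∀ j, 1 ≤ j → j ≤ m + 1 → nv u j * κ ^ (990 * j) ≤ 1)
    (huw : nv u (m + 1) * nv (sol b 0 1) (m + 1) ≤ 1) (hq : IsSol b' q) (h0 : nv q 0 ≤ 1)
    (hd : ∀ j, 1 ≤ j → j ≤ m + 1 → |b' j - b j| * κ ^ (550 * j) ≤ κ ^ 750) :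
    (|wr u q 0| - 1 / 50) * nv (sol b 0 1) (m + 1) ≤ nv q (m + 1) ∧
      nv q (m + 1) ≤ (|wr u q 0| + 1 / 50) * nv (sol b 0 1) (m + 1) := by
  have hκ1 : 1 ≤ κ := by linarith
  have hw := isSol_sol b 0 1
  have hA : |wr u q (m + 1) - wr u q 0| ≤ 1 / 100 := by
    refine (dist_A hκ hb' hu hq h0 hun hd _ le_rfl).trans ?_
    have : (0 : ℝ) ≤ 1 / 2 ^ (m + 1) := by positivity
    linarith
  have hB := dist_B hκ hb hb' hw hq (nv_basis_zero b).le h0 hd m le_rfl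
  have hB0 : |wr (sol b 0 1) q 0| ≤ 1 := by
    simpa [wr] using (abs_le_nv q 0).trans h0
  have hW := (h (m + 1) le_rfl).trans
    (mul_le_mul_of_nonneg_left (norm_tr_le_four hκ hb h _ le_rfl) (by linarith))
  have hwr : wr u (sol b 0 1) (m + 1) = 1 := by
    rw [wr_const hu hw]; simp [wr, hu0]
  have hW0 := nv_nonneg (sol b 0 1) (m + 1)
  have hU0 := nv_nonneg u (m + 1)
  generalize sol b 0 1 = w at *
  have h1 : 1 ≤ κ ^ 200 * (κ ^ 1450) ^ m :=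
    one_le_mul_of_one_le_of_one_le (one_le_pow₀ hκ1) (one_le_pow₀ (one_le_pow₀ hκ1))
  have hB1 : |wr w q (m + 1)| ≤ 3 * (κ ^ 200 * (κ ^ 1450) ^ m) := by
    have := abs_sub_abs_le_abs_sub (wr w q (m + 1)) (wr w q 0)
    linarith
  have h2 : κ ^ 998 * (κ ^ 999) ^ m ≤ 4 * nv w (m + 1) := by
    refine le_of_mul_le_mul_left (le_trans (le_of_eq ?_) hW) (show 0 < κ by linarith)
    ring
  have h3 : 4800 * (κ ^ 200 * (κ ^ 1450) ^ m) ≤ (κ ^ 998 * (κ ^ 999) ^ m) ^ 2 := by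
    calc _ ≤ (κ ^ 1796 * (κ ^ 548) ^ m) * (κ ^ 200 * (κ ^ 1450) ^ m) := by
          gcongr
          have e1 : κ ^ 2 ≤ κ ^ 1796 := pow_le_pow_right₀ hκ1 (by norm_num)
          have e2 : 4800 ≤ κ ^ 2 := by nlinarith
          exact (e2.trans e1).trans
            (le_mul_of_one_le_right (by positivity) (one_le_pow₀ (one_le_pow₀ hκ1)))
      _ = _ := by ring
  have h4 : (κ ^ 998 * (κ ^ 999) ^ m) ^ 2 ≤ (4 * nv w (m + 1)) ^ 2 := by gcongr
  have h5 : |wr w q (m + 1)| ≤ nv w (m + 1) ^ 2 / 100 := by nlinarith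
  have h6 : |wr w q (m + 1)| * nv u (m + 1) ≤ nv w (m + 1) / 100 := by
    calc _ ≤ nv w (m + 1) ^ 2 / 100 * nv u (m + 1) := by gcongr
      _ = nv w (m + 1) / 100 * (nv u (m + 1) * nv w (m + 1)) := by ring
      _ ≤ _ := mul_le_of_le_one_right (by positivity) huw
  have e1 : q (m + 1) = wr u q (m + 1) * w (m + 1) + -wr w q (m + 1) * u (m + 1) := by
    simp only [wr] at hwr ⊢
    linear_combination (-q (m + 1)) * hwr
  have e2 : q (m + 1 + 1) =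
      wr u q (m + 1) * w (m + 1 + 1) + -wr w q (m + 1) * u (m + 1 + 1) := by
    simp only [wr] at hwr ⊢
    linear_combination (-q (m + 1 + 1)) * hwr
  have h7 : nv q (m + 1) ≤ |wr u q (m + 1)| * nv w (m + 1) + |wr w q (m + 1)| * nv u (m + 1) := by
    have := nv_lin_le w u (wr u q (m + 1)) (-wr w q (m + 1)) (m + 1)
    rw [abs_neg] at this
    refine le_trans (le_of_eq ?_) this
    simp only [nv]
    rw [← e1, ← e2]
  have h8 : |wr u q (m + 1)| * nv w (m + 1) ≤ nv q (m + 1) + |wr w q (m + 1)| * nv u (m + 1) := by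
    have := nv_lin_le q u 1 (wr w q (m + 1)) (m + 1)
    rw [abs_one, one_mul] at this
    refine le_trans (le_of_eq ?_) this
    have f1 : 1 * q (m + 1) + wr w q (m + 1) * u (m + 1) = wr u q (m + 1) * w (m + 1) := by
      linarith
    have f2 : 1 * q (m + 1 + 1) + wr w q (m + 1) * u (m + 1 + 1) =
        wr u q (m + 1) * w (m + 1 + 1) := by
      linarith
    simp only [nv]
    rw [f1, f2, abs_mul, abs_mul, mul_max_of_nonneg _ _ (abs_nonneg _)]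
  have h9 := abs_sub_abs_le_abs_sub (wr u q (m + 1)) (wr u q 0)
  have h10 := abs_sub_abs_le_abs_sub (wr u q 0) (wr u q (m + 1))
  rw [abs_sub_comm] at h10
  constructor <;> nlinarith

/-- Recipe (`n = 0` trivial): `w = sol b 0 1`, `u` from `riccati` with horizon `n`, `wr u w 0 = 1`.
For a solution `q` of `b'` with `nv q 0 ≤ 1` put `A j = wr u q j`, `B j = - wr w q j`; then
`q i = A n * w i + B n * u i` for `i = n, n+1` (linear algebra, `wr u w n = 1`).  By `wr_succ`,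
`A n - A 0 = ∑_{1 ≤ j ≤ n} (b' j - b j) u j q j` with `|u j| ≤ κ^(-990 j)`,
`|q j| ≤ nv q (j-1) ≤ κ^(1000 (j-1))`, so `|A n - A 0| ≤ 2 / κ^790 ≤ 1/100`; similarly
`|B n - B 0| ≤ ∑ κ^750 κ^(-550 j) κ^(2000 (j-1)) ≤ 2 κ^(1450 n) / κ^1250`, and
`nv u n ≤ 1 / nv w n`, `nv w n ≥ κ^(999 n) / (4 κ)`, so `|B n| * nv u n ≤ nv w n / 100`.
`q = sol b' 0 1` (`A 0 = 1`, `B 0 = 0`): `‖tr b' n‖ ≥ nv q n ≥ nv w n / 2 ≥ ‖tr b n‖ / 8`.
General `q` (`|A 0| ≤ 2`, `|B 0| ≤ 1`): `nv q n ≤ 3 nv w n ≤ 3 ‖tr b n‖` (`norm_tr_le_of`,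
scale `q`, or use `norm_tr_le_basis`). -/
theorem distort {κ : ℝ} (hκ : 1000 ≤ κ) {b b' : ℕ → ℝ} (hb : Bd (κ ^ 1000) b)
    (hb' : Bd (κ ^ 1000) b') {n : ℕ} (h : WG κ b n)
    (hd : ∀ j, 1 ≤ j → j ≤ n → |b' j - b j| * κ ^ (550 * j) ≤ κ ^ 750) :
    ‖tr b n‖ ≤ 8 * ‖tr b' n‖ ∧ ‖tr b' n‖ ≤ 8 * ‖tr b n‖ := by
  rcases n with _ | m
  · have := norm_nonneg (ContinuousLinearMap.id ℝ (ℝ × ℝ))
    simp only [tr_zero]
    constructor <;> linarith
  have hκ1 : 1 ≤ κ := by linarith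
  obtain ⟨u, hu, hu0, -, hun, huw⟩ := riccati hκ hb h
  have hu1 : nv u 0 ≤ 1 := by
    refine max_le ?_ (by simp [hu0])
    refine (abs_le_nv u 1).trans (le_trans ?_ (hun 1 le_rfl (by omega)))
    exact le_mul_of_one_le_right (nv_nonneg _ _) (one_le_pow₀ hκ1)
  have h10 : nv (sol b' 1 0) 0 ≤ 1 := by simp [nv]
  obtain ⟨a1, a2⟩ := dist_key hκ hb hb' h hu hu0 hun huw (isSol_sol b' 0 1)
    (nv_basis_zero b').le hd
  obtain ⟨-, a3⟩ := dist_key hκ hb hb' h hu hu0 hun huw (isSol_sol b' 1 0) h10 hd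
  have e1 : |wr u (sol b' 0 1) 0| = 1 := by simp [wr, hu0]
  have e2 : |wr u (sol b' 1 0) 0| ≤ 2 := by
    have := abs_wr_le u (sol b' 1 0) 0
    have h2 : nv u 0 * nv (sol b' 1 0) 0 ≤ 1 := mul_le_one₀ hu1 (nv_nonneg _ _) h10
    linarith
  have h1 := norm_tr_le_four hκ hb h _ le_rfl
  have h2 := nv_le_norm_tr (isSol_sol b' 0 1) (m + 1)
  have h3 := nv_le_norm_tr (isSol_sol b 0 1) (m + 1)
  rw [nv_basis_zero, mul_one] at h2 h3
  have h4 := norm_tr_le_basis b' (m + 1)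
  have h5 := nv_nonneg (sol b 0 1) (m + 1)
  rw [e1] at a1 a2
  have h6 : (|wr u (sol b' 1 0) 0| + 1 / 50) * nv (sol b 0 1) (m + 1) ≤
      (2 + 1 / 50) * nv (sol b 0 1) (m + 1) := by gcongr
  constructor <;> linarith


end Crest.Agent.R128
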