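import Crest.Agent.R128.Basic

/-! Row 128: dyadic covering and the dyadic martingale estimate. -/

set_option autoImplicit false

namespace Crest.Agent.R128

open Real MeasureTheory Set

theorem volume_dy (n : ℕ) (j : ℤ) : volume (dy n j) = ENNReal.ofReal (1 / 2 ^ n) := by
  rw [dy, Real.volume_Ico]
  congr 1
  ring

theorem dy_eq_union (n : ℕ) (j : ℤ) : dy n j = dy (n + 1) (2 * j) ∪ dy (n + 1) (2 * j + 1) := by
  have h : (0 : ℝ) < 2 ^ (n + 1) := by positivity
  unfold dy
  push_cast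
  rw [Ico_union_Ico_eq_Ico (by gcongr; linarith) (by gcongr; linarith)]
  congr 1 <;> ring

theorem cell_mono {n n' : ℕ} (h : n ≤ n') (s : ℝ) : cell n' s ⊆ cell n s := by
  induction n', h using Nat.le_induction with
  | base => exact Subset.rfl
  | succ k _ ih =>
    refine Subset.trans ?_ ih
    have h := mem_cell k s
    rw [cell, dy_eq_union] at h
    rw [show cell k s = _ from dy_eq_union k _]
    rcases h with h | h <;> rw [cell_eq_of_mem h]
    exacts [subset_union_left, subset_union_right]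

theorem measurableSet_dy (n : ℕ) (j : ℤ) : MeasurableSet (dy n j) := measurableSet_Ico

theorem disjoint_dy (n : ℕ) (j : ℤ) : Disjoint (dy n (2 * j)) (dy n (2 * j + 1)) :=
  Set.disjoint_left.2 fun _ h h' => by
    have := (mem_dy_iff.1 h).symm.trans (mem_dy_iff.1 h')
    omega

/-- `sat n E` is a union of cells of every finer level. -/
theorem mem_sat_of_dy {n n' : ℕ} (h : n ≤ n') {E : Set ℝ} {j : ℤ} {s t : ℝ} (hs : s ∈ dy n' j)
    (ht : t ∈ dy n' j) (hE : s ∈ sat n E) : t ∈ sat n E := by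
  obtain ⟨x, hx, hs'⟩ := mem_iUnion₂.1 hE
  refine mem_iUnion₂.2 ⟨x, hx, ?_⟩
  rw [← cell_eq_of_mem hs] at ht
  have := cell_mono h s ht
  rwa [cell_eq_of_mem hs'] at this

/-- Recipe: induction on `nf - n` (for all `j`).  If some `s ∈ E ∩ dy n j` works with `n' = n` we
are done (`cell_eq_of_mem`, `volume_dy`).  Otherwise, for `n < nf` apply the induction hypothesis to
the two halves (`dy_eq_union`, disjoint measurable sets); for `n = nf` either `E ∩ dy n j = ∅`, and
then `sat nf E` misses `dy n j`, or `G ∩ dy n j = ∅`. -/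
theorem dy_cover {c : ℝ} (hc0 : 0 ≤ c) (hc1 : c ≤ 1) {E G : Set ℝ} (hG : MeasurableSet G)
    {n nf : ℕ} (hn : n ≤ nf) (j : ℤ)
    (h : ∀ s ∈ E, s ∈ dy n j → (cell nf s ∩ G).Nonempty → ∃ n', n ≤ n' ∧ n' ≤ nf ∧
      ENNReal.ofReal (c / 2 ^ n') ≤ volume (cell n' s \ sat nf E)) :
    ENNReal.ofReal c * volume (G ∩ dy n j) ≤ volume (dy n j \ sat nf E) := by
  obtain ⟨k, hk⟩ : ∃ k, n + k = nf := ⟨nf - n, by omega⟩
  induction k generalizing n j with
  | zero =>
    obtain rfl : n = nf := by omega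
    by_cases hE : ∃ s ∈ E, s ∈ dy n j
    · obtain ⟨s, hs, hsj⟩ := hE
      rcases (G ∩ dy n j).eq_empty_or_nonempty with h0 | h0
      · rw [h0, measure_empty, mul_zero]
        exact zero_le
      · obtain ⟨n', h1, h2, h3⟩ := h s hs hsj (by rwa [cell_eq_of_mem hsj, inter_comm])
        obtain rfl : n' = n := le_antisymm h2 h1
        rw [cell_eq_of_mem hsj] at h3
        refine le_trans (mul_le_mul_right (measure_mono inter_subset_right) _) ?_
        rwa [volume_dy, ← ENNReal.ofReal_mul hc0, mul_one_div]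
    · refine (mul_le_of_le_one_left zero_le (ENNReal.ofReal_le_one.2 hc1)).trans
        (measure_mono fun t ht => ⟨ht.2, fun ht' => ?_⟩)
      obtain ⟨s, hs, hts⟩ := mem_iUnion₂.1 ht'
      exact hE ⟨s, hs, mem_dy_iff.2 ((mem_dy_iff.1 hts).symm.trans (mem_dy_iff.1 ht.2))⟩
  | succ k ih =>
    by_cases hA : ∃ s ∈ E, s ∈ dy n j ∧ ENNReal.ofReal (c / 2 ^ n) ≤ volume (cell n s \ sat nf E)
    · obtain ⟨s, -, hsj, h3⟩ := hA
      rw [cell_eq_of_mem hsj] at h3
      refine le_trans (mul_le_mul_right (measure_mono inter_subset_right) _) ?_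
      rwa [volume_dy, ← ENNReal.ofReal_mul hc0, mul_one_div]
    · have key : ∀ j', dy (n + 1) j' ⊆ dy n j → ENNReal.ofReal c * volume (G ∩ dy (n + 1) j') ≤
          volume (dy (n + 1) j' \ sat nf E) := by
        refine fun j' hj' => ih (by omega) j' (fun s hs hsj hne => ?_) (by omega)
        obtain ⟨n', h1, h2, h3⟩ := h s hs (hj' hsj) hne
        refine ⟨n', lt_of_le_of_ne h1 ?_, h2, h3⟩
        rintro rfl
        exact hA ⟨s, hs, hj' hsj, h3⟩
      have k1 := key (2 * j) (by rw [dy_eq_union n j]; exact subset_union_left)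
      have k2 := key (2 * j + 1) (by rw [dy_eq_union n j]; exact subset_union_right)
      rw [dy_eq_union n j, inter_union_distrib_left, union_sdiff_distrib,
        measure_union ((disjoint_dy _ _).mono sdiff_subset sdiff_subset)
          ((measurableSet_dy _ _).diff (measurableSet_sat _ _))]
      refine le_trans (mul_le_mul_right (measure_union_le _ _) _) ?_
      rw [mul_add]
      exact add_le_add k1 k2

theorem lintegral_le_of_dy {f g : ℝ → ENNReal} {n : ℕ}
    (h : ∀ j, ∫⁻ s in dy n j, f s ≤ ∫⁻ s in dy n j, g s) :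
    ∫⁻ s in Ico (0 : ℝ) 1, f s ≤ ∫⁻ s in Ico (0 : ℝ) 1, g s := by
  induction n with
  | zero => simpa [dy] using h 0
  | succ n ih =>
    refine ih fun j => ?_
    rw [dy_eq_union, lintegral_union (measurableSet_dy _ _) (disjoint_dy _ _),
      lintegral_union (measurableSet_dy _ _) (disjoint_dy _ _)]
    exact add_le_add (h _) (h _)

open Classical in
theorem lintegral_half_le {c : ℝ} (hc0 : 0 ≤ c) (hc1 : c ≤ 1) {F : Set ℝ} (hF : MeasurableSet F)
    {n : ℕ} {j : ℤ} (h : ENNReal.ofReal (c / 2 ^ n) ≤ volume (dy n j \ F)) :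
    ∫⁻ s in dy n j, (if s ∈ F then 1 else 2⁻¹) ≤ ENNReal.ofReal (1 - c / 2) * volume (dy n j) := by
  rw [← lintegral_inter_add_sdiff _ _ hF,
    setLIntegral_congr_fun ((measurableSet_dy n j).inter hF) (g := fun _ => 1)
      fun s hs => if_pos hs.2,
    setLIntegral_congr_fun ((measurableSet_dy n j).diff hF) (g := fun _ => 2⁻¹)
      fun s hs => if_neg hs.2, setLIntegral_const, setLIntegral_const, one_mul, volume_dy,
    ← ENNReal.ofReal_mul (by linarith),
    show (1 - c / 2) * (1 / 2 ^ n) = 1 / 2 ^ n - 2⁻¹ * (c / 2 ^ n) by ring,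
    ENNReal.ofReal_sub _ (by positivity)]
  refine ENNReal.le_sub_of_add_le_right ENNReal.ofReal_ne_top ?_
  rw [← volume_dy n j, ← measure_inter_add_sdiff (dy n j) hF, add_assoc,
    ENNReal.ofReal_mul (by norm_num), ENNReal.ofReal_inv_of_pos two_pos, ENNReal.ofReal_ofNat]
  gcongr
  refine (add_le_add le_rfl (mul_le_mul_right h _)).trans_eq ?_
  rw [← add_mul, ENNReal.inv_two_add_inv_two, one_mul]

/-- Recipe: `F i = sat (ns (i+1)) (E i)` is a union of cells of level `ns (i+1)`.  Let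
`g m s = ∏_{i<m} (if s ∈ F i then 1 else 1/2)` (constant on the cells of level `ns m`).  Induction:
`∫_{[0,1)} g (m+1) = ∑_{cells D of level ns m} g m (D) ∫_D (…) ≤ (1 - c/2) ∫ g m`
(`[0,1)` is the disjoint union of `dy n j`, `0 ≤ j < 2^n`).  On the set `g m ≥ 2^(-c m/4)`; Markov
and `(1 - c/2)^m 2^(c m/4) ≤ exp (-c m/2 + c m/4)`. -/
theorem dy_martingale {c : ℝ} (hc0 : 0 < c) (hc1 : c ≤ 1) (ns m : ℕ) (E : ℕ → Set ℝ)
    (h : ∀ i < m, ∀ j : ℤ, ENNReal.ofReal (c / 2 ^ (ns * i)) ≤
      volume (dy (ns * i) j \ sat (ns * (i + 1)) (E i))) :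
    volume {s ∈ Ico (0 : ℝ) 1 |
      ∑ i ∈ Finset.range m, ind (s ∉ sat (ns * (i + 1)) (E i)) ≤ c * m / 4} ≤
        ENNReal.ofReal (exp (-(c * m / 4))) := by
  classical
  set g : ℕ → ℝ → ENNReal := fun k s =>
    ∏ i ∈ Finset.range k, if s ∈ sat (ns * (i + 1)) (E i) then 1 else 2⁻¹ with hg
  have hφ : ∀ i, Measurable fun s => if s ∈ sat (ns * (i + 1)) (E i) then (1 : ENNReal) else 2⁻¹ :=
    fun i => Measurable.ite (measurableSet_sat _ _) measurable_const measurable_const
  have hgm : ∀ k, Measurable (g k) := fun k => Finset.measurable_prod _ fun i _ => hφ i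
  have hint : ∀ k ≤ m, ∫⁻ s in Ico (0 : ℝ) 1, g k s ≤ ENNReal.ofReal (1 - c / 2) ^ k := by
    intro k
    induction k with
    | zero => intro _; simp [hg]
    | succ k ih =>
      intro hk
      refine le_trans (lintegral_le_of_dy (n := ns * k)
        (g := fun s => ENNReal.ofReal (1 - c / 2) * g k s) fun j => ?_) ?_
      · obtain ⟨s₀, hs₀⟩ : (dy (ns * k) j).Nonempty :=
          nonempty_Ico.2 (div_lt_div_of_pos_right (lt_add_one _) (by positivity))
        have hc : ∀ s ∈ dy (ns * k) j, g k s = g k s₀ := fun s hs =>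
          Finset.prod_congr rfl fun i hi => by
            have hi' : ns * (i + 1) ≤ ns * k := Nat.mul_le_mul_left _ (Finset.mem_range.1 hi)
            exact if_congr ⟨mem_sat_of_dy hi' hs hs₀, mem_sat_of_dy hi' hs₀ hs⟩ rfl rfl
        rw [setLIntegral_congr_fun (measurableSet_dy _ j) (g := fun s =>
            g k s₀ * if s ∈ sat (ns * (k + 1)) (E k) then 1 else 2⁻¹)
            fun s hs => by rw [← hc s hs]; exact Finset.prod_range_succ _ _,
          setLIntegral_congr_fun (measurableSet_dy _ j)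
            (f := fun s => ENNReal.ofReal (1 - c / 2) * g k s)
            (g := fun _ => ENNReal.ofReal (1 - c / 2) * g k s₀) fun s hs => by rw [← hc s hs],
          lintegral_const_mul _ (hφ k), setLIntegral_const, mul_comm (ENNReal.ofReal _), mul_assoc]
        exact mul_le_mul_right (lintegral_half_le hc0.le hc1 (measurableSet_sat _ _) (h k hk j)) _
      · rw [lintegral_const_mul _ (hgm k), pow_succ']
        exact mul_le_mul_right (ih (by omega)) _
  set ε := ENNReal.ofReal (exp (-(c * m / 4))) with hε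
  have hM := mul_meas_ge_le_lintegral₀ (μ := volume.restrict (Ico (0 : ℝ) 1))
    (hgm m).aemeasurable ε
  rw [Measure.restrict_apply' measurableSet_Ico] at hM
  have hsub : {s ∈ Ico (0 : ℝ) 1 |
      ∑ i ∈ Finset.range m, ind (s ∉ sat (ns * (i + 1)) (E i)) ≤ c * m / 4} ⊆
      {s | ε ≤ g m s} ∩ Ico 0 1 := by
    refine fun s hs => ⟨?_, hs.1⟩
    refine le_trans (ENNReal.ofReal_le_ofReal (exp_le_exp.2 (neg_le_neg hs.2))) ?_
    rw [← Finset.sum_neg_distrib, exp_sum, ENNReal.ofReal_prod_of_nonneg fun _ _ => (exp_pos _).le]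
    refine Finset.prod_le_prod' fun i _ => ?_
    split_ifs with hi
    · rw [ind_neg (not_not.2 hi), neg_zero, exp_zero, ENNReal.ofReal_one]
    · rw [ind_pos hi, ← ENNReal.ofReal_ofNat, ← ENNReal.ofReal_inv_of_pos two_pos, exp_neg]
      refine ENNReal.ofReal_le_ofReal (inv_anti₀ two_pos ?_)
      linarith [add_one_le_exp (1 : ℝ)]
  have h1 : ENNReal.ofReal (1 - c / 2) ^ m ≤ ε * ε := by
    rw [← ENNReal.ofReal_mul (exp_pos _).le, ← exp_add, ← ENNReal.ofReal_pow (by linarith),
      show -(c * m / 4) + -(c * m / 4) = m * -(c / 2) by ring, exp_nat_mul]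
    refine ENNReal.ofReal_le_ofReal (pow_le_pow_left₀ (by linarith) ?_ _)
    linarith [add_one_le_exp (-(c / 2))]
  exact (ENNReal.mul_le_mul_iff_right (ENNReal.ofReal_pos.2 (exp_pos _)).ne' ENNReal.ofReal_ne_top).1
    ((mul_le_mul_right (measure_mono hsub) _).trans (hM.trans ((hint m le_rfl).trans h1)))

end Crest.Agent.R128
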