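import Crest.Agent.R128.RealS
import Crest.Agent.R128.Cauchy

/-! Row 128: complex envelopes of a line of orbits. -/

set_option autoImplicit false

namespace Crest.Agent.R128

open Real

theorem Side.xc_succ (S : Side) (k : ℝ) (z : ℂ) (j : ℕ) : S.xc k z (j + 2) =
    2 * S.xc k z (j + 1) + k * Complex.sin (2 * π * S.xc k z (j + 1)) - S.xc k z j := rfl

theorem Side.env_x_succ (S : Side) (k s : ℝ) (j : ℕ) :
    S.x k s (j + 2) = ph k (S.x k s (j + 1)) - S.x k s j := rfl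

theorem Side.w_succ (S : Side) (k s : ℝ) (j : ℕ) :
    S.w k s (j + 2) = ac k (S.x k s (j + 1)) * S.w k s (j + 1) - S.w k s j := rfl

theorem Side.differentiable_xc (S : Side) (k : ℝ) (j : ℕ) :
    Differentiable ℂ fun z => S.xc k z j := by
  induction j using Nat.twoStepInduction with
  | zero => show Differentiable ℂ fun z : ℂ => (S.y0 : ℂ) + z * S.w0; fun_prop
  | one => show Differentiable ℂ fun z : ℂ => (S.y1 : ℂ) + z * S.w1; fun_prop
  | more j h0 h1 =>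
    simp only [Side.xc_succ]
    fun_prop

/-- two-step induction; `ac` is the derivative of `ph` -/
theorem Side.hasDerivAt_xc (S : Side) (k s : ℝ) (j : ℕ) :
    HasDerivAt (fun z => S.xc k z j) (S.w k s j : ℂ) (s : ℂ) := by
  induction j using Nat.twoStepInduction with
  | zero =>
    show HasDerivAt (fun z : ℂ => (S.y0 : ℂ) + z * S.w0) (S.w0 : ℂ) _
    exact (hasDerivAt_mul_const _).const_add _
  | one =>
    show HasDerivAt (fun z : ℂ => (S.y1 : ℂ) + z * S.w1) (S.w1 : ℂ) _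
    exact (hasDerivAt_mul_const _).const_add _
  | more j h0 h1 =>
    simp only [Side.xc_succ]
    refine (((h1.const_mul 2).fun_add
      (((h1.const_mul (2 * π : ℂ)).csin).const_mul (k : ℂ))).fun_sub h0).congr_deriv ?_
    rw [S.w_succ, S.xc_ofReal, ac]
    push_cast
    ring

theorem Side.hasDerivAt_x (S : Side) (k s : ℝ) (j : ℕ) :
    HasDerivAt (fun s => S.x k s j) (S.w k s j) s := by
  have := (S.hasDerivAt_xc k s j).real_of_complex
  simpa only [Side.xc_ofReal, Complex.ofReal_re] using this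

/-- derivative of an orbit along a curve of initial data -/
theorem hasDerivAt_ro (k : ℝ) {x0 x1 : ℝ → ℝ} {d0 d1 t : ℝ} (h0 : HasDerivAt x0 d0 t)
    (h1 : HasDerivAt x1 d1 t) (j : ℕ) :
    HasDerivAt (fun t => ro k (x0 t) (x1 t) j) (sol (rb k (x0 t) (x1 t)) d0 d1 j) t := by
  induction j using Nat.twoStepInduction with
  | zero => exact h0
  | one => exact h1
  | more j g0 g1 =>
    simp only [ro_succ, ph]
    refine (((g1.const_mul 2).fun_add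
      (((g1.const_mul (2 * π)).sin).const_mul k)).fun_sub g0).congr_deriv ?_
    rw [isSol_sol _ _ _ j]
    simp only [rb, ac]
    ring

theorem env_pow {κ c : ℝ} (hκ : 1000 ≤ κ) (hc : c ≤ 1000) {a b : ℕ} (h : a < b) :
    c * κ ^ a ≤ κ ^ b := by
  have hκ1 : 1 ≤ κ := by linarith
  calc c * κ ^ a ≤ κ * κ ^ a := by gcongr; linarith
    _ = κ ^ (a + 1) := by ring
    _ ≤ κ ^ b := pow_le_pow_right₀ hκ1 h

theorem env_dev_aux {u τ : ℂ} {w μ A Λ : ℝ} (hμ : 0 < μ) (hA : 0 < A)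
    (h1 : ‖u - τ * w‖ * (μ * A ^ 2) ≤ (‖τ‖ * Λ) ^ 2) (h2 : |w| * A ≤ Λ)
    (h3 : ‖τ‖ * Λ ≤ μ * A) : ‖u‖ * A ≤ 2 * (‖τ‖ * Λ) := by
  have h4 := mul_le_mul_of_nonneg_left h2 (norm_nonneg τ)
  have h5 : 0 ≤ ‖τ‖ * Λ := le_trans (by positivity) h4
  have h6 : ‖u - τ * w‖ * A ≤ ‖τ‖ * Λ := by
    refine le_of_mul_le_mul_right ?_ (mul_pos hμ hA)
    calc ‖u - τ * w‖ * A * (μ * A) = ‖u - τ * w‖ * (μ * A ^ 2) := by ring
      _ ≤ (‖τ‖ * Λ) ^ 2 := h1
      _ ≤ ‖τ‖ * Λ * (μ * A) := by rw [sq]; gcongr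
  have h7 : ‖u‖ ≤ ‖u - τ * w‖ + ‖τ‖ * |w| := by
    rw [← Real.norm_eq_abs, ← Complex.norm_real, ← norm_mul]
    exact norm_le_norm_sub_add _ _
  have := mul_le_mul_of_nonneg_right h7 hA.le
  linarith

theorem env_arith {K μ L B A θ a0 a1 a2 d : ℝ} (hK : 1 ≤ K) (hμ : 0 < μ) (hL0 : 0 < L)
    (e : A ^ 2 = L * B) (hL : K + 28 * K * μ ≤ L) (hd0 : 0 ≤ d * A)
    (h0 : a0 * (μ * A ^ 2) ≤ θ ^ 2) (h1 : a1 * (μ * A ^ 2) ≤ θ ^ 2) (hd : d * A ≤ 2 * θ)
    (hr : a2 ≤ (K - 1) * a1 + a0 + 7 * K * d ^ 2) : a2 * (μ * B) ≤ θ ^ 2 := by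
  refine le_of_mul_le_mul_left ?_ hL0
  have h2 : (d * A) ^ 2 ≤ (2 * θ) ^ 2 := pow_le_pow_left₀ hd0 hd 2
  calc L * (a2 * (μ * B)) = a2 * (μ * A ^ 2) := by rw [e]; ring
    _ ≤ ((K - 1) * a1 + a0 + 7 * K * d ^ 2) * (μ * A ^ 2) := by gcongr
    _ = (K - 1) * (a1 * (μ * A ^ 2)) + a0 * (μ * A ^ 2) + 7 * K * μ * (d * A) ^ 2 := by ring
    _ ≤ (K - 1) * θ ^ 2 + θ ^ 2 + 7 * K * μ * (2 * θ) ^ 2 := by
      have : 0 ≤ K - 1 := by linarith
      gcongr
    _ = (K + 28 * K * μ) * θ ^ 2 := by ring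
    _ ≤ L * θ ^ 2 := by gcongr

theorem Side.env_rec {K k : ℝ} (hk : 0 ≤ k) (hK : K = 2 * π * k + 3) (hk2 : 2 * π * k ≤ K)
    (S : Side) (s0 : ℝ) (z : ℂ) (j : ℕ) (hd : ‖S.xc k z (j + 1) - S.x k s0 (j + 1)‖ ≤ 1 / 7) :
    ‖S.xc k z (j + 2) - S.x k s0 (j + 2) - (z - s0) * S.w k s0 (j + 2)‖ ≤
      (K - 1) * ‖S.xc k z (j + 1) - S.x k s0 (j + 1) - (z - s0) * S.w k s0 (j + 1)‖ +
        ‖S.xc k z j - S.x k s0 j - (z - s0) * S.w k s0 j‖ +
        7 * K * ‖S.xc k z (j + 1) - S.x k s0 (j + 1)‖ ^ 2 := by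
  rw [S.xc_succ, S.env_x_succ, S.w_succ]
  have hb := abs_ac_le hk hK (S.x k s0 (j + 1))
  generalize S.x k s0 (j + 1) = x1 at *
  generalize S.xc k z (j + 1) = y1 at *
  have hπ : π ≤ 7 / 2 := by linarith [pi_lt_d2]
  have hn : ‖(2 * π * (y1 - x1) : ℂ)‖ = 2 * π * ‖y1 - x1‖ := by
    rw [norm_mul, norm_mul, Complex.norm_real, Real.norm_eq_abs, abs_of_pos pi_pos]; simp
  have ht := csin_taylor (2 * π * x1) (h := 2 * π * (y1 - x1)) (by
    rw [hn]; nlinarith [norm_nonneg (y1 - x1), pi_pos])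
  have e : 2 * y1 + k * Complex.sin (2 * π * y1) - S.xc k z j - (ph k x1 - S.x k s0 j : ℝ) -
      (z - s0) * (ac k x1 * S.w k s0 (j + 1) - S.w k s0 j : ℝ) =
      (ac k x1 : ℝ) * (y1 - x1 - (z - s0) * S.w k s0 (j + 1)) -
        (S.xc k z j - S.x k s0 j - (z - s0) * S.w k s0 j) +
        k * (Complex.sin ((2 * π * x1 : ℝ) + 2 * π * (y1 - x1)) - Complex.sin (2 * π * x1 : ℝ) -
          2 * π * (y1 - x1) * Complex.cos (2 * π * x1 : ℝ)) := by
    have : ((2 * π * x1 : ℝ) : ℂ) + 2 * π * (y1 - x1) = 2 * π * y1 := by push_cast; ring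
    rw [this, ph, ac]
    push_cast
    ring
  rw [e]
  refine (norm_add_le _ _).trans (add_le_add ((norm_sub_le _ _).trans ?_) ?_)
  · rw [norm_mul, Complex.norm_real, Real.norm_eq_abs]
    gcongr
    linarith
  · rw [norm_mul, Complex.norm_real, Real.norm_eq_abs, abs_of_nonneg hk]
    rw [hn] at ht
    calc _ ≤ k * (2 * π * ‖y1 - x1‖) ^ 2 := by gcongr
      _ = 2 * π * (2 * π * k) * ‖y1 - x1‖ ^ 2 := by ring
      _ ≤ 7 * K * ‖y1 - x1‖ ^ 2 := by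
        gcongr
        linarith

/-- The envelope estimate.  Recipe: `τ = z - s0`, `θ = ‖τ‖ Λ`, `λ = κ^990`, `δ i = xc z i - x s0 i`,
`r i = δ i - τ w i`; `r 0 = r 1 = 0`, `r (i+2) = b (i+1) r (i+1) - r i + N (i+1)` with
`N i = k (sin (2π (x + δ)) - sin (2π x) - 2π δ cos (2π x))`, `‖N i‖ ≤ 4π² k ‖δ i‖² ≤ 7 K ‖δ i‖²` when
`‖2π δ i‖ ≤ 1` (`csin_taylor`, `k_facts`).  Induct on `i` (for all `i` with `i + 1 ≤ i0`) on
`max ‖r (i+1)‖ ‖r i‖ ≤ θ² / (κ^970 λ^(2 (J - i - 1)))`; in the step `‖δ (i+1)‖ ≤ 2 θ / λ^(J-i-1) ≤ 1/7`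
and `K / λ² ≤ 1/2`, `28 K / λ² ≤ 1 / (2 κ^970)`. -/
theorem Side.env {κ k : ℝ} (hκ : 1000 ≤ κ) (hK : κ ^ 1000 = 2 * π * k + 3) (S : Side) (s0 : ℝ)
    {J : ℕ} {Λ : ℝ} (hw : ∀ i, 1 ≤ i → i ≤ J → |S.w k s0 i| * κ ^ (990 * (J - i)) ≤ Λ)
    {i : ℕ} (hi : i ≤ J) {z : ℂ} (hz : 14 * (‖z - s0‖ * Λ) ≤ κ ^ (990 * (J - i + 1))) :
    ‖S.xc k z i - S.x k s0 i - (z - s0) * S.w k s0 i‖ * (κ ^ 970 * κ ^ (1980 * (J - i))) ≤
      (‖z - s0‖ * Λ) ^ 2 := by
  have hκ1 : 1 ≤ κ := by linarith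
  obtain ⟨hk1, hk2, -⟩ := k_facts hκ hK
  have key : ∀ j, j ≤ i → ‖S.xc k z j - S.x k s0 j - (z - s0) * S.w k s0 j‖ *
      (κ ^ 970 * κ ^ (1980 * (J - j))) ≤ (‖z - s0‖ * Λ) ^ 2 := by
    intro j
    induction j using Nat.twoStepInduction with
    | zero =>
      intro _
      have : S.xc k z 0 - S.x k s0 0 - (z - s0) * S.w k s0 0 = 0 := by
        show (S.y0 : ℂ) + z * S.w0 - (S.y0 + s0 * S.w0 : ℝ) - (z - s0) * (S.w0 : ℝ) = 0
        push_cast; ring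
      rw [this, norm_zero, zero_mul]; positivity
    | one =>
      intro _
      have : S.xc k z 1 - S.x k s0 1 - (z - s0) * S.w k s0 1 = 0 := by
        show (S.y1 : ℂ) + z * S.w1 - (S.y1 + s0 * S.w1 : ℝ) - (z - s0) * (S.w1 : ℝ) = 0
        push_cast; ring
      rw [this, norm_zero, zero_mul]; positivity
    | more j h0 h1 =>
      intro hj
      obtain ⟨m, hm⟩ : ∃ m, J = j + 2 + m := ⟨J - (j + 2), by omega⟩
      have h0 := h0 (by omega)
      have h1 := h1 (by omega)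
      have h2 := hw (j + 1) (by omega) (by omega)
      have hz' : 14 * (‖z - s0‖ * Λ) ≤ κ ^ (990 * (m + 1)) :=
        hz.trans (pow_le_pow_right₀ hκ1 (by omega))
      have e1 : J - (j + 1) = m + 1 := by omega
      have e2 : J - (j + 2) = m := by omega
      rw [e1] at h1 h2
      rw [e2]
      have e3 : κ ^ (1980 * (m + 1)) = (κ ^ (990 * (m + 1))) ^ 2 := by
        rw [← pow_mul]; exact congrArg _ (by omega)
      have e4 : (κ ^ (990 * (m + 1))) ^ 2 = κ ^ 1980 * κ ^ (1980 * m) := by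
        rw [← pow_mul, ← pow_add]; exact congrArg _ (by omega)
      have h0' : ‖S.xc k z j - S.x k s0 j - (z - s0) * S.w k s0 j‖ *
          (κ ^ 970 * (κ ^ (990 * (m + 1))) ^ 2) ≤ (‖z - s0‖ * Λ) ^ 2 := by
        refine le_trans ?_ h0
        rw [← e3]
        gcongr
        omega
      rw [e3] at h1
      have hd : ‖S.xc k z (j + 1) - S.x k s0 (j + 1)‖ * κ ^ (990 * (m + 1)) ≤
          2 * (‖z - s0‖ * Λ) := env_dev_aux (by positivity) (by positivity) h1 h2 (by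
        have : 0 ≤ ‖z - s0‖ * Λ := le_trans (by positivity)
          (mul_le_mul_of_nonneg_left h2 (norm_nonneg _))
        have := one_le_pow₀ (n := 970) hκ1
        nlinarith)
      have hA : 0 < κ ^ (990 * (m + 1)) := by positivity
      have hd7 : ‖S.xc k z (j + 1) - S.x k s0 (j + 1)‖ ≤ 1 / 7 :=
        le_of_mul_le_mul_right (by linarith) hA
      have hr := S.env_rec (by linarith) hK hk2 s0 z j hd7
      have hL : κ ^ 1000 + 28 * κ ^ 1000 * κ ^ 970 ≤ κ ^ 1980 := by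
        have a1 : κ ^ 1000 ≤ κ ^ 1970 := pow_le_pow_right₀ hκ1 (by norm_num)
        have a2 : κ ^ 1000 * κ ^ 970 = κ ^ 1970 := by rw [← pow_add]
        have a3 := env_pow hκ (c := 29) (a := 1970) (b := 1980) (by norm_num) (by norm_num)
        rw [mul_assoc, a2]; linarith
      exact env_arith (one_le_pow₀ hκ1) (by positivity) (by positivity) e4 hL (by positivity) h0' h1
        hd hr
  exact key i le_rfl

theorem Side.env_dev {κ k : ℝ} (hκ : 1000 ≤ κ) (hK : κ ^ 1000 = 2 * π * k + 3) (S : Side)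
    (s0 : ℝ) {J : ℕ} {Λ : ℝ} (hw : ∀ i, 1 ≤ i → i ≤ J → |S.w k s0 i| * κ ^ (990 * (J - i)) ≤ Λ)
    {i : ℕ} (hi1 : 1 ≤ i) (hi : i ≤ J) {z : ℂ}
    (hz : ‖z - s0‖ * Λ ≤ κ ^ (990 * (J - i) + 900)) :
    ‖S.xc k z i - S.x k s0 i‖ * κ ^ (990 * (J - i)) ≤ 2 * (‖z - s0‖ * Λ) := by
  have hκ1 : 1 ≤ κ := by linarith
  have h1 := S.env hκ hK s0 hw hi (z := z) (by
    have := env_pow hκ (c := 14) (a := 990 * (J - i) + 900) (b := 990 * (J - i + 1)) (by norm_num)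
      (by omega)
    linarith)
  have e3 : κ ^ (1980 * (J - i)) = (κ ^ (990 * (J - i))) ^ 2 := by
    rw [← pow_mul]; congr 1; ring
  rw [e3] at h1
  refine env_dev_aux (by positivity) (by positivity) h1 (hw i hi1 hi) (hz.trans ?_)
  rw [← pow_add]
  exact pow_le_pow_right₀ hκ1 (by omega)

theorem Side.env_deriv_aux {κ k : ℝ} (hκ : 1000 ≤ κ) (hK : κ ^ 1000 = 2 * π * k + 3) (S : Side)
    (s0 : ℝ) {J : ℕ} {Λ : ℝ} (hΛ : 0 < Λ)
    (hw : ∀ i, 1 ≤ i → i ≤ J → |S.w k s0 i| * κ ^ (990 * (J - i)) ≤ Λ) {i : ℕ} (hi : i ≤ J)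
    {z : ℂ} (hz : ‖z - s0‖ * Λ ≤ κ ^ 600) :
    ‖deriv (fun z => S.xc k z i) z - S.w k s0 i‖ * (κ ^ 300 * κ ^ (1980 * (J - i))) ≤ Λ := by
  have hκ1 : 1 ≤ κ := by linarith
  have hd := S.differentiable_xc k i
  have h := deriv_bound (f := fun z => S.xc k z i - (z - s0) * S.w k s0 i) (by fun_prop)
    (c := z) (b := S.x k s0 i) (r := κ ^ 600 / Λ)
    (B := (2 * κ ^ 600) ^ 2 / (κ ^ 970 * κ ^ (1980 * (J - i)))) (by positivity) (fun y hy => by
      rw [le_div_iff₀ hΛ] at hy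
      have h1 : ‖y - s0‖ * Λ ≤ 2 * κ ^ 600 := by
        have := mul_le_mul_of_nonneg_right (norm_sub_le_norm_sub_add_norm_sub y z s0) hΛ.le
        linarith
      have h2 := S.env hκ hK s0 hw hi (z := y) (by
        have := env_pow hκ (c := 28) (a := 600) (b := 990 * (J - i + 1)) (by norm_num) (by omega)
        linarith)
      rw [le_div_iff₀ (by positivity), sub_right_comm]
      exact h2.trans (by gcongr))
  have e : deriv (fun z => S.xc k z i - (z - s0) * S.w k s0 i) z =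
      deriv (fun z => S.xc k z i) z - S.w k s0 i :=
    ((hd z).hasDerivAt.fun_sub
      (((hasDerivAt_id z).sub_const (s0 : ℂ)).mul_const (S.w k s0 i : ℂ))).deriv.trans (by simp)
  rw [e, le_div_iff₀ (by positivity), le_div_iff₀ (by positivity)] at h
  have a1 := env_pow hκ (c := 4) (a := 600 + 300) (b := 970) (by norm_num) (by norm_num)
  rw [pow_add] at a1
  have p1 : 0 < κ ^ 600 := by positivity
  have p2 : 0 < κ ^ 300 := by positivity
  have p3 : 0 < κ ^ (1980 * (J - i)) := by positivity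
  have p4 := norm_nonneg (deriv (fun z => S.xc k z i) z - S.w k s0 i)
  generalize ‖deriv (fun z => S.xc k z i) z - S.w k s0 i‖ = D at *
  generalize κ ^ 600 = p at *
  generalize κ ^ 300 = q at *
  generalize κ ^ 970 = r at *
  generalize κ ^ (1980 * (J - i)) = A at *
  have h3 : D * (p / Λ) * (4 * (p * q) * A) ≤ (2 * p) ^ 2 := le_trans (by gcongr) h
  have e2 : D * (p / Λ) * (4 * (p * q) * A) = D * (q * A) / Λ * (2 * p) ^ 2 := by ring
  rw [e2] at h3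
  exact (div_le_one hΛ).1 (le_of_mul_le_mul_right (by linarith) (by positivity : 0 < (2 * p) ^ 2))

/-- Recipe: `deriv_bound` for `z ↦ xc z i - x s0 i - (z - s0) w i` on the disc of radius
`κ^600 / Λ` around `z`: bound `4 κ^1200 / (κ^970 λ^(2(J-i)))`. -/
theorem Side.env_deriv {κ k : ℝ} (hκ : 1000 ≤ κ) (hK : κ ^ 1000 = 2 * π * k + 3) (S : Side)
    (s0 : ℝ) {J : ℕ} {Λ : ℝ} (hΛ : 0 < Λ)
    (hw : ∀ i, 1 ≤ i → i ≤ J → |S.w k s0 i| * κ ^ (990 * (J - i)) ≤ Λ) (hJ : 2 ≤ J) {z : ℂ}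
    (hz : ‖z - s0‖ * Λ ≤ κ ^ 600) :
    ‖deriv (fun z => S.xc k z J) z - S.w k s0 J‖ ≤ Λ / κ ^ 300 ∧
      ‖deriv (fun z => S.xc k z (J - 1)) z‖ ≤ Λ / κ ^ 900 := by
  have hκ1 : 1 ≤ κ := by linarith
  have h1 := S.env_deriv_aux hκ hK s0 hΛ hw le_rfl hz
  have h2 := S.env_deriv_aux hκ hK s0 hΛ hw (Nat.sub_le J 1) hz
  have h3 := hw (J - 1) (by omega) (Nat.sub_le J 1)
  have e : J - (J - 1) = 1 := by omega
  rw [e] at h2 h3
  rw [Nat.sub_self, mul_zero, pow_zero, mul_one] at h1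
  refine ⟨(le_div_iff₀ (by positivity)).2 h1, (le_div_iff₀ (by positivity)).2 ?_⟩
  have h4 : ‖deriv (fun z => S.xc k z (J - 1)) z‖ ≤
      ‖deriv (fun z => S.xc k z (J - 1)) z - S.w k s0 (J - 1)‖ + |S.w k s0 (J - 1)| := by
    rw [← Real.norm_eq_abs, ← Complex.norm_real]
    exact norm_le_norm_sub_add _ _
  have a1 := env_pow hκ (c := 2) (a := 900) (b := 990 * 1) (by norm_num) (by norm_num)
  have a2 := env_pow hκ (c := 2) (a := 900) (b := 300 + 1980 * 1) (by norm_num) (by norm_num)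
  rw [pow_add] at a2
  have b1 := mul_le_mul_of_nonneg_left a1 (abs_nonneg (S.w k s0 (J - 1)))
  have b2 := mul_le_mul_of_nonneg_left a2
    (norm_nonneg (deriv (fun z => S.xc k z (J - 1)) z - S.w k s0 (J - 1)))
  have b3 := mul_le_mul_of_nonneg_right h4 (by positivity : 0 ≤ κ ^ 900)
  generalize κ ^ 900 = p at *
  generalize κ ^ (990 * 1) = q at *
  generalize κ ^ 300 * κ ^ (1980 * 1) = r at *
  linarith

/-- the real form of `env_deriv` (`hasDerivAt_xc`) -/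
theorem Side.env_w {κ k : ℝ} (hκ : 1000 ≤ κ) (hK : κ ^ 1000 = 2 * π * k + 3) (S : Side)
    (s0 : ℝ) {J : ℕ} {Λ : ℝ} (hΛ : 0 < Λ)
    (hw : ∀ i, 1 ≤ i → i ≤ J → |S.w k s0 i| * κ ^ (990 * (J - i)) ≤ Λ) (hJ : 2 ≤ J) {s : ℝ}
    (hs : |s - s0| * Λ ≤ κ ^ 600) :
    |S.w k s J - S.w k s0 J| ≤ Λ / κ ^ 300 ∧ |S.w k s (J - 1)| ≤ Λ / κ ^ 900 := by
  have h := S.env_deriv hκ hK s0 hΛ hw hJ (z := s) (by
    rw [← Complex.ofReal_sub, Complex.norm_real]; exact hs)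
  rw [(S.hasDerivAt_xc k s J).deriv, (S.hasDerivAt_xc k s (J - 1)).deriv, ← Complex.ofReal_sub,
    Complex.norm_real, Complex.norm_real] at h
  exact h

/-- Recipe: `cubic_approx` for `z ↦ xc z J - x s0 J - (z - s0) w J` on the disc of radius
`κ^990 / (14 Λ)`, bound `M = κ^1980 / (196 κ^970)`. -/
theorem Side.env_cubic {κ k : ℝ} (hκ : 1000 ≤ κ) (hK : κ ^ 1000 = 2 * π * k + 3) (S : Side)
    (s0 : ℝ) {J : ℕ} {Λ : ℝ} (hΛ : 0 < Λ)
    (hw : ∀ i, 1 ≤ i → i ≤ J → |S.w k s0 i| * κ ^ (990 * (J - i)) ≤ Λ) :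
    ∃ c0 c1 c2 : ℂ, ∀ z : ℂ, ‖z - s0‖ * Λ ≤ 100 →
      ‖S.xc k z J - (c0 + c1 * z + c2 * z ^ 2)‖ ≤ 1 / κ ^ 1900 := by
  have hκ1 : 1 ≤ κ := by linarith
  have hR : 0 < κ ^ 990 / (14 * Λ) := by positivity
  have hd := S.differentiable_xc k J
  obtain ⟨c0, c1, c2, hc⟩ := cubic_approx
    (f := fun z => S.xc k z J - S.x k s0 J - (z - s0) * S.w k s0 J) (c := s0)
    (M := κ ^ 1010 / 196) hR (Differentiable.differentiableOn (by fun_prop)) (fun z hz => by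
      rw [mem_ball_iff_norm, lt_div_iff₀ (by positivity)] at hz
      have h1 := S.env hκ hK s0 hw le_rfl (z := z) (by
        rw [Nat.sub_self, zero_add, mul_one]; linarith)
      rw [Nat.sub_self, mul_zero, pow_zero, mul_one] at h1
      have h2 : (‖z - s0‖ * Λ) ^ 2 ≤ (κ ^ 990 / 14) ^ 2 := by
        gcongr; linarith
      have e : (κ ^ 990 / 14) ^ 2 = κ ^ 1010 / 196 * κ ^ 970 := by
        rw [div_pow, ← pow_mul, div_mul_eq_mul_div, ← pow_add]; norm_num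
      exact le_of_mul_le_mul_right (h1.trans (h2.trans_eq e)) (by positivity))
  refine ⟨c0 - c1 * s0 + c2 * s0 ^ 2 + S.x k s0 J - s0 * S.w k s0 J,
    c1 - 2 * c2 * s0 + S.w k s0 J, c2, fun z hz => ?_⟩
  have a1 := env_pow hκ (c := 1000) (a := 1) (b := 990) le_rfl (by norm_num)
  have h1 := hc z (by
    rw [mem_ball_iff_norm, lt_div_iff₀ (by positivity)]
    rw [pow_one] at a1
    linarith)
  refine le_trans (le_of_eq ?_) (h1.trans ?_)
  · congr 1; ring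
  · have h2 : ‖z - s0‖ / (κ ^ 990 / (14 * Λ)) ≤ 1400 / κ ^ 990 := by
      rw [div_div_eq_mul_div]
      gcongr
      linarith
    have e1 : (κ ^ 990) ^ 3 = κ ^ 1010 * κ ^ 1900 * κ ^ 60 := by
      rw [← pow_mul, ← pow_add, ← pow_add]
    have a2 : (1000 : ℝ) ^ 3 ≤ κ ^ 60 :=
      (pow_le_pow_left₀ (by norm_num) hκ 3).trans (pow_le_pow_right₀ hκ1 (by norm_num))
    calc 8 * (κ ^ 1010 / 196) * (‖z - s0‖ / (κ ^ 990 / (14 * Λ))) ^ 3
        ≤ 8 * (κ ^ 1010 / 196) * (1400 / κ ^ 990) ^ 3 := by gcongr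
      _ ≤ 1 / κ ^ 1900 := by
        rw [div_pow, e1]
        have p1 : 0 < κ ^ 1010 := by positivity
        have p2 : 0 < κ ^ 1900 := by positivity
        generalize κ ^ 1010 = p at *
        generalize κ ^ 1900 = q at *
        generalize κ ^ 60 = r at *
        have p3 : 0 < r := lt_of_lt_of_le (by norm_num) a2
        have : 8 * (p / 196) * (1400 ^ 3 / (p * q * r)) = 112000000 / r * (1 / q) := by
          field_simp; norm_num
        rw [this]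
        exact mul_le_of_le_one_left (by positivity) ((div_le_one p3).2 (by linarith))

end Crest.Agent.R128
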