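import Crest.Agent.R128.Basic

/-! Row 128: continuity, measurability and periodicity of the events. -/

set_option autoImplicit false

namespace Crest.Agent.R128

open Real MeasureTheory

theorem continuous_ro (k : ℝ) (j : ℕ) : Continuous fun p : ℝ × ℝ => ro k p.1 p.2 j := by
  induction j using Nat.twoStepInduction with
  | zero => exact continuous_fst
  | one => exact continuous_snd
  | more j h0 h1 =>
    simp only [ro_succ, ph]
    fun_prop

theorem continuous_rb (k : ℝ) : Continuous fun p : ℝ × ℝ => rb k p.1 p.2 :=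
  continuous_pi fun j => by
    have := continuous_ro k j
    simp only [rb, ac]
    fun_prop

theorem continuous_rb' (k : ℝ) : Continuous fun p : ℝ × ℝ => rb k p.2 p.1 :=
  Continuous.comp (g := fun p : ℝ × ℝ => rb k p.1 p.2) (f := Prod.swap) (continuous_rb k)
    continuous_swap

theorem continuous_aseq (k : ℝ) : Continuous (aseq k) :=
  continuous_pi fun j => by
    have h1 := continuous_ro k j.toNat
    have h2 := (continuous_ro k (1 - j).toNat).comp continuous_swap
    simp only [aseq, ac, orb]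
    split_ifs
    · fun_prop
    · exact continuous_const.add (continuous_const.mul
        (continuous_cos.comp (continuous_const.mul h2)))

theorem continuous_adv (k : ℝ) (m : ℕ) : Continuous (adv k m) :=
  (continuous_ro k m).prodMk (continuous_ro k (m + 1))

theorem measurableSet_Good (K δ : ℝ) (H : ℕ) : MeasurableSet {b | Good K δ b H} := by
  simp only [Good, Set.ofPred_forall]
  exact MeasurableSet.iInter fun n => MeasurableSet.iInter fun _ =>
    measurableSet_le (measurable_dfc K n) measurable_const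

theorem measurableSet_FA (K δ : ℝ) (H H' : ℕ) : MeasurableSet {b | FA K δ H H' b} := by
  simp only [FA, Set.ofPred_exists]
  refine MeasurableSet.iUnion fun h => ?_
  simp only [Set.ofPred_and]
  exact (MeasurableSet.const _).inter ((MeasurableSet.const _).inter
    ((measurableSet_Good K δ h).inter (measurableSet_lt measurable_const (measurable_dfc K _))))

theorem measurableSet_FB (K δ : ℝ) (H H' : ℕ) : MeasurableSet {b | FB K δ H H' b} := by
  simp only [FB, Set.ofPred_and, Set.ofPred_exists, Set.ofPred_forall]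
  refine (MeasurableSet.iInter fun n => MeasurableSet.iInter fun _ =>
    measurableSet_le (measurable_dfc K n) measurable_const).inter
      (MeasurableSet.iUnion fun h => ?_)
  exact (MeasurableSet.const _).inter ((MeasurableSet.const _).inter
    (measurableSet_le measurable_const (measurable_dfc K _)))

theorem measurableSet_FC (K k δ : ℝ) (H H' G : ℕ) : MeasurableSet {p | FC K k δ H H' G p} := by
  have h1 : Measurable fun b : ℕ → ℝ => gi (sol b 0 1) H := by
    unfold gi
    exact Measurable.ite (measurableSet_le (continuous_sol 0 1 H).abs.measurable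
      (continuous_sol 0 1 (H + 1)).abs.measurable) measurable_const measurable_const
  exact ((continuous_rb k).measurable (measurableSet_FA K δ H H')).inter
    ((h1.comp (continuous_rb k).measurable) (measurableSet_singleton G))

theorem measurableSet_QE (K δ : ℝ) (H : ℕ) :
    MeasurableSet {z : (ℕ → ℝ) × (ℕ → ℝ) | QE K δ H z.1 z.2} :=
  (measurable_fst (measurableSet_Good K δ H).compl).inter
    (measurable_snd (measurableSet_Good K δ H).compl)

theorem measurableSet_RE1 (K ε : ℝ) (T : ℕ) :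
    MeasurableSet {z : (ℕ → ℝ) × (ℕ → ℝ) | RE1 K ε T z.1 z.2} := by
  have h1 : IsClosed {y : ((ℕ → ℝ) × (ℕ → ℝ)) × Set.Icc (-1 : ℝ) 1 |
      ‖tr y.1.1 T (y.2.1, 1)‖ ≤ 1 ∧ ‖tr y.1.2 T (1, y.2.1)‖ ≤ 1} := by
    refine (isClosed_le (Continuous.norm ?_) continuous_const).inter
      (isClosed_le (Continuous.norm ?_) continuous_const)
    · exact ((continuous_tr T).comp (by fun_prop)).clm_apply (by fun_prop)
    · exact ((continuous_tr T).comp (by fun_prop)).clm_apply (by fun_prop)
  have h2 := isClosedMap_fst_of_compactSpace _ h1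
  have h3 : {z : (ℕ → ℝ) × (ℕ → ℝ) |
      ∃ p : ℝ, |p| ≤ 1 ∧ ‖tr z.1 T (p, 1)‖ ≤ 1 ∧ ‖tr z.2 T (1, p)‖ ≤ 1} = Prod.fst ''
        {y : ((ℕ → ℝ) × (ℕ → ℝ)) × Set.Icc (-1 : ℝ) 1 |
          ‖tr y.1.1 T (y.2.1, 1)‖ ≤ 1 ∧ ‖tr y.1.2 T (1, y.2.1)‖ ≤ 1} := by
    ext z
    constructor
    · rintro ⟨p, hp, h⟩
      exact ⟨(z, ⟨p, abs_le.1 hp⟩), h, rfl⟩
    · rintro ⟨⟨z', p, hp⟩, h, rfl⟩
      exact ⟨p, abs_le.2 hp, h⟩
  simp only [RE1, Set.ofPred_and]
  refine (measurableSet_le ((measurable_dfc K T).comp measurable_fst) measurable_const).inter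
    ((measurableSet_le ((measurable_dfc K T).comp measurable_snd) measurable_const).inter ?_)
  have h4 := h2.measurableSet
  rw [← h3] at h4
  simpa only [Set.ofPred_and] using h4

theorem RE_iff (K ε : ℝ) (T : ℕ) (b b' : ℕ → ℝ) :
    RE K ε T b b' ↔ RE1 K ε T b b' ∨ RE1 K ε T b' b := by
  have key : ∀ (c : ℕ → ℝ) (p q t : ℝ), |t| = 1 → ‖tr c T (t * p, t * q)‖ = ‖tr c T (p, q)‖ := by
    intro c p q t ht
    have : ((t * p, t * q) : ℝ × ℝ) = t • (p, q) := rfl
    rw [this, map_smul, norm_smul, Real.norm_eq_abs, ht, one_mul]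
  constructor
  · rintro ⟨h1, h2, p, q, hm, h3, h4⟩
    rcases le_total |p| |q| with h | h
    · rw [max_eq_right h] at hm
      have hq : q * q = 1 := by rw [← abs_mul_abs_self, hm, one_mul]
      refine Or.inl ⟨h1, h2, q * p, by rw [abs_mul, hm, one_mul]; linarith, ?_, ?_⟩
      · have := key b p q q hm; rw [hq] at this; rw [this]; exact h3
      · have := key b' q p q hm; rw [hq] at this; rw [this]; exact h4
    · rw [max_eq_left h] at hm
      have hp : p * p = 1 := by rw [← abs_mul_abs_self, hm, one_mul]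
      refine Or.inr ⟨h2, h1, p * q, by rw [abs_mul, hm, one_mul]; linarith, ?_, ?_⟩
      · have := key b' q p p hm; rw [hp] at this; rw [this]; exact h4
      · have := key b p q p hm; rw [hp] at this; rw [this]; exact h3
  · rintro (⟨h1, h2, p, hp, h3, h4⟩ | ⟨h1, h2, p, hp, h3, h4⟩)
    · exact ⟨h1, h2, p, 1, by rw [abs_one, max_eq_right hp], h3, h4⟩
    · exact ⟨h2, h1, 1, p, by rw [abs_one, max_eq_left hp], h4, h3⟩

theorem measurableSet_RE (K ε : ℝ) (T : ℕ) :
    MeasurableSet {z : (ℕ → ℝ) × (ℕ → ℝ) | RE K ε T z.1 z.2} := by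
  simp only [RE_iff, Set.ofPred_or]
  exact (measurableSet_RE1 K ε T).union (measurable_swap (measurableSet_RE1 K ε T))

theorem ro_add_int (k y0 y1 : ℝ) (i i' : ℤ) (j : ℕ) :
    ∃ n : ℤ, ro k (y0 + i) (y1 + i') j = ro k y0 y1 j + n := by
  induction j using Nat.twoStepInduction with
  | zero => exact ⟨i, rfl⟩
  | one => exact ⟨i', rfl⟩
  | more j h0 h1 =>
    obtain ⟨n0, h0⟩ := h0
    obtain ⟨n1, h1⟩ := h1
    refine ⟨2 * n1 - n0, ?_⟩
    have : sin (2 * π * (ro k y0 y1 (j + 1) + n1)) = sin (2 * π * ro k y0 y1 (j + 1)) := by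
      rw [← sin_add_int_mul_two_pi (2 * π * ro k y0 y1 (j + 1)) n1]; congr 1; ring
    rw [ro_succ, ro_succ, h0, h1, ph, ph, this]; push_cast; ring

theorem rb_add_int (k y0 y1 : ℝ) (i i' : ℤ) : rb k (y0 + i) (y1 + i') = rb k y0 y1 := by
  funext j
  obtain ⟨n, hn⟩ := ro_add_int k y0 y1 i i' j
  have : cos (2 * π * (ro k y0 y1 j + n)) = cos (2 * π * ro k y0 y1 j) := by
    rw [← cos_add_int_mul_two_pi (2 * π * ro k y0 y1 j) n]; congr 1; ring
  simp only [rb, ac, hn, this]

/-- every event that depends on the two coefficient sequences only is periodic -/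
theorem per_rb (k : ℝ) (P : (ℕ → ℝ) → (ℕ → ℝ) → Prop) :
    Per {p | P (rb k p.1 p.2) (rb k p.2 p.1)} := fun p i j => by
  simp only [Set.mem_ofPred_eq, rb_add_int]

theorem Per.adv {S : Set (ℝ × ℝ)} (h : Per S) (k : ℝ) (m : ℕ) : Per (adv k m ⁻¹' S) :=
  fun p i j => by
    obtain ⟨n0, h0⟩ := ro_add_int k p.1 p.2 i j m
    obtain ⟨n1, h1⟩ := ro_add_int k p.1 p.2 i j (m + 1)
    simp only [Set.mem_preimage, R128.adv, h0, h1]
    exact h (_, _) n0 n1

theorem Per.swap {S : Set (ℝ × ℝ)} (h : Per S) : Per (Prod.swap ⁻¹' S) :=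
  fun p i j => h p.swap j i

instance : IsProbabilityMeasure Psq := ⟨by
  simp [Psq, Measure.volume_eq_prod, Measure.prod_prod]⟩

theorem integrable_of_bdd {f : ℝ × ℝ → ℝ} (hf : Measurable f) {C : ℝ} (h : ∀ p, |f p| ≤ C) :
    Integrable f Psq :=
  (integrable_const C).mono' hf.aestronglyMeasurable (ae_of_all _ h)

theorem integral_ind {S : Set (ℝ × ℝ)} (hS : MeasurableSet S) :
    ∫ p, ind (p ∈ S) ∂Psq = (Psq S).toReal := by
  have : (fun p => ind (p ∈ S)) = S.indicator 1 := by
    funext p; by_cases h : p ∈ S <;> simp [ind, h]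
  rw [this, integral_indicator_one hS]; rfl

theorem measurable_ind {S : Set (ℝ × ℝ)} (hS : MeasurableSet S) :
    Measurable fun p => ind (p ∈ S) := by
  classical
  exact Measurable.ite hS measurable_const measurable_const

end Crest.Agent.R128
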