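import Crest.Agent.R128.Inner

/-! Row 128: quasi-independence of past and future at a good site. -/

set_option autoImplicit false

namespace Crest.Agent.R128

open Real MeasureTheory Set

/-- the Vitali covering step -/
theorem vitali_sec {Z A : Set ℝ} {Q : ℝ → Prop} {r : ℝ → ℝ} {c : ENNReal}
    (hr0 : ∀ t ∈ Z, 0 < r t) (hr1 : ∀ t ∈ Z, r t ≤ 1) (hQ : ∀ t ∈ Z, Q t)
    (hA : ∀ t ∈ Z, Metric.closedBall t (r t) ⊆ A)
    (hb : ∀ t ∈ Z, volume {s ∈ Icc (t - 5 * r t) (t + 5 * r t) | Q s} ≤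
      ENNReal.ofReal (100 * r t) * c) :
    volume Z ≤ 50 * volume A * c := by
  obtain ⟨u, huZ, hdisj, hcov⟩ :=
    Vitali.exists_disjoint_subfamily_covering_enlargement_closedBall Z (fun t => t) r 1 hr1 5
      (by norm_num)
  have hcount : u.Countable := hdisj.countable_of_nonempty_interior fun j hj => by
    have : (Metric.ball j (r j)).Nonempty := Metric.nonempty_ball.2 (hr0 j (huZ hj))
    exact this.mono Metric.ball_subset_interior_closedBall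
  have hsub : Z ⊆ ⋃ b ∈ u, {s ∈ Icc (b - 5 * r b) (b + 5 * r b) | Q s} := by
    intro a ha
    obtain ⟨b, hb, hab⟩ := hcov a ha
    have h1 : a ∈ Metric.closedBall b (5 * r b) :=
      hab (Metric.mem_closedBall_self (hr0 a ha).le)
    rw [Real.closedBall_eq_Icc] at h1
    exact mem_biUnion hb ⟨h1, hQ a ha⟩
  have hU : volume (⋃ b ∈ u, Metric.closedBall b (r b)) =
      ∑' b : u, volume (Metric.closedBall (b : ℝ) (r b)) :=
    measure_biUnion hcount hdisj fun b _ => Metric.isClosed_closedBall.measurableSet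
  have hUA : volume (⋃ b ∈ u, Metric.closedBall b (r b)) ≤ volume A :=
    measure_mono (iUnion₂_subset fun b hb => hA b (huZ hb))
  calc volume Z ≤ ∑' b : u, volume {s ∈ Icc ((b : ℝ) - 5 * r b) (b + 5 * r b) | Q s} :=
        (measure_mono hsub).trans (measure_biUnion_le volume hcount _)
    _ ≤ ∑' b : u, 50 * volume (Metric.closedBall (b : ℝ) (r b)) * c := by
        refine ENNReal.tsum_le_tsum fun b => (hb b (huZ b.2)).trans (le_of_eq ?_)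
        rw [Real.volume_closedBall, show 100 * r b = 50 * (2 * r b) by ring,
          ENNReal.ofReal_mul (by norm_num)]
        simp
    _ = 50 * volume (⋃ b ∈ u, Metric.closedBall b (r b)) * c := by
        rw [hU, ENNReal.tsum_mul_right, ENNReal.tsum_mul_left]
    _ ≤ 50 * volume A * c := by gcongr

theorem measurableSet_FBp (K k δ : ℝ) (H H' : ℕ) :
    MeasurableSet {p : ℝ × ℝ | FB K δ H H' (rb k p.1 p.2)} :=
  (continuous_rb k).measurable (measurableSet_FB K δ H H')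

theorem per_FBp (K k δ : ℝ) (H H' : ℕ) : Per {p : ℝ × ℝ | FB K δ H H' (rb k p.1 p.2)} :=
  per_rb k fun b _ => FB K δ H H' b

/-- the bound for one section -/
theorem indep_sec {κ k δ : ℝ} (hκ : 1000 ≤ κ) (hK : κ ^ 1000 = 2 * π * k + 3) (hδ0 : 0 ≤ δ)
    (hδ : δ ≤ 1 / 2000) {H₁ H₁' H₂ H₂' : ℕ} (h₁ : 4000 ≤ H₁) (h₁' : 4 * H₁' ≤ 5 * H₁)
    (h₂ : 4000 ≤ H₂) (h₂' : 4 * H₂' ≤ 5 * H₂) {G₁ : ℕ} (hG : 1 ≤ G₁) (G₂ : ℕ) (ξ : ℝ) :
    volume ({t | FC (κ ^ 1000) k δ H₁ H₁' G₁ (lf k G₁ ξ t) ∧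
        FC (κ ^ 1000) k δ H₂ H₂' G₂ (ro k ξ t (G₁ - 1), ro k ξ t G₁)} ∩ Ico 0 1) ≤
      150 * Psq {p | FB (κ ^ 1000) δ H₂ H₂' (rb k p.1 p.2)} *
        volume ({t | FB (κ ^ 1000) δ H₁ H₁' (rb k (lf k G₁ ξ t).1 (lf k G₁ ξ t).2)} ∩ Ico 0 1) := by
  generalize hKK : κ ^ 1000 = K at *
  set A : Set ℝ := {t | FB K δ H₁ H₁' (rb k (lf k G₁ ξ t).1 (lf k G₁ ξ t).2)} with hAdef
  set D : ℝ → ℝ := fun t => sol (rb k (lf k G₁ ξ t).1 (lf k G₁ ξ t).2) 0 1 G₁ with hDdef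
  have hAeq : A = (fun t => (ξ, t)) ⁻¹' (adv k (G₁ - 1) ⁻¹'
      (Prod.swap ⁻¹' {p : ℝ × ℝ | FB K δ H₁ H₁' (rb k p.1 p.2)})) := by
    ext t
    simp only [hAdef, mem_preimage, mem_ofPred_eq, lf_eq_swap_adv k hG]
  have hAm : MeasurableSet A := by
    rw [hAeq]
    exact measurable_prodMk_left ((continuous_adv k _).measurable
      (measurable_swap (measurableSet_FBp K k δ H₁ H₁')))
  have hAp : ∀ (t : ℝ) (i : ℤ), t + i ∈ A ↔ t ∈ A := by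
    intro t i
    have := ((per_FBp K k δ H₁ H₁').swap.adv k (G₁ - 1)) (ξ, t) 0 i
    rw [hAeq]
    simpa using this
  have hleaf : ∀ t0, FC K k δ H₁ H₁' G₁ (lf k G₁ ξ t0) → 1 ≤ |D t0| ∧
      ∀ t, |t - t0| * |D t0| ≤ 10 →
        |sol (rb k ξ t) 0 1 G₁ - D t0| ≤ |D t0| / 100 ∧
          |sol (rb k ξ t) 0 1 (G₁ - 1)| ≤ |D t0| / 100 ∧ t ∈ A := by
    intro t0 h
    have := leaf (κ := κ) (k := k) (δ := δ) hκ (hKK.trans hK) hδ0 hδ h₁ h₁' (G := G₁) (ξ := ξ)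
      (t0 := t0) (D := D t0) (by rw [hKK]; exact h) rfl
    rw [hKK] at this
    exact ⟨this.2.1, this.2.2.2⟩
  have key := vitali_sec
    (Z := {t | FC K k δ H₁ H₁' G₁ (lf k G₁ ξ t) ∧
        FC K k δ H₂ H₂' G₂ (ro k ξ t (G₁ - 1), ro k ξ t G₁)} ∩ Ico 0 1)
    (A := A ∩ Icc (-1) (-1 + (3 : ℕ)))
    (Q := fun t => FC K k δ H₂ H₂' G₂ (ro k ξ t (G₁ - 1), ro k ξ t G₁))
    (r := fun t => 1 / |D t|) (c := Psq {p | FB K δ H₂ H₂' (rb k p.1 p.2)})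
    (fun t ht => by have := (hleaf t ht.1.1).1; positivity)
    (fun t ht => by have := (hleaf t ht.1.1).1; exact (div_le_one (by linarith)).2 this)
    (fun t ht => ht.1.2)
    (fun t ht s hs => by
      obtain ⟨hD1, hD2⟩ := hleaf t ht.1.1
      have hpos : 0 < |D t| := by linarith
      rw [Metric.mem_closedBall, Real.dist_eq] at hs
      have h1 : |s - t| * |D t| ≤ 1 := (le_div_iff₀ hpos).1 hs
      have h2 : |s - t| ≤ 1 := hs.trans ((div_le_one hpos).2 hD1)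
      have h3 := abs_le.1 h2
      refine ⟨(hD2 s (by linarith)).2.2, ?_, ?_⟩
      · linarith [ht.2.1, h3.1]
      · push_cast; linarith [ht.2.2, h3.2])
    (fun t ht => by
      obtain ⟨hD1, hD2⟩ := hleaf t ht.1.1
      have hpos : 0 < |D t| := by linarith
      have hin := inner (κ := κ) (k := k) (δ := δ) hκ (hKK.trans hK) hδ0 hδ G₂ h₂ h₂'
        (x0 := fun t => ro k ξ t (G₁ - 1)) (x1 := fun t => ro k ξ t G₁)
        (d0 := fun t => sol (rb k ξ t) 0 1 (G₁ - 1)) (d1 := fun t => sol (rb k ξ t) 0 1 G₁)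
        (D := D t) (t0 := t) (abs_pos.1 hpos) (fun s hs => by
          have h1 : |s - t| ≤ 5 / |D t| := abs_le.2 ⟨by linarith [hs.1], by linarith [hs.2]⟩
          have h2 : |s - t| * |D t| ≤ 5 := (le_div_iff₀ hpos).1 h1
          have h3 := hD2 s (by linarith)
          exact ⟨hasDerivAt_ro k (hasDerivAt_const s ξ) (hasDerivAt_id s) _,
            hasDerivAt_ro k (hasDerivAt_const s ξ) (hasDerivAt_id s) _, h3.1, h3.2.1⟩)
      rw [hKK] at hin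
      simpa only [mul_one_div] using hin)
  rw [volume_per_Icc hAm hAp (-1) 3] at key
  refine key.trans (le_of_eq ?_)
  push_cast
  ring

/-- the bound for fixed boundary indices -/
theorem indep_piece {κ k δ : ℝ} (hκ : 1000 ≤ κ) (hK : κ ^ 1000 = 2 * π * k + 3) (hδ0 : 0 ≤ δ)
    (hδ : δ ≤ 1 / 2000) {H₁ H₁' H₂ H₂' : ℕ} (h₁ : 4000 ≤ H₁) (h₁' : 4 * H₁' ≤ 5 * H₁)
    (h₂ : 4000 ≤ H₂) (h₂' : 4 * H₂' ≤ 5 * H₂) {G₁ : ℕ} (hG : 1 ≤ G₁) (G₂ : ℕ) :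
    Psq {p | FC (κ ^ 1000) k δ H₁ H₁' G₁ p.swap ∧ FC (κ ^ 1000) k δ H₂ H₂' G₂ p} ≤
      150 * (Psq {p | FB (κ ^ 1000) δ H₁ H₁' (rb k p.1 p.2)} *
        Psq {p | FB (κ ^ 1000) δ H₂ H₂' (rb k p.1 p.2)}) := by
  have hsec := indep_sec hκ hK hδ0 hδ h₁ h₁' h₂ h₂' hG G₂
  generalize κ ^ 1000 = K at *
  set E : Set (ℝ × ℝ) := {p | FC K k δ H₁ H₁' G₁ p.swap ∧ FC K k δ H₂ H₂' G₂ p} with hE
  set B₁ : Set (ℝ × ℝ) := {p | FB K δ H₁ H₁' (rb k p.1 p.2)} with hB₁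
  set c := Psq {p : ℝ × ℝ | FB K δ H₂ H₂' (rb k p.1 p.2)} with hc
  have hEm : MeasurableSet E :=
    (measurable_swap (measurableSet_FC K k δ H₁ H₁' G₁)).inter (measurableSet_FC K k δ H₂ H₂' G₂)
  have hEp : Per E := per_rb k fun b b' =>
    (FA K δ H₁ H₁' b' ∧ gi (sol b' 0 1) H₁ = G₁) ∧ (FA K δ H₂ H₂' b ∧ gi (sol b 0 1) H₂ = G₂)
  have hBm : MeasurableSet (Prod.swap ⁻¹' B₁) := measurable_swap (measurableSet_FBp K k δ H₁ H₁')
  have hBp : Per (Prod.swap ⁻¹' B₁) := (per_FBp K k δ H₁ H₁').swap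
  have hB : Psq B₁ = ∫⁻ ξ in Ico (0 : ℝ) 1,
      volume ({t | FB K δ H₁ H₁' (rb k (lf k G₁ ξ t).1 (lf k G₁ ξ t).2)} ∩ Ico 0 1) := by
    rw [← measurePreserving_swap_Psq.measure_preimage
      (measurableSet_FBp K k δ H₁ H₁').nullMeasurableSet, ← Psq_adv hBm hBp k (G₁ - 1),
      Psq_apply ((continuous_adv k _).measurable hBm)]
    simp only [hB₁, mem_preimage, mem_ofPred_eq, lf_eq_swap_adv k hG]
  have hne : 150 * c ≠ ⊤ := ENNReal.mul_ne_top (by norm_num) (measure_ne_top _ _)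
  rw [← Psq_adv hEm hEp k (G₁ - 1), Psq_apply ((continuous_adv k _).measurable hEm), hB,
    mul_comm _ c, ← mul_assoc, ← lintegral_const_mul' _ _ hne]
  refine lintegral_mono fun ξ => le_trans (le_of_eq ?_) (hsec ξ)
  simp only [hE, mem_preimage, mem_ofPred_eq, lf_eq_swap_adv k hG]
  simp only [adv, Nat.sub_add_cancel hG]

/-- Recipe.  Split according to `G₁ = gi (sol (rb k p.2 p.1) 0 1) H₁ ∈ {H₁, H₁+1}` and
`G₂ ∈ {H₂, H₂+1}` (`gi_cases`): four periodic measurable sets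
`E = {p | FC … G₁ p.swap ∧ FC … G₂ p}`.  `Psq E = Psq (adv k (G₁-1) ⁻¹' E)` (`Psq_adv`), and
`(adv k (G₁-1) (ξ, t)).swap = lf k G₁ ξ t`.  By `Psq_apply` it suffices to bound, for fixed `ξ`,
the section `Z ⊆ [0,1)`.  For `t0 ∈ Z` let `D t0` be as in `leaf`, `r t0 = 1 / |D t0| ≤ 1`.
`Vitali.exists_disjoint_subfamily_covering_enlargement_closedBall` gives disjoint balls
`closedBall t0 (r t0)` (countably many: `Set.PairwiseDisjoint.countable_of_nonempty_interior`)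
whose `5`-fold enlargements cover `Z`.  On each enlargement `inner` applies with
`x0 t = ro k ξ t (G₁-1)`, `x1 t = ro k ξ t G₁` (`hasDerivAt_ro` for the curve `t ↦ (ξ, t)`), bound
`100 r * Psq B₂ = 50 * volume (ball) * Psq B₂`; the balls lie in
`A ξ ∩ Icc (-1) 2`, `A ξ = {t | FB … (rb k (lf k G₁ ξ t).1 (lf k G₁ ξ t).2)}` (periodic), of measure
`3 * volume (A ξ ∩ Ico 0 1)` (`volume_per_Icc`).  Integrate over `ξ`; `Psq_adv` and
`measurePreserving_swap_Psq` identify the result with `150 * Psq B₁ * Psq B₂`. -/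
theorem indep {κ k δ : ℝ} (hκ : 1000 ≤ κ) (hK : κ ^ 1000 = 2 * π * k + 3) (hδ0 : 0 ≤ δ)
    (hδ : δ ≤ 1 / 2000) {H₁ H₁' H₂ H₂' : ℕ} (h₁ : 4000 ≤ H₁) (h₁' : 4 * H₁' ≤ 5 * H₁)
    (h₂ : 4000 ≤ H₂) (h₂' : 4 * H₂' ≤ 5 * H₂) :
    Psq {p | FA (κ ^ 1000) δ H₁ H₁' (rb k p.2 p.1) ∧ FA (κ ^ 1000) δ H₂ H₂' (rb k p.1 p.2)} ≤
      1000 * (Psq {p | FB (κ ^ 1000) δ H₁ H₁' (rb k p.1 p.2)} *
        Psq {p | FB (κ ^ 1000) δ H₂ H₂' (rb k p.1 p.2)}) := by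
  have hp := fun (G₁ : ℕ) (hG : 1 ≤ G₁) (G₂ : ℕ) =>
    indep_piece hκ hK hδ0 hδ h₁ h₁' h₂ h₂' hG G₂
  generalize κ ^ 1000 = K at *
  set c := Psq {p : ℝ × ℝ | FB K δ H₁ H₁' (rb k p.1 p.2)} *
    Psq {p : ℝ × ℝ | FB K δ H₂ H₂' (rb k p.1 p.2)}
  set E : ℕ → ℕ → Set (ℝ × ℝ) := fun G₁ G₂ =>
    {p | FC K k δ H₁ H₁' G₁ p.swap ∧ FC K k δ H₂ H₂' G₂ p} with hE
  have hsub : {p : ℝ × ℝ | FA K δ H₁ H₁' (rb k p.2 p.1) ∧ FA K δ H₂ H₂' (rb k p.1 p.2)} ⊆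
      (E H₁ H₂ ∪ E H₁ (H₂ + 1)) ∪ (E (H₁ + 1) H₂ ∪ E (H₁ + 1) (H₂ + 1)) := by
    rintro p ⟨ha, hb⟩
    rcases gi_cases (sol (rb k p.2 p.1) 0 1) H₁ with g₁ | g₁ <;>
      rcases gi_cases (sol (rb k p.1 p.2) 0 1) H₂ with g₂ | g₂
    · exact Or.inl (Or.inl ⟨⟨ha, g₁⟩, hb, g₂⟩)
    · exact Or.inl (Or.inr ⟨⟨ha, g₁⟩, hb, g₂⟩)
    · exact Or.inr (Or.inl ⟨⟨ha, g₁⟩, hb, g₂⟩)
    · exact Or.inr (Or.inr ⟨⟨ha, g₁⟩, hb, g₂⟩)
  have hH : 1 ≤ H₁ := by omega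
  calc _ ≤ (Psq (E H₁ H₂) + Psq (E H₁ (H₂ + 1))) +
        (Psq (E (H₁ + 1) H₂) + Psq (E (H₁ + 1) (H₂ + 1))) :=
        (measure_mono hsub).trans ((measure_union_le _ _).trans
          (add_le_add (measure_union_le _ _) (measure_union_le _ _)))
    _ ≤ (150 * c + 150 * c) + (150 * c + 150 * c) :=
        add_le_add (add_le_add (hp _ hH _) (hp _ hH _))
          (add_le_add (hp _ (by omega) _) (hp _ (by omega) _))
    _ = 600 * c := by ring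
    _ ≤ 1000 * c := by gcongr; norm_num

end Crest.Agent.R128
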