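import Crest.Agent.R128.Thresh
import Crest.Agent.R128.Outer

/-! Row 128: both horizons end with quadratically small probability. -/

set_option autoImplicit false

namespace Crest.Agent.R128

open Real MeasureTheory Set

theorem qb_Hs_ge (i : ℕ) : 4000 + i ≤ Hs i := by
  induction i with
  | zero => exact le_rfl
  | succ i ih =>
    have : Hs (i + 1) = Hs i + Hs i / 4 := rfl
    omega

theorem qb_Hs_succ (i : ℕ) : 4 * Hs (i + 1) ≤ 5 * Hs i := by
  have : Hs (i + 1) = Hs i + Hs i / 4 := rfl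
  omega

theorem qb_cases {K δ0 δ : ℝ} (hδ : δ0 ≤ δ) {b : ℕ → ℝ} {H : ℕ} (h : ¬ Good K δ b H) :
    ¬ Good K δ0 b 4000 ∨ ∃ i ∈ Finset.range (H + 1), FA K δ (Hs i) (min (Hs (i + 1)) H) b := by
  classical
  by_cases hg : Good K δ0 b 4000
  swap
  · exact Or.inl hg
  right
  have hg' : Good K δ b 4000 := hg.mono hδ le_rfl
  have hex : ∃ n, n ≤ H ∧ δ * (n + 1) < dfc K b n := by
    by_contra hcon
    exact h fun n hn => not_lt.1 fun h' => hcon ⟨n, hn, h'⟩
  have hn := Nat.find_spec hex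
  have hmin : ∀ m < Nat.find hex, ¬ (m ≤ H ∧ δ * (m + 1) < dfc K b m) := fun m hm =>
    Nat.find_min hex hm
  generalize Nat.find hex = n at hn hmin
  have hn1 : 4000 < n := by
    by_contra hcon
    exact absurd (hg' n (not_lt.1 hcon)) (not_le.2 hn.2)
  obtain ⟨m, rfl⟩ : ∃ m, n = m + 1 := ⟨n - 1, by omega⟩
  have hex2 : ∃ j, m < Hs j := ⟨m, by have := qb_Hs_ge m; omega⟩
  have hj := Nat.find_spec hex2
  have hjmin : ∀ i < Nat.find hex2, ¬ m < Hs i := fun i hi => Nat.find_min hex2 hi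
  generalize Nat.find hex2 = j at hj hjmin
  have hj0 : j ≠ 0 := by
    rintro rfl
    have : Hs 0 = 4000 := rfl
    omega
  obtain ⟨i, rfl⟩ : ∃ i, j = i + 1 := ⟨j - 1, by omega⟩
  have hi := not_lt.1 (hjmin i (Nat.lt_succ_self i))
  have hi2 := qb_Hs_ge i
  have hmH := hn.1
  refine ⟨i, Finset.mem_range.2 (by omega), m, hi, lt_min hj (by omega), fun l hl => ?_, ?_⟩
  · exact not_lt.1 fun h' => hmin l (by omega) ⟨by omega, h'⟩
  · have := hn.2
    push_cast at this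
    linarith

/-- Recipe: `¬ Good K δ b H` implies `¬ Good K δ0 b 4000` or `FA K δ (Hs i) (min (Hs (i+1)) H) b` for
some `i ≤ H` (least failing index `h + 1`; `dfc_zero`; `Hs i ≥ 4000 + i`).  Union bound,
`not_good_small` (twice, `measurePreserving_swap_Psq`), `indep` for all pairs `(i, i')`,
`exists_threshold`: `1000 * 36`. -/
theorem qbound {δ0 ε : ℝ} (hδ0 : 0 < δ0) (hδ1 : δ0 ≤ 1 / 4000) (hε : 0 < ε) :
    ∃ κ₀ : ℝ, ∀ κ k : ℝ, κ₀ ≤ κ → κ ^ 1000 = 2 * π * k + 3 → ∀ N H : ℕ, 1 ≤ N → 2 * H ≤ N →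
      ∃ δ ∈ Icc δ0 (2 * δ0),
        (Psq {p | QE (κ ^ 1000) δ H (rb k p.1 p.2) (rb k p.2 p.1)}).toReal ≤
          ε + 36000 * (Dn (κ ^ 1000) k N / δ0) ^ 2 := by
  obtain ⟨κ₁, h1⟩ := not_good_small hδ0 (half_pos hε) 4000
  refine ⟨max (max 1000 κ₁) (8 ^ δ0⁻¹), fun κ k hκ hK N H hN hH => ?_⟩
  have hκ1 : 1000 ≤ κ := ((le_max_left _ _).trans (le_max_left _ _)).trans hκ
  have hκ2 : κ₁ ≤ κ := ((le_max_right _ _).trans (le_max_left _ _)).trans hκ
  have hK1 := maximal_one_lt hκ1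
  have h4 : (8 : ℝ) ^ δ0⁻¹ ≤ κ ^ 1000 :=
    ((le_max_right _ _).trans hκ).trans (le_self_pow₀ (by linarith) (by norm_num))
  have hc : logb (κ ^ 1000) 8 ≤ δ0 := by
    rw [logb_le_iff_le_rpow hK1 (by norm_num)]
    have := rpow_le_rpow (by positivity) h4 hδ0.le
    rwa [rpow_inv_rpow (by norm_num) hδ0.ne'] at this
  obtain ⟨δ, hδ, hsum⟩ := exists_threshold hκ1 hK hδ0 hc hN hH
  refine ⟨δ, hδ, ?_⟩
  have hA := h1 κ k hκ2 hK
  have hind : ∀ i i' : ℕ, _ := fun i i' =>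
    indep (δ := δ) (H₁ := Hs i) (H₁' := min (Hs (i + 1)) H) (H₂ := Hs i')
      (H₂' := min (Hs (i' + 1)) H) hκ1 hK (by linarith [hδ.1]) (by linarith [hδ.2])
      (by have := qb_Hs_ge i; omega) (by have := qb_Hs_succ i; omega)
      (by have := qb_Hs_ge i'; omega) (by have := qb_Hs_succ i'; omega)
  generalize κ ^ 1000 = K at *
  set A : Set (ℝ × ℝ) := {p | ¬ Good K δ0 (rb k p.1 p.2) 4000} with hAdef
  have hAm : MeasurableSet A := (continuous_rb k).measurable (measurableSet_Good K δ0 4000).compl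
  have hA' : Psq.real (Prod.swap ⁻¹' A) ≤ ε / 2 := by
    rw [Measure.real, measurePreserving_swap_Psq.measure_preimage hAm.nullMeasurableSet]
    exact hA
  let B : ℕ → ℝ := fun i =>
    (Psq {p | FB K δ (Hs i) (min (Hs (i + 1)) H) (rb k p.1 p.2)}).toReal
  let E : ℕ → ℕ → Set (ℝ × ℝ) := fun i i' =>
    {p | FA K δ (Hs i) (min (Hs (i + 1)) H) (rb k p.2 p.1) ∧
      FA K δ (Hs i') (min (Hs (i' + 1)) H) (rb k p.1 p.2)}
  have hE : ∀ i i', Psq.real (E i i') ≤ 1000 * (B i * B i') := fun i i' => by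
    have := ENNReal.toReal_mono (by finiteness) (hind i i')
    simp only [ENNReal.toReal_mul, ENNReal.toReal_ofNat] at this
    exact this
  have hsub : {p : ℝ × ℝ | QE K δ H (rb k p.1 p.2) (rb k p.2 p.1)} ⊆
      (A ∪ Prod.swap ⁻¹' A) ∪
        ⋃ i ∈ Finset.range (H + 1), ⋃ i' ∈ Finset.range (H + 1), E i i' := by
    rintro p ⟨hp1, hp2⟩
    rcases qb_cases hδ.1 hp1 with h | ⟨i', hi', h⟩
    · exact Or.inl (Or.inl h)
    rcases qb_cases hδ.1 hp2 with h' | ⟨i, hi, h'⟩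
    · exact Or.inl (Or.inr h')
    exact Or.inr (mem_biUnion hi (mem_biUnion hi' ⟨h', h⟩))
  have hB0 : 0 ≤ ∑ i ∈ Finset.range (H + 1), B i :=
    Finset.sum_nonneg fun i _ => ENNReal.toReal_nonneg
  calc (Psq {p | QE K δ H (rb k p.1 p.2) (rb k p.2 p.1)}).toReal
      ≤ Psq.real ((A ∪ Prod.swap ⁻¹' A) ∪
        ⋃ i ∈ Finset.range (H + 1), ⋃ i' ∈ Finset.range (H + 1), E i i') :=
        measureReal_mono hsub
    _ ≤ (Psq.real A + Psq.real (Prod.swap ⁻¹' A)) +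
        ∑ i ∈ Finset.range (H + 1), ∑ i' ∈ Finset.range (H + 1), Psq.real (E i i') := by
        refine (measureReal_union_le _ _).trans (add_le_add (measureReal_union_le _ _) ?_)
        refine (measureReal_biUnion_finset_le _ _).trans (Finset.sum_le_sum fun i _ => ?_)
        exact measureReal_biUnion_finset_le _ _
    _ ≤ (ε / 2 + ε / 2) +
        ∑ i ∈ Finset.range (H + 1), ∑ i' ∈ Finset.range (H + 1), 1000 * (B i * B i') :=
        add_le_add (add_le_add hA hA')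
          (Finset.sum_le_sum fun i _ => Finset.sum_le_sum fun i' _ => hE i i')
    _ = ε + 1000 * (∑ i ∈ Finset.range (H + 1), B i) ^ 2 := by
        rw [add_halves, sq, Finset.sum_mul_sum, Finset.mul_sum]
        simp only [Finset.mul_sum]
    _ ≤ ε + 1000 * (6 * Dn K k N / δ0) ^ 2 := by gcongr
    _ = _ := by ring

end Crest.Agent.R128
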