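import Crest.Agent.R128.Rigid
import Crest.Agent.R128.QBound
import Crest.Agent.R128.Det

/-! Row 128: the mean defect stays small. -/

set_option autoImplicit false

namespace Crest.Agent.R128

open Real MeasureTheory Set

/-- integrable with integral at most `B` -/
def IB (f : ℝ × ℝ → ℝ) (B : ℝ) : Prop := Integrable f Psq ∧ ∫ p, f p ∂Psq ≤ B

theorem IB.add {f g : ℝ × ℝ → ℝ} {B C : ℝ} (hf : IB f B) (hg : IB g C) :
    IB (fun p => f p + g p) (B + C) :=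
  ⟨hf.1.add hg.1, by rw [integral_add hf.1 hg.1]; exact add_le_add hf.2 hg.2⟩

theorem IB.const (B : ℝ) : IB (fun _ => B) B := ⟨integrable_const _, by simp⟩

theorem IB.mul {f : ℝ × ℝ → ℝ} {B c : ℝ} (hc : 0 ≤ c) (hf : IB f B) :
    IB (fun p => c * f p) (c * B) :=
  ⟨hf.1.const_mul c, by rw [integral_const_mul]; exact mul_le_mul_of_nonneg_left hf.2 hc⟩

theorem IB.sum {ι : Type} {s : Finset ι} {f : ι → ℝ × ℝ → ℝ} {B : ι → ℝ}
    (h : ∀ i ∈ s, IB (f i) (B i)) : IB (fun p => ∑ i ∈ s, f i p) (∑ i ∈ s, B i) :=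
  ⟨integrable_finsetSum _ fun i hi => (h i hi).1, by
    rw [integral_finsetSum _ fun i hi => (h i hi).1]
    exact Finset.sum_le_sum fun i hi => (h i hi).2⟩

theorem IB.ind {S : Set (ℝ × ℝ)} (hS : MeasurableSet S) {B : ℝ} (h : (Psq S).toReal ≤ B) :
    IB (fun p => ind (p ∈ S)) B :=
  ⟨integrable_of_bdd (measurable_ind hS) (C := 1) fun p => by
    rw [abs_of_nonneg (ind_nonneg _)]; exact ind_le_one _, by rw [integral_ind hS]; exact h⟩

theorem IB.stat (k : ℝ) {E : Set ((ℕ → ℝ) × (ℕ → ℝ))} (hE : MeasurableSet E) {v : ℤ} (hv : 0 ≤ v)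
    {B : ℝ} (h : (Psq {p | (rb k p.1 p.2, rb k p.2 p.1) ∈ E}).toReal ≤ B) :
    IB (fun p => R128.ind ((fw (aseq k p) v, bw (aseq k p) v) ∈ E)) B := by
  lift v to ℕ using hv
  exact IB.ind (S := {p | (fw (aseq k p) v, bw (aseq k p) v) ∈ E})
    ((((continuous_fw _).comp (continuous_aseq k)).prodMk
      ((continuous_bw _).comp (continuous_aseq k))).measurable hE) (by rwa [Psq_stat k hE])

theorem aseq_nat (k : ℝ) (p : ℝ × ℝ) (j : ℕ) : aseq k p j = rb k p.1 p.2 j := by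
  simp [aseq, orb, rb]

theorem abs_bb_le {K x : ℝ} (hK : 1 < K) (hx : |x| + 1 ≤ K) : |bb K x| ≤ 1 := by
  have h1 : 0 ≤ logb K (max 1 (|x| - 1)) := logb_nonneg hK (le_max_left _ _)
  have h2 : logb K (max 1 (|x| - 1)) ≤ 1 := by
    rw [logb_le_iff_le_rpow hK (lt_max_of_lt_left one_pos), rpow_one]
    exact max_le hK.le (by linarith)
  unfold bb
  rw [abs_le]; constructor <;> linarith

theorem integrable_dfc {k K : ℝ} (hk : 0 ≤ k) (hK : K = 2 * π * k + 3) (N : ℕ) :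
    Integrable (fun p : ℝ × ℝ => dfc K (rb k p.1 p.2) N) Psq := by
  have hK1 : 1 < K := by have := pi_pos; nlinarith
  refine integrable_of_bdd ((measurable_dfc K N).comp (continuous_rb k).measurable)
    (C := 2 * N) fun p => ?_
  rw [abs_of_nonneg (dfc_nonneg hK1 (bd_rb hk hK _ _) N)]
  exact dfc_le hK1 (bd_rb hk hK _ _) N

theorem Dn_nonneg {k K : ℝ} (hk : 0 ≤ k) (hK : K = 2 * π * k + 3) (N : ℕ) : 0 ≤ Dn K k N := by
  have hK1 : 1 < K := by have := pi_pos; nlinarith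
  exact div_nonneg (integral_nonneg fun p => dfc_nonneg hK1 (bd_rb hk hK _ _) N) (by positivity)

theorem Dn_succ_le {k K : ℝ} (hk : 0 ≤ k) (hK : K = 2 * π * k + 3) {N : ℕ} (hN : 1 ≤ N) :
    Dn K k (N + 1) ≤ Dn K k N + 2 / N := by
  have hK1 : 1 < K := by have := pi_pos; nlinarith
  have hN0 : (0 : ℝ) < N := by exact_mod_cast hN
  have h := integral_mono (integrable_dfc hk hK (N + 1))
    ((integrable_dfc hk hK N).add (integrable_const (2 : ℝ)))
    fun p => by simpa using dfc_add_le hK1 (bd_rb hk hK p.1 p.2) N 1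
  simp only [Pi.add_apply] at h
  rw [integral_add (integrable_dfc hk hK N) (integrable_const _)] at h
  simp only [integral_const, probReal_univ, smul_eq_mul, one_mul] at h
  have h0 : 0 ≤ ∫ p, dfc K (rb k p.1 p.2) N ∂Psq :=
    integral_nonneg fun p => dfc_nonneg hK1 (bd_rb hk hK _ _) N
  unfold Dn
  rw [← add_div]
  exact div_le_div₀ (by linarith) h hN0 (by push_cast; linarith)

/-- the integrated form of `det_bound` -/
theorem Dn_le {κ k ε δ η r q : ℝ} (hκ : 1000 ≤ κ) (hK : κ ^ 1000 = 2 * π * k + 3) (hε : 0 < ε)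
    (hε1 : ε ≤ 1 / 1000) (hδ0 : 0 ≤ δ) (hδ : δ ≤ ε / 4) {Y0 : ℕ} (hY : 1000 ≤ ε * Y0) {N : ℕ}
    (hN : 1 ≤ N) (hη : 0 < η) (hNη : 2 ≤ η * N) (hlog : 5 ≤ η * log κ) {R : ℕ → ℝ}
    (h1 : ∀ j : ℕ, 1 ≤ j → ∫ p, bb (κ ^ 1000) (rb k p.1 p.2 j) ∂Psq ≤ η)
    (h2 : ∀ j : ℕ, 1 ≤ j → (Psq {p | |rb k p.1 p.2 j| ≤ 2}).toReal ≤ η / (2 * Y0 + 6))
    (h3 : ∀ T, Y0 / 30 ≤ T →
      (Psq {p | RE (κ ^ 1000) ε T (rb k p.1 p.2) (rb k p.2 p.1)}).toReal ≤ R T)
    (h4 : ∑ T ∈ Finset.Icc (Y0 / 30) N, T * R T ≤ r) (hr : 0 ≤ r) (hq : 0 ≤ q)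
    (h5 : (Psq {p | QE (κ ^ 1000) δ (N / 2) (rb k p.1 p.2) (rb k p.2 p.1)}).toReal ≤ q) :
    Dn (κ ^ 1000) k N ≤ 4 * η + ind (Y0 < N) * (128 * r + 2000 / ε * q) := by
  obtain ⟨hk, -, -⟩ := k_facts hκ hK
  have hk0 : 0 ≤ k := by linarith
  have hK1 : 1 < κ ^ 1000 := one_lt_pow₀ (by linarith) (by norm_num)
  have hN0 : (1 : ℝ) ≤ N := by exact_mod_cast hN
  have i1 : IB (fun p => ∑ j ∈ Finset.Icc (1 : ℤ) N, bb (κ ^ 1000) (aseq k p j))
      (∑ _j ∈ Finset.Icc (1 : ℤ) N, η) := IB.sum fun j hj => by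
    have hj1 := (Finset.mem_Icc.1 hj).1
    lift j to ℕ using by omega
    simp only [aseq_nat]
    refine ⟨integrable_of_bdd ?_ fun p => abs_bb_le hK1 (bd_rb hk0 hK _ _ j),
      h1 j (by exact_mod_cast hj1)⟩
    have := ((continuous_apply j).comp (continuous_rb k)).measurable
    unfold bb logb
    exact measurable_const.sub
      ((measurable_const.max (this.abs.sub measurable_const)).log.div_const _)
  have i2 : IB (fun p => ∑ j ∈ Finset.Icc (1 : ℤ) N, ind (|aseq k p j| ≤ 2))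
      (∑ _j ∈ Finset.Icc (1 : ℤ) N, η / (2 * Y0 + 6)) := IB.sum fun j hj => by
    have hj1 := (Finset.mem_Icc.1 hj).1
    lift j to ℕ using by omega
    simp only [aseq_nat]
    exact IB.ind (S := {p | |rb k p.1 p.2 j| ≤ 2}) (measurableSet_le
      ((continuous_apply j).comp (continuous_rb k)).measurable.abs measurable_const)
      (h2 j (by exact_mod_cast hj1))
  have i3 : IB (fun p => ∑ T ∈ Finset.Icc (Y0 / 30) N, 64 * T * ∑ v ∈ Finset.Icc (0 : ℤ) N,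
      ind (RE (κ ^ 1000) ε T (fw (aseq k p) v) (bw (aseq k p) v)))
      (∑ T ∈ Finset.Icc (Y0 / 30) N, 64 * T * ∑ _v ∈ Finset.Icc (0 : ℤ) N, R T) :=
    IB.sum fun T hT => IB.mul (by positivity) (IB.sum fun v hv =>
      IB.stat k (measurableSet_RE _ ε T) (Finset.mem_Icc.1 hv).1 (h3 T (Finset.mem_Icc.1 hT).1))
  have i4 : IB (fun p => ∑ v ∈ Finset.Icc (0 : ℤ) N,
      ind (QE (κ ^ 1000) δ (N / 2) (fw (aseq k p) v) (bw (aseq k p) v)))
      (∑ _v ∈ Finset.Icc (0 : ℤ) N, q) :=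
    IB.sum fun v hv => IB.stat k (measurableSet_QE _ δ (N / 2)) (Finset.mem_Icc.1 hv).1 h5
  have i5 := (((i1.add (IB.const 2)).add (IB.const (logb (κ ^ 1000) (2 * N + 3)))).add
    (i2.mul (c := 2 * Y0 + 6) (by positivity))).add
    ((i3.add (i4.mul (c := 1000 / ε) (by positivity))).mul (ind_nonneg (Y0 < N)))
  have h6 := (integral_mono (integrable_dfc hk0 hK N) i5.1 fun p => by
    have := det_bound hκ hε hε1 hδ0 hδ hY N (a := aseq k p) fun j => abs_ac_le hk0 hK _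
    rwa [fw_aseq] at this).trans i5.2
  have c1 : ((Finset.Icc (1 : ℤ) N).card : ℝ) = N := by simp
  have c2 : ((Finset.Icc (0 : ℤ) N).card : ℝ) = N + 1 := by simp
  simp only [Finset.sum_const, nsmul_eq_mul, c1, c2] at h6
  have e1 : ∑ T ∈ Finset.Icc (Y0 / 30) N, 64 * (T : ℝ) * ((N + 1) * R T) =
      64 * (N + 1) * ∑ T ∈ Finset.Icc (Y0 / 30) N, T * R T := by
    rw [Finset.mul_sum]; exact Finset.sum_congr rfl fun T _ => by ring
  have e2 : (2 * Y0 + 6 : ℝ) * (N * (η / (2 * Y0 + 6))) = N * η := by field_simp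
  have e3 : logb (κ ^ 1000) (2 * N + 3) ≤ N * η := by
    have hl : 0 < log κ := log_pos (by linarith)
    rw [logb, log_pow, div_le_iff₀ (by positivity)]
    have := log_le_sub_one_of_pos (show (0 : ℝ) < 2 * N + 3 by positivity)
    push_cast
    nlinarith
  rw [e1, e2] at h6
  unfold Dn
  rw [div_le_iff₀ (by linarith)]
  have e4 : 64 * (N + 1) * ∑ T ∈ Finset.Icc (Y0 / 30) N, T * R T + 1000 / ε * ((N + 1) * q) ≤
      (128 * r + 2000 / ε * q) * N := by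
    have a1 : 64 * (N + 1) * ∑ T ∈ Finset.Icc (Y0 / 30) N, T * R T ≤ 64 * (2 * N) * r :=
      (mul_le_mul_of_nonneg_left h4 (by positivity)).trans (by gcongr; linarith)
    have a2 : 1000 / ε * ((N + 1) * q) ≤ 1000 / ε * ((2 * N) * q) := by gcongr; linarith
    calc _ ≤ 64 * (2 * N) * r + 1000 / ε * ((2 * N) * q) := add_le_add a1 a2
      _ = _ := by ring
  have e5 := mul_le_mul_of_nonneg_left e4 (ind_nonneg (Y0 < N))
  nlinarith

theorem Dn_small : ∃ (N₀ : ℕ) (κ₀ : ℝ), ∀ κ k : ℝ, κ₀ ≤ κ → κ ^ 1000 = 2 * π * k + 3 →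
    ∀ N : ℕ, N₀ ≤ N → Dn (κ ^ 1000) k N ≤ 1 / 4 := by
  obtain ⟨ε, hε, hε1, c, hc, T₀, κ₁, H1⟩ := rigid
  obtain ⟨θ, hθ, hθ1, hθ2⟩ : ∃ θ : ℝ, 0 < θ ∧ θ ≤ 1 / 4 ∧
      2000 / ε * (36000 * (2 * θ / (ε / 8)) ^ 2) ≤ θ / 2 := by
    refine ⟨ε ^ 3 / 10 ^ 11, by positivity, ?_, ?_⟩
    · have : ε ^ 3 ≤ 1 := pow_le_one₀ hε.le (by linarith)
      linarith
    · have : 2000 / ε * (36000 * (2 * (ε ^ 3 / 10 ^ 11) / (ε / 8)) ^ 2) =
          2000 * 36000 * 256 / 10 ^ 22 * ε ^ 3 := by field_simp; norm_num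
      rw [this]
      have := pow_pos hε 3
      linarith
  obtain ⟨η, hη, hηθ⟩ : ∃ η : ℝ, 0 < η ∧ θ = 12 * η := ⟨θ / 12, by positivity, by ring⟩
  obtain ⟨s, hs⟩ := summable_iff_vanishing_norm.1
    ((summable_pow_mul_exp_neg_nat_mul 1 hc).mul_left 2) (η / 128) (by positivity)
  obtain ⟨Y0, hY1, hY2, hY3, hY4⟩ : ∃ Y0 : ℕ, T₀ ≤ Y0 / 30 ∧ s.sup id < Y0 / 30 ∧
      1000 ≤ ε * Y0 ∧ 2 ≤ η * Y0 := by
    refine ⟨30 * (T₀ + s.sup id + 1) + ⌈1000 / ε⌉₊ + ⌈2 / η⌉₊, by omega, by omega, ?_, ?_⟩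
    · rw [← div_le_iff₀' hε]
      refine (Nat.le_ceil _).trans ?_
      exact_mod_cast (by omega)
    · rw [← div_le_iff₀' hη]
      refine (Nat.le_ceil _).trans ?_
      exact_mod_cast (by omega)
  obtain ⟨κ₂, H2⟩ := integral_bb_small hη
  obtain ⟨κ₃, H3⟩ := small_tendsto one_pos le_rfl (ε := η / (2 * Y0 + 6)) (by positivity)
  obtain ⟨κ₄, H4⟩ := qbound (δ0 := ε / 8) (ε := ε * η / 2000) (by positivity) (by linarith)
    (by positivity)
  refine ⟨Y0, max (max (max κ₁ κ₂) (max κ₃ κ₄)) (max 1000 (exp (5 / η))),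
    fun κ k hκ0 hK => ?_⟩
  simp only [max_le_iff] at hκ0
  obtain ⟨⟨⟨hκ1, hκ2⟩, hκ3, hκ4⟩, hκ, hκ5⟩ := hκ0
  obtain ⟨hk, -, -⟩ := k_facts hκ hK
  have hk0 : 0 ≤ k := by linarith
  have hlog : 5 ≤ η * log κ := by
    rw [← div_le_iff₀' hη]; exact (le_log_iff_exp_le (by linarith)).2 hκ5
  have hY5 : 1 ≤ Y0 := by omega
  have key : ∀ N, Y0 ≤ N → Dn (κ ^ 1000) k N ≤ 4 * η + ind (Y0 < N) * (128 * (η / 128) +
      2000 / ε * (ε * η / 2000 + 36000 * (Dn (κ ^ 1000) k N / (ε / 8)) ^ 2)) := by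
    intro N hN
    obtain ⟨δ, hδ, h5⟩ := H4 κ k hκ4 hK N (N / 2) (by omega) (by omega)
    refine Dn_le hκ hK hε hε1 (by linarith [hδ.1]) (by linarith [hδ.2]) hY3 (by omega) hη
      (hY4.trans (by gcongr)) hlog (R := fun T => 2 * exp (-(c * T))) (H2 κ k hκ2 hK)
      (fun j hj => le_trans (ENNReal.toReal_mono (measure_ne_top _ _) (measure_mono fun p hp => ?_))
        (H3 κ k hκ3 hK j hj)) (fun T hT => H1 κ k hκ1 hK T (hY1.trans hT)) ?_ (by positivity)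
      (by positivity) h5
    · simp only [Set.mem_ofPred_eq, sub_self, rpow_zero] at hp ⊢
      linarith
    · have := hs (Finset.Icc (Y0 / 30) N) (Finset.disjoint_left.2 fun T hT hT' => by
        have h1 := (Finset.mem_Icc.1 hT).1
        have h2 : T ≤ s.sup id := Finset.le_sup (f := id) hT'
        omega)
      refine le_trans (le_of_eq (Finset.sum_congr rfl fun T _ => ?_))
        ((le_abs_self _).trans this.le)
      rw [neg_mul]; ring
  intro N hN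
  refine le_trans ?_ hθ1
  induction N, hN using Nat.le_induction with
  | base =>
    have := key Y0 le_rfl
    rw [ind_neg (lt_irrefl _)] at this
    linarith
  | succ N hN ih =>
    have h1 := key (N + 1) (by omega)
    rw [ind_pos (by omega)] at h1
    have h2 := Dn_succ_le hk0 hK (hY5.trans hN)
    have hN0 : (0 : ℝ) < N := by exact_mod_cast hY5.trans hN
    have h3 : 2 / (N : ℝ) ≤ η := by
      rw [div_le_iff₀ hN0]; exact hY4.trans (by gcongr)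
    have h4 : Dn (κ ^ 1000) k (N + 1) ≤ 2 * θ := by linarith
    have h5 := Dn_nonneg hk0 hK (N + 1)
    have h6 : 2000 / ε * (36000 * (Dn (κ ^ 1000) k (N + 1) / (ε / 8)) ^ 2) ≤
        2000 / ε * (36000 * (2 * θ / (ε / 8)) ^ 2) := by gcongr
    have h7 : 2000 / ε * (ε * η / 2000) = η := by field_simp
    rw [mul_add (2000 / ε), h7] at h1
    linarith

end Crest.Agent.R128
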