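import Crest.Agent.R128.Final
import Crest.Prelude.Def_StandardMap

/-! Row 128: back to the standard map. -/

set_option autoImplicit false

namespace Crest.Agent.R128

open Real MeasureTheory Set Crest.AnalysisR.StandardFamily

/-- the involution `(x, y) ↦ (x, x - y)` -/
noncomputable def Lm : (ℝ × ℝ) →L[ℝ] (ℝ × ℝ) :=
  (ContinuousLinearMap.fst ℝ ℝ ℝ).prod (ContinuousLinearMap.fst ℝ ℝ ℝ - ContinuousLinearMap.snd ℝ ℝ ℝ)

@[simp] theorem Lm_apply (v : ℝ × ℝ) : Lm v = (v.1, v.1 - v.2) := rfl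

theorem Lm_Lm (v : ℝ × ℝ) : Lm (Lm v) = v := by simp

theorem norm_Lm_le : ‖Lm‖ ≤ 2 := by
  refine ContinuousLinearMap.opNorm_le_bound _ (by norm_num) fun v => ?_
  have h1 := norm_fst_le v
  have h2 := norm_snd_le v
  have h3 := norm_sub_le v.1 v.2
  rw [Lm_apply, Prod.norm_mk]
  exact max_le (by linarith [norm_nonneg v]) (by linarith)

theorem iterate_eq (k : ℝ) (p : ℝ × ℝ) (n : ℕ) : (standardMapLift k)^[n] p =
    (ro k (p.1 - p.2) p.1 (n + 1), ro k (p.1 - p.2) p.1 (n + 1) - ro k (p.1 - p.2) p.1 n) := by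
  induction n with
  | zero => simp
  | succ n ih =>
    rw [Function.iterate_succ_apply', ih, ro_succ]
    simp only [standardMapLift, ph]
    ext <;> simp only <;> ring

theorem hasFDerivAt_map (k : ℝ) (p : ℝ × ℝ) :
    HasFDerivAt (standardMapLift k) (Lm.comp ((stp (ac k p.1)).comp Lm)) p := by
  have h1 : HasFDerivAt (fun p : ℝ × ℝ => k * sin (2 * π * p.1)) _ p :=
    ((hasFDerivAt_fst.const_mul (2 * π)).sin).const_mul k
  have h2 := ((hasFDerivAt_fst.add hasFDerivAt_snd).add h1).prodMk (hasFDerivAt_snd.add h1)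
  refine HasFDerivAt.congr_fderiv h2 ?_
  ext <;> simp [ac] <;> ring

theorem hasFDerivAt_iterate (k : ℝ) (p : ℝ × ℝ) (n : ℕ) :
    HasFDerivAt (standardMapLift k)^[n] (Lm.comp ((tr (rb k (p.1 - p.2) p.1) n).comp Lm)) p := by
  induction n with
  | zero =>
    refine HasFDerivAt.congr_fderiv (hasFDerivAt_id p) ?_
    ext <;> simp
  | succ n ih =>
    rw [Function.iterate_succ']
    refine HasFDerivAt.congr_fderiv ((hasFDerivAt_map k _).comp p ih) ?_
    refine ContinuousLinearMap.ext fun v => ?_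
    simp only [ContinuousLinearMap.comp_apply, Lm_Lm, tr_succ, iterate_eq, rb]

theorem norm_tr_le_fderiv (k : ℝ) (p : ℝ × ℝ) (n : ℕ) :
    ‖tr (rb k (p.1 - p.2) p.1) n‖ ≤ 4 * ‖fderiv ℝ (standardMapLift k)^[n] p‖ := by
  have h : tr (rb k (p.1 - p.2) p.1) n =
      Lm.comp ((fderiv ℝ (standardMapLift k)^[n] p).comp Lm) := by
    rw [(hasFDerivAt_iterate k p n).fderiv]
    refine ContinuousLinearMap.ext fun v => ?_
    simp only [ContinuousLinearMap.comp_apply, Lm_Lm]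
  rw [h]
  have h1 := norm_Lm_le
  calc _ ≤ ‖Lm‖ * (‖fderiv ℝ (standardMapLift k)^[n] p‖ * ‖Lm‖) :=
        (ContinuousLinearMap.opNorm_comp_le _ _).trans
          (by gcongr; exact ContinuousLinearMap.opNorm_comp_le _ _)
    _ ≤ 2 * (‖fderiv ℝ (standardMapLift k)^[n] p‖ * 2) := by gcongr
    _ = _ := by ring

theorem half_le_Psq {k K : ℝ} (hk : 0 ≤ k) (hK : K = 2 * π * k + 3) {N : ℕ} (hN : 1 ≤ N)
    (h : Dn K k N ≤ 1 / 4) :
    ENNReal.ofReal (1 / 2) ≤ Psq {p | dfc K (rb k p.1 p.2) N ≤ N / 2} := by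
  have hK1 : 1 < K := by have := pi_pos; nlinarith
  have hN0 : (0 : ℝ) < N := by exact_mod_cast hN
  have hm : MeasurableSet {p : ℝ × ℝ | dfc K (rb k p.1 p.2) N ≤ N / 2} :=
    measurableSet_le ((measurable_dfc K N).comp (continuous_rb k).measurable) measurable_const
  have h1 := mul_meas_ge_le_integral_of_nonneg
    (ae_of_all Psq fun p => dfc_nonneg hK1 (bd_rb hk hK p.1 p.2) N) (integrable_dfc hk hK N)
    ((N : ℝ) / 2)
  rw [Dn, div_le_iff₀ hN0] at h
  have h2 : Psq.real {p : ℝ × ℝ | dfc K (rb k p.1 p.2) N ≤ N / 2}ᶜ ≤ 1 / 2 := by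
    refine le_trans (measureReal_mono (fun p hp => ?_) (measure_ne_top _ _))
      (show Psq.real {p : ℝ × ℝ | (N : ℝ) / 2 ≤ dfc K (rb k p.1 p.2) N} ≤ 1 / 2 by nlinarith)
    exact (not_le.1 (show ¬ dfc K (rb k p.1 p.2) N ≤ N / 2 from hp)).le
  rw [measureReal_compl hm, probReal_univ] at h2
  exact (ENNReal.ofReal_le_iff_le_toReal (measure_ne_top _ _)).2 (by rw [← measureReal_def]; linarith)

theorem main : ∃ k₀ : ℝ, 0 < k₀ ∧ ∀ k : ℝ, k₀ ≤ k →
    0 < volume ({p : ℝ × ℝ | ∃ c : ℝ, 0 < c ∧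
        ∃ᶠ n : ℕ in Filter.atTop, c * n ≤ Real.log ‖fderiv ℝ (standardMapLift k)^[n] p‖} ∩
      Set.Ico (0 : ℝ) 1 ×ˢ Set.Ico (0 : ℝ) 1) := by
  obtain ⟨N₀, κ₀, H⟩ := Dn_small
  refine ⟨max κ₀ 1000 ^ 1000, by positivity, fun k hk => ?_⟩
  have hk0 : 0 ≤ k := le_trans (by positivity) hk
  obtain ⟨κ, hκ0, hK⟩ : ∃ κ : ℝ, 0 ≤ κ ∧ κ ^ 1000 = 2 * π * k + 3 :=
    ⟨(2 * π * k + 3) ^ ((1000 : ℕ) : ℝ)⁻¹, by positivity,
      rpow_inv_natCast_pow (by positivity) (by norm_num)⟩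
  have hκ : max κ₀ 1000 ≤ κ := by
    refine le_of_pow_le_pow_left₀ (n := 1000) (by norm_num) hκ0 (hk.trans ?_)
    nlinarith [pi_gt_three]
  rw [max_le_iff] at hκ
  replace H := H κ k hκ.1 hK
  have hK2 : 1000 ≤ κ ^ 1000 := hκ.2.trans (le_self_pow₀ (by linarith) (by norm_num))
  generalize κ ^ 1000 = K at hK H hK2
  set A : ℕ → Set (ℝ × ℝ) := fun N => {p | dfc K (rb k p.1 p.2) N ≤ N / 2} with hA
  have hAm : ∀ N, MeasurableSet (A N) := fun N =>
    measurableSet_le ((measurable_dfc K N).comp (continuous_rb k).measurable) measurable_const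
  set B : ℕ → Set (ℝ × ℝ) := fun N => {p | (p.1 - p.2, p.1) ∈ A N} with hB
  have hBm : ∀ N, MeasurableSet (B N) := fun N =>
    (show Measurable fun p : ℝ × ℝ => (p.1 - p.2, p.1) by fun_prop) (hAm N)
  have hBA : ∀ N, Psq (B N) = Psq (A N) := fun N =>
    Psq_coord (hAm N) (per_rb k fun b _ => dfc K b N ≤ N / 2)
  have h1 : Psq (⋂ m, ⋃ n ≥ m, B n) = ⨅ m, Psq (⋃ n ≥ m, B n) :=
    Antitone.measure_iInter (fun m m' h => biUnion_subset_biUnion_left fun n hn => h.trans hn)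
      (fun m => (MeasurableSet.biUnion (to_countable _) fun n _ => hBm n).nullMeasurableSet)
      ⟨0, measure_ne_top _ _⟩
  have h2 : ENNReal.ofReal (1 / 2) ≤ Psq (⋂ m, ⋃ n ≥ m, B n) := by
    rw [h1]
    refine le_iInf fun m => ?_
    refine le_trans ?_ (measure_mono (subset_biUnion_of_mem (u := B)
      (show m + N₀ + 1 ∈ {n | n ≥ m} by simp only [mem_ofPred_eq]; omega)))
    rw [hBA]
    exact half_le_Psq hk0 hK (by omega) (H _ (by omega))
  rw [Psq, Measure.restrict_apply' (measurableSet_Ico.prod measurableSet_Ico)] at h2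
  refine lt_of_lt_of_le (by simp) (h2.trans (measure_mono (inter_subset_inter_left _ ?_)))
  intro p hp
  have hl : 0 < log K := log_pos (by linarith)
  refine ⟨log K / 4, by positivity, Filter.frequently_atTop.2 fun m => ?_⟩
  obtain ⟨n, hn, hp'⟩ : ∃ n, n ≥ m + 1 ∧ p ∈ B n := by simpa using mem_iInter.1 hp (m + 1)
  refine ⟨n, by omega, ?_⟩
  have h3 := (rpow_le_norm_tr (by linarith) (bd_rb hk0 hK _ _) hp').trans (norm_tr_le_fderiv k p n)
  have h4 := log_le_log (by positivity) h3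
  have h5 : 0 < ‖fderiv ℝ (standardMapLift k)^[n] p‖ := by
    have : 0 < K ^ ((n : ℝ) - n / 2) := by positivity
    linarith
  rw [log_rpow (by linarith), log_mul (by norm_num) h5.ne'] at h4
  have h6 : 4 * log 4 ≤ log K := by
    rw [← Nat.cast_ofNat (n := 4), ← log_pow]
    exact log_le_log (by positivity) (by norm_num; linarith)
  have h7 : (1 : ℝ) ≤ n := by exact_mod_cast (by omega : 1 ≤ n)
  nlinarith

end Crest.Agent.R128
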