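import Crest.Agent.R128.Basic

/-! Row 128: real-variable lemmas. -/

set_option autoImplicit false

namespace Crest.Agent.R128

open Real MeasureTheory Set

/-- Recipe: the set is the union over the integers `n` with `|n + 1/2 - φ a|`-range inside the range
of `φ` (at most `2 ν (b - a) + 2` integers `n` occur: any two differ by at most `2 ν (b-a) + 2 ε`) of
sets of diameter `≤ 4 ε / ν` (`Real.volume_le_diam` or inclusion in an interval). -/
theorem near_half_le {φ : ℝ → ℝ} {a b ν ε : ℝ} (hab : a ≤ b) (hν : 0 < ν) (hε : 0 ≤ ε)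
    (hε1 : ε ≤ 1 / 2)
    (h : ∀ s ∈ Icc a b, ∀ t ∈ Icc a b, ν / 2 * |t - s| ≤ |φ t - φ s| ∧
      |φ t - φ s| ≤ 2 * ν * |t - s|) :
    volume {t ∈ Icc a b | ∃ n : ℤ, |φ t - n - 1 / 2| ≤ ε} ≤
      ENNReal.ofReal (8 * ε * (b - a) + 8 * ε / ν) := by
  classical
  set A : ℤ → Set ℝ := fun n => {t ∈ Icc a b | |φ t - n - 1 / 2| ≤ ε} with hA
  have hba : 0 ≤ b - a := sub_nonneg.2 hab
  have hvol : ∀ n, volume (A n) ≤ ENNReal.ofReal (4 * ε / ν) := by
    intro n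
    refine (Real.volume_le_diam _).trans (Metric.ediam_le fun s hs t ht => ?_)
    rw [edist_dist, Real.dist_eq]
    refine ENNReal.ofReal_le_ofReal ?_
    have h1 := (h t ht.1 s hs.1).1
    have h2 : |φ s - φ t| ≤ 2 * ε := by
      have e : φ s - φ t = (φ s - n - 1 / 2) - (φ t - n - 1 / 2) := by ring
      rw [e]
      exact (abs_sub _ _).trans (by linarith [hs.2, ht.2])
    rw [le_div_iff₀ hν]
    linarith
  have hdiff : ∀ n n' : ℤ, (A n).Nonempty → (A n').Nonempty →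
      ((n' : ℝ) - n) ≤ 2 * ν * (b - a) + 1 := by
    rintro n n' ⟨s, hs⟩ ⟨t, ht⟩
    have h1 := (h s hs.1 t ht.1).2
    have h2 : |t - s| ≤ b - a := by
      rw [abs_le]; constructor <;> linarith [hs.1.1, hs.1.2, ht.1.1, ht.1.2]
    have h3 : 2 * ν * |t - s| ≤ 2 * ν * (b - a) := by gcongr
    have h4 := abs_le.1 hs.2
    have h5 := abs_le.1 ht.2
    have h6 := le_abs_self (φ t - φ s)
    linarith [h4.2, h5.1]
  by_cases hne : ∃ n, (A n).Nonempty
  · obtain ⟨n1, hn1⟩ := hne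
    obtain ⟨n0, hn0, hmin⟩ := Int.exists_least_of_bdd (P := fun n => (A n).Nonempty)
      ⟨n1 - ⌈2 * ν * (b - a) + 1⌉, fun n hn => by
        have h1 := hdiff n n1 hn hn1
        have h2 := Int.le_ceil (2 * ν * (b - a) + 1)
        have h3 : ((n1 - ⌈2 * ν * (b - a) + 1⌉ : ℤ) : ℝ) ≤ n := by push_cast; linarith
        exact_mod_cast h3⟩ ⟨n1, hn1⟩
    set m : ℕ := ⌊2 * ν * (b - a) + 1⌋₊ with hm
    have hpos : 0 ≤ 2 * ν * (b - a) + 1 := by positivity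
    have hsub : {t ∈ Icc a b | ∃ n : ℤ, |φ t - n - 1 / 2| ≤ ε} ⊆
        ⋃ n ∈ Finset.Icc n0 (n0 + m), A n := by
      rintro t ⟨ht, n, hn⟩
      have hAn : (A n).Nonempty := ⟨t, ht, hn⟩
      simp only [mem_iUnion, Finset.mem_Icc, exists_prop]
      refine ⟨n, ⟨hmin n hAn, ?_⟩, ht, hn⟩
      have h1 := hdiff n0 n hn0 hAn
      have h2 : ((n - n0 : ℤ) : ℝ) < (m : ℝ) + 1 := by
        push_cast; linarith [Nat.lt_floor_add_one (2 * ν * (b - a) + 1)]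
      have h3 : n - n0 < (m : ℤ) + 1 := by exact_mod_cast h2
      omega
    refine (measure_mono hsub).trans ((measure_biUnion_finset_le _ _).trans ?_)
    refine (Finset.sum_le_card_nsmul _ _ _ fun n _ => hvol n).trans ?_
    have hcard : (Finset.Icc n0 (n0 + m)).card = m + 1 := by
      rw [Int.card_Icc]; omega
    rw [hcard, nsmul_eq_mul, ← ENNReal.ofReal_natCast, ← ENNReal.ofReal_mul (by positivity)]
    refine ENNReal.ofReal_le_ofReal ?_
    have h1 : (m : ℝ) ≤ 2 * ν * (b - a) + 1 := Nat.floor_le hpos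
    have h2 : ((m + 1 : ℕ) : ℝ) ≤ 2 * ν * (b - a) + 2 := by push_cast; linarith
    calc ((m + 1 : ℕ) : ℝ) * (4 * ε / ν) ≤ (2 * ν * (b - a) + 2) * (4 * ε / ν) := by gcongr
      _ = 8 * ε * (b - a) + 8 * ε / ν := by field_simp; ring
  · have : {t ∈ Icc a b | ∃ n : ℤ, |φ t - n - 1 / 2| ≤ ε} = ∅ := by
      ext t
      simp only [mem_ofPred_eq, mem_empty_iff_false, iff_false, not_and, not_exists]
      exact fun ht n hn => hne ⟨n, t, ht, hn⟩
    rw [this]; simp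

/-- Recipe: `n = ⌊2x⌋`, `r = 2x - n - 1/2 ∈ [-1/2, 1/2)`, `|cos (2πx)| = |sin (π r)| ≥ 2 |r|`
(`Real.mul_le_sin` / `Real.two_div_pi_mul_le_sin`). -/
theorem exists_near_of_cos {x θ : ℝ} (h : |cos (2 * π * x)| ≤ θ) :
    ∃ n : ℤ, |2 * x - n - 1 / 2| ≤ θ / 2 := by
  refine ⟨⌊2 * x⌋, ?_⟩
  set r : ℝ := 2 * x - ⌊2 * x⌋ - 1 / 2 with hr
  have h1 : -(1 / 2) ≤ r := by have := Int.floor_le (2 * x); linarith
  have h2 : r ≤ 1 / 2 := by have := Int.lt_floor_add_one (2 * x); linarith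
  have e : 2 * π * x = (π * r + π / 2) + (⌊2 * x⌋ : ℤ) * π := by rw [hr]; ring
  have h3 : |cos (2 * π * x)| = |sin (π * r)| := by
    rw [e, Real.cos_add_int_mul_pi, abs_mul, Real.cos_add_pi_div_two, abs_neg]
    have : |((-1 : ℝ)) ^ (⌊2 * x⌋ : ℤ)| = 1 := by rw [abs_zpow]; simp
    rw [this, one_mul]
  have h4 : 2 * |r| ≤ |sin (π * r)| := by
    have hra : |r| ≤ 1 / 2 := abs_le.2 ⟨h1, h2⟩
    have h5 : |sin (π * r)| = |sin (π * |r|)| := by
      rcases abs_choice r with h' | h' <;> rw [h']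
      rw [mul_neg, Real.sin_neg, abs_neg]
    have h6 := Real.mul_le_sin (x := π * |r|) (by positivity) (by nlinarith [pi_pos])
    have h7 : 2 / π * (π * |r|) = 2 * |r| := by field_simp
    rw [h5]
    exact (h7 ▸ h6).trans (le_abs_self _)
  linarith

/-- mean value inequality for `φ - c • id` -/
theorem sub_le_of_deriv {φ φ' : ℝ → ℝ} {a b c e : ℝ}
    (h : ∀ t ∈ Icc a b, HasDerivAt φ (φ' t) t) (h' : ∀ t ∈ Icc a b, |φ' t - c| ≤ e) :
    ∀ s ∈ Icc a b, ∀ t ∈ Icc a b, |φ t - φ s - c * (t - s)| ≤ e * |t - s| := by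
  intro s hs t ht
  have hd : ∀ x ∈ Icc a b, HasDerivWithinAt (fun x => φ x - c * x) (φ' x - c) (Icc a b) x :=
    fun x hx => by
      have := ((h x hx).sub ((hasDerivAt_id x).const_mul c)).hasDerivWithinAt (s := Icc a b)
      rw [mul_one] at this
      exact this
  have := (convex_Icc a b).norm_image_sub_le_of_norm_hasDerivWithin_le (C := e) hd
    (fun x hx => by simpa [Real.norm_eq_abs] using h' x hx) hs ht
  simp only [Real.norm_eq_abs] at this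
  have e1 : φ t - φ s - c * (t - s) = φ t - c * t - (φ s - c * s) := by ring
  rw [e1]; exact this

/-- Lagrange interpolation at three real nodes of `[0, 8]` with gaps at least `g`. -/
theorem quad_bound {c0 c1 c2 : ℂ} {s1 s2 s3 g B : ℝ} (hg : 0 < g) (h0 : 0 ≤ s1)
    (h12 : s1 + g ≤ s2) (h23 : s2 + g ≤ s3) (h3 : s3 ≤ 8)
    (b1 : ‖c0 + c1 * s1 + c2 * s1 ^ 2‖ ≤ B) (b2 : ‖c0 + c1 * s2 + c2 * s2 ^ 2‖ ≤ B)
    (b3 : ‖c0 + c1 * s3 + c2 * s3 ^ 2‖ ≤ B) {z : ℂ} (hz : ‖z‖ ≤ 10) :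
    ‖c0 + c1 * z + c2 * z ^ 2‖ ≤ 1000 * B / g ^ 2 := by
  have hB : 0 ≤ B := (norm_nonneg _).trans b1
  have d12 : 0 < s2 - s1 := by linarith
  have d23 : 0 < s3 - s2 := by linarith
  have d13 : 0 < s3 - s1 := by linarith
  have c12 : ((s2 : ℂ) - s1) ≠ 0 := by exact_mod_cast d12.ne'
  have c23 : ((s3 : ℂ) - s2) ≠ 0 := by exact_mod_cast d23.ne'
  have c13 : ((s3 : ℂ) - s1) ≠ 0 := by exact_mod_cast d13.ne'
  have key : c0 + c1 * z + c2 * z ^ 2 =
      (c0 + c1 * s1 + c2 * s1 ^ 2) * ((z - s2) * (z - s3)) / ((s2 - s1) * (s3 - s1)) -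
      (c0 + c1 * s2 + c2 * s2 ^ 2) * ((z - s1) * (z - s3)) / ((s2 - s1) * (s3 - s2)) +
      (c0 + c1 * s3 + c2 * s3 ^ 2) * ((z - s1) * (z - s2)) / ((s3 - s1) * (s3 - s2)) := by
    field_simp; ring
  have hz' : ∀ s : ℝ, 0 ≤ s → s ≤ 8 → ‖z - s‖ ≤ 18 := fun s h0 h8 => by
    refine (norm_sub_le _ _).trans ?_
    rw [Complex.norm_real, Real.norm_eq_abs, abs_of_nonneg h0]; linarith
  have z1 := hz' s1 h0 (by linarith)
  have z2 := hz' s2 (by linarith) (by linarith)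
  have z3 := hz' s3 (by linarith) h3
  have term : ∀ (P u v : ℂ) (x y : ℝ), ‖P‖ ≤ B → ‖u‖ ≤ 18 → ‖v‖ ≤ 18 → g ≤ x → g ≤ y →
      ‖P * (u * v) / ((x : ℂ) * (y : ℂ))‖ ≤ 324 * B / g ^ 2 := by
    intro P u v x y hP hu hv hx hy
    rw [norm_div, norm_mul, norm_mul, norm_mul, Complex.norm_real, Complex.norm_real,
      Real.norm_eq_abs, Real.norm_eq_abs, abs_of_pos (hg.trans_le hx), abs_of_pos (hg.trans_le hy)]
    have h1 : ‖P‖ * (‖u‖ * ‖v‖) ≤ B * (18 * 18) := by gcongr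
    have h2 : g ^ 2 ≤ x * y := by rw [sq]; gcongr; exact (hg.trans_le hx).le
    calc ‖P‖ * (‖u‖ * ‖v‖) / (x * y) ≤ B * (18 * 18) / g ^ 2 := by gcongr
      _ = 324 * B / g ^ 2 := by ring
  have t1 := term _ _ _ (s2 - s1) (s3 - s1) b1 z2 z3 (by linarith) (by linarith)
  have t2 := term _ _ _ (s2 - s1) (s3 - s2) b2 z1 z3 (by linarith) (by linarith)
  have t3 := term _ _ _ (s3 - s1) (s3 - s2) b3 z1 z2 (by linarith) (by linarith)
  push_cast at t1 t2 t3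
  rw [key]
  refine (norm_add_le _ _).trans ((add_le_add (norm_sub_le _ _) le_rfl).trans ?_)
  have h4 : 0 ≤ B / g ^ 2 := by positivity
  have e1 : 324 * B / g ^ 2 = 324 * (B / g ^ 2) := by ring
  have e2 : 1000 * B / g ^ 2 = 1000 * (B / g ^ 2) := by ring
  rw [e1] at t1 t2 t3
  rw [e2]; linarith

/-- A quadratic does not alternate in sign at four points (third divided difference). -/
theorem quad_alt {q0 q1 q2 t1 t2 t3 t4 σ : ℝ} (h12 : t1 < t2) (h23 : t2 < t3) (h34 : t3 < t4)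
    (p1 : 0 < σ * (q0 + q1 * t1 + q2 * t1 ^ 2)) (p2 : σ * (q0 + q1 * t2 + q2 * t2 ^ 2) < 0)
    (p3 : 0 < σ * (q0 + q1 * t3 + q2 * t3 ^ 2)) (p4 : σ * (q0 + q1 * t4 + q2 * t4 ^ 2) < 0) :
    False := by
  have key : σ * (q0 + q1 * t1 + q2 * t1 ^ 2) * ((t3 - t2) * (t4 - t2) * (t4 - t3)) -
      σ * (q0 + q1 * t2 + q2 * t2 ^ 2) * ((t3 - t1) * (t4 - t1) * (t4 - t3)) +
      σ * (q0 + q1 * t3 + q2 * t3 ^ 2) * ((t2 - t1) * (t4 - t1) * (t4 - t2)) -
      σ * (q0 + q1 * t4 + q2 * t4 ^ 2) * ((t2 - t1) * (t3 - t1) * (t3 - t2)) = 0 := by ring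
  have d21 : 0 < t2 - t1 := by linarith
  have d32 : 0 < t3 - t2 := by linarith
  have d43 : 0 < t4 - t3 := by linarith
  have d31 : 0 < t3 - t1 := by linarith
  have d42 : 0 < t4 - t2 := by linarith
  have d41 : 0 < t4 - t1 := by linarith
  have a1 := mul_pos p1 (mul_pos (mul_pos d32 d42) d43)
  have a2 := mul_neg_of_neg_of_pos p2 (mul_pos (mul_pos d31 d41) d43)
  have a3 := mul_pos p3 (mul_pos (mul_pos d21 d41) d42)
  have a4 := mul_neg_of_neg_of_pos p4 (mul_pos (mul_pos d21 d31) d32)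
  linarith


end Crest.Agent.R128
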