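import Crest.Agent.R128.Ev
import Crest.Agent.R128.RealS

/-! Row 128: invariance of the measure. -/

set_option autoImplicit false

namespace Crest.Agent.R128

open Real MeasureTheory Set

theorem volume_per_Ioc {A : Set ℝ} (hA : MeasurableSet A)
    (hp : ∀ (t : ℝ) (i : ℤ), t + i ∈ A ↔ t ∈ A) (a : ℝ) :
    volume (A ∩ Ioc a (a + 1)) = volume (A ∩ Ico 0 1) := by
  have h := (isAddFundamentalDomain_Ioc one_pos a).measure_set_eq
    (isAddFundamentalDomain_Ioc one_pos 0) hA (by
      rintro ⟨_, i, rfl⟩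
      ext t
      have := hp t i
      simpa [add_comm] using this)
  rw [h, zero_add]
  exact measure_congr ((ae_eq_refl A).inter Ico_ae_eq_Ioc.symm)

theorem volume_per_Ico_sub {A : Set ℝ} (hA : MeasurableSet A)
    (hp : ∀ (t : ℝ) (i : ℤ), t + i ∈ A ↔ t ∈ A) (c : ℝ) :
    volume ({x | c - x ∈ A} ∩ Ico 0 1) = volume (A ∩ Ico 0 1) := by
  rw [← volume_per_Ioc hA hp (c - 1),
    ← (Measure.measurePreserving_sub_left volume c).measure_preimage
      (hA.inter measurableSet_Ioc).nullMeasurableSet]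
  congr 1
  ext x
  simp only [mem_inter_iff, mem_setOf_eq, mem_Ico, mem_preimage, mem_Ioc]
  constructor <;> rintro ⟨h1, h2, h3⟩ <;> exact ⟨h1, by linarith, by linarith⟩

/-- Recipe: `isAddFundamentalDomain_Ioc`/`IsAddFundamentalDomain.measure_set_eq` (or cut the interval
at an integer) for `m = 1`, any `a`; then induction on `m`; end points are null. -/
theorem volume_per_Icc {A : Set ℝ} (hA : MeasurableSet A) (hp : ∀ (t : ℝ) (i : ℤ), t + i ∈ A ↔ t ∈ A)
    (a : ℝ) (m : ℕ) : volume (A ∩ Icc a (a + m)) = m * volume (A ∩ Ico 0 1) := by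
  rw [measure_congr ((ae_eq_refl A).inter (Ioc_ae_eq_Icc (a := a) (b := a + m)).symm)]
  induction m with
  | zero => simp
  | succ m ih =>
    have h0 : (0 : ℝ) ≤ m := Nat.cast_nonneg m
    have e : A ∩ Ioc a (a + (m + 1 : ℕ)) = A ∩ Ioc a (a + m) ∪ A ∩ Ioc (a + m) (a + m + 1) := by
      rw [← inter_union_distrib_left, Ioc_union_Ioc_eq_Ioc (by linarith) (by linarith)]
      push_cast; rw [add_assoc]
    rw [e, measure_union _ (hA.inter measurableSet_Ioc), ih, volume_per_Ioc hA hp]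
    · push_cast; ring
    · exact Disjoint.mono inter_subset_right inter_subset_right (Ioc_disjoint_Ioc_of_le le_rfl)

theorem volume_inter_prod {S : Set (ℝ × ℝ)} (hS : MeasurableSet S) {I J : Set ℝ}
    (hJ : MeasurableSet J) :
    volume (S ∩ I ×ˢ J) = ∫⁻ ξ in I, volume ({t | (ξ, t) ∈ S} ∩ J) := by
  rw [← Measure.restrict_apply hS, Measure.volume_eq_prod, ← Measure.prod_restrict,
    Measure.prod_apply hS]
  refine lintegral_congr fun ξ => ?_
  rw [Measure.restrict_apply' hJ]
  rfl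

theorem volume_swap (S : Set (ℝ × ℝ)) (hS : MeasurableSet S) :
    volume (Prod.swap ⁻¹' S) = volume S :=
  (Measure.measurePreserving_swap (μ := volume) (ν := volume)).measure_preimage
    hS.nullMeasurableSet

theorem volume_per_box_right {S : Set (ℝ × ℝ)} (hS : MeasurableSet S) (hp : Per S) (I : Set ℝ)
    (c : ℝ) (n : ℕ) : volume (S ∩ I ×ˢ Icc c (c + n)) = n * volume (S ∩ I ×ˢ Ico 0 1) := by
  rw [volume_inter_prod hS measurableSet_Icc, volume_inter_prod hS measurableSet_Ico,
    ← lintegral_const_mul' _ _ (ENNReal.natCast_ne_top n)]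
  refine lintegral_congr fun ξ => volume_per_Icc (measurable_prodMk_left hS) (fun t i => ?_) c n
  simpa using hp (ξ, t) 0 i

/-- Fubini (`Measure.prod_apply`) and `volume_per_Icc` in each variable. -/
theorem volume_per_box {S : Set (ℝ × ℝ)} (hS : MeasurableSet S) (hp : Per S) (a c : ℝ) (m n : ℕ) :
    volume (S ∩ Icc a (a + m) ×ˢ Icc c (c + n)) = m * n * Psq S := by
  have h1 := volume_per_box_right (measurable_swap hS) hp.swap (Ico 0 1) a m
  have e : ∀ I J : Set ℝ, Prod.swap ⁻¹' S ∩ I ×ˢ J = Prod.swap ⁻¹' (S ∩ J ×ˢ I) := fun I J => by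
    rw [preimage_inter, preimage_swap_prod]
  rw [e, e, volume_swap _ (hS.inter (measurableSet_Icc.prod measurableSet_Ico)),
    volume_swap _ (hS.inter (measurableSet_Ico.prod measurableSet_Ico))] at h1
  rw [volume_per_box_right hS hp, h1, Psq, Measure.restrict_apply hS]
  ring

theorem Psq_apply {S : Set (ℝ × ℝ)} (hS : MeasurableSet S) :
    Psq S = ∫⁻ ξ in Ico (0 : ℝ) 1, volume ({t | (ξ, t) ∈ S} ∩ Ico 0 1) := by
  rw [Psq, Measure.restrict_apply hS, volume_inter_prod hS measurableSet_Ico]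

theorem measurePreserving_swap_Psq : MeasurePreserving Prod.swap Psq Psq := by
  rw [Psq, Measure.volume_eq_prod, ← Measure.prod_restrict]
  exact Measure.measurePreserving_swap

theorem adv_succ (k : ℝ) (m : ℕ) : adv k (m + 1) = adv k m ∘ adv k 1 := by
  funext p
  simp only [adv, Function.comp_apply, ro_shift, add_comm 1]

theorem adv_one (k : ℝ) (p : ℝ × ℝ) : adv k 1 p = (p.2, ph k p.2 - p.1) := rfl

theorem continuous_ph (k : ℝ) : Continuous (ph k) := by
  unfold ph; fun_prop

/-- Recipe: `adv k (m+1) = adv k 1 ∘ adv k m` (`ro_shift`), and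
`adv k 1 p = (p.2, ph k p.2 - p.1)` is a swap followed by a skew product
(`MeasurePreserving.skew_product`, `measurePreserving_sub_left`). -/
theorem measurePreserving_adv (k : ℝ) (m : ℕ) : MeasurePreserving (adv k m) volume volume := by
  have h1 : MeasurePreserving (adv k 1) volume volume := by
    have hc := continuous_ph k
    have h := (MeasurePreserving.id (volume : Measure ℝ)).skew_product
      (g := fun y x : ℝ => ph k y - x) (μc := volume) (μd := volume)
      (by unfold Function.uncurry; fun_prop)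
      (Filter.Eventually.of_forall fun y =>
        (Measure.measurePreserving_sub_left volume (ph k y)).map_eq)
    exact h.comp Measure.measurePreserving_swap
  induction m with
  | zero => exact MeasurePreserving.id _
  | succ m ih => rw [adv_succ]; exact ih.comp h1

theorem Psq_skew {S : Set (ℝ × ℝ)} (hS : MeasurableSet S) (hp : Per S) {f : ℝ → ℝ}
    (hf : Continuous f) : Psq {p | (p.1, f p.1 - p.2) ∈ S} = Psq S := by
  have hm : Measurable fun p : ℝ × ℝ => (p.1, f p.1 - p.2) := by fun_prop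
  rw [Psq_apply (S := {p | (p.1, f p.1 - p.2) ∈ S}) (hm hS), Psq_apply hS]
  refine lintegral_congr fun ξ => volume_per_Ico_sub (A := {t | (ξ, t) ∈ S})
    (measurable_prodMk_left hS) (fun t i => ?_) (f ξ)
  simpa using hp (ξ, t) 0 i

/-- Recipe: for `m = 1` swap, then for fixed `y ∈ [0,1)` the section
`{x ∈ [0,1) | (y, ph k y - x) ∈ S}` has the measure of `{z ∈ [0,1) | (y, z) ∈ S}` by
`volume_per_Icc`; induction with `Per.adv`. -/
theorem Psq_adv {S : Set (ℝ × ℝ)} (hS : MeasurableSet S) (hp : Per S) (k : ℝ) (m : ℕ) :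
    Psq (adv k m ⁻¹' S) = Psq S := by
  induction m with
  | zero => rfl
  | succ m ih =>
    have hS' := (continuous_adv k m).measurable hS
    have hc := continuous_ph k
    have hm : Measurable fun p : ℝ × ℝ => (p.1, ph k p.1 - p.2) := by fun_prop
    rw [adv_succ, preimage_comp, ← ih, ← Psq_skew hS' (hp.adv k m) hc]
    exact measurePreserving_swap_Psq.measure_preimage (hm hS').nullMeasurableSet

/-- the change of coordinates `(x, y) ↦ (x - y, x)` -/
theorem Psq_coord {S : Set (ℝ × ℝ)} (hS : MeasurableSet S) (hp : Per S) :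
    Psq {p | (p.1 - p.2, p.1) ∈ S} = Psq S := by
  rw [← measurePreserving_swap_Psq.measure_preimage hS.nullMeasurableSet,
    ← Psq_skew (measurable_swap hS) hp.swap continuous_id]
  rfl

theorem orb_rec (k : ℝ) (p : ℝ × ℝ) (j : ℤ) :
    orb k p (j + 2) = ph k (orb k p (j + 1)) - orb k p j := by
  rcases le_or_gt 0 j with h | h
  · obtain ⟨n, rfl⟩ := Int.eq_ofNat_of_zero_le h
    have e1 : ((n : ℤ) + 2).toNat = n + 2 := by omega
    have e2 : ((n : ℤ) + 1).toNat = n + 1 := by omega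
    simp only [orb, if_pos h, if_pos (show (0 : ℤ) ≤ n + 2 by omega),
      if_pos (show (0 : ℤ) ≤ n + 1 by omega), e1, e2, Int.toNat_natCast, ro_succ]
  · have key : ∀ n : ℕ, orb k p (1 - n) = ro k p.2 p.1 n := fun n => by
      rcases n with _ | _ | n
      · simp [orb]
      · simp [orb]
      · have h1 : ¬ (0 : ℤ) ≤ 1 - ((n + 1 + 1 : ℕ) : ℤ) := by push_cast; omega
        have h2 : (1 - (1 - ((n + 1 + 1 : ℕ) : ℤ))).toNat = n + 1 + 1 := by push_cast; omega
        simp only [orb, if_neg h1, h2]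
    obtain ⟨n, rfl⟩ : ∃ n : ℕ, j = 1 - ((n + 2 : ℕ) : ℤ) := ⟨(-1 - j).toNat, by push_cast; omega⟩
    have e1 : 1 - ((n + 2 : ℕ) : ℤ) + 2 = 1 - (n : ℤ) := by push_cast; ring
    have e2 : 1 - ((n + 2 : ℕ) : ℤ) + 1 = 1 - ((n + 1 : ℕ) : ℤ) := by push_cast; ring
    rw [e1, e2, key, key, key, ro_succ]; ring

theorem orb_nat (k : ℝ) (p : ℝ × ℝ) (n : ℕ) : orb k p n = ro k p.1 p.2 n := by
  simp [orb]

/-- Recipe: `orb` satisfies the recursion on `ℤ`, so `j ↦ orb (v + j)` and `j ↦ orb (v + 1 - j)` are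
one-sided orbits (`ro_unique`). -/
theorem fw_bw_aseq (k : ℝ) (p : ℝ × ℝ) (v : ℕ) :
    fw (aseq k p) v = rb k (adv k v p).1 (adv k v p).2 ∧
      bw (aseq k p) v = rb k (adv k v p).2 (adv k v p).1 := by
  have e0 : orb k p ((v : ℤ) + 1) = ro k p.1 p.2 (v + 1) := by
    rw [← orb_nat]; push_cast; rfl
  constructor
  · funext j
    simp only [fw, aseq, rb, adv, ro_shift]
    rw [← orb_nat]
    push_cast; rfl
  · have h := ro_unique (k := k) (y := fun j : ℕ => orb k p (v + 1 - j)) fun j => by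
      have := orb_rec k p (v + 1 - ((j + 2 : ℕ) : ℤ))
      have e1 : (v : ℤ) + 1 - ((j + 2 : ℕ) : ℤ) + 2 = v + 1 - (j : ℤ) := by push_cast; ring
      have e2 : (v : ℤ) + 1 - ((j + 2 : ℕ) : ℤ) + 1 = v + 1 - ((j + 1 : ℕ) : ℤ) := by
        push_cast; ring
      rw [e1, e2] at this
      rw [this]; ring
    funext j
    have hj := congrFun h j
    simp only [Nat.cast_zero, sub_zero, Nat.cast_one, add_sub_cancel_right, e0, orb_nat] at hj
    simp only [bw, aseq, rb, adv, hj]

/-- stationarity (`fw_bw_aseq`, `Psq_adv`, `per_rb`) -/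
theorem Psq_stat (k : ℝ) {E : Set ((ℕ → ℝ) × (ℕ → ℝ))} (hE : MeasurableSet E) (v : ℕ) :
    Psq {p | (fw (aseq k p) v, bw (aseq k p) v) ∈ E} =
      Psq {p | (rb k p.1 p.2, rb k p.2 p.1) ∈ E} := by
  rw [← Psq_adv (S := {p | (rb k p.1 p.2, rb k p.2 p.1) ∈ E}) (((continuous_rb k).prodMk (continuous_rb' k)).measurable hE)
    (per_rb k fun b b' => (b, b') ∈ E) k v]
  congr 1
  ext p
  simp only [mem_setOf_eq, (fw_bw_aseq k p v).1, (fw_bw_aseq k p v).2, mem_preimage]

/-- Recipe: `v = j - 1` in `Psq_adv` (the set `{p | |ac k p.2| ≤ L}` is periodic, `j ≥ 1`), then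
`|cos (2π y)| ≤ θ := (L + 2) / (2 π k)`, `exists_near_of_cos`, `near_half_le` with `φ = 2 y`,
`ν = 2`; if `θ > 1` the bound is trivial. -/
theorem Psq_small {k L : ℝ} (hk : 0 < k) (hL : 0 ≤ L) {j : ℕ} (hj : 1 ≤ j) :
    Psq {p | |rb k p.1 p.2 j| ≤ L} ≤ ENNReal.ofReal (6 * (L + 2) / (2 * π * k)) := by
  obtain ⟨v, rfl⟩ : ∃ v, j = v + 1 := ⟨j - 1, by omega⟩
  have hS : MeasurableSet {p : ℝ × ℝ | |rb k p.1 p.2 1| ≤ L} :=
    measurableSet_le ((continuous_apply 1).comp (continuous_rb k)).abs.measurable measurable_const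
  have e : {p : ℝ × ℝ | |rb k p.1 p.2 (v + 1)| ≤ L} =
      adv k v ⁻¹' {p : ℝ × ℝ | |rb k p.1 p.2 1| ≤ L} := rfl
  rw [e, Psq_adv hS (per_rb k fun b _ => |b 1| ≤ L)]
  have hpk : 0 < 2 * π * k := by positivity
  set θ := (L + 2) / (2 * π * k) with hθ
  have hθ0 : 0 ≤ θ := by positivity
  rw [mul_div_assoc, ← hθ]
  rcases le_or_gt θ 1 with h1 | h1
  · have hn := near_half_le (φ := fun y => 2 * y) (a := 0) (b := 1) (ν := 2) (ε := θ / 2)
      zero_le_one two_pos (by positivity) (by linarith) (fun s _ t _ => by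
        rw [← mul_sub, abs_mul, abs_two]
        constructor <;> linarith [abs_nonneg (t - s)])
    have e2 : 8 * (θ / 2) * (1 - 0) + 8 * (θ / 2) / 2 = 6 * θ := by ring
    rw [e2] at hn
    rw [Psq_apply hS]
    calc _ ≤ ∫⁻ _ in Ico (0 : ℝ) 1, ENNReal.ofReal (6 * θ) := lintegral_mono fun ξ => by
          refine le_trans (measure_mono fun t ht => ?_) hn
          refine ⟨Ico_subset_Icc_self ht.2, exists_near_of_cos ?_⟩
          have h2 : |2 + 2 * π * k * cos (2 * π * t)| ≤ L := ht.1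
          rw [hθ, le_div_iff₀ hpk, ← abs_of_pos hpk, ← abs_mul, abs_le]
          rw [abs_le] at h2
          constructor <;> linarith [h2.1, h2.2]
      _ = _ := by simp
  · exact prob_le_one.trans (by rw [ENNReal.one_le_ofReal]; linarith)

end Crest.Agent.R128
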