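import Crest.Agent.R128.Leaf
import Crest.Agent.R128.Meas

/-! Row 128: the measure of a future event on an unstable curve. -/

set_option autoImplicit false

namespace Crest.Agent.R128

open Real MeasureTheory Set

theorem Inner_mvt {f f' : ℝ → ℝ} {s : Set ℝ} (hs : Convex ℝ s) {A C : ℝ}
    (hf : ∀ x ∈ s, HasDerivAt f (f' x) x) (hb : ∀ x ∈ s, |f' x - A| ≤ C) {x y : ℝ} (hx : x ∈ s)
    (hy : y ∈ s) : |f y - f x - A * (y - x)| ≤ C * |y - x| := by
  have h := hs.norm_image_sub_le_of_norm_hasDerivWithin_le (f := fun z => f z - A * z)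
    (f' := fun z => f' z - A)
    (fun z hz => ((hf z hz).sub (by simpa using (hasDerivAt_id z).const_mul A)).hasDerivWithinAt)
    hb hx hy
  rw [Real.norm_eq_abs, Real.norm_eq_abs] at h
  convert h using 2
  ring

/-- change of variables for a fibred map -/
theorem Inner_cov {P : Set ℝ} (hP : MeasurableSet P) {η τ ε η' : ℝ → ℝ} {c : ℝ}
    (hη : ∀ t ∈ P, HasDerivAt η (η' t) t) (hτ : ∀ t ∈ P, DifferentiableAt ℝ τ t)
    (hε : ∀ t ∈ P, DifferentiableAt ℝ ε t) (hc : ∀ t ∈ P, c ≤ |η' t * ε t|)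
    (hinj : InjOn (fun q : ℝ × ℝ => (η q.1, τ q.1 + q.2 * ε q.1)) (P ×ˢ Icc (-1) 1))
    {W : Set (ℝ × ℝ)} (hW : ∀ t ∈ P, ∀ σ ∈ Icc (-1 : ℝ) 1, (η t, τ t + σ * ε t) ∈ W) :
    ENNReal.ofReal c * (volume P * 2) ≤ volume W := by
  let L : ℝ × ℝ → (ℝ × ℝ →L[ℝ] ℝ × ℝ) := fun q => (Matrix.toLin (.finTwoProd ℝ) (.finTwoProd ℝ)
    !![η' q.1, 0; deriv τ q.1 + q.2 * deriv ε q.1, ε q.1]).toContinuousLinearMap
  have hs : MeasurableSet (P ×ˢ Icc (-1 : ℝ) 1) := hP.prod measurableSet_Icc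
  have hL : ∀ q ∈ P ×ˢ Icc (-1 : ℝ) 1, HasFDerivWithinAt
      (fun q : ℝ × ℝ => (η q.1, τ q.1 + q.2 * ε q.1)) (L q) (P ×ˢ Icc (-1) 1) q := by
    intro q hq
    refine HasFDerivAt.hasFDerivWithinAt ?_
    have h1 := (hη q.1 hq.1).comp_hasFDerivAt q (hasFDerivAt_fst (𝕜 := ℝ) (p := q))
    have h2 := (hτ q.1 hq.1).hasDerivAt.comp_hasFDerivAt q (hasFDerivAt_fst (𝕜 := ℝ) (p := q))
    have h3 := (hε q.1 hq.1).hasDerivAt.comp_hasFDerivAt q (hasFDerivAt_fst (𝕜 := ℝ) (p := q))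
    have h4 := h1.prodMk (h2.add ((hasFDerivAt_snd (𝕜 := ℝ) (p := q)).mul h3))
    refine h4.congr_fderiv ?_
    simp only [L]
    rw [Matrix.toLin_finTwoProd_toContinuousLinearMap]
    ext <;> simp
  have hdet : ∀ q, (L q).det = η' q.1 * ε q.1 := fun q => by
    simp only [L, LinearMap.det_toContinuousLinearMap, LinearMap.det_toLin, Matrix.det_fin_two_of]
    ring
  have h := lintegral_abs_det_fderiv_le_addHaar_image volume hs hL hinj
  refine le_trans ?_ (h.trans (measure_mono ?_))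
  · have e : volume (P ×ˢ Icc (-1 : ℝ) 1) = volume P * 2 := by
      rw [Measure.volume_eq_prod, Measure.prod_prod, Real.volume_Icc]
      norm_num
    rw [← e, ← setLIntegral_const]
    refine setLIntegral_mono' hs fun q hq => ?_
    rw [hdet]
    exact ENNReal.ofReal_le_ofReal (hc _ hq.1)
  · rintro _ ⟨q, hq, rfl⟩
    exact hW _ hq.1 _ hq.2

theorem Inner_diff_sol {b : ℝ → ℕ → ℝ} {t : ℝ} (hb : ∀ j, DifferentiableAt ℝ (fun t => b t j) t)
    (q p : ℝ) (j : ℕ) : DifferentiableAt ℝ (fun t => sol (b t) q p j) t := by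
  induction j using Nat.twoStepInduction with
  | zero => exact differentiableAt_const _
  | one => exact differentiableAt_const _
  | more j h0 h1 => exact ((hb (j + 1)).mul h1).sub h0

theorem Inner_sol_lin (b : ℕ → ℝ) (q p : ℝ) (j : ℕ) :
    sol b q p j = p * sol b 0 1 j + q * sol b 1 0 j :=
  congrFun ((isSol_sol b q p).unique ((isSol_sol b 0 1).lin (isSol_sol b 1 0) p q)
    (by simp) (by simp)) j

theorem Inner_convex (c E r : ℝ) : Convex ℝ {t : ℝ | |t - c| * |E| ≤ r} := by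
  have : ConvexOn ℝ univ fun t : ℝ => |t - c| * |E| := by
    have h := (convexOn_univ_dist c).smul (abs_nonneg E)
    simpa only [smul_eq_mul, Real.dist_eq, mul_comm] using h
  simpa using this.convex_le r

/-- the two estimates along a leaf -/
theorem Inner_leaf {k ξ τ E : ℝ} {G : ℕ} (h : ∀ t, |t - τ| * |E| ≤ 10 →
      |sol (rb k ξ t) 0 1 G - E| ≤ |E| / 100 ∧ |sol (rb k ξ t) 0 1 (G - 1)| ≤ |E| / 100)
    {s : ℝ} (hs : |s - τ| * |E| ≤ 10) :
    |ro k ξ s G - ro k ξ τ G - E * (s - τ)| ≤ |s - τ| * |E| / 100 ∧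
      |ro k ξ s (G - 1) - ro k ξ τ (G - 1)| ≤ |s - τ| * |E| / 100 := by
  have hd : ∀ j x, HasDerivAt (fun t => ro k ξ t j) (sol (rb k ξ x) 0 1 j) x := fun j x =>
    hasDerivAt_ro k (x0 := fun _ => ξ) (x1 := fun t => t) (hasDerivAt_const x ξ) (hasDerivAt_id' x) j
  have h0 : τ ∈ {t : ℝ | |t - τ| * |E| ≤ 10} := by simp
  have h1 := Inner_mvt (Inner_convex τ E 10) (fun x _ => hd G x) (fun x hx => (h x hx).1) h0 hs
  have h2 := Inner_mvt (A := 0) (Inner_convex τ E 10) (fun x _ => hd (G - 1) x)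
    (fun x hx => by simpa using (h x hx).2) h0 hs
  rw [zero_mul, sub_zero] at h2
  constructor <;> linarith

/-- Recipe.  `P` = the set on the left (measurable: `x0, x1` are continuous on the interval,
`measurableSet_FC`).  For `t ∈ P` let `η t = ro k (x0 t) (x1 t) G`, `τ t = ro k (x0 t) (x1 t) (G-1)`,
`E t = sol (rb k (x0 t) (x1 t)) 0 1 G`; `lf k G (η t) (τ t) = (x0 t, x1 t)` (`lf_ro`; `G ≥ H ≥ 1` by
`gi_cases`), so `leaf` applies.  `Θ (t, σ) = (η t, τ t + σ / E t)` on `P ×ˢ Icc (-1) 1`.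
* differentiable (`hasDerivAt_ro`; `E` is differentiable by a two-step induction), with Jacobian
  `η' t / E t`, `η' t = d1 t * E t + d0 t * sol … 1 0 G`, so `|det| ≥ 0.9 |D|`;
* injective: if two points have the same image `(η, s)`, then on the union `U` of the two leaf
  intervals (an interval, both contain `s`) the curve `r ↦ lf k G η r` has derivative
  `(sol (rb k η r) 0 1 G, sol (rb k η r) 0 1 (G-1))` with first component of constant sign and
  `99 |second| ≤ |first|`; hence `99 |x1 t - x1 t'| ≤ |x0 t - x0 t'|` (monotonicity of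
  `± first ± 99 second` on the segment between `τ t` and `τ t'`), while along the given curve
  `99 |x0 t - x0 t'| ≤ |x1 t - x1 t'|` and `|x1 t - x1 t'| ≥ 0.99 |D| |t - t'|`; so `t = t'`;
* the image lies in `W = {q | lf k G q.1 q.2 ∈ B ∩ box}`, `B = {p | FB …}`,
  `box = Icc (x0 t0 - 2) (x0 t0 + 2) ×ˢ Icc (x1 t0 - 6) (x1 t0 + 6)`, and
  `volume W = volume (B ∩ box) = 48 * Psq B` (`lf_eq_swap_adv`, `measurePreserving_adv`,
  `volume_per_box`, `per_rb`).
`lintegral_abs_det_fderiv_eq_addHaar_image` gives `0.9 |D| * 2 * volume P ≤ 48 * Psq B`. -/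
theorem inner {κ k δ : ℝ} (hκ : 1000 ≤ κ) (hK : κ ^ 1000 = 2 * π * k + 3) (hδ0 : 0 ≤ δ)
    (hδ : δ ≤ 1 / 2000) {H H' : ℕ} (G : ℕ) (hH : 4000 ≤ H) (hH' : 4 * H' ≤ 5 * H)
    {x0 x1 d0 d1 : ℝ → ℝ} {D t0 : ℝ} (hD : D ≠ 0)
    (h : ∀ t ∈ Icc (t0 - 5 / |D|) (t0 + 5 / |D|), HasDerivAt x0 (d0 t) t ∧ HasDerivAt x1 (d1 t) t ∧
      |d1 t - D| ≤ |D| / 100 ∧ |d0 t| ≤ |D| / 100) :
    volume {t ∈ Icc (t0 - 5 / |D|) (t0 + 5 / |D|) | FC (κ ^ 1000) k δ H H' G (x0 t, x1 t)} ≤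
      ENNReal.ofReal (100 / |D|) * Psq {p | FB (κ ^ 1000) δ H H' (rb k p.1 p.2)} := by
  set P := {t ∈ Icc (t0 - 5 / |D|) (t0 + 5 / |D|) | FC (κ ^ 1000) k δ H H' G (x0 t, x1 t)} with hPdef
  by_cases hG : 1 ≤ G
  swap
  · have : P = ∅ := eq_empty_of_forall_notMem fun t ht => by
      have h1 := ht.2.2
      rcases gi_cases (sol (rb k (x0 t) (x1 t)) 0 1) H with h2 | h2 <;>
        simp only [h2] at h1 <;> omega
    rw [this, measure_empty]
    exact zero_le
  have hD0 : 0 < |D| := abs_pos.2 hD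
  have hP : MeasurableSet P := by
    have hc : ContinuousOn (fun t => (x0 t, x1 t)) (Icc (t0 - 5 / |D|) (t0 + 5 / |D|)) :=
      fun t ht => ((h t ht).1.continuousAt.prodMk (h t ht).2.1.continuousAt).continuousWithinAt
    have h1 := measurableSet_Icc.subtype_image
      (hc.restrict.measurable (measurableSet_FC (κ ^ 1000) k δ H H' G))
    convert h1 using 1
    ext t
    constructor
    · rintro ⟨h1, h2⟩
      exact ⟨⟨t, h1⟩, h2, rfl⟩
    · rintro ⟨⟨t, h1⟩, h2, rfl⟩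
      exact ⟨h1, h2⟩
  -- the given curve
  have hcur : ∀ t ∈ Icc (t0 - 5 / |D|) (t0 + 5 / |D|), ∀ t' ∈ Icc (t0 - 5 / |D|) (t0 + 5 / |D|),
      |x0 t' - x0 t| ≤ |t' - t| * |D| / 100 ∧
        |x1 t' - x1 t - D * (t' - t)| ≤ |t' - t| * |D| / 100 := fun t ht t' ht' => by
    have h1 := Inner_mvt (A := 0) (convex_Icc _ _) (fun x hx => (h x hx).1)
      (fun x hx => by simpa using (h x hx).2.2.2) ht ht'
    have h2 := Inner_mvt (convex_Icc _ _) (fun x hx => (h x hx).2.1)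
      (fun x hx => (h x hx).2.2.1) ht ht'
    rw [zero_mul, sub_zero] at h1
    constructor <;> linarith
  set η : ℝ → ℝ := fun t => ro k (x0 t) (x1 t) G with hη
  set τ : ℝ → ℝ := fun t => ro k (x0 t) (x1 t) (G - 1) with hτ
  set E : ℝ → ℝ := fun t => sol (rb k (x0 t) (x1 t)) 0 1 G with hE
  have hlf : ∀ t, lf k G (η t) (τ t) = (x0 t, x1 t) := fun t => lf_ro k hG _ _
  have hlf0 : ∀ t, ro k (η t) (τ t) G = x0 t := fun t => congrArg Prod.fst (hlf t)
  have hlf1 : ∀ t, ro k (η t) (τ t) (G - 1) = x1 t := fun t => congrArg Prod.snd (hlf t)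
  have hleaf : ∀ t ∈ P, 1 ≤ |E t| ∧ |sol (rb k (x0 t) (x1 t)) 1 0 G| ≤ |E t| / 100 ∧
      ∀ s, |s - τ t| * |E t| ≤ 10 →
        |sol (rb k (η t) s) 0 1 G - E t| ≤ |E t| / 100 ∧
          |sol (rb k (η t) s) 0 1 (G - 1)| ≤ |E t| / 100 ∧
          FB (κ ^ 1000) δ H H' (rb k (lf k G (η t) s).1 (lf k G (η t) s).2) := fun t ht => by
    have := (leaf hκ hK hδ0 hδ hH hH' (ξ := η t) (t0 := τ t) (D := E t) (by rw [hlf]; exact ht.2)
      (by rw [hlf])).2
    rwa [hlf] at this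
  have hest : ∀ t ∈ P, ∀ s, |s - τ t| * |E t| ≤ 10 →
      |ro k (η t) s G - x0 t - E t * (s - τ t)| ≤ |s - τ t| * |E t| / 100 ∧
        |ro k (η t) s (G - 1) - x1 t| ≤ |s - τ t| * |E t| / 100 := fun t ht s hs => by
    have := Inner_leaf (fun s hs => ⟨((hleaf t ht).2.2 s hs).1, ((hleaf t ht).2.2 s hs).2.1⟩) hs
    rwa [hlf0, hlf1] at this
  have hE0 : ∀ t ∈ P, E t ≠ 0 := fun t ht e => by
    have := (hleaf t ht).1
    rw [e, abs_zero] at this
    linarith
  have hσ : ∀ t ∈ P, ∀ σ ∈ Icc (-1 : ℝ) 1, |τ t + σ * (E t)⁻¹ - τ t| * |E t| ≤ 1 := fun t ht σ hσ => by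
    rw [add_sub_cancel_left, ← abs_mul, mul_assoc, inv_mul_cancel₀ (hE0 t ht), mul_one]
    exact abs_le.2 hσ
  -- injectivity
  have hinj1 : ∀ t ∈ P, ∀ t' ∈ P, ∀ s, η t = η t' → |s - τ t| * |E t| ≤ 1 →
      |s - τ t'| * |E t'| ≤ 1 → |E t| ≤ |E t'| → t = t' := fun t ht t' ht' s e h1 h2 h3 => by
    have h4 : |τ t' - τ t| * |E t| ≤ 10 := by
      have h5 : |τ t' - τ t| ≤ |s - τ t| + |s - τ t'| := by
        rw [abs_sub_comm s (τ t'), add_comm]; exact abs_sub_le _ _ _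
      have h6 := mul_le_mul_of_nonneg_left h3 (abs_nonneg (s - τ t'))
      have h7 := mul_le_mul_of_nonneg_right h5 (abs_nonneg (E t))
      linarith
    obtain ⟨a1, a2⟩ := hest t ht _ h4
    rw [e, hlf0] at a1
    rw [e, hlf1] at a2
    obtain ⟨b1, b2⟩ := hcur t ht.1 t' ht'.1
    have c1 := abs_sub_abs_le_abs_sub (E t * (τ t' - τ t)) (x0 t' - x0 t)
    have c2 := abs_sub_abs_le_abs_sub (D * (t' - t)) (x1 t' - x1 t)
    rw [abs_sub_comm (E t * _), abs_mul] at c1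
    rw [abs_sub_comm (D * _), abs_mul] at c2
    have c3 : |t' - t| * |D| ≤ 0 := by linarith
    have c4 : |t' - t| ≤ 0 := by
      by_contra hc
      exact absurd c3 (not_le.2 (mul_pos (not_le.1 hc) hD0))
    exact (sub_eq_zero.1 (abs_nonpos_iff.1 c4)).symm
  have hinj : InjOn (fun q : ℝ × ℝ => (η q.1, τ q.1 + q.2 * (E q.1)⁻¹)) (P ×ˢ Icc (-1) 1) := by
    rintro ⟨t, σ⟩ ⟨ht, hs⟩ ⟨t', σ'⟩ ⟨ht', hs'⟩ e
    obtain ⟨e1, e2⟩ := Prod.mk.inj e
    have a1 := hσ t ht σ hs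
    have a2 := hσ t' ht' σ' hs'
    have htt : t = t' := by
      rcases le_total |E t| |E t'| with h3 | h3
      · exact hinj1 t ht t' ht' _ e1 a1 (e2 ▸ a2) h3
      · exact (hinj1 t' ht' t ht _ e1.symm a2 (e2 ▸ a1) h3).symm
    subst htt
    exact Prod.ext rfl (mul_right_cancel₀ (inv_ne_zero (hE0 t ht)) (add_left_cancel e2))
  -- the target set
  set B : Set (ℝ × ℝ) := {p | FB (κ ^ 1000) δ H H' (rb k p.1 p.2)} with hB
  have hBm : MeasurableSet B := (continuous_rb k).measurable (measurableSet_FB _ δ H H')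
  have hBp : Per B := per_rb k fun b _ => FB (κ ^ 1000) δ H H' b
  set box : Set (ℝ × ℝ) := Icc (x0 t0 - 2) (x0 t0 - 2 + (4 : ℕ)) ×ˢ
    Icc (x1 t0 - 6) (x1 t0 - 6 + (12 : ℕ)) with hbox
  have hmp : MeasurePreserving (Prod.swap ∘ adv k (G - 1)) volume volume :=
    (Measure.measurePreserving_swap (μ := (volume : Measure ℝ)) (ν := (volume : Measure ℝ))).comp
      (measurePreserving_adv k (G - 1))
  have hvol : volume ((Prod.swap ∘ adv k (G - 1)) ⁻¹' (B ∩ box)) = 48 * Psq B := by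
    rw [hmp.measure_preimage (hBm.inter (measurableSet_Icc.prod measurableSet_Icc)).nullMeasurableSet,
      volume_per_box hBm hBp]
    norm_num
  have ht0 : t0 ∈ Icc (t0 - 5 / |D|) (t0 + 5 / |D|) := by
    have : 0 ≤ 5 / |D| := by positivity
    constructor <;> linarith
  have hmain := Inner_cov hP (η := η) (τ := τ) (ε := fun t => (E t)⁻¹)
    (η' := fun t => sol (rb k (x0 t) (x1 t)) (d0 t) (d1 t) G) (c := |D| / 2)
    (fun t ht => hasDerivAt_ro k (h t ht.1).1 (h t ht.1).2.1 G)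
    (fun t ht => (hasDerivAt_ro k (h t ht.1).1 (h t ht.1).2.1 (G - 1)).differentiableAt)
    (fun t ht => by
      refine DifferentiableAt.inv (Inner_diff_sol (fun j => ?_) 0 1 G) (hE0 t ht)
      have := (hasDerivAt_ro k (h t ht.1).1 (h t ht.1).2.1 j).differentiableAt
      simp only [rb, ac]
      fun_prop)
    (fun t ht => by
      obtain ⟨-, -, a1, a2⟩ := h t ht.1
      obtain ⟨a3, a4, -⟩ := hleaf t ht
      have a5 : 0 < |E t| := by linarith
      rw [abs_mul, abs_inv, ← div_eq_mul_inv, le_div_iff₀ a5, Inner_sol_lin]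
      change _ ≤ |d1 t * E t + _|
      have b1 := abs_sub_abs_le_abs_sub D (d1 t)
      rw [abs_sub_comm D] at b1
      have b2 := abs_sub_abs_le_abs_add (d1 t * E t) (d0 t * sol (rb k (x0 t) (x1 t)) 1 0 G)
      rw [abs_mul, abs_mul] at b2
      have b3 := mul_le_mul a2 a4 (abs_nonneg _) (by positivity)
      have b4 := mul_le_mul_of_nonneg_right (show 99 / 100 * |D| ≤ |d1 t| by linarith) a5.le
      have b5 := mul_pos hD0 a5
      linarith)
    hinj (W := (Prod.swap ∘ adv k (G - 1)) ⁻¹' (B ∩ box))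
    (fun t ht σ hs => by
      have a1 := hσ t ht σ hs
      set s := τ t + σ * (E t)⁻¹
      change (adv k (G - 1) (η t, s)).swap ∈ B ∩ box
      rw [← lf_eq_swap_adv k hG]
      refine ⟨((hleaf t ht).2.2 s (by linarith)).2.2, ?_⟩
      obtain ⟨a2, a3⟩ := hest t ht s (by linarith)
      obtain ⟨b1, b2⟩ := hcur t0 ht0 t ht.1
      have b3 : |t - t0| * |D| ≤ 5 := by
        rw [← le_div_iff₀ hD0, abs_le]
        constructor <;> linarith [ht.1.1, ht.1.2]
      have c1 : |E t * (s - τ t)| ≤ 1 := by rwa [abs_mul, mul_comm]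
      have c2 : |D * (t - t0)| ≤ 5 := by rwa [abs_mul, mul_comm]
      rw [abs_le] at a2 a3 b1 b2 c1 c2
      simp only [hbox, lf, mem_prod, mem_Icc]
      push_cast
      refine ⟨⟨?_, ?_⟩, ?_, ?_⟩ <;> linarith [a2.1, a2.2, a3.1, a3.2, b1.1, b1.2, b2.1, b2.2])
  rw [hvol] at hmain
  calc volume P = ENNReal.ofReal (1 / |D|) * (ENNReal.ofReal (|D| / 2) * (volume P * 2)) := by
        rw [mul_comm (volume P), ← mul_assoc, ← mul_assoc, ← ENNReal.ofReal_ofNat 2,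
          ← ENNReal.ofReal_mul (by positivity), ← ENNReal.ofReal_mul (by positivity),
          show 1 / |D| * (|D| / 2) * 2 = 1 by field_simp, ENNReal.ofReal_one, one_mul]
    _ ≤ ENNReal.ofReal (1 / |D|) * (48 * Psq B) := by gcongr
    _ ≤ _ := by
        rw [← mul_assoc, ← ENNReal.ofReal_ofNat 48, ← ENNReal.ofReal_mul (by positivity)]
        gcongr
        rw [div_mul_eq_mul_div]
        gcongr
        norm_num

end Crest.Agent.R128
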