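import Crest.Agent.R128.Env
import Crest.Agent.R128.Dist

/-! Row 128: finite-time leaves of unit size at a good site. -/

set_option autoImplicit false

namespace Crest.Agent.R128

open Real

theorem leaf_ph_lip {k K : ℝ} (hk : 0 ≤ k) (hK : K = 2 * π * k + 3) (x x' : ℝ) :
    |ph k x' - ph k x| ≤ (K - 1) * |x' - x| := by
  have h1 := Real.abs_sin_sub_sin_le (2 * π * x') (2 * π * x)
  have e : 2 * π * x' - 2 * π * x = 2 * π * (x' - x) := by ring
  rw [e, abs_mul, abs_of_nonneg (by positivity : (0 : ℝ) ≤ 2 * π)] at h1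
  have e2 : ph k x' - ph k x = 2 * (x' - x) + k * (sin (2 * π * x') - sin (2 * π * x)) := by
    unfold ph; ring
  rw [e2]
  refine (abs_add_le _ _).trans ?_
  rw [abs_mul, abs_mul, abs_two, abs_of_nonneg hk, hK]
  have := mul_le_mul_of_nonneg_left h1 hk
  nlinarith

theorem leaf_ac_lip {k K : ℝ} (hk : 0 ≤ k) (hK : K = 2 * π * k + 3) (x x' : ℝ) :
    |ac k x' - ac k x| ≤ 7 * K * |x' - x| := by
  have h1 := Real.abs_cos_sub_cos_le (2 * π * x') (2 * π * x)
  have e : 2 * π * x' - 2 * π * x = 2 * π * (x' - x) := by ring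
  rw [e, abs_mul, abs_of_nonneg (by positivity : (0 : ℝ) ≤ 2 * π)] at h1
  have e2 : ac k x' - ac k x = 2 * π * k * (cos (2 * π * x') - cos (2 * π * x)) := by
    unfold ac; ring
  have h0 : 0 ≤ 2 * π * k := by positivity
  rw [e2, abs_mul, abs_of_nonneg h0]
  have h2 := mul_le_mul_of_nonneg_left h1 h0
  have h3 : 2 * π ≤ 7 := by linarith [pi_lt_d2]
  have h4 := abs_nonneg (x' - x)
  calc _ ≤ 2 * π * k * (2 * π * |x' - x|) := h2
    _ ≤ K * (7 * |x' - x|) := by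
      gcongr
      · rw [hK]; positivity
      · rw [hK]; linarith
    _ = _ := by ring

/-- growth of the deviation of two orbits -/
theorem leaf_dev_grow {k K : ℝ} (hk : 0 ≤ k) (hK : K = 2 * π * k + 3) (y0 y1 y0' y1' : ℝ)
    (j m : ℕ) :
    nv (fun i => ro k y0' y1' i - ro k y0 y1 i) (j + m) ≤
      K ^ m * nv (fun i => ro k y0' y1' i - ro k y0 y1 i) j := by
  have hK1 : 1 ≤ K := by rw [hK]; nlinarith [pi_pos]
  induction m with
  | zero => simp
  | succ m ih =>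
    set d : ℕ → ℝ := fun i => ro k y0' y1' i - ro k y0 y1 i with hd
    have h1 := abs_le_nv d (j + m)
    have h2 := abs_succ_le_nv d (j + m)
    have h3 := nv_nonneg d (j + m)
    have h4 : nv d (j + m + 1) ≤ K * nv d (j + m) := by
      refine max_le ?_ (by nlinarith)
      have e : d (j + m + 1 + 1) =
          (ph k (ro k y0' y1' (j + m + 1)) - ph k (ro k y0 y1 (j + m + 1))) - d (j + m) := by
        simp only [hd, ro_succ]; ring
      rw [e]
      refine (abs_sub _ _).trans ?_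
      have h5 := leaf_ph_lip hk hK (ro k y0 y1 (j + m + 1)) (ro k y0' y1' (j + m + 1))
      have h6 : |ro k y0' y1' (j + m + 1) - ro k y0 y1 (j + m + 1)| = |d (j + m + 1)| := rfl
      rw [h6] at h5
      nlinarith [mul_le_mul_of_nonneg_left h2 (by linarith : 0 ≤ K - 1)]
    calc nv d (j + (m + 1)) ≤ K * nv d (j + m) := h4
      _ ≤ K * (K ^ m * nv d j) := by gcongr
      _ = _ := by ring

theorem leaf_dfc_le {K : ℝ} {b b' : ℕ → ℝ} (hK : 1 < K) (hb : Bd K b) (hb' : Bd K b') {n : ℕ}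
    (h : ‖tr b n‖ ≤ 8 * ‖tr b' n‖) : dfc K b' n ≤ dfc K b n + logb K 8 := by
  have h2 := norm_tr_pos hb' n
  have h1 := (logb_le_logb hK (norm_tr_pos hb _) (by positivity)).2 h
  rw [logb_mul (by norm_num) h2.ne'] at h1
  unfold dfc; linarith

theorem leaf_pow_le {κ : ℝ} (hκ : 1000 ≤ κ) {a b : ℕ} (h : a + 1 ≤ b) :
    1000 * κ ^ a ≤ κ ^ b := by
  have h1 : (1 : ℝ) ≤ κ := by linarith
  calc 1000 * κ ^ a ≤ κ * κ ^ a := by gcongr
    _ = κ ^ (a + 1) := by ring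
    _ ≤ _ := pow_le_pow_right₀ h1 h

/-- the reversed tangent solution -/
theorem leaf_rev {k ξ t0 D : ℝ} {G : ℕ} (hG : 1 ≤ G) {u : ℕ → ℝ}
    (hu : IsSol (rb k (lf k G ξ t0).1 (lf k G ξ t0).2) u) (h0 : u G = 0)
    (h1 : u (G - 1) * D = 1) {i : ℕ} (hi : i ≤ G) :
    sol (rb k ξ t0) 0 1 i = D * u (G - i) := by
  induction i using Nat.twoStepInduction with
  | zero => simp [h0]
  | one => rw [sol_one, mul_comm, h1]
  | more i ih0 ih1 =>
    rw [isSol_sol (rb k ξ t0) 0 1 i, ih0 (by omega), ih1 (by omega)]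
    obtain ⟨m, rfl⟩ : ∃ m, G = m + i + 2 := ⟨G - i - 2, by omega⟩
    have e1 : m + i + 2 - (i + 1) = m + 1 := by omega
    have e2 : m + i + 2 - i = m + 2 := by omega
    have e3 : m + i + 2 - (i + 2) = m := by omega
    have e4 : rb k (lf k (m + i + 2) ξ t0).1 (lf k (m + i + 2) ξ t0).2 (m + 1) =
        rb k ξ t0 (i + 1) := by
      unfold rb
      rw [ro_lf k hG ξ t0 (by omega)]
      congr 2; omega
    rw [e1, e2, e3, hu m, e4]; ring

/-- the coefficients along nearby points of the leaf -/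
theorem leaf_coef {κ k : ℝ} (hκ : 1000 ≤ κ) (hK : κ ^ 1000 = 2 * π * k + 3) {H G : ℕ}
    (hH : 4000 ≤ H) (hG : H ≤ G) {ξ t0 t : ℝ}
    (hdev : ∀ i, 1 ≤ i → i ≤ G → |ro k ξ t i - ro k ξ t0 i| * κ ^ (990 * (G - i)) ≤ 20)
    {j : ℕ} (hj1 : 1 ≤ j) (hj : 4 * j ≤ 5 * H) :
    |rb k (lf k G ξ t).1 (lf k G ξ t).2 j - rb k (lf k G ξ t0).1 (lf k G ξ t0).2 j| *
      κ ^ (550 * j) ≤ κ ^ 750 := by
  have hk : 0 ≤ k := by linarith [(k_facts hκ hK).1]
  have hκ0 : 0 < κ := by linarith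
  have hG1 : 1 ≤ G := by omega
  set d : ℕ → ℝ := fun i => ro k (lf k G ξ t).1 (lf k G ξ t).2 i -
    ro k (lf k G ξ t0).1 (lf k G ξ t0).2 i with hd
  have hlip : |rb k (lf k G ξ t).1 (lf k G ξ t).2 j - rb k (lf k G ξ t0).1 (lf k G ξ t0).2 j| ≤
      7 * κ ^ 1000 * |d j| := leaf_ac_lip hk hK _ _
  have hd1 : ∀ i, i + 1 ≤ G → |d i| * κ ^ (990 * i) ≤ 20 := fun i hi => by
    have h := hdev (G - i) (by omega) (by omega)
    have e : G - (G - i) = i := by omega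
    rw [e] at h
    simp only [hd]
    rw [ro_lf k hG1 ξ t (by omega), ro_lf k hG1 ξ t0 (by omega)]
    exact h
  have hdG : d G = 0 := by
    simp only [hd]
    rw [ro_lf k hG1 ξ t le_rfl, ro_lf k hG1 ξ t0 le_rfl]
    simp
  -- a bound `|d j| κ^a ≤ 20 κ^c` suffices
  have key : ∀ a c : ℕ, |d j| * κ ^ a ≤ 20 * κ ^ c → 1000 + 550 * j + c + 1 ≤ 750 + a →
      |rb k (lf k G ξ t).1 (lf k G ξ t).2 j - rb k (lf k G ξ t0).1 (lf k G ξ t0).2 j| *
        κ ^ (550 * j) ≤ κ ^ 750 := fun a c h1 h2 => by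
    have h3 := leaf_pow_le hκ h2
    have hpa : 0 < κ ^ a := by positivity
    refine le_of_mul_le_mul_right ?_ hpa
    rw [← pow_add]
    refine le_trans ?_ h3
    calc _ ≤ 7 * κ ^ 1000 * |d j| * κ ^ (550 * j) * κ ^ a := by gcongr
      _ = 7 * κ ^ 1000 * κ ^ (550 * j) * (|d j| * κ ^ a) := by ring
      _ ≤ 7 * κ ^ 1000 * κ ^ (550 * j) * (20 * κ ^ c) := by gcongr
      _ = 140 * κ ^ (1000 + 550 * j + c) := by rw [pow_add, pow_add]; ring
      _ ≤ _ := by gcongr; norm_num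
  rcases lt_or_ge j G with hjG | hjG
  · exact key (990 * j) 0 (by simpa using hd1 j hjG) (by omega)
  · obtain ⟨g, rfl⟩ : ∃ g, G = g + 1 := ⟨G - 1, by omega⟩
    obtain ⟨m, rfl⟩ : ∃ m, j = g + m + 1 := ⟨j - g - 1, by omega⟩
    have h1 : nv d (g + m) ≤ (κ ^ 1000) ^ m * nv d g := leaf_dev_grow hk hK _ _ _ _ g m
    have h2 : nv d g = |d g| := by
      unfold nv; rw [hdG, abs_zero]; exact max_eq_right (abs_nonneg _)
    have h3 := abs_succ_le_nv d (g + m)
    have h4 := hd1 g le_rfl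
    refine key (990 * g) (1000 * m) ?_ (by omega)
    rw [h2, ← pow_mul] at h1
    calc _ ≤ κ ^ (1000 * m) * |d g| * κ ^ (990 * g) := by gcongr; exact h3.trans h1
      _ = κ ^ (1000 * m) * (|d g| * κ ^ (990 * g)) := by ring
      _ ≤ κ ^ (1000 * m) * 20 := by gcongr
      _ = _ := by ring

/-- Recipe.  `p = lf k G ξ t0`, `y = ro k p.1 p.2`, `b = rb k p.1 p.2`, `h` from `FA`.  Since
`dfc (h+1) ≤ dfc h + 2` (`dfc_add_le`) and `h ≥ 4000`, `Good K (1/1000) b (h+1)`, so `WG κ b (h+1)`.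
`u` from `riccati` with horizon `H`: `u G = 0`, `u (G-1) * D = 1` (Wronskian with `w = sol b 0 1`),
`sol b 1 0 = u - u 1 • w` so `sol b 1 0 G = - u 1 * D`; `|D| = nv w H ≥ 1`.
Use the line `S = ⟨ξ, 0, 0, 1⟩` (`S.x k t = ro k ξ t`, `S.w k t = sol (rb k ξ t) 0 1`) with `s0 = t0`,
`J = G`, `Λ = |D|`: `ro k ξ t0 i = y (G - i)` (`ro_lf`), `S.w k t0 i = D * u (G - i)` for `i ≤ G`
(both solve the reversed recursion), so `hw` of `Env` holds and `S.w k t0 G = D`; `env_w` gives the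
derivative bounds.  For `y' = ro k (lf k G ξ t).1 (lf k G ξ t).2`: `|y' j - y j| ≤ 20 / κ^(990 j)` for
`1 ≤ j ≤ G - 1` (`env_dev`, `xc_ofReal`), `y' G = y G`, and beyond `G` the deviation grows at most
by `K` per step (`|ph x - ph x'| ≤ (K - 1) |x - x'|`); as `h + 1 ≤ 5 H / 4`, `H ≥ 4000` this gives
`|ac (y' j) - ac (y j)| ≤ 7 K |y' j - y j| ≤ κ^750 / κ^(550 j)` for `1 ≤ j ≤ h + 1`.
`distort` (with `WG.mono`) for `n ≤ H` and `n = h + 1` gives `FB`. -/
theorem leaf {κ k δ : ℝ} (hκ : 1000 ≤ κ) (hK : κ ^ 1000 = 2 * π * k + 3) (hδ0 : 0 ≤ δ)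
    (hδ : δ ≤ 1 / 2000) {H H' G : ℕ} (hH : 4000 ≤ H) (hH' : 4 * H' ≤ 5 * H) {ξ t0 D : ℝ}
    (h : FC (κ ^ 1000) k δ H H' G (lf k G ξ t0))
    (hD : D = sol (rb k (lf k G ξ t0).1 (lf k G ξ t0).2) 0 1 G) :
    1 ≤ G ∧ 1 ≤ |D| ∧ |sol (rb k (lf k G ξ t0).1 (lf k G ξ t0).2) 1 0 G| ≤ |D| / 100 ∧
      ∀ t, |t - t0| * |D| ≤ 10 →
        |sol (rb k ξ t) 0 1 G - D| ≤ |D| / 100 ∧ |sol (rb k ξ t) 0 1 (G - 1)| ≤ |D| / 100 ∧
          FB (κ ^ 1000) δ H H' (rb k (lf k G ξ t).1 (lf k G ξ t).2) := by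
  have hk : 0 ≤ k := by linarith [(k_facts hκ hK).1]
  have hκ0 : 0 < κ := by linarith
  have hκ1 : 1 < κ := by linarith
  have hK1 : 1 < κ ^ 1000 := one_lt_pow₀ hκ1 (by norm_num)
  obtain ⟨⟨h, hHh, hhH, hgood, hbad⟩, hgi⟩ := h
  set b := rb k (lf k G ξ t0).1 (lf k G ξ t0).2 with hbdef
  have hb : Bd (κ ^ 1000) b := bd_rb hk hK _ _
  have hGc : G = H ∨ G = H + 1 := hgi ▸ gi_cases _ _
  have hG1 : 1 ≤ G := by omega
  have hgood' : Good (κ ^ 1000) (1 / 1000) b (h + 1) := fun n hn => by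
    rcases Nat.lt_or_ge n (h + 1) with h1 | h1
    · refine (hgood n (by omega)).trans ?_
      have : (0 : ℝ) ≤ n := Nat.cast_nonneg n
      nlinarith
    · obtain rfl : n = h + 1 := by omega
      have h2 := dfc_add_le hK1 hb h 1
      have h3 := hgood h le_rfl
      have h4 : (4000 : ℝ) ≤ h := by exact_mod_cast hH.trans hHh
      push_cast at h2 ⊢
      nlinarith
  have hwg : WG κ b (h + 1) := wg_of_good hκ1 hb hgood'
  obtain ⟨u, hu, hu0, huG, hudec, -⟩ := riccati hκ hb (hwg.mono (m := H) (by omega))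
  rw [hgi] at huG
  have hw := isSol_sol b 0 1
  have hwr : u (G - 1) * D = 1 := by
    have h1 := wr_const hu hw (G - 1)
    have e : G - 1 + 1 = G := by omega
    simp only [wr, e, huG, hu0, sol_zero, zero_add, sol_one] at h1
    rw [hD]; linarith
  have hu_le : ∀ j, j ≤ H → |u j| * κ ^ (990 * j) ≤ 1 := fun j hj => by
    rcases Nat.eq_zero_or_pos j with rfl | hj0
    · simp [hu0]
    · exact le_trans (by gcongr; exact abs_le_nv u j) (hudec j hj0 hj)
  have hD1 : 1 ≤ |D| := by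
    have h1 := hu_le (G - 1) (by omega)
    have h2 : 1 ≤ κ ^ (990 * (G - 1)) := one_le_pow₀ hκ1.le
    have h3 : |u (G - 1)| * |D| = 1 := by rw [← abs_mul, hwr, abs_one]
    have h4 := abs_nonneg (u (G - 1))
    have h5 : |u (G - 1)| ≤ 1 := by nlinarith
    nlinarith [abs_nonneg D]
  have hD0 : 0 < |D| := by linarith
  have hbig : ∀ a : ℕ, 1 ≤ a → (100 : ℝ) ≤ κ ^ a := fun a ha => by
    have := leaf_pow_le hκ (a := 0) (b := a) (by omega)
    rw [pow_zero] at this; linarith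
  refine ⟨hG1, hD1, ?_, fun t ht => ?_⟩
  · have e : sol b 1 0 = fun i => 1 * u i + (-u 1) * sol b 0 1 i :=
      (isSol_sol b 1 0).unique (hu.lin hw _ _) (by simp [hu0]) (by simp)
    rw [e]
    simp only [huG, ← hD, mul_zero, zero_add, abs_mul, abs_neg]
    have h1 := hu_le 1 (by omega)
    have h2 := hbig (990 * 1) (by omega)
    have h3 := abs_nonneg (u 1)
    have h4 : |u 1| ≤ 1 / 100 := by
      rw [le_div_iff₀ (by norm_num)]
      exact le_trans (by gcongr) h1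
    calc |u 1| * |D| ≤ 1 / 100 * |D| := by gcongr
      _ = _ := by ring
  · let S : Side := ⟨ξ, 0, 0, 1⟩
    have hSx : ∀ s, S.x k s = ro k ξ s := fun s => by simp [S, Side.x]
    have hSw : ∀ s, S.w k s = sol (rb k ξ s) 0 1 := fun s => by simp [S, Side.w, Side.b]
    have hrev : ∀ i, i ≤ G → S.w k t0 i = D * u (G - i) := fun i hi => by
      rw [hSw]; exact leaf_rev hG1 hu huG hwr hi
    have hwS : ∀ i, 1 ≤ i → i ≤ G → |S.w k t0 i| * κ ^ (990 * (G - i)) ≤ |D| := fun i hi1 hi => by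
      rw [hrev i hi, abs_mul, mul_assoc]
      exact mul_le_of_le_one_right hD0.le (hu_le _ (by omega))
    have henv := S.env_w hκ hK t0 hD0 hwS (by omega) (s := t)
      (ht.trans (by linarith [hbig 600 (by omega)]))
    rw [hrev G le_rfl, hSw, Nat.sub_self, hu0, mul_one] at henv
    refine ⟨henv.1.trans ?_, henv.2.trans ?_, ?_⟩
    · exact div_le_div_of_nonneg_left hD0.le (by norm_num) (hbig 300 (by omega))
    · exact div_le_div_of_nonneg_left hD0.le (by norm_num) (hbig 900 (by omega))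
    have hdev : ∀ i, 1 ≤ i → i ≤ G →
        |ro k ξ t i - ro k ξ t0 i| * κ ^ (990 * (G - i)) ≤ 20 := fun i hi1 hi => by
      have e : ‖(t : ℂ) - t0‖ = |t - t0| := by
        rw [← Complex.ofReal_sub, Complex.norm_real, Real.norm_eq_abs]
      have h1 := S.env_dev hκ hK t0 hwS hi1 hi (z := t)
        (by rw [e]; exact ht.trans (by linarith [hbig (990 * (G - i) + 900) (by omega)]))
      rw [S.xc_ofReal, ← Complex.ofReal_sub, Complex.norm_real, Real.norm_eq_abs, e, hSx, hSx] at h1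
      linarith
    set b' := rb k (lf k G ξ t).1 (lf k G ξ t).2 with hb'def
    have hb' : Bd (κ ^ 1000) b' := bd_rb hk hK _ _
    have hdist : ∀ n, n ≤ h + 1 → ‖tr b n‖ ≤ 8 * ‖tr b' n‖ ∧ ‖tr b' n‖ ≤ 8 * ‖tr b n‖ :=
      fun n hn => distort hκ hb hb' (hwg.mono hn) fun j hj1 hj =>
        leaf_coef hκ hK hH (by omega) hdev hj1 (by omega)
    refine ⟨fun n hn => ?_, h, hHh, hhH, ?_⟩
    · have h1 := leaf_dfc_le hK1 hb hb' (hdist n (by omega)).1
      have h2 := hgood n (by omega)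
      linarith
    · have h1 := leaf_dfc_le hK1 hb' hb (hdist (h + 1) le_rfl).2
      linarith

end Crest.Agent.R128
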