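import Crest.Agent.R128.RealS

/-! Row 128: matching of poles: a hole or a resonance. -/

set_option autoImplicit false

namespace Crest.Agent.R128

open Real MeasureTheory Set

namespace LemH

theorem meet {M a b η β : ℝ} {F B : Set ℝ} (ha : 0 ≤ a) (hb : b ≤ M) (hη : 0 < η) (hβ : 0 ≤ β)
    (hF : volume (Icc 0 M \ F) < ENNReal.ofReal (η / 4)) (hB : volume B ≤ ENNReal.ofReal β)
    (hlen : η / 4 + β ≤ b - a) : ∃ t ∈ F, t ∈ Icc a b ∧ t ∉ B := by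
  by_contra h
  push Not at h
  have hsub : Icc a b ⊆ (Icc 0 M \ F) ∪ B := by
    intro t ht
    by_cases htF : t ∈ F
    · exact Or.inr (h t htF ht)
    · exact Or.inl ⟨⟨ha.trans ht.1, ht.2.trans hb⟩, htF⟩
  have h1 : volume (Icc a b) ≤ volume (Icc 0 M \ F) + volume B :=
    (measure_mono hsub).trans (measure_union_le _ _)
  have h2 : volume (Icc 0 M \ F) + volume B < ENNReal.ofReal (η / 4) + ENNReal.ofReal β :=
    ENNReal.add_lt_add_of_lt_of_le (ne_top_of_le_ne_top ENNReal.ofReal_ne_top hB) hF hB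
  rw [← ENNReal.ofReal_add (by positivity) hβ] at h2
  rw [Real.volume_Icc] at h1
  exact absurd (h1.trans_lt h2) (not_lt.2 (ENNReal.ofReal_le_ofReal hlen))

theorem bilip {u d σ m e : ℝ} (hσ : σ = 1 ∨ σ = -1) (hm : 0 ≤ m)
    (h : |u - σ * m * d| ≤ e * m * |d|) :
    (1 - e) * m * |d| ≤ |u| ∧ |u| ≤ (1 + e) * m * |d| := by
  have h1 : |σ * m * d| = m * |d| := by
    rcases hσ with rfl | rfl <;> simp [abs_mul, abs_of_nonneg hm]
  have h2 := abs_sub_abs_le_abs_sub u (σ * m * d)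
  have h3 := abs_sub_abs_le_abs_sub (σ * m * d) u
  rw [abs_sub_comm] at h3
  rw [h1] at h2 h3
  constructor <;> nlinarith

theorem cos_small_vol {Z : ℝ → ℝ} {M a b m σ e θ : ℝ} (hσ : σ = 1 ∨ σ = -1) (hm : 0 < m)
    (he : e ≤ 1 / 2) (ha : 0 ≤ a) (hab : a ≤ b) (hb : b ≤ M) (hθ : 0 ≤ θ) (hθ1 : θ ≤ 1)
    (h : ∀ s ∈ Icc 0 M, ∀ t ∈ Icc 0 M, |Z t - Z s - σ * m * (t - s)| ≤ e * m * |t - s|) :
    volume {t ∈ Icc a b | |cos (2 * π * Z t)| ≤ θ} ≤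
      ENNReal.ofReal (4 * θ * (b - a) + 2 * θ / m) := by
  have h1 := near_half_le (φ := fun t => 2 * Z t) (ν := 2 * m) (ε := θ / 2) hab (by positivity)
    (by positivity) (by linarith) (fun s hs t ht => by
      obtain ⟨h1, h2⟩ := bilip hσ hm.le (h s ⟨ha.trans hs.1, hs.2.trans hb⟩ t
        ⟨ha.trans ht.1, ht.2.trans hb⟩)
      have h3 : |2 * Z t - 2 * Z s| = 2 * |Z t - Z s| := by
        rw [← mul_sub, abs_mul, abs_two]
      have h4 : 0 ≤ m * |t - s| := by positivity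
      rw [h3]
      constructor <;> nlinarith)
  have h2 : 8 * (θ / 2) * (b - a) + 8 * (θ / 2) / (2 * m) = 4 * θ * (b - a) + 2 * θ / m := by
    field_simp
    ring
  rw [h2] at h1
  refine le_trans (measure_mono fun t ht => ?_) h1
  exact ⟨ht.1, exists_near_of_cos ht.2⟩

theorem cos_pole (n : ℤ) (A : ℝ) :
    cos (2 * π * ((n : ℝ) / 2 + 1 / 4 + A)) = -((-1 : ℝ) ^ n * sin (2 * π * A)) := by
  have : 2 * π * ((n : ℝ) / 2 + 1 / 4 + A) = (2 * π * A + π / 2) + n * π := by ring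
  rw [this, Real.cos_add_int_mul_pi, Real.cos_add_pi_div_two]
  ring

theorem sin_sub_le {x : ℝ} (hx : |x| ≤ 1) : |sin x - x| ≤ x ^ 2 := by
  have h1 := Real.sin_bound hx
  have h2 : |sin x - x| ≤ |sin x - (x - x ^ 3 / 6)| + |x ^ 3 / 6| := by
    have := abs_sub (sin x - (x - x ^ 3 / 6)) (x ^ 3 / 6)
    have e : sin x - (x - x ^ 3 / 6) - x ^ 3 / 6 = sin x - x := by ring
    rwa [e] at this
  rw [abs_div, abs_pow] at h2
  have h0 := abs_nonneg x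
  have h3 : |x| ^ 3 ≤ |x| ^ 2 := pow_le_pow_of_le_one h0 hx (by norm_num)
  have h4 : |x| ^ 5 ≤ |x| ^ 2 := pow_le_pow_of_le_one h0 hx (by norm_num)
  have h5 : |(6 : ℝ)| = 6 := by norm_num
  rw [h5] at h2
  rw [← sq_abs x]
  have h6 : 0 ≤ |x| ^ 2 := by positivity
  linarith

/-- step (1): the quadratic is bounded -/
theorem quad_le {M μ σY σX q0 q1 q2 η : ℝ} {X Y : ℝ → ℝ} {F : Set ℝ} (hη : 0 < η)
    (hη1 : η ≤ 1 / 2) (hM4 : 4 ≤ M) (hM8 : M ≤ 8) (hμ : 1 ≤ μ)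
    (hσY : σY = 1 ∨ σY = -1) (hσX : σX = 1 ∨ σX = -1)
    (hY : ∀ s ∈ Icc 0 M, ∀ t ∈ Icc 0 M, |Y t - Y s - σY * 1 * (t - s)| ≤ η ^ 2 * 1 * |t - s|)
    (hX : ∀ s ∈ Icc 0 M, ∀ t ∈ Icc 0 M, |X t - X s - σX * μ * (t - s)| ≤ η ^ 2 * μ * |t - s|)
    (hq : ∀ t ∈ F, t ∈ Icc 0 M → ∃ s ∈ Icc 0 M, |s - t| ≤ 1 / 100 ∧ cos (2 * π * Y t) ≠ 0 ∧
        cos (2 * π * X t) ≠ 0 ∧ |q0 + q1 * s + q2 * s ^ 2 - 1 / cos (2 * π * Y t) -
          1 / (μ ^ 2 * cos (2 * π * X t))| ≤ 1)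
    (hF : volume (Icc 0 M \ F) < ENNReal.ofReal (η / 4)) :
    ∀ s ∈ Icc 0 M, |q0 + q1 * s + q2 * s ^ 2| ≤ 10 ^ 6 := by
  have he : η ^ 2 ≤ 1 / 2 := by nlinarith
  have node : ∀ a : ℝ, 0 ≤ a → a + M / 5 ≤ M → ∃ s ∈ Icc 0 M, a - 1 / 100 ≤ s ∧
      s ≤ a + M / 5 + 1 / 100 ∧ |q0 + q1 * s + q2 * s ^ 2| ≤ 201 := by
    intro a ha hb
    have v1 := cos_small_vol (θ := 1 / 100) hσY one_pos he ha (by linarith) hb (by norm_num)
      (by norm_num) hY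
    have v2 := cos_small_vol (θ := 1 / 100) hσX (by linarith) he ha (by linarith) hb
      (by norm_num) (by norm_num) hX
    have w2 : 2 * (1 / 100) / μ ≤ (1 / 50 : ℝ) := by
      rw [div_le_iff₀ (by linarith)]; linarith
    have v3 : volume ({t ∈ Icc a (a + M / 5) | |cos (2 * π * Y t)| ≤ 1 / 100} ∪
        {t ∈ Icc a (a + M / 5) | |cos (2 * π * X t)| ≤ 1 / 100}) ≤ ENNReal.ofReal (1 / 5) := by
      refine (measure_union_le _ _).trans ((add_le_add v1 v2).trans ?_)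
      rw [← ENNReal.ofReal_add (by nlinarith) (by
        have : 0 ≤ 2 * (1 / 100) / μ := by positivity
        nlinarith)]
      exact ENNReal.ofReal_le_ofReal (by linarith)
    obtain ⟨t, htF, ht, htB⟩ := meet ha hb hη (by norm_num) hF v3 (by linarith)
    have ht' : t ∈ Icc 0 M := ⟨ha.trans ht.1, ht.2.trans hb⟩
    obtain ⟨s, hs, hst, -, -, hb⟩ := hq t htF ht'
    have c1 : 1 / 100 < |cos (2 * π * Y t)| := by
      by_contra h
      exact htB (Or.inl ⟨ht, not_lt.1 h⟩)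
    have c2 : 1 / 100 < |cos (2 * π * X t)| := by
      by_contra h
      exact htB (Or.inr ⟨ht, not_lt.1 h⟩)
    have d1 : |1 / cos (2 * π * Y t)| ≤ 100 := by
      rw [abs_div, abs_one, div_le_iff₀ (by linarith)]; linarith
    have d2 : |1 / (μ ^ 2 * cos (2 * π * X t))| ≤ 100 := by
      have : 1 ≤ μ ^ 2 := one_le_pow₀ hμ
      rw [abs_div, abs_one, abs_mul, abs_of_nonneg (sq_nonneg μ), div_le_iff₀ (by positivity)]
      nlinarith
    have hst' := abs_le.1 hst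
    refine ⟨s, hs, by linarith [ht.1], by linarith [ht.2], ?_⟩
    have e1 := abs_le.1 d1
    have e2 := abs_le.1 d2
    have e3 := abs_le.1 hb
    rw [abs_le]
    constructor <;> linarith
  obtain ⟨s1, hs1, -, l1, b1⟩ := node 0 le_rfl (by linarith)
  obtain ⟨s2, -, u2, l2, b2⟩ := node (2 * M / 5) (by linarith) (by linarith)
  obtain ⟨s3, hs3, u3, -, b3⟩ := node (4 * M / 5) (by linarith) (by linarith)
  have cast : ∀ s : ℝ, ‖(q0 : ℂ) + (q1 : ℂ) * (s : ℂ) + (q2 : ℂ) * (s : ℂ) ^ 2‖ =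
      |q0 + q1 * s + q2 * s ^ 2| := by
    intro s
    rw [← Real.norm_eq_abs, ← Complex.norm_real]
    push_cast
    rfl
  intro s hs
  have := quad_bound (c0 := q0) (c1 := q1) (c2 := q2) (s1 := s1) (s2 := s2) (s3 := s3)
    (g := 7 / 10) (B := 201) (by norm_num) hs1.1 (by linarith) (by linarith)
    (hs3.2.trans hM8) (by rwa [cast]) (by rwa [cast]) (by rwa [cast]) (z := s) (by
      rw [Complex.norm_real, Real.norm_eq_abs, abs_of_nonneg hs.1]; linarith [hs.2])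
  rw [cast] at this
  refine this.trans (by norm_num)

/-- a zero of `cos (2 π Y ·)` in `[1, 2]` -/
theorem exists_zero {M σY e : ℝ} {Y : ℝ → ℝ} (he : e ≤ 1 / 2) (hM4 : 4 ≤ M)
    (hσY : σY = 1 ∨ σY = -1)
    (hY : ∀ s ∈ Icc 0 M, ∀ t ∈ Icc 0 M, |Y t - Y s - σY * 1 * (t - s)| ≤ e * 1 * |t - s|) :
    ∃ t0 ∈ Icc (1 : ℝ) 2, ∃ n : ℤ, Y t0 = (n : ℝ) / 2 + 1 / 4 := by
  have hsub : Icc (1 : ℝ) 2 ⊆ Icc 0 M := Icc_subset_Icc (by norm_num) (by linarith)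
  have hc : ContinuousOn Y (uIcc (1 : ℝ) 2) := by
    rw [uIcc_of_le (by norm_num)]
    have : LipschitzOnWith 2 Y (Icc (1 : ℝ) 2) := by
      refine LipschitzOnWith.of_dist_le_mul fun t ht s hs => ?_
      have := (bilip hσY zero_le_one (hY s (hsub hs) t (hsub ht))).2
      rw [Real.dist_eq, Real.dist_eq]
      have h0 := abs_nonneg (t - s)
      push_cast
      nlinarith
    exact this.continuousOn
  have h1 := (bilip hσY zero_le_one (hY 1 (hsub (by norm_num)) 2 (hsub (by norm_num)))).1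
  have h2 : 1 / 2 ≤ |Y 2 - Y 1| := by
    have : |(2 : ℝ) - 1| = 1 := by norm_num
    rw [this] at h1
    linarith
  set n : ℤ := ⌈2 * min (Y 1) (Y 2) - 1 / 2⌉ with hn
  have h3 := Int.le_ceil (2 * min (Y 1) (Y 2) - 1 / 2)
  have h4 := Int.ceil_lt_add_one (2 * min (Y 1) (Y 2) - 1 / 2)
  have h5 : (n : ℝ) / 2 + 1 / 4 ∈ uIcc (Y 1) (Y 2) := by
    have h6 := max_sub_min_eq_abs (Y 1) (Y 2)
    constructor
    · show min (Y 1) (Y 2) ≤ _
      linarith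
    · show _ ≤ max (Y 1) (Y 2)
      linarith
  obtain ⟨t0, ht0, h⟩ := intermediate_value_uIcc hc h5
  rw [uIcc_of_le (by norm_num)] at ht0
  exact ⟨t0, ht0, n, h⟩

/-- the key relation near a common pole -/
theorem key_rel {μ q cY cX η : ℝ} (hμ : 1 ≤ μ) (hη : 0 < η) (hη1 : η ≤ 1 / 10 ^ 10)
    (hY : cY ≠ 0) (hX : cX ≠ 0) (hq : |q| ≤ 10 ^ 6) (h : |q - 1 / cY - 1 / (μ ^ 2 * cX)| ≤ 1)
    (hc : |cY| ≤ 13 * η) :
    μ ^ 2 * |cX| ≤ 26 * η ∧ |μ ^ 2 * cX + cY| ≤ 4 * 10 ^ 8 * η ^ 2 := by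
  have hμ0 : μ ≠ 0 := by linarith
  have h1 : |1 / cY + 1 / (μ ^ 2 * cX)| ≤ 10 ^ 6 + 1 := by
    have e1 := abs_le.1 hq
    have e2 := abs_le.1 h
    rw [abs_le]
    constructor <;> linarith
  have h2 : μ ^ 2 * cX + cY = (1 / cY + 1 / (μ ^ 2 * cX)) * (cY * (μ ^ 2 * cX)) := by
    field_simp
  set w := μ ^ 2 * |cX| with hw
  have hw0 : 0 ≤ w := by positivity
  have hw' : |μ ^ 2 * cX| = w := by rw [abs_mul, abs_of_nonneg (sq_nonneg μ)]
  have h3 : |μ ^ 2 * cX + cY| ≤ (10 ^ 6 + 1) * (13 * η * w) := by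
    rw [h2, abs_mul, abs_mul cY, hw']
    exact mul_le_mul h1 (mul_le_mul_of_nonneg_right hc hw0) (by positivity) (by positivity)
  have h4 : w ≤ |μ ^ 2 * cX + cY| + |cY| := by
    have := abs_sub (μ ^ 2 * cX + cY) cY
    rwa [add_sub_cancel_right, hw'] at this
  have h5 : (10 ^ 6 + 1) * (13 * η * w) ≤ w / 2 := by nlinarith
  have h6 : w ≤ 26 * η := by linarith
  refine ⟨h6, h3.trans ?_⟩
  have h7 : η * w ≤ η * (26 * η) := mul_le_mul_of_nonneg_left h6 hη.le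
  nlinarith

/-- linearisation of the key relation -/
theorem lin_rel {μ A B η s0 s1 : ℝ} (hμ : 1 ≤ μ) (hμ' : μ ≤ 10) (hη : 0 < η)
    (hη1 : η ≤ 1 / 10 ^ 10) (h0 : s0 = 1 ∨ s0 = -1) (h1 : s1 = 1 ∨ s1 = -1)
    (hA : |A| ≤ 3 * η) (hB : |B| ≤ 7 * η)
    (h : |μ ^ 2 * -(s1 * sin (2 * π * B)) + -(s0 * sin (2 * π * A))| ≤ 4 * 10 ^ 8 * η ^ 2) :
    |μ ^ 2 * s1 * B + s0 * A| ≤ 5 * 10 ^ 8 * η ^ 2 := by
  have hπ3 := Real.pi_gt_three
  have hπ4 := Real.pi_lt_four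
  have a1 : |2 * π * A| ≤ 24 * η := by
    rw [abs_mul, abs_of_pos (by positivity : 0 < 2 * π)]
    nlinarith [abs_nonneg A]
  have b1 : |2 * π * B| ≤ 56 * η := by
    rw [abs_mul, abs_of_pos (by positivity : 0 < 2 * π)]
    nlinarith [abs_nonneg B]
  have a2 : |sin (2 * π * A) - 2 * π * A| ≤ 576 * η ^ 2 := by
    refine (sin_sub_le (by linarith)).trans ?_
    rw [← sq_abs]
    nlinarith [abs_nonneg (2 * π * A)]
  have b2 : |sin (2 * π * B) - 2 * π * B| ≤ 3136 * η ^ 2 := by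
    refine (sin_sub_le (by linarith)).trans ?_
    rw [← sq_abs]
    nlinarith [abs_nonneg (2 * π * B)]
  have hμ2 : μ ^ 2 ≤ 100 := by nlinarith
  have a3 : |s0 * (sin (2 * π * A) - 2 * π * A)| ≤ 576 * η ^ 2 := by
    have : |s0| = 1 := by rcases h0 with rfl | rfl <;> simp
    rwa [abs_mul, this, one_mul]
  have b3 : |μ ^ 2 * s1 * (sin (2 * π * B) - 2 * π * B)| ≤ 313600 * η ^ 2 := by
    have : |μ ^ 2 * s1| = μ ^ 2 := by
      rcases h1 with rfl | rfl <;> simp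
    rw [abs_mul, this]
    have := mul_le_mul hμ2 b2 (abs_nonneg _) (by norm_num)
    linarith
  have e : 2 * π * (μ ^ 2 * s1 * B + s0 * A) =
      -(μ ^ 2 * -(s1 * sin (2 * π * B)) + -(s0 * sin (2 * π * A))) -
        μ ^ 2 * s1 * (sin (2 * π * B) - 2 * π * B) - s0 * (sin (2 * π * A) - 2 * π * A) := by
    ring
  have c : |2 * π * (μ ^ 2 * s1 * B + s0 * A)| ≤ 5 * 10 ^ 8 * η ^ 2 := by
    rw [e]
    have e1 := abs_le.1 h
    have e2 := abs_le.1 a3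
    have e3 := abs_le.1 b3
    have : 0 ≤ η ^ 2 := by positivity
    rw [abs_le]
    constructor <;> linarith
  rw [abs_mul, abs_of_pos (by positivity : 0 < 2 * π)] at c
  nlinarith [abs_nonneg (μ ^ 2 * s1 * B + s0 * A)]

/-- subtraction of the two relations -/
theorem sub_rel {μ η a b Δ dA dB s0 s1 σX σY : ℝ} (hμ : 1 ≤ μ) (hμ' : μ ≤ 10) (hη : 0 < η)
    (hη1 : η ≤ 1 / 10 ^ 10) (h0 : s0 = 1 ∨ s0 = -1) (h1 : s1 = 1 ∨ s1 = -1)
    (hΔ : 2 * η ≤ Δ) (ha : a = s1 * σX) (hb : b = s0 * σY)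
    (hA : |dA - σY * 1 * Δ| ≤ η ^ 2 * 1 * |Δ|) (hB : |dB - σX * μ * Δ| ≤ η ^ 2 * μ * |Δ|)
    (h : |μ ^ 2 * s1 * dB + s0 * dA| ≤ 10 ^ 9 * η ^ 2) :
    |μ ^ 3 * a + b| ≤ 6 * 10 ^ 8 * η := by
  have hΔ0 : 0 < Δ := by linarith
  rw [abs_of_pos hΔ0] at hA hB
  have a3 : |s0 * (dA - σY * 1 * Δ)| ≤ η ^ 2 * Δ := by
    have : |s0| = 1 := by rcases h0 with rfl | rfl <;> simp
    rwa [abs_mul, this, one_mul, ← mul_one (η ^ 2)]
  have b3 : |μ ^ 2 * s1 * (dB - σX * μ * Δ)| ≤ 1000 * (η ^ 2 * Δ) := by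
    have : |μ ^ 2 * s1| = μ ^ 2 := by
      rcases h1 with rfl | rfl <;> simp
    rw [abs_mul, this]
    have hμ2 : μ ^ 2 ≤ 100 := by nlinarith
    have h2 : η ^ 2 * μ * Δ ≤ 10 * (η ^ 2 * Δ) := by
      have : 0 ≤ η ^ 2 * Δ := by positivity
      nlinarith
    have := mul_le_mul hμ2 (hB.trans h2) (abs_nonneg _) (by norm_num)
    linarith
  have e : (μ ^ 3 * a + b) * Δ = (μ ^ 2 * s1 * dB + s0 * dA) -
      μ ^ 2 * s1 * (dB - σX * μ * Δ) - s0 * (dA - σY * 1 * Δ) := by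
    rw [ha, hb]; ring
  have c : |(μ ^ 3 * a + b) * Δ| ≤ 6 * 10 ^ 8 * η * Δ := by
    rw [e]
    have e1 := abs_le.1 h
    have e2 := abs_le.1 a3
    have e3 := abs_le.1 b3
    have f1 : η * (2 * η) ≤ η * Δ := mul_le_mul_of_nonneg_left hΔ hη.le
    have f2 : η ^ 2 * Δ ≤ η * Δ := by
      have : η ^ 2 ≤ η := by nlinarith
      exact mul_le_mul_of_nonneg_right this hΔ0.le
    have f3 : 0 ≤ η * Δ := by positivity
    rw [abs_le]
    constructor <;> nlinarith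
  rw [abs_mul, abs_of_pos hΔ0] at c
  exact le_of_mul_le_mul_right c hΔ0

theorem neg_one_zpow_cases (n : ℤ) : (-1 : ℝ) ^ n = 1 ∨ (-1 : ℝ) ^ n = -1 := by
  rcases Int.even_or_odd n with h | h
  · exact Or.inl h.neg_one_zpow
  · exact Or.inr h.neg_one_zpow

theorem parity {n0 n1 : ℤ} {σX σY : ℝ} (hσY : σY = 1 ∨ σY = -1) (hσX : σX = 1 ∨ σX = -1)
    (h : (-1 : ℝ) ^ n1 * σX = -((-1 : ℝ) ^ n0 * σY)) :
    ∃ n : ℤ, ((n1 : ℝ) / 2 + 1 / 4) - 1 / 2 - σX * σY * ((n0 : ℝ) / 2 + 1 / 4) = n := by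
  rcases Int.even_or_odd n0 with h0 | h0 <;> rcases Int.even_or_odd n1 with h1 | h1 <;>
    rw [h0.neg_one_zpow, h1.neg_one_zpow] at h <;> obtain ⟨a, rfl⟩ := h0 <;>
    obtain ⟨b, rfl⟩ := h1
  · refine ⟨a + b, ?_⟩
    rcases hσY with rfl | rfl <;> rcases hσX with rfl | rfl <;> push_cast <;> linarith
  · refine ⟨b - a, ?_⟩
    rcases hσY with rfl | rfl <;> rcases hσX with rfl | rfl <;> push_cast <;> linarith
  · refine ⟨b - a - 1, ?_⟩
    rcases hσY with rfl | rfl <;> rcases hσX with rfl | rfl <;> push_cast <;> linarith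
  · refine ⟨a + b + 1, ?_⟩
    rcases hσY with rfl | rfl <;> rcases hσX with rfl | rfl <;> push_cast <;> linarith

end LemH

open LemH in
/-- Recipe.  Assume `volume (Icc 0 M \ F) < η / 4`; then `F` meets every set `A ⊆ Icc 0 M` with
`volume A ≥ η / 4`.  `Y`, `X` are bi-Lipschitz with slopes `1`, `μ`.
(1) In each of `[0, M/5]`, `[2M/5, 3M/5]`, `[4M/5, M]` the points with `|cos 2πY| ≤ 1/100` or
`|cos 2πX| ≤ 1/100` have measure `≤ 0.13 M/5` (`exists_near_of_cos`, `near_half_le` for `2Y`,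
`ν = 2` and `2X`, `ν = 2μ`), so there are points of `F` outside, `|q s_i| ≤ 201` at three nodes with
gaps `≥ 0.7`, and `|q| ≤ CQ := 10^6` on `[0, M]` (`quad_bound`).
(2) Take `t0 ∈ [1, 2]` with `cos (2π Y t0) = 0` (intermediate value theorem), `J± = t0 ± [η, 2η]`.
For `t ∈ F ∩ J±`: `|cos 2πY t| ≤ 13 η`, hence `|cos 2πX t| ≤ 26 η / μ²`.  If `μ ≥ 10` these points
have measure `≤ η / 10` in `J+`, a contradiction.  So `μ ≤ 10`.
(3) Take `t± ∈ F ∩ J±`.  `X t±` are within `13 η` of zeros of `cos (2π ·)` and within `50 η` of each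
other, so it is the same zero `ξ1`; `ξ0 = Y t0`.  With `A = Y t - ξ0`, `B = X t - ξ1`:
`cos 2πY t = - sin (2π ξ0) sin (2π A)`, `cos 2πX t = - sin (2π ξ1) sin (2π B)`, `sin (2π ξ_i) = ± 1`,
and the hypothesis gives `|μ² cos 2πX t + cos 2πY t| ≤ (CQ+1) |cos 2πY t| |μ² cos 2πX t|`, i.e.
`μ² sin(2πξ1) B = - sin(2πξ0) A (1 + O(CQ η))` (`|sin x - x| ≤ |x|³`).  Subtract the relations at
`t+` and `t-` (`A+ - A- = σY (t+ - t-)(1 ± η²)`, `B+ - B- = σX μ (t+ - t-)(1 ± η²)`,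
`t+ - t- ≥ 2η`): `σX sin(2πξ1) = - σY sin(2πξ0)` and `μ³ = 1 + O(CQ η)`.  Hence
`ξ1 - 1/2 - σX σY ξ0 ∈ ℤ`; at `t+` the quantity to be bounded is `B - σX σY A = O(η)`, and it moves
by at most `M (|μ - 1| + 11 η²)` on the interval. -/
theorem lemH : ∃ C₀ : ℝ, 1 ≤ C₀ ∧ ∃ η₀ : ℝ, 0 < η₀ ∧ ∀ η : ℝ, 0 < η → η ≤ η₀ →
    ∀ (M μ σY σX q0 q1 q2 : ℝ) (X Y : ℝ → ℝ) (F : Set ℝ), 4 ≤ M → M ≤ 8 → 1 ≤ μ →
      (σY = 1 ∨ σY = -1) → (σX = 1 ∨ σX = -1) →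
      (∀ s ∈ Icc 0 M, ∀ t ∈ Icc 0 M, |Y t - Y s - σY * (t - s)| ≤ η ^ 2 * |t - s|) →
      (∀ s ∈ Icc 0 M, ∀ t ∈ Icc 0 M, |X t - X s - σX * μ * (t - s)| ≤ η ^ 2 * μ * |t - s|) →
      (∀ t ∈ F, t ∈ Icc 0 M → ∃ s ∈ Icc 0 M, |s - t| ≤ 1 / 100 ∧ cos (2 * π * Y t) ≠ 0 ∧
        cos (2 * π * X t) ≠ 0 ∧ |q0 + q1 * s + q2 * s ^ 2 - 1 / cos (2 * π * Y t) -
          1 / (μ ^ 2 * cos (2 * π * X t))| ≤ 1) →
      ENNReal.ofReal (η / 4) ≤ volume (Icc 0 M \ F) ∨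
        (|μ - 1| ≤ C₀ * η ∧ ∃ n : ℤ, ∀ t ∈ Icc 0 M, |X t - 1 / 2 - σX * σY * Y t - n| ≤ C₀ * η) := by
  refine ⟨10 ^ 10, by norm_num, 1 / 10 ^ 10, by norm_num, ?_⟩
  intro η hη hη1 M μ σY σX q0 q1 q2 X Y F hM4 hM8 hμ hσY hσX hY0 hX hq
  rw [or_iff_not_imp_left, not_le]
  intro hF
  have hY : ∀ s ∈ Icc 0 M, ∀ t ∈ Icc 0 M,
      |Y t - Y s - σY * 1 * (t - s)| ≤ η ^ 2 * 1 * |t - s| := by
    simpa only [mul_one] using hY0
  have he : η ^ 2 ≤ 1 / 2 := by nlinarith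
  have he' : η ^ 2 ≤ η / 10 ^ 10 := by nlinarith
  have hQ := quad_le hη (by linarith) hM4 hM8 hμ hσY hσX hY hX hq hF
  obtain ⟨t0, ht0, n0, hn0⟩ := exists_zero he hM4 hσY hY
  have ht0' : t0 ∈ Icc 0 M := ⟨by linarith [ht0.1], by linarith [ht0.2]⟩
  have hπ3 := Real.pi_gt_three
  have hπ4 := Real.pi_lt_d2
  -- points of `F` near `t0`
  have near : ∀ t ∈ F, t ∈ Icc 0 M → |t - t0| ≤ 2 * η →
      |Y t - Y t0| ≤ 3 * η ∧ μ ^ 2 * |cos (2 * π * X t)| ≤ 26 * η ∧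
      |μ ^ 2 * cos (2 * π * X t) + -((-1 : ℝ) ^ n0 * sin (2 * π * (Y t - Y t0)))| ≤
        4 * 10 ^ 8 * η ^ 2 := by
    intro t htF ht htt
    have a1 := (bilip hσY zero_le_one (hY t0 ht0' t ht)).2
    have a2 : |Y t - Y t0| ≤ 201 / 100 * η := by
      have : (1 + η ^ 2) * 1 * |t - t0| ≤ (1 + η ^ 2) * 1 * (2 * η) :=
        mul_le_mul_of_nonneg_left htt (by positivity)
      nlinarith
    have a3 : cos (2 * π * Y t) = -((-1 : ℝ) ^ n0 * sin (2 * π * (Y t - Y t0))) := by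
      rw [← cos_pole, ← hn0]
      congr 1
      ring
    have a4 : |cos (2 * π * Y t)| ≤ 13 * η := by
      have b1 : |(-1 : ℝ) ^ n0| = 1 := by
        rcases neg_one_zpow_cases n0 with h | h <;> rw [h] <;> simp
      rw [a3, abs_neg, abs_mul, b1, one_mul]
      refine Real.abs_sin_le_abs.trans ?_
      rw [abs_mul, abs_of_pos (by positivity : 0 < 2 * π)]
      nlinarith [abs_nonneg (Y t - Y t0)]
    obtain ⟨s, hs, -, c1, c2, c3⟩ := hq t htF ht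
    obtain ⟨k1, k2⟩ := key_rel hμ hη hη1 c1 c2 (hQ s hs) c3 a4
    rw [a3] at k2
    exact ⟨by linarith, k1, k2⟩
  have p1 : 0 ≤ t0 + η := by linarith [ht0.1]
  have p2 : t0 + 2 * η ≤ M := by linarith [ht0.2]
  have p3 : 0 ≤ t0 - 2 * η := by linarith [ht0.1]
  have p4 : t0 - η ≤ M := by linarith [ht0.2]
  have hμ' : μ ≤ 10 := by
    by_contra hμ10
    push Not at hμ10
    have hμ2 : 100 ≤ μ ^ 2 := by nlinarith
    have hθ : 26 * η / μ ^ 2 ≤ 26 / 100 * η := by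
      rw [div_le_iff₀ (by positivity)]; nlinarith
    have hθ0 : 0 ≤ 26 * η / μ ^ 2 := by positivity
    have v := cos_small_vol (θ := 26 * η / μ ^ 2) hσX (by linarith) he p1
      (by linarith : t0 + η ≤ t0 + 2 * η) p2 hθ0 (by linarith) hX
    have w : 2 * (26 * η / μ ^ 2) / μ ≤ η / 10 := by
      rw [div_le_iff₀ (by linarith)]; nlinarith
    have v' := v.trans (ENNReal.ofReal_le_ofReal (show _ ≤ η / 2 by nlinarith))
    obtain ⟨t, htF, ht, htB⟩ := meet p1 p2 hη (by positivity) hF v' (by linarith)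
    have ht' : t ∈ Icc 0 M := ⟨p1.trans ht.1, ht.2.trans p2⟩
    obtain ⟨-, k1, -⟩ := near t htF ht' (by
      rw [abs_le]; constructor <;> linarith [ht.1, ht.2])
    refine htB ⟨ht, ?_⟩
    rw [le_div_iff₀ (by positivity)]
    linarith
  have hemp : volume (∅ : Set ℝ) ≤ ENNReal.ofReal 0 := by simp
  obtain ⟨tp, htpF, htp, -⟩ := meet p1 p2 hη le_rfl hF hemp (by linarith)
  obtain ⟨tm, htmF, htm, -⟩ := meet p3 p4 hη le_rfl hF hemp (by linarith)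
  have htp' : tp ∈ Icc 0 M := ⟨p1.trans htp.1, htp.2.trans p2⟩
  have htm' : tm ∈ Icc 0 M := ⟨p3.trans htm.1, htm.2.trans p4⟩
  obtain ⟨ap, kp, rp⟩ := near tp htpF htp' (by
    rw [abs_le]; constructor <;> linarith [htp.1, htp.2])
  obtain ⟨am, km, rm⟩ := near tm htmF htm' (by
    rw [abs_le]; constructor <;> linarith [htm.1, htm.2])
  have hμ2 : 1 ≤ μ ^ 2 := one_le_pow₀ hμ
  have small : ∀ c : ℝ, μ ^ 2 * |c| ≤ 26 * η → |c| ≤ 26 * η := fun c hc => by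
    nlinarith [abs_nonneg c]
  obtain ⟨n1, hn1⟩ := exists_near_of_cos (small _ kp)
  obtain ⟨n2, hn2⟩ := exists_near_of_cos (small _ km)
  have hΔ1 : 2 * η ≤ tp - tm := by linarith [htp.1, htm.2]
  have hΔ2 : tp - tm ≤ 4 * η := by linarith [htp.2, htm.1]
  have hXd : |X tp - X tm| ≤ 50 * η := by
    have b1 := (bilip hσX (by linarith) (hX tm htm' tp htp')).2
    rw [abs_of_pos (by linarith : 0 < tp - tm)] at b1
    have b2 : (1 + η ^ 2) * μ ≤ 11 := by nlinarith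
    have b3 : (1 + η ^ 2) * μ * (tp - tm) ≤ 11 * (4 * η) :=
      mul_le_mul b2 hΔ2 (by linarith) (by norm_num)
    linarith
  have hn12 : n2 = n1 := by
    have e1 := abs_le.1 hn1
    have e2 := abs_le.1 hn2
    have e3 := abs_le.1 hXd
    have f1 : (n2 : ℝ) - n1 < 1 := by linarith
    have f2 : (-1 : ℝ) < (n2 : ℝ) - n1 := by linarith
    have g1 : n2 - n1 < 1 := by exact_mod_cast f1
    have g2 : -1 < n2 - n1 := by exact_mod_cast f2
    omega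
  subst hn12
  set ξ : ℝ := (n2 : ℝ) / 2 + 1 / 4 with hξ
  have hB : ∀ x : ℝ, |2 * x - n2 - 1 / 2| ≤ 26 * η / 2 → |x - ξ| ≤ 7 * η := fun x hx => by
    have := abs_le.1 hx
    rw [abs_le, hξ]
    constructor <;> linarith
  have hcos : ∀ x : ℝ, cos (2 * π * x) = -((-1 : ℝ) ^ n2 * sin (2 * π * (x - ξ))) := fun x => by
    rw [← cos_pole, ← hξ]
    congr 1
    ring
  rw [hcos] at rp rm
  have s0 := neg_one_zpow_cases n0
  have s1 := neg_one_zpow_cases n2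
  have lp := lin_rel hμ hμ' hη hη1 s0 s1 ap (hB _ hn1) rp
  have lm := lin_rel hμ hμ' hη hη1 s0 s1 am (hB _ hn2) rm
  have hsub := sub_rel (dA := Y tp - Y tm) (dB := X tp - X tm) hμ hμ' hη hη1 s0 s1 hΔ1 rfl rfl
    (hY tm htm' tp htp') (hX tm htm' tp htp') (by
      have e1 := abs_le.1 lp
      have e2 := abs_le.1 lm
      rw [abs_le]
      constructor <;> linarith)
  have hμ3 : 1 ≤ μ ^ 3 := one_le_pow₀ hμ
  have ha : (-1 : ℝ) ^ n2 * σX = 1 ∨ (-1 : ℝ) ^ n2 * σX = -1 := by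
    rcases s1 with h | h <;> rcases hσX with h' | h' <;> rw [h, h'] <;> norm_num
  have hb : (-1 : ℝ) ^ n0 * σY = 1 ∨ (-1 : ℝ) ^ n0 * σY = -1 := by
    rcases s0 with h | h <;> rcases hσY with h' | h' <;> rw [h, h'] <;> norm_num
  have hab : (-1 : ℝ) ^ n2 * σX = -((-1 : ℝ) ^ n0 * σY) ∧ μ ^ 3 - 1 ≤ 6 * 10 ^ 8 * η := by
    have e := abs_le.1 hsub
    rcases ha with h | h <;> rcases hb with h' | h' <;> rw [h, h'] at e ⊢ <;>
      constructor <;> linarith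
  have hμ1 : μ - 1 ≤ 6 * 10 ^ 8 * η := by nlinarith [hab.2]
  obtain ⟨n, hn⟩ := parity hσY hσX hab.1
  refine ⟨by rw [abs_of_nonneg (by linarith)]; linarith, n, fun t ht => ?_⟩
  have hτ : |σX * σY| = 1 := by
    rcases hσX with h | h <;> rcases hσY with h' | h' <;> rw [h, h'] <;> norm_num
  have hσX1 : |σX| = 1 := by rcases hσX with h | h <;> rw [h] <;> norm_num
  have hσY2 : σY * σY = 1 := by rcases hσY with h | h <;> rw [h] <;> norm_num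
  have htt : |t - tp| ≤ 8 := by
    rw [abs_le]; constructor <;> linarith [ht.1, ht.2, htp'.1, htp'.2]
  have c1 : |σX * σY * (Y tp - Y t0)| ≤ 3 * η := by rwa [abs_mul, hτ, one_mul]
  have c2 := hB _ hn1
  have c3 : |X t - X tp - σX * μ * (t - tp)| ≤ η := by
    refine (hX tp htp' t ht).trans ?_
    have : η ^ 2 * μ * |t - tp| ≤ η ^ 2 * 10 * 8 := by gcongr
    linarith
  have c4 : |σX * σY * (Y t - Y tp - σY * 1 * (t - tp))| ≤ η := by
    rw [abs_mul, hτ, one_mul]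
    refine (hY tp htp' t ht).trans ?_
    have : η ^ 2 * 1 * |t - tp| ≤ η ^ 2 * 1 * 8 := by gcongr
    linarith
  have c5 : |σX * ((μ - 1) * (t - tp))| ≤ 6 * 10 ^ 8 * η * 8 := by
    rw [abs_mul, hσX1, one_mul, abs_mul, abs_of_nonneg (by linarith : 0 ≤ μ - 1)]
    exact mul_le_mul hμ1 htt (abs_nonneg _) (by positivity)
  have e : X t - 1 / 2 - σX * σY * Y t - n = (X tp - ξ) - σX * σY * (Y tp - Y t0) +
      (X t - X tp - σX * μ * (t - tp)) - σX * σY * (Y t - Y tp - σY * 1 * (t - tp)) +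
      σX * ((μ - 1) * (t - tp)) := by
    rw [← hn, hn0, hξ]
    linear_combination (-(σX * (t - tp))) * hσY2
  rw [e]
  have e1 := abs_le.1 c1
  have e2 := abs_le.1 c2
  have e3 := abs_le.1 c3
  have e4 := abs_le.1 c4
  have e5 := abs_le.1 c5
  rw [abs_le]
  constructor <;> linarith

end Crest.Agent.R128
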