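import Crest.Agent.R128.RealS
import Crest.Agent.R128.Cauchy

/-! Row 128: auxiliary lemmas for `lemZ` (normalised signs). -/

set_option autoImplicit false

namespace Crest.Agent.R128

open Real MeasureTheory Set

theorem lz_mvt {F : ℂ → ℂ} (hF : Differentiable ℂ F) {c : ℂ} {ε : ℝ}
    (h : ∀ z : ℂ, ‖z‖ ≤ 10 → ‖deriv F z - c‖ ≤ ε) {z w : ℂ} (hz : ‖z‖ ≤ 10) (hw : ‖w‖ ≤ 10) :
    ‖F z - F w - c * (z - w)‖ ≤ ε * ‖z - w‖ := by
  have key := (convex_closedBall (0 : ℂ) 10).norm_image_sub_le_of_norm_hasDerivWithin_le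
    (f := fun z => F z - c * z) (f' := fun z => deriv F z - c) (C := ε) (x := w) (y := z)
    (fun x _ => by
      have h1 : HasDerivAt (fun z => F z - c * z) (deriv F x - c * 1) x :=
        (hF x).hasDerivAt.sub ((hasDerivAt_id x).const_mul c)
      rw [mul_one] at h1
      exact h1.hasDerivWithinAt)
    (fun x hx => h x (by simpa using hx)) (by simpa using hw) (by simpa using hz)
  have e : F z - F w - c * (z - w) = F z - c * z - (F w - c * w) := by ring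
  rw [e]; exact key

theorem lz_real {F : ℂ → ℂ} {f : ℝ → ℝ} (hF : Differentiable ℂ F) (h : ∀ t : ℝ, F t = f t)
    (t : ℝ) : HasDerivAt f (deriv F t).re t := by
  have h1 := (hF (t : ℂ)).hasDerivAt.real_of_complex
  have e : (fun x : ℝ => (F x).re) = f := by funext x; rw [h x]; simp
  rwa [e] at h1

theorem lz_re_le {a : ℂ} {c ε : ℝ} (h : ‖a - c‖ ≤ ε) : |a.re - c| ≤ ε := by
  have := Complex.abs_re_le_norm (a - c)
  simp only [Complex.sub_re, Complex.ofReal_re] at this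
  linarith

theorem lz_norm_le {t : ℝ} (ht : t ∈ Icc (0 : ℝ) 8) : ‖(t : ℂ)‖ ≤ 10 := by
  rw [Complex.norm_real, Real.norm_eq_abs, abs_of_nonneg ht.1]; linarith [ht.2]

theorem lz_csin {w : ℂ} (hw : ‖w‖ ≤ 1) : ‖Complex.sin w‖ ≤ 2 * ‖w‖ := by
  have h := Complex.sin_bound hw
  have h0 := norm_nonneg w
  have h1 : ‖Complex.sin w‖ ≤ ‖Complex.sin w - (w - w ^ 3 / 6)‖ + ‖w - w ^ 3 / 6‖ := by
    have := norm_add_le (Complex.sin w - (w - w ^ 3 / 6)) (w - w ^ 3 / 6)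
    rwa [sub_add_cancel] at this
  have h2 : ‖w - w ^ 3 / 6‖ ≤ ‖w‖ + ‖w‖ ^ 3 / 6 := by
    refine (norm_sub_le _ _).trans ?_
    rw [norm_div, norm_pow]; simp
  have h3 : ‖w‖ ^ 3 ≤ ‖w‖ := pow_le_of_le_one h0 hw (by norm_num)
  have h5 : ‖w‖ ^ 5 ≤ ‖w‖ := pow_le_of_le_one h0 hw (by norm_num)
  linarith

theorem lz_ccos (x : ℝ) {h : ℂ} (hh : ‖h‖ ≤ 1) : ‖Complex.cos (x + h)‖ ≤ 3 := by
  have h1 := ccos_lip x hh
  have h2 : ‖Complex.cos x‖ ≤ 1 := by
    rw [← Complex.ofReal_cos, Complex.norm_real, Real.norm_eq_abs]; exact abs_cos_le_one x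
  have h3 : ‖Complex.cos (x + h)‖ ≤ ‖Complex.cos (x + h) - Complex.cos x‖ + ‖Complex.cos x‖ := by
    simpa using norm_add_le (Complex.cos (x + h) - Complex.cos x) (Complex.cos x)
  linarith

/-- four consecutive zeros of `cos (2π v)` -/
theorem lz_zeros {v : ℝ → ℝ} (hc : Continuous v) {ε : ℝ} (hε : ε ≤ 1 / 100)
    (h : ∀ s ∈ Icc (0 : ℝ) 8, ∀ t ∈ Icc (0 : ℝ) 8, |v t - v s - (t - s)| ≤ ε * |t - s|) :
    ∃ t : ℕ → ℝ, (∀ i ≤ 3, t i ∈ Icc (0 : ℝ) 3 ∧ cos (2 * π * v (t i)) = 0 ∧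
      sin (2 * π * v (t i)) = (-1) ^ i) ∧ ∀ i < 3, t i + 2 / 5 ≤ t (i + 1) := by
  set m : ℤ := ⌈v 0 - 1 / 4⌉ with hm
  have hm1 : v 0 - 1 / 4 ≤ m := Int.le_ceil _
  have hm2 : (m : ℝ) < v 0 - 1 / 4 + 1 := Int.ceil_lt_add_one _
  have h3 : v 0 + 5 / 2 ≤ v 3 := by
    have := h 0 (by norm_num) 3 (by norm_num)
    rw [abs_le] at this
    norm_num at this
    linarith [this.1]
  have hex : ∀ i : ℕ, ∃ t, i ≤ 3 → t ∈ Icc (0 : ℝ) 3 ∧ v t = m + 1 / 4 + i / 2 := by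
    intro i
    by_cases hi : i ≤ 3
    · have hi' : (i : ℝ) ≤ 3 := by exact_mod_cast hi
      have hi0 : (0 : ℝ) ≤ i := Nat.cast_nonneg i
      obtain ⟨t, ht, hv⟩ := intermediate_value_Icc (show (0 : ℝ) ≤ 3 by norm_num) hc.continuousOn
        (show (m + 1 / 4 + i / 2 : ℝ) ∈ Icc (v 0) (v 3) from ⟨by linarith, by linarith⟩)
      exact ⟨t, fun _ => ⟨ht, hv⟩⟩
    · exact ⟨0, fun h => absurd h hi⟩
  choose t ht using hex
  refine ⟨t, fun i hi => ?_, fun i hi => ?_⟩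
  · obtain ⟨h1, h2⟩ := ht i hi
    have e : 2 * π * v (t i) = π / 2 + i * π + m * (2 * π) := by rw [h2]; ring
    refine ⟨h1, ?_, ?_⟩
    · rw [e, cos_add_int_mul_two_pi, cos_add_nat_mul_pi, cos_pi_div_two, mul_zero]
    · rw [e, sin_add_int_mul_two_pi, sin_add_nat_mul_pi, sin_pi_div_two, mul_one]
  · obtain ⟨h1, h2⟩ := ht i hi.le
    obtain ⟨h1', h2'⟩ := ht (i + 1) hi
    have h4 := h (t i) ⟨h1.1, by linarith [h1.2]⟩ (t (i + 1)) ⟨h1'.1, by linarith [h1'.2]⟩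
    have h5 : |t (i + 1) - t i| ≤ 3 := by
      rw [abs_le]; constructor <;> linarith [h1.1, h1.2, h1'.1, h1'.2]
    have h6 : ε * |t (i + 1) - t i| ≤ 1 / 100 * 3 :=
      (mul_le_mul_of_nonneg_right hε (abs_nonneg _)).trans (by linarith)
    rw [h2, h2'] at h4
    push_cast at h4
    have := (abs_le.1 (h4.trans h6)).2
    linarith

/-- the derivative at a zero of `cos (2π v)` -/
theorem lz_deriv {v e p : ℝ → ℝ} {v' e' p' k s t : ℝ} (hv : HasDerivAt v v' t)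
    (he : HasDerivAt e e' t) (hp : HasDerivAt p p' t) (hc : cos (2 * π * v t) = 0)
    (hs : sin (2 * π * v t) = s) :
    HasDerivAt (fun t => 4 * v t + 2 * e t +
        k * (sin (2 * π * v t) - sin (2 * π * (v t + e t))) - p t)
      (4 * v' + 2 * e' - p' + (v' + e') * (2 * π * k * (s * sin (2 * π * e t)))) t := by
  have h1 := (((hv.const_mul 4).add (he.const_mul 2)).add
    ((((hv.const_mul (2 * π)).sin).sub (((hv.add he).const_mul (2 * π)).sin)).const_mul k)).sub hp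
  have e1 : cos (2 * π * (v t + e t)) = - (s * sin (2 * π * e t)) := by
    rw [mul_add, cos_add, hc, hs]; ring
  refine HasDerivAt.congr_deriv (f := fun t => 4 * v t + 2 * e t +
        k * (sin (2 * π * v t) - sin (2 * π * (v t + e t))) - p t) h1 ?_
  simp only [Pi.add_apply, hc, e1]
  ring

theorem lz_lower {k f : ℝ} (hk : 1 ≤ k) (hf : |f| ≤ 1 / 100) (h : -(1 / 20) ≤ k * f) :
    -2 ≤ 2 * π * k * sin (2 * π * f) := by
  have hp := pi_pos
  have hp2 : π ^ 2 ≤ 10 := by nlinarith [pi_lt_d2]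
  rcases le_total 0 f with h0 | h0
  · have : 0 ≤ sin (2 * π * f) :=
      sin_nonneg_of_nonneg_of_le_pi (by positivity) (by nlinarith [(abs_le.1 hf).2])
    have : 0 ≤ 2 * π * k * sin (2 * π * f) := by positivity
    linarith
  · have h1 : 2 * π * f ≤ sin (2 * π * f) := le_sin (by nlinarith)
    have h2 : 2 * π * k * (2 * π * f) ≤ 2 * π * k * sin (2 * π * f) :=
      mul_le_mul_of_nonneg_left h1 (by positivity)
    have h3 : 2 * π * k * (2 * π * f) = 4 * π ^ 2 * (k * f) := by ring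
    nlinarith

theorem lz_upper {k f : ℝ} (hk : 1 ≤ k) (hf : |f| ≤ 1 / 100) :
    24 * (k * |f|) ≤ |2 * π * k * sin (2 * π * f)| := by
  have hp := pi_pos
  have hp3 := pi_gt_three
  have h1 : |2 * π * f| = 2 * π * |f| := by rw [abs_mul, abs_of_pos (by positivity)]
  have h2 := mul_abs_le_abs_sin (x := 2 * π * f) (by rw [h1]; nlinarith)
  have h3 : 2 / π * |2 * π * f| = 4 * |f| := by rw [h1]; field_simp; ring
  rw [h3] at h2
  rw [abs_mul, abs_of_pos (by positivity : 0 < 2 * π * k)]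
  have h4 : 2 * π * k * (4 * |f|) ≤ 2 * π * k * |sin (2 * π * f)| :=
    mul_le_mul_of_nonneg_left h2 (by positivity)
  have h5 : 0 ≤ k * |f| := by positivity
  nlinarith

theorem lz_ptA {k ε v' e' p' f s : ℝ} (hk : 1 ≤ k) (hε : ε ≤ 1 / 100) (hv : |v' - 1| ≤ ε)
    (he : |e'| ≤ 2 * ε) (hp : |p'| ≤ ε) (hf : |f| ≤ ε) (hs : s = 1 ∨ s = -1)
    (h : -(1 / 20) ≤ k * (s * f)) :
    1 ≤ |4 * v' + 2 * e' - p' + (v' + e') * (2 * π * k * (s * sin (2 * π * f)))| := by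
  have e1 : s * sin (2 * π * f) = sin (2 * π * (s * f)) := by
    rcases hs with rfl | rfl
    · simp
    · simp
  have e2 : |s * f| ≤ 1 / 100 := by
    rcases hs with rfl | rfl
    · simpa using hf.trans hε
    · simpa using hf.trans hε
  have h1 := lz_lower hk e2 h
  rw [e1]
  generalize 2 * π * k * sin (2 * π * (s * f)) = a at h1
  rw [abs_le] at hv he hp
  refine le_trans ?_ (le_abs_self _)
  have h2 : 0 ≤ (v' + e') * (a + 2) := mul_nonneg (by linarith) (by linarith)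
  nlinarith

theorem lz_ptB {k ε v' e' p' f s ν : ℝ} (hk : 1 ≤ k) (hε : ε ≤ 1 / 100) (hv : |v' - 1| ≤ ε)
    (he : |e'| ≤ 2 * ε) (hp : |p'| ≤ ε) (hf : |f| ≤ ε) (hs : s = 1 ∨ s = -1) (hν : 1 ≤ ν)
    (h : |4 * v' + 2 * e' - p' + (v' + e') * (2 * π * k * (s * sin (2 * π * f)))| ≤ ν) :
    k * |f| ≤ ν := by
  have h1 := lz_upper hk (hf.trans hε)
  have e1 : |2 * π * k * (s * sin (2 * π * f))| = |2 * π * k * sin (2 * π * f)| := by
    rcases hs with rfl | rfl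
    · simp
    · simp
  rw [← e1] at h1
  generalize 2 * π * k * (s * sin (2 * π * f)) = a at h1 h
  rw [abs_le] at hv he hp
  have h2 : |(v' + e') * a| ≤ 6 * ν := by
    rw [abs_le] at h ⊢
    constructor <;> linarith [h.1, h.2]
  rw [abs_mul, abs_of_nonneg (by linarith : 0 ≤ v' + e')] at h2
  have h3 : 1 / 2 * |a| ≤ (v' + e') * |a| := mul_le_mul_of_nonneg_right (by linarith) (abs_nonneg _)
  linarith

theorem lz_max {k ε q0 q1 q2 : ℝ} {t v' e' p' f : ℕ → ℝ} (hk : 1 ≤ k) (hε : ε ≤ 1 / 100)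
    (ht : ∀ i < 3, t i < t (i + 1))
    (h : ∀ i ≤ 3, |v' i - 1| ≤ ε ∧ |e' i| ≤ 2 * ε ∧ |p' i| ≤ ε ∧ |f i| ≤ ε ∧
      k * |f i - (q0 + q1 * t i + q2 * t i ^ 2)| ≤ ε) :
    ∃ j ≤ 3, 1 ≤ |4 * v' j + 2 * e' j - p' j +
        (v' j + e' j) * (2 * π * k * ((-1) ^ j * sin (2 * π * f j)))| ∧
      ∀ i ≤ 3, k * |f i| ≤ |4 * v' j + 2 * e' j - p' j +
        (v' j + e' j) * (2 * π * k * ((-1) ^ j * sin (2 * π * f j)))| := by
  set D : ℕ → ℝ := fun j => |4 * v' j + 2 * e' j - p' j +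
        (v' j + e' j) * (2 * π * k * ((-1) ^ j * sin (2 * π * f j)))| with hD
  obtain ⟨j, hj, hmax⟩ := Finset.exists_max_image (Finset.range 4) D ⟨0, by simp⟩
  have hj' : j ≤ 3 := by simpa [Nat.lt_succ_iff] using hj
  have hmax' : ∀ i ≤ 3, D i ≤ D j := fun i hi => hmax i (by simpa [Nat.lt_succ_iff] using hi)
  have hsg : ∀ i : ℕ, (-1 : ℝ) ^ i = 1 ∨ (-1 : ℝ) ^ i = -1 := fun i => neg_one_pow_eq_or ℝ i
  have h1 : 1 ≤ D j := by
    by_contra hlt
    have hall : ∀ i ≤ 3, (-1) ^ i * (q0 + q1 * t i + q2 * t i ^ 2) < 0 := by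
      intro i hi
      obtain ⟨a1, a2, a3, a4, a5⟩ := h i hi
      have b1 : k * ((-1) ^ i * f i) < -(1 / 20) := by
        by_contra hc
        exact hlt ((lz_ptA hk hε a1 a2 a3 a4 (hsg i) (not_lt.1 hc)).trans (hmax' i hi))
      generalize q0 + q1 * t i + q2 * t i ^ 2 = Q at a5 ⊢
      have b2 : |k * (f i - Q)| ≤ ε := by rwa [abs_mul, abs_of_pos (by linarith : 0 < k)]
      rw [abs_le] at b2
      have b3 : k * ((-1) ^ i * Q) < 0 := by
        rcases hsg i with e | e <;> rw [e] at b1 ⊢ <;> nlinarith [b2.1, b2.2]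
      by_contra hc
      have := mul_nonneg (by linarith : 0 ≤ k) (not_lt.1 hc)
      linarith
    have c0 := hall 0 (by norm_num)
    have c1 := hall 1 (by norm_num)
    have c2 := hall 2 (by norm_num)
    have c3 := hall 3 (by norm_num)
    refine quad_alt (q0 := q0) (q1 := q1) (q2 := q2) (σ := -1) (ht 0 (by norm_num))
      (ht 1 (by norm_num)) (ht 2 (by norm_num)) ?_ ?_ ?_ ?_
    · norm_num at c0 ⊢; linarith
    · norm_num at c1 ⊢; linarith
    · norm_num at c2 ⊢; linarith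
    · norm_num at c3 ⊢; linarith
  refine ⟨j, hj', h1, fun i hi => ?_⟩
  obtain ⟨a1, a2, a3, a4, -⟩ := h i hi
  exact lz_ptB hk hε a1 a2 a3 a4 (hsg i) h1 (hmax' i hi)

theorem lz_disc {k ν ε : ℝ} {V E P : ℂ → ℂ} {t0 v0 : ℝ} (hk : 1 ≤ k) (hν : 1 ≤ ν)
    (hε : ε ≤ 1 / 100) (hv0 : V t0 = v0) {z : ℂ} (hz : ‖z - t0‖ ≤ 1 / 10)
    (hV : ‖V z - V t0 - 1 * (z - t0)‖ ≤ ε * ‖z - t0‖)
    (hP : ‖P z - P t0 - 0 * (z - t0)‖ ≤ ε * ‖z - t0‖) (hE : ‖E z‖ ≤ 1 / 20)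
    (hE' : k * ‖E z‖ ≤ 12501 * ν) :
    ‖4 * V z + 2 * E z + k * (Complex.sin (2 * π * V z) - Complex.sin (2 * π * (V z + E z))) - P z -
      (4 * V t0 - P t0)‖ ≤ 500000 * ν := by
  have hp := pi_pos
  have hp3 := pi_lt_d2
  have h0 : ε * ‖z - t0‖ ≤ 1 / 100 * (1 / 10) :=
    (mul_le_mul_of_nonneg_right hε (norm_nonneg _)).trans (by linarith)
  have h1 : ‖V z - V t0‖ ≤ 101 / 1000 := by
    have := norm_add_le (V z - V t0 - 1 * (z - t0)) (z - t0)
    rw [one_mul, sub_add_cancel] at this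
    rw [one_mul] at hV
    linarith
  have h2 : ‖P z - P t0‖ ≤ 1 / 1000 := by
    rw [zero_mul, sub_zero] at hP; linarith
  have hπ : ‖(π : ℂ)‖ = π := by rw [Complex.norm_real, Real.norm_eq_abs, abs_of_pos hp]
  have h3 : ‖(π : ℂ) * E z‖ = π * ‖E z‖ := by rw [norm_mul, hπ]
  have h4 : ‖Complex.sin (-(π * E z))‖ ≤ 2 * (π * ‖E z‖) := by
    have := lz_csin (w := -(π * E z)) (by rw [norm_neg, h3]; nlinarith [norm_nonneg (E z)])
    rwa [norm_neg, h3] at this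
  have h5 : ‖Complex.cos ((2 * π * v0 : ℝ) + (2 * π * (V z - V t0) + π * E z))‖ ≤ 3 := by
    refine lz_ccos _ ((norm_add_le _ _).trans ?_)
    rw [h3, norm_mul, norm_mul, hπ, Complex.norm_two]
    nlinarith [norm_nonneg (E z), norm_nonneg (V z - V t0)]
  have h6 : Complex.sin (2 * π * V z) - Complex.sin (2 * π * (V z + E z)) =
      2 * Complex.sin (-(π * E z)) *
        Complex.cos ((2 * π * v0 : ℝ) + (2 * π * (V z - V t0) + π * E z)) := by
    rw [Complex.sin_sub_sin, hv0]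
    congr 2
    · congr 1; ring
    · push_cast; ring
  have h7 : ‖Complex.sin (2 * π * V z) - Complex.sin (2 * π * (V z + E z))‖ ≤
      12 * π * ‖E z‖ := by
    rw [h6, norm_mul, norm_mul, Complex.norm_two]
    calc _ ≤ 2 * (2 * (π * ‖E z‖)) * 3 := by gcongr
      _ = _ := by ring
  have h8 : ‖(k : ℂ) * (Complex.sin (2 * π * V z) - Complex.sin (2 * π * (V z + E z)))‖ ≤
      12 * π * (12501 * ν) := by
    rw [norm_mul, Complex.norm_real, Real.norm_eq_abs, abs_of_pos (by linarith : 0 < k)]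
    calc _ ≤ k * (12 * π * ‖E z‖) := by gcongr
      _ = 12 * π * (k * ‖E z‖) := by ring
      _ ≤ _ := by gcongr
  generalize (k : ℂ) * (Complex.sin (2 * π * V z) - Complex.sin (2 * π * (V z + E z))) = A at h8
  have e : 4 * V z + 2 * E z + A - P z - (4 * V t0 - P t0) =
      4 * (V z - V t0) + 2 * E z + A - (P z - P t0) := by ring
  rw [e]
  have h9 : ‖4 * (V z - V t0) + 2 * E z + A - (P z - P t0)‖ ≤
      4 * ‖V z - V t0‖ + 2 * ‖E z‖ + ‖A‖ + ‖P z - P t0‖ := by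
    refine (norm_sub_le _ _).trans ?_
    gcongr
    refine (norm_add_le _ _).trans ?_
    gcongr
    refine (norm_add_le _ _).trans ?_
    rw [norm_mul, norm_mul]; simp
  nlinarith

/-- the normalised statement: near one of the zeros the function is bi-Lipschitz -/
theorem lz_core {ε k : ℝ} (hε0 : 0 < ε) (hε : ε ≤ 1 / 10 ^ 6) (hk : 1 ≤ k) {V E P : ℂ → ℂ}
    {v e p : ℝ → ℝ} {d0 d1 d2 : ℂ} (hV : Differentiable ℂ V) (hE : Differentiable ℂ E)
    (hP : Differentiable ℂ P) (hv : ∀ t : ℝ, V t = v t) (he : ∀ t : ℝ, E t = e t)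
    (hp : ∀ t : ℝ, P t = p t)
    (h : ∀ z : ℂ, ‖z‖ ≤ 10 → ‖deriv V z - 1‖ ≤ ε ∧ ‖deriv E z‖ ≤ 2 * ε ∧ ‖deriv P z‖ ≤ ε ∧
      k * ‖E z - (d0 + d1 * z + d2 * z ^ 2)‖ ≤ ε)
    (he0 : ∀ t ∈ Icc (0 : ℝ) 3, |e t| ≤ ε) (φ : ℝ → ℝ)
    (hφ : ∀ t, φ t = 4 * v t + 2 * e t +
      k * (sin (2 * π * v t) - sin (2 * π * (v t + e t))) - p t) :
    ∃ t0 ∈ Icc (0 : ℝ) 3, (∀ t ∈ Icc (t0 + 1 / 10 ^ 10) (t0 + 2 / 10 ^ 10),
        1 / 10 ^ 10 ≤ |cos (2 * π * v t)|) ∧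
      ∃ ν : ℝ, 1 ≤ ν ∧ ∀ s ∈ Icc t0 (t0 + 2 / 10 ^ 10), ∀ t ∈ Icc t0 (t0 + 2 / 10 ^ 10),
        ν / 2 * |t - s| ≤ |φ t - φ s| ∧ |φ t - φ s| ≤ 2 * ν * |t - s| := by
  have hε' : ε ≤ 1 / 100 := hε.trans (by norm_num)
  have hk0 : 0 < k := by linarith
  have hVm := fun z w hz hw => lz_mvt hV (c := 1) (ε := ε) (fun z hz => (h z hz).1) (z := z) (w := w)
    hz hw
  have hPm := fun z w hz hw => lz_mvt hP (c := 0) (ε := ε)
    (fun z hz => by simpa using (h z hz).2.2.1) (z := z) (w := w) hz hw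
  have hvm : ∀ s ∈ Icc (0 : ℝ) 8, ∀ t ∈ Icc (0 : ℝ) 8, |v t - v s - (t - s)| ≤ ε * |t - s| := by
    intro s hs t ht
    have := hVm t s (lz_norm_le ht) (lz_norm_le hs)
    rw [hv, hv, one_mul] at this
    rw [← Real.norm_eq_abs, ← Real.norm_eq_abs, ← Complex.norm_real, ← Complex.norm_real]
    push_cast
    exact this
  have hvd := lz_real hV hv
  have hed := lz_real hE he
  have hpd := lz_real hP hp
  have hvc : Continuous v := continuous_iff_continuousAt.2 fun t => (hvd t).continuousAt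
  obtain ⟨t, ht, hgap⟩ := lz_zeros hvc hε' hvm
  have ht8 : ∀ i ≤ 3, t i ∈ Icc (0 : ℝ) 8 := fun i hi =>
    ⟨(ht i hi).1.1, by linarith [(ht i hi).1.2]⟩
  have hq : ∀ i ≤ 3, k * ‖(e (t i) : ℂ) - (d0 + d1 * t i + d2 * t i ^ 2)‖ ≤ ε := by
    intro i hi
    rw [← he]; exact (h _ (lz_norm_le (ht8 i hi))).2.2.2
  obtain ⟨j, hj, hν, hmax⟩ := lz_max (k := k) (ε := ε) (q0 := d0.re) (q1 := d1.re) (q2 := d2.re)
    (t := t) (v' := fun i => (deriv V (t i)).re) (e' := fun i => (deriv E (t i)).re)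
    (p' := fun i => (deriv P (t i)).re) (f := fun i => e (t i)) hk hε'
    (fun i hi => by linarith [hgap i hi]) (fun i hi => by
      obtain ⟨a1, a2, a3, -⟩ := h _ (lz_norm_le (ht8 i hi))
      refine ⟨lz_re_le (c := 1) (by simpa using a1), (Complex.abs_re_le_norm _).trans a2,
        (Complex.abs_re_le_norm _).trans a3, he0 _ (ht i hi).1, le_trans ?_ (hq i hi)⟩
      refine mul_le_mul_of_nonneg_left (le_trans (le_of_eq ?_) (Complex.abs_re_le_norm _)) hk0.le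
      simp [pow_two])
  obtain ⟨ht0, hc0, hs0⟩ := ht j hj
  set Z : ℂ → ℂ := fun z => 4 * V z + 2 * E z +
    k * (Complex.sin (2 * π * V z) - Complex.sin (2 * π * (V z + E z))) - P z with hZ
  have hZd : Differentiable ℂ Z := by rw [hZ]; fun_prop
  have hZφ : ∀ t : ℝ, Z t = φ t := by
    intro t
    rw [hφ, hZ]
    simp only [hv, he, hp]
    push_cast; ring
  have hφd := lz_real hZd hZφ
  have hφe : φ = fun t => 4 * v t + 2 * e t +
      k * (sin (2 * π * v t) - sin (2 * π * (v t + e t))) - p t := funext hφ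
  have hD := lz_deriv (k := k) (hvd (t j)) (hed (t j)) (hpd (t j)) hc0 hs0
  rw [← hφe] at hD
  rw [hD.unique (hφd (t j))] at hν hmax
  set ν := |(deriv Z (t j)).re| with hνdef
  -- the size of `E` on the disc
  have hq1 : ∀ i ≤ 3, ‖d0 + d1 * t i + d2 * t i ^ 2‖ ≤ min (2 * ε) (2 * ν / k) := by
    intro i hi
    have a1 := hq i hi
    have a2 := hmax i hi
    have a3 := he0 _ (ht i hi).1
    have a4 : ‖d0 + d1 * t i + d2 * t i ^ 2‖ ≤
        |e (t i)| + ‖(e (t i) : ℂ) - (d0 + d1 * t i + d2 * t i ^ 2)‖ := by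
      have := norm_sub_le (e (t i) : ℂ) ((e (t i) : ℂ) - (d0 + d1 * t i + d2 * t i ^ 2))
      rwa [sub_sub_cancel, Complex.norm_real, Real.norm_eq_abs] at this
    have a5 := norm_nonneg ((e (t i) : ℂ) - (d0 + d1 * t i + d2 * t i ^ 2))
    refine le_min (by nlinarith) ?_
    rw [le_div_iff₀ hk0]
    nlinarith
  have hq2 : ∀ z : ℂ, ‖z‖ ≤ 10 →
      ‖d0 + d1 * z + d2 * z ^ 2‖ ≤ 1000 * min (2 * ε) (2 * ν / k) / (2 / 5) ^ 2 := fun z hz =>
    quad_bound (by norm_num) (ht8 0 (by norm_num)).1 (hgap 0 (by norm_num)) (hgap 1 (by norm_num))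
      (ht8 2 (by norm_num)).2 (hq1 0 (by norm_num)) (hq1 1 (by norm_num)) (hq1 2 (by norm_num)) hz
  have hEb : ∀ z : ℂ, ‖z‖ ≤ 10 → ‖E z‖ ≤ 1 / 20 ∧ k * ‖E z‖ ≤ 12501 * ν := by
    intro z hz
    have a1 := hq2 z hz
    have a2 := (h z hz).2.2.2
    have a3 : ‖E z‖ ≤ ‖E z - (d0 + d1 * z + d2 * z ^ 2)‖ + ‖d0 + d1 * z + d2 * z ^ 2‖ := by
      have := norm_add_le (E z - (d0 + d1 * z + d2 * z ^ 2)) (d0 + d1 * z + d2 * z ^ 2)
      rwa [sub_add_cancel] at this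
    have a4 := min_le_left (2 * ε) (2 * ν / k)
    have a5 : min (2 * ε) (2 * ν / k) * k ≤ 2 * ν := (le_div_iff₀ hk0).1 (min_le_right _ _)
    have a6 := norm_nonneg (E z - (d0 + d1 * z + d2 * z ^ 2))
    generalize min (2 * ε) (2 * ν / k) = m at a1 a4 a5
    have a7 : ‖d0 + d1 * z + d2 * z ^ 2‖ ≤ 6250 * m := a1.trans (le_of_eq (by ring))
    constructor
    · nlinarith
    · nlinarith
  have hdisc : ∀ z : ℂ, ‖z - t j‖ ≤ 1 / 10 → ‖Z z - (4 * V (t j) - P (t j))‖ ≤ 500000 * ν := by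
    intro z hz
    have hz' : ‖z‖ ≤ 10 := by
      have a1 := norm_add_le (z - t j) (t j : ℂ)
      rw [sub_add_cancel, Complex.norm_real, Real.norm_eq_abs, abs_of_nonneg ht0.1] at a1
      linarith [ht0.2]
    have ht' := lz_norm_le (ht8 j hj)
    exact lz_disc hk hν hε' (hv _) hz (hVm _ _ hz' ht') (hPm _ _ hz' ht') (hEb z hz').1 (hEb z hz').2
  have hlip : ∀ s ∈ Icc (t j) (t j + 2 / 10 ^ 10), |(deriv Z s).re - (deriv Z (t j)).re| ≤ ν / 2 := by
    intro s hs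
    have a1 : ‖(s : ℂ) - t j‖ ≤ 2 / 10 ^ 10 := by
      rw [← Complex.ofReal_sub, Complex.norm_real, Real.norm_eq_abs, abs_of_nonneg (by linarith [hs.1])]
      linarith [hs.2]
    have a2 := deriv_lip hZd (by norm_num : (0 : ℝ) < 1 / 10) hdisc (z := s) (by linarith)
    have a3 := Complex.abs_re_le_norm (deriv Z s - deriv Z (t j))
    rw [Complex.sub_re] at a3
    have a4 : 8 * (500000 * ν) / (1 / 10) ^ 2 * ‖(s : ℂ) - t j‖ ≤
        8 * (500000 * ν) / (1 / 10) ^ 2 * (2 / 10 ^ 10) := by gcongr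
    have a5 : 8 * (500000 * ν) / (1 / 10) ^ 2 * (2 / 10 ^ 10) = 2 / 25 * ν := by ring
    linarith
  refine ⟨t j, ht0, fun s hs => ?_, ν, hν, fun s hs r hr => ?_⟩
  · have a1 := hvm (t j) (ht8 j hj) s ⟨by linarith [hs.1, ht0.1], by linarith [hs.2, ht0.2]⟩
    rw [abs_of_nonneg (by linarith [hs.1] : 0 ≤ s - t j)] at a1
    have a2 : ε * (s - t j) ≤ 1 / 100 * (s - t j) :=
      mul_le_mul_of_nonneg_right hε' (by linarith [hs.1])
    rw [abs_le] at a1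
    have a3 : cos (2 * π * v s) = -((-1) ^ j * sin (2 * π * (v s - v (t j)))) := by
      have : 2 * π * v s = 2 * π * v (t j) + 2 * π * (v s - v (t j)) := by ring
      rw [this, cos_add, hc0, hs0]; ring
    have a4 : 0 ≤ v s - v (t j) := by linarith [hs.1]
    have a5 := mul_le_sin (x := 2 * π * (v s - v (t j))) (by positivity)
      (by nlinarith [pi_pos, hs.2])
    have a6 : 2 / π * (2 * π * (v s - v (t j))) = 4 * (v s - v (t j)) := by field_simp; ring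
    rw [a3, abs_neg, abs_mul, abs_pow, abs_neg, abs_one, one_pow, one_mul]
    refine le_trans ?_ (le_abs_self _)
    linarith [hs.1]
  · have a1 := sub_le_of_deriv (φ := φ) (φ' := fun s : ℝ => (deriv Z s).re)
      (c := (deriv Z (t j)).re) (e := ν / 2) (fun s _ => hφd s) hlip s hs r hr
    have a2 : |(deriv Z (t j)).re * (r - s)| = ν * |r - s| := abs_mul _ _
    have a3 := abs_sub_abs_le_abs_sub (φ r - φ s) ((deriv Z (t j)).re * (r - s))
    have a4 := abs_sub_abs_le_abs_sub ((deriv Z (t j)).re * (r - s)) (φ r - φ s)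
    rw [abs_sub_comm ((deriv Z (t j)).re * (r - s))] at a4
    have a5 : 0 ≤ ν * |r - s| := by positivity
    constructor <;> linarith

end Crest.Agent.R128
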