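import Crest.Agent.R128.RealS
import Crest.Agent.R128.Cauchy
import Crest.Agent.R128.LemZAux

/-! Row 128: a resonance does not persist at the next scale. -/

set_option autoImplicit false

namespace Crest.Agent.R128

open Real MeasureTheory Set

/-- Recipe.  Let `e = X - 1/2 - σ Y - n0`, `q = c0 - 1/2 - n0 + c1 z + c2 z²`, `k ‖e - q‖ ≤ ε` on
`‖z‖ ≤ 10`, and `Z = 2X + k sin 2πX + σ (2Y + k sin 2πY) - P` (entire, `Z t = ph k (x t) +
σ ph k (y t) - p t` for real `t`; real derivatives are real parts, `HasDerivAt.real_of_complex`).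
Take four consecutive zeros `t1 < … < t4` of `cos (2π y)` in `[0, 3]` (`y` is monotone with slope
`σY ± ε`; values `ξ, ξ ± 1/2, …`; gaps `≥ 0.45`), `B = max_{i ≤ 3} ‖q t_i‖ ≤ 2 ε`, `L = 1 + k B`;
`‖e z‖ ≤ 5000 B + ε / k` on `‖z‖ ≤ 10` (`quad_bound`).
(1) Some `|Z' t_i| ≥ L / 10`.  Otherwise: `cos 2πx = s_i sin (2π e)` at `t_i` with alternating signs
`s_i`, `Z' = x' (2 + 2πk cos 2πx) + 2σ y' - p'`, so `|4 + 2πk s_i sin (2π e t_i)| ≤ L/5 + 10 ε`;
with `|sin 2πe| ≥ 4 |e|` this gives `L ≤ 3/2`, then `s_i e t_i ≤ - 0.07 / k`, so the real quadratic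
`re q` alternates in sign (`quad_alt`), if `ε ≤ 1/100`.
(2) `W = Z - 4σ Y = 2e + 1 + 2 n0 + k (σ sin 2πY - sin (2π (σY + e))) - P` satisfies
`‖W z - (1 + 2 n0 - P t_i)‖ ≤ C L` on the disc of radius `1/10` around `t_i` (`‖sin a - sin b‖ ≤
‖a - b‖ sup ‖cos‖`, `|im (2πY)| ≤ 1`), `C` absolute; `deriv_lip` shows that on the run
`R = [t_i + γ', t_i + 2γ']` (`γ'` absolute, small) `|Z' t - Z' t_i| ≤ |Z' t_i| / 2`.
(3) `sub_le_of_deriv`, `near_half_le` (`ν = |Z' t_i| ≥ 1/10`): the points of `R` with `Z` within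
`γ` of `1/2 + ℤ` have measure `≤ γ'/2` if `γ = γ'/400`; on `R`, `|cos 2πy| ≥ γ'`. -/
theorem lemZ : ∃ γ : ℝ, 0 < γ ∧ γ ≤ 1 ∧ ∃ ε₀ : ℝ, 0 < ε₀ ∧ ∀ ε : ℝ, 0 < ε → ε ≤ ε₀ →
    ∀ (M k σ σY : ℝ) (n0 : ℤ) (X Y P : ℂ → ℂ) (x y p : ℝ → ℝ) (c0 c1 c2 : ℂ), 4 ≤ M → M ≤ 8 →
      1 ≤ k → (σ = 1 ∨ σ = -1) → (σY = 1 ∨ σY = -1) →
      Differentiable ℂ X → Differentiable ℂ Y → Differentiable ℂ P →
      (∀ t : ℝ, X t = x t) → (∀ t : ℝ, Y t = y t) → (∀ t : ℝ, P t = p t) →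
      (∀ z : ℂ, ‖z‖ ≤ 10 → ‖deriv Y z - σY‖ ≤ ε ∧ ‖deriv X z - σ * σY‖ ≤ ε ∧ ‖deriv P z‖ ≤ ε ∧
        k * ‖X z - σ * Y z - (c0 + c1 * z + c2 * z ^ 2)‖ ≤ ε) →
      (∀ t ∈ Icc 0 M, |x t - 1 / 2 - σ * y t - n0| ≤ ε) →
      ENNReal.ofReal γ ≤ volume {t ∈ Icc 0 M | γ ≤ |cos (2 * π * y t)| ∧
        ∀ n : ℤ, γ ≤ |ph k (x t) + σ * ph k (y t) - p t - n - 1 / 2|} := by
  refine ⟨1 / 10 ^ 12, by norm_num, by norm_num, 1 / 10 ^ 6, by norm_num, ?_⟩
  intro ε hε0 hε M k σ σY n0 X Y P x y p c0 c1 c2 hM4 hM8 hk hσ hσY hX hY hP hx hy hp h h0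
  have hσ2 : σ * σ = 1 := by rcases hσ with rfl | rfl <;> norm_num
  have hσY2 : σY * σY = 1 := by rcases hσY with rfl | rfl <;> norm_num
  have hσn : ‖(σ : ℂ)‖ = 1 := by rcases hσ with rfl | rfl <;> simp
  have hσYn : ‖(σY : ℂ)‖ = 1 := by rcases hσY with rfl | rfl <;> simp
  have hσY2' : (σY : ℂ) * σY = 1 := by exact_mod_cast hσY2
  set φ : ℝ → ℝ := fun t => ph k (x t) + σ * ph k (y t) - p t with hφ
  have hτ : |σ * σY| = 1 := by
    rcases hσ with rfl | rfl <;> rcases hσY with rfl | rfl <;> norm_num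
  obtain ⟨t0, ht0, hcos, ν, hν, hlip⟩ := lz_core (V := fun z => σY * Y z)
    (E := fun z => σ * σY * (X z - 1 / 2 - σ * Y z - n0))
    (P := fun z => σ * σY * (P z - (1 + 2 * n0))) (v := fun t => σY * y t)
    (e := fun t => σ * σY * (x t - 1 / 2 - σ * y t - n0))
    (p := fun t => σ * σY * (p t - (1 + 2 * n0))) (d0 := σ * σY * (c0 - 1 / 2 - n0))
    (d1 := σ * σY * c1) (d2 := σ * σY * c2) hε0 hε hk (by fun_prop) (by fun_prop) (by fun_prop)
    (fun t => by simp only [hy]; push_cast; ring) (fun t => by simp only [hx, hy]; push_cast; ring)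
    (fun t => by simp only [hp]; push_cast; ring)
    (fun z hz => by
      obtain ⟨a1, a2, a3, a4⟩ := h z hz
      have d1 : deriv (fun z => σY * Y z) z = σY * deriv Y z :=
        ((hY z).hasDerivAt.const_mul _).deriv
      have d2 : deriv (fun z => σ * σY * (X z - 1 / 2 - σ * Y z - n0)) z =
          σ * σY * (deriv X z - σ * deriv Y z) :=
        (((((hX z).hasDerivAt.sub_const _).sub ((hY z).hasDerivAt.const_mul _)).sub_const
          _).const_mul _).deriv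
      have d3 : deriv (fun z => σ * σY * (P z - (1 + 2 * n0))) z = σ * σY * deriv P z :=
        (((hP z).hasDerivAt.sub_const _).const_mul _).deriv
      rw [d1, d2, d3]
      refine ⟨?_, ?_, ?_, ?_⟩
      · have e : σY * deriv Y z - 1 = σY * (deriv Y z - σY) := by rw [mul_sub, hσY2']
        rw [e, norm_mul, hσYn, one_mul]; exact a1
      · have e : deriv X z - σ * deriv Y z = (deriv X z - σ * σY) - σ * (deriv Y z - σY) := by ring
        rw [norm_mul, norm_mul, hσn, hσYn, one_mul, one_mul, e]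
        refine (norm_sub_le _ _).trans ?_
        rw [norm_mul, hσn, one_mul]; linarith
      · rw [norm_mul, norm_mul, hσn, hσYn, one_mul, one_mul]; exact a3
      · have e : σ * σY * (X z - 1 / 2 - σ * Y z - n0) -
            (σ * σY * (c0 - 1 / 2 - n0) + σ * σY * c1 * z + σ * σY * c2 * z ^ 2) =
            σ * σY * (X z - σ * Y z - (c0 + c1 * z + c2 * z ^ 2)) := by ring
        rw [e, norm_mul, norm_mul, hσn, hσYn, one_mul, one_mul]; exact a4)
    (fun t ht => by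
      rw [abs_mul, hτ, one_mul]; exact h0 t ⟨ht.1, by linarith [ht.2]⟩)
    (fun t => σ * σY * φ t) (fun t => by
      have e1 : sin (2 * π * (x t - 1 / 2 - n0)) = -sin (2 * π * x t) := by
        have : 2 * π * (x t - 1 / 2 - n0) = 2 * π * x t - π - n0 * (2 * π) := by ring
        rw [this, sin_sub_int_mul_two_pi, sin_sub_pi]
      have e2 : σY * y t + σ * σY * (x t - 1 / 2 - σ * y t - n0) =
          σ * σY * (x t - 1 / 2 - n0) := by
        linear_combination (-σY * y t) * hσ2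
      have e3 : ∀ a b : ℝ, |a| = 1 → sin (2 * π * (a * b)) = a * sin (2 * π * b) := by
        intro a b ha
        rcases (abs_eq (by norm_num)).1 ha with rfl | rfl <;> simp
      have hY1 : |σY| = 1 := by rcases hσY with rfl | rfl <;> norm_num
      simp only [hφ, ph]
      rw [e2, e3 _ _ hτ, e3 _ _ hY1, e1]
      linear_combination (4 * σY * y t + k * σY * sin (2 * π * y t)) * hσ2)
  have hlip' : ∀ s ∈ Icc (t0 + 1 / 10 ^ 10) (t0 + 2 / 10 ^ 10),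
      ∀ t ∈ Icc (t0 + 1 / 10 ^ 10) (t0 + 2 / 10 ^ 10),
      ν / 2 * |t - s| ≤ |φ t - φ s| ∧ |φ t - φ s| ≤ 2 * ν * |t - s| := by
    intro s hs t ht
    have := hlip s ⟨by linarith [hs.1], hs.2⟩ t ⟨by linarith [ht.1], ht.2⟩
    rwa [← mul_sub, abs_mul, hτ, one_mul] at this
  have hbad := near_half_le (ε := 1 / 10 ^ 12) (by linarith) (by linarith : 0 < ν) (by norm_num)
    (by norm_num) hlip'
  have hsub : Icc (t0 + 1 / 10 ^ 10) (t0 + 2 / 10 ^ 10) ⊆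
      {t ∈ Icc 0 M | 1 / 10 ^ 12 ≤ |cos (2 * π * y t)| ∧
        ∀ n : ℤ, 1 / 10 ^ 12 ≤ |ph k (x t) + σ * ph k (y t) - p t - n - 1 / 2|} ∪
      {t ∈ Icc (t0 + 1 / 10 ^ 10) (t0 + 2 / 10 ^ 10) | ∃ n : ℤ, |φ t - n - 1 / 2| ≤ 1 / 10 ^ 12} := by
    intro t ht
    by_cases hb : ∃ n : ℤ, |φ t - n - 1 / 2| ≤ 1 / 10 ^ 12
    · exact Or.inr ⟨ht, hb⟩
    · refine Or.inl ⟨⟨by linarith [ht.1, ht0.1], by linarith [ht.2, ht0.2]⟩, ?_, fun n => ?_⟩
      · have a1 := hcos t ht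
        have a2 : cos (2 * π * (σY * y t)) = cos (2 * π * y t) := by
          rcases hσY with rfl | rfl <;> simp
        rw [a2] at a1
        linarith
      · exact (not_le.1 fun hc => hb ⟨n, hc⟩).le
  have h1 := (measure_mono (μ := volume) hsub).trans (measure_union_le _ _)
  rw [Real.volume_Icc] at h1
  have h2 : 8 * (1 / 10 ^ 12) * (t0 + 2 / 10 ^ 10 - (t0 + 1 / 10 ^ 10)) + 8 * (1 / 10 ^ 12) / ν ≤
      (16 / 10 ^ 12 : ℝ) := by
    have : 8 * (1 / 10 ^ 12) / ν ≤ (8 * (1 / 10 ^ 12) : ℝ) := div_le_self (by norm_num) hν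
    linarith
  have h3 := h1.trans (add_le_add le_rfl (hbad.trans (ENNReal.ofReal_le_ofReal h2)))
  have h4 : ENNReal.ofReal (1 / 10 ^ 12) + ENNReal.ofReal (16 / 10 ^ 12) ≤
      ENNReal.ofReal (t0 + 2 / 10 ^ 10 - (t0 + 1 / 10 ^ 10)) := by
    rw [← ENNReal.ofReal_add (by norm_num) (by norm_num)]
    exact ENNReal.ofReal_le_ofReal (by linarith)
  exact (ENNReal.add_le_add_iff_right ENNReal.ofReal_ne_top).1 (h4.trans h3)

end Crest.Agent.R128
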