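import Crest.Agent.R128.Clean
import Crest.Agent.R128.Greedy

/-! Row 128: almost all levels are good. -/

set_option autoImplicit false

namespace Crest.Agent.R128

open Real Finset

theorem lev_ind_sum {ι : Type*} (s : Finset ι) (P : ι → Prop) [DecidablePred P] :
    ∑ i ∈ s, ind (P i) = ((s.filter P).card : ℝ) := by
  rw [card_filter, Nat.cast_sum]
  refine sum_congr rfl fun i _ => ?_
  by_cases h : P i
  · rw [ind_pos h, if_pos h, Nat.cast_one]
  · rw [ind_neg h, if_neg h, Nat.cast_zero]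

/-- a number lies in at most two of the windows -/
theorem lev_win_two {κ : ℝ} (hκ : 1000 ≤ κ) {ns : ℕ} (hns : κ ^ 6000 ≤ 2 ^ ns) (m : ℕ) (x : ℝ) :
    ∑ i ∈ range m, ind (Win κ (ns * i) x) ≤ 2 := by
  classical
  rw [lev_ind_sum]
  set A := (range m).filter fun i => Win κ (ns * i) x with hA
  rcases A.eq_empty_or_nonempty with h | h
  · rw [h]; norm_num
  have hκ1 : 1 < κ := by linarith
  have hκ0 : 0 < κ := by linarith
  have hsub : A ⊆ {A.min' h, A.min' h + 1} := by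
    intro i hi
    have h1 := A.min'_le i hi
    have h2 := (mem_filter.1 (A.min'_mem h)).2
    have h3 := (mem_filter.1 hi).2
    set i0 := A.min' h
    by_contra hne
    simp only [mem_insert, mem_singleton, not_or] at hne
    obtain ⟨l, rfl⟩ : ∃ l, i = i0 + 2 + l := ⟨i - i0 - 2, by omega⟩
    have h4 : (2 : ℝ) ^ (ns * (i0 + 2 + l)) ≤ κ ^ 1000 * (2 ^ (ns * i0) * κ ^ 6000) :=
      h3.1.trans (mul_le_mul_of_nonneg_left h2.2 (by positivity))
    have h5 : (2 : ℝ) ^ (ns * i0) * (κ ^ 6000 * κ ^ 6000) ≤ 2 ^ (ns * (i0 + 2 + l)) := by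
      have e : ns * (i0 + 2 + l) = ns * i0 + (ns + ns) + ns * l := by ring
      rw [e, pow_add, pow_add, pow_add]
      have h6 : (1 : ℝ) ≤ 2 ^ (ns * l) := one_le_pow₀ one_le_two
      have h7 : κ ^ 6000 * κ ^ 6000 ≤ (2 : ℝ) ^ ns * 2 ^ ns :=
        mul_le_mul hns hns (by positivity) (by positivity)
      calc (2 : ℝ) ^ (ns * i0) * (κ ^ 6000 * κ ^ 6000) ≤ 2 ^ (ns * i0) * (2 ^ ns * 2 ^ ns) :=
            mul_le_mul_of_nonneg_left h7 (by positivity)
        _ ≤ _ := le_mul_of_one_le_right (by positivity) h6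
    have h8 : κ ^ 1000 < κ ^ 6000 := pow_lt_pow_right₀ hκ1 (by norm_num)
    have h9 : κ ^ 1000 * (2 ^ (ns * i0) * κ ^ 6000) < 2 ^ (ns * i0) * (κ ^ 6000 * κ ^ 6000) := by
      calc κ ^ 1000 * (2 ^ (ns * i0) * κ ^ 6000) < κ ^ 6000 * (2 ^ (ns * i0) * κ ^ 6000) :=
            mul_lt_mul_of_pos_right h8 (by positivity)
        _ = _ := mul_left_comm _ _ _
    exact absurd (h5.trans h4) (not_le.2 h9)
  have := (card_le_card hsub).trans card_le_two
  exact_mod_cast this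

/-- the logarithmic form of a failure of the Pliss inequality -/
theorem lev_log {κ : ℝ} (hκ : 1000 ≤ κ) {x y : ℝ} (hx : 0 < x) (hy : 0 < y) {n : ℕ}
    (h : y < x * κ ^ (990 * n)) :
    1 / 100 * (n : ℝ) ≤ n - (logb (κ ^ 1000) y - logb (κ ^ 1000) x) := by
  have hκ1 : 1 < κ := by linarith
  have hκ0 : 0 < κ := by linarith
  have hK : 1 < κ ^ 1000 := one_lt_pow₀ hκ1 (by norm_num)
  have h1 := (logb_le_logb hK hy (by positivity)).2 h.le
  rw [logb_mul hx.ne' (by positivity)] at h1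
  have h2 : logb (κ ^ 1000) (κ ^ (990 * n)) = 99 / 100 * n := by
    have h3 : log κ ≠ 0 := (log_pos hκ1).ne'
    rw [logb, log_pow, log_pow]
    push_cast
    field_simp
    ring
  rw [h2] at h1
  linarith

open Classical in
/-- the number of non-Pliss times -/
theorem lev_card_bad {κ : ℝ} (hκ : 1000 ≤ κ) {b w : ℕ → ℝ} (hb : Bd (κ ^ 1000) b)
    (hw : IsSol b w) (hw0 : nv w 0 = 1) {T : ℕ} {d : ℝ}
    (hT : (κ ^ 1000) ^ ((T : ℝ) - d) ≤ nv w T) :
    (((range (T + 1)).filter fun j => ¬ Pl κ w T j).card : ℝ) ≤ 200 * d := by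
  have hκ1 : 1 < κ := by linarith
  have hK : 1 < κ ^ 1000 := one_lt_pow₀ hκ1 (by norm_num)
  have hpos : ∀ j, 0 < nv w j := nv_pos hb hw (by rw [hw0]; norm_num)
  set K := κ ^ 1000 with hKdef
  set Φ : ℤ → ℤ → ℝ := fun i j =>
    ((j : ℝ) - i) - (logb K (nv w j.toNat) - logb K (nv w i.toNat)) with hΦ
  have h0 : ∀ i j : ℤ, 0 ≤ i → i ≤ j → j ≤ T → 0 ≤ Φ i j := by
    intro i j hi hij _
    lift i to ℕ using hi
    obtain ⟨n, rfl⟩ := Int.le.dest hij
    have h1 := (logb_le_logb hK (hpos _) (by have := hpos i; positivity)).2 (nv_add_le hb hw i n)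
    rw [logb_mul (by positivity) (hpos i).ne', logb_pow, logb_self_eq_one hK] at h1
    have e : ((i : ℤ) + n).toNat = i + n := by omega
    simp only [hΦ, e, Int.toNat_natCast]
    push_cast
    linarith
  have hs : ∀ i j l : ℤ, 0 ≤ i → i ≤ j → j ≤ l → l ≤ T → Φ i j + Φ j l ≤ Φ i l := by
    intro i j l _ _ _ _
    simp only [hΦ]
    linarith
  have hd : Φ 0 T ≤ d := by
    have h1 := (le_logb_iff_rpow_le hK (hpos T)).2 hT
    simp only [hΦ, Int.toNat_natCast, Int.toNat_zero, hw0, logb_one]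
    push_cast
    linarith
  set B1 := (range (T + 1)).filter fun j => ∃ i ≤ j, nv w j < nv w i * κ ^ (990 * (j - i))
    with hB1
  set B2 := (range (T + 1)).filter fun j =>
    ∃ i, j ≤ i ∧ i ≤ T ∧ nv w i < nv w j * κ ^ (990 * (i - j)) with hB2
  have hinj : Function.Injective (Nat.cast : ℕ → ℤ) := Nat.cast_injective
  have c1 : 1 / 100 * (B1.card : ℝ) ≤ d := by
    rw [← card_image_of_injective B1 hinj]
    refine (greedy' (by norm_num) (Int.natCast_nonneg T) h0 hs _ fun j hj => ?_).trans hd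
    obtain ⟨j, hj', rfl⟩ := mem_image.1 hj
    obtain ⟨hjT, i, hij, hlt⟩ := mem_filter.1 hj'
    rw [mem_range] at hjT
    have hne : i ≠ j := by
      rintro rfl
      simp at hlt
    refine ⟨by omega, i, Int.natCast_nonneg i, by omega, ?_⟩
    have := lev_log hκ (hpos i) (hpos j) hlt
    rw [Nat.cast_sub hij] at this
    simp only [hΦ, Int.toNat_natCast]
    push_cast
    exact this
  have c2 : 1 / 100 * (B2.card : ℝ) ≤ d := by
    rw [← card_image_of_injective B2 hinj]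
    refine (greedy (by norm_num) (Int.natCast_nonneg T) h0 hs _ fun j hj => ?_).trans hd
    obtain ⟨j, hj', rfl⟩ := mem_image.1 hj
    obtain ⟨_, i, hij, hiT, hlt⟩ := mem_filter.1 hj'
    have hne : i ≠ j := by
      rintro rfl
      simp at hlt
    refine ⟨Int.natCast_nonneg j, i, by omega, by omega, ?_⟩
    have := lev_log hκ (hpos j) (hpos i) hlt
    rw [Nat.cast_sub hij] at this
    simp only [hΦ, Int.toNat_natCast]
    push_cast
    exact this
  have hsub : ((range (T + 1)).filter fun j => ¬ Pl κ w T j) ⊆ B1 ∪ B2 := by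
    intro j hj
    obtain ⟨hjT, hj⟩ := mem_filter.1 hj
    by_contra hne
    rw [mem_union, not_or, hB1, hB2, mem_filter, mem_filter] at hne
    refine hj ⟨by rw [mem_range] at hjT; omega, fun i hi => ?_, fun i hi hi' => ?_⟩
    · by_contra h
      exact hne.1 ⟨hjT, i, hi, not_le.1 h⟩
    · by_contra h
      exact hne.2 ⟨hjT, i, hi, hi', not_le.1 h⟩
  have c3 : (((range (T + 1)).filter fun j => ¬ Pl κ w T j).card : ℝ) ≤ B1.card + B2.card := by
    exact_mod_cast (card_le_card hsub).trans (card_union_le _ _)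
  linarith

/-- Recipe: `s j = logb K (nv w j)`, `Φ i j = (j - i) - (s j - s i)` is additive and nonnegative
(`nv_add_le`), `Φ 0 T ≤ d`.  A time `j ≤ T` that violates the backward (forward) condition of `Pl`
has `i < j` (`i > j`) with `Φ ≥ |j - i| / 100`; `greedy'` (`greedy`) bounds the number of such times
by `100 d` each.  A number lies in `Win κ (ns * i)` for at most two values of `i`
(`2^ns ≥ κ^6000`). -/
theorem count_bad {κ : ℝ} (hκ : 1000 ≤ κ) {b w : ℕ → ℝ} (hb : Bd (κ ^ 1000) b) (hw : IsSol b w)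
    (hw0 : nv w 0 = 1) {T : ℕ} {d : ℝ} (hT : (κ ^ 1000) ^ ((T : ℝ) - d) ≤ nv w T) {ns : ℕ}
    (hns : κ ^ 6000 ≤ 2 ^ ns) (m : ℕ) :
    ∑ i ∈ range m, ind (∃ j ≤ T, ¬ Pl κ w T j ∧ Win κ (ns * i) (nv w j)) ≤ 400 * d := by
  classical
  have hB := lev_card_bad hκ hb hw hw0 hT
  set B := (range (T + 1)).filter fun j => ¬ Pl κ w T j with hBdef
  calc ∑ i ∈ range m, ind (∃ j ≤ T, ¬ Pl κ w T j ∧ Win κ (ns * i) (nv w j))
      ≤ ∑ i ∈ range m, ∑ j ∈ B, ind (Win κ (ns * i) (nv w j)) := by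
        refine sum_le_sum fun i _ => ?_
        by_cases h : ∃ j ≤ T, ¬ Pl κ w T j ∧ Win κ (ns * i) (nv w j)
        · rw [ind_pos h]
          obtain ⟨j, hj, h1, h2⟩ := h
          rw [← ind_pos h2]
          exact single_le_sum (f := fun j => ind (Win κ (ns * i) (nv w j)))
            (fun _ _ => ind_nonneg _) (mem_filter.2 ⟨mem_range.2 (by omega), h1⟩)
        · rw [ind_neg h]
          exact sum_nonneg fun _ _ => ind_nonneg _
    _ = ∑ j ∈ B, ∑ i ∈ range m, ind (Win κ (ns * i) (nv w j)) := sum_comm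
    _ ≤ ∑ _j ∈ B, (2 : ℝ) := sum_le_sum fun j _ => lev_win_two hκ hns m _
    _ = 2 * B.card := by rw [sum_const, nsmul_eq_mul, mul_comm]
    _ ≤ 400 * d := by linarith

/-- growth of the second solution -/
theorem lev_grow {K ε : ℝ} (hK : 1000 ≤ K) (hε : ε ≤ 1 / 100) {b u w : ℕ → ℝ} (hb : Bd K b)
    (hu : IsSol b u) (hw : IsSol b w) {ϖ : ℝ} (hϖ : |ϖ| = 1) (huw : wr u w 0 = ϖ)
    (hu0 : nv u 0 = 1) (hw0 : nv w 0 = 1) {T : ℕ} (hT : 300 ≤ T) (huT : nv u T ≤ 1)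
    (hd : dfc K b T ≤ ε * T) : K ^ ((T : ℝ) - (ε * T + 1)) ≤ nv w T := by
  have hK1 : 1 < K := by linarith
  have hϖ2 : ϖ * ϖ = 1 := by rw [← abs_mul_abs_self, hϖ, one_mul]
  have h1 : ‖tr b T‖ ≤ 2 + 2 * nv w T := by
    refine norm_tr_le_of (by have := nv_nonneg w T; positivity) fun e he => ?_
    have hlin : e = fun i => (ϖ * wr e w 0) * u i + (ϖ * wr u e 0) * w i := by
      refine he.unique (hu.lin hw _ _) ?_ ?_
      · have : e 0 = ϖ * (wr u w 0 * e 0) := by rw [huw, ← mul_assoc, hϖ2, one_mul]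
        rw [this]
        simp only [wr]
        ring
      · have : e 1 = ϖ * (wr u w 0 * e 1) := by rw [huw, ← mul_assoc, hϖ2, one_mul]
        rw [this]
        simp only [wr, zero_add]
        ring
    have h2 := nv_lin_le u w (ϖ * wr e w 0) (ϖ * wr u e 0) T
    rw [← hlin, abs_mul, abs_mul, hϖ, one_mul, one_mul] at h2
    have h3 := abs_wr_le e w 0
    have h4 := abs_wr_le u e 0
    rw [hw0, mul_one] at h3
    rw [hu0, one_mul] at h4
    have h5 := nv_nonneg e 0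
    have h6 := nv_nonneg w T
    have h7 := nv_nonneg u T
    calc nv e T ≤ |wr e w 0| * nv u T + |wr u e 0| * nv w T := h2
      _ ≤ 2 * nv e 0 * 1 + 2 * nv e 0 * nv w T := by gcongr
      _ = _ := by ring
  have h2 := (rpow_le_norm_tr hK1 hb hd).trans h1
  have h3 : K ^ ((T : ℝ) - ε * T) = K ^ ((T : ℝ) - (ε * T + 1)) * K := by
    rw [← rpow_add_one (by linarith)]
    congr 1
    ring
  have hT' : (300 : ℝ) ≤ T := by exact_mod_cast hT
  have h4 : 1 ≤ K ^ ((T : ℝ) - (ε * T + 1)) := one_le_rpow hK1.le (by nlinarith)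
  rw [h3] at h2
  nlinarith

theorem lev_grow' {κ ε : ℝ} (hκ : 1000 ≤ κ) (hε : ε ≤ 1 / 100) {T : ℕ} (hT : 300 ≤ T) {x : ℝ}
    (h : (κ ^ 1000) ^ ((T : ℝ) - (ε * T + 1)) ≤ x) : κ ^ (900 * T) ≤ x := by
  refine le_trans ?_ h
  have hκ0 : 0 < κ := by linarith
  have hT' : (300 : ℝ) ≤ T := by exact_mod_cast hT
  rw [← rpow_natCast κ 1000, ← rpow_mul hκ0.le, ← rpow_natCast]
  refine rpow_le_rpow_of_exponent_le (by linarith) ?_
  push_cast
  nlinarith

/-- the first index at which a threshold is reached -/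
theorem lev_first {κ : ℝ} (hκ : 1000 ≤ κ) {b w : ℕ → ℝ} (hb : Bd (κ ^ 1000) b) (hw : IsSol b w)
    (hw0 : nv w 0 = 1) {T : ℕ} (hT : 300 ≤ T) (hbig : κ ^ (900 * T) ≤ nv w T) {c x : ℝ}
    (hc : 1 ≤ c) (hx1 : c < x) (hx2 : x ≤ κ ^ (800 * T)) :
    ∃ ω, ω + 2 ≤ T ∧ x ≤ c * nv w ω ∧ c * nv w ω ≤ κ ^ 1000 * x := by
  classical
  have hκ1 : 1 ≤ κ := by linarith
  have hκ0 : 0 < κ := by linarith
  have h1 : x ≤ c * nv w (T - 2) := by
    have h2 := nv_add_le hb hw (T - 2) 2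
    rw [show T - 2 + 2 = T by omega] at h2
    have h3 : (κ ^ 1000) ^ 2 * κ ^ (800 * T) ≤ κ ^ (900 * T) := by
      rw [← pow_mul, ← pow_add]
      exact pow_le_pow_right₀ hκ1 (by omega)
    have h4 : κ ^ (800 * T) ≤ nv w (T - 2) :=
      le_of_mul_le_mul_left (h3.trans (hbig.trans h2)) (by positivity)
    exact hx2.trans (h4.trans (le_mul_of_one_le_left (nv_nonneg _ _) hc))
  have hex : ∃ ω, x ≤ c * nv w ω := ⟨_, h1⟩
  have h2 := Nat.find_spec hex
  have h3 : Nat.find hex ≤ T - 2 := Nat.find_min' hex h1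
  refine ⟨Nat.find hex, by omega, h2, ?_⟩
  rcases h4 : Nat.find hex with _ | j
  · rw [h4, hw0, mul_one] at h2
    linarith
  · have h5 : ¬ x ≤ c * nv w j := Nat.find_min hex (by omega)
    have h6 := nv_succ_le hb hw j
    calc c * nv w (j + 1) ≤ c * (κ ^ 1000 * nv w j) :=
          mul_le_mul_of_nonneg_left h6 (by linarith)
      _ = κ ^ 1000 * (c * nv w j) := mul_left_comm _ _ _
      _ ≤ κ ^ 1000 * x := mul_le_mul_of_nonneg_left (not_le.1 h5).le (by positivity)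

/-- clean indices in a good window -/
theorem lev_clean {κ : ℝ} (hκ : 1000 ≤ κ) {b u w : ℕ → ℝ} (hb : Bd (κ ^ 1000) b) (hu : IsSol b u)
    (hw : IsSol b w) {ϖ : ℝ} (hϖ : |ϖ| = 1) (huw : wr u w 0 = ϖ) {T n ω : ℕ} (huT : nv u T ≤ 1)
    (hbig : κ ^ (900 * T) ≤ nv w T) (hn : 2 ^ n * κ ^ 6000 ≤ κ ^ (400 * T))
    (hgood : ¬ ∃ j ≤ T, ¬ Pl κ w T j ∧ Win κ n (nv w j)) (h1 : 1 ≤ ω) (h2 : ω + 1 ≤ T)
    (h3 : Win κ n (nv w ω)) (h4 : Win κ n (nv w (ω + 1))) : Cl κ b u w ϖ ω := by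
  have hpl : ∀ j ≤ T, Win κ n (nv w j) → Pl κ w T j := fun j hj h => by
    by_contra h'
    exact hgood ⟨j, hj, h', h⟩
  refine clean hκ hb hu hw hϖ huw huT h1 (hpl _ (by omega) h3) (hpl _ h2 h4) ?_
  have h5 : nv w (ω + 1) ^ 2 ≤ (κ ^ (400 * T)) ^ 2 :=
    pow_le_pow_left₀ (nv_nonneg _ _) (h4.2.trans hn) 2
  refine h5.trans (le_trans ?_ hbig)
  rw [← pow_mul]
  exact pow_le_pow_right₀ (by linarith) (by omega)

/-- Recipe: `‖tr b T‖ ≤ nv u T + 2 nv w T` (every solution `e` is `wr e w 0 / ϖ • u + wr u e 0 / ϖ • w`;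
`|wr e w 0| ≤ 2 nv e 0` also suffices), so `rpow_le_norm_tr` gives
`nv w T ≥ K^(T - d)`, `d = ε T + 1`, on both sides (`wr u' w' 0 = -1`).  If no non-Pliss time of
either side lies in the window of level `n = ns * i` (`count_bad` twice) then `Lvl` holds:
`2^n ≤ κ^(6001 i)`, `i < m ≤ T/30`, so the window is below `K^(T/4)`, `nv w j ≥ K^(j - d)`
(`nv_add_le`); `ω` = least index with `2^n κ^2000 ≤ nv w ω`, `α` = least index with
`nv w ω ≤ κ^500 nv w' α` (`Nat.find`, `nv_succ_le`); the second part is `clean` twice. -/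
theorem count_levels {κ k ε : ℝ} (hκ : 1000 ≤ κ) (hK : κ ^ 1000 = 2 * π * k + 3) (hε0 : 0 ≤ ε)
    (hε : ε ≤ 1 / 100) (S : Side) (hS : max |S.w0| |S.w1| = 1) (s : ℝ) {T m ns : ℕ}
    (hT : 300 ≤ T) (hm : 30 * m ≤ T) (hns : κ ^ 6000 ≤ 2 ^ ns) (hns' : 2 ^ ns ≤ 2 * κ ^ 6000)
    {u u' : ℕ → ℝ} (hu : IsSol (S.b k s) u) (hu' : IsSol (S.rev.b k s) u') (h0 : u' 0 = u 1)
    (h1 : u' 1 = u 0) (hu0 : nv u 0 = 1) (huw : wr u (S.w k s) 0 = 1) (huT : nv u T ≤ 1)
    (huT' : nv u' T ≤ 1) (hd : dfc (κ ^ 1000) (S.b k s) T ≤ ε * T)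
    (hd' : dfc (κ ^ 1000) (S.rev.b k s) T ≤ ε * T) :
    ∑ i ∈ range m, ind (¬ Lvl κ k S T (ns * i) s) ≤ 800 * (ε * T + 1) := by
  have hκ1 : 1 < κ := by linarith
  have hκ0 : 0 < κ := by linarith
  have hk : 0 ≤ k := by linarith [(k_facts hκ hK).1]
  have hK' : 1000 ≤ κ ^ 1000 := hκ.trans (le_self_pow₀ hκ1.le (by norm_num))
  have hb := Side.bd_b hk hK S s
  have hb' := Side.bd_b hk hK S.rev s
  have hw := S.isSol_w k s
  have hw' := S.rev.isSol_w k s
  have hw0 : nv (S.w k s) 0 = 1 := by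
    rw [← hS, max_comm]
    rfl
  have hw0' : nv (S.rev.w k s) 0 = 1 := by
    rw [← hS]
    rfl
  have hu0' : nv u' 0 = 1 := by
    rw [← hu0, nv, nv, zero_add, h0, h1, max_comm]
  have huw' : wr u' (S.rev.w k s) 0 = -1 := by
    rw [← huw]
    simp only [wr, Side.w, Side.rev, zero_add, sol_zero, sol_one, h0, h1]
    ring
  have g1 := lev_grow hK' hε hb hu hw abs_one huw hu0 hw0 hT huT hd
  have g2 := lev_grow hK' hε hb' hu' hw' (by rw [abs_neg, abs_one]) huw' hu0' hw0' hT huT' hd'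
  have c1 := count_bad hκ hb hw hw0 g1 hns m
  have c2 := count_bad hκ hb' hw' hw0' g2 hns m
  have g1' := lev_grow' hκ hε hT g1
  have g2' := lev_grow' hκ hε hT g2
  refine le_trans (sum_le_sum fun i hi => ?_) ((sum_add_distrib.trans_le
    (add_le_add c1 c2)).trans_eq (by ring))
  by_cases b1 : ∃ j ≤ T, ¬ Pl κ (S.w k s) T j ∧ Win κ (ns * i) (nv (S.w k s) j)
  · rw [ind_pos b1]
    exact (ind_le_one _).trans (le_add_of_nonneg_right (ind_nonneg _))
  by_cases b2 : ∃ j ≤ T, ¬ Pl κ (S.rev.w k s) T j ∧ Win κ (ns * i) (nv (S.rev.w k s) j)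
  · rw [ind_pos b2]
    exact (ind_le_one _).trans (le_add_of_nonneg_left (ind_nonneg _))
  rw [ind_neg b1, ind_neg b2, add_zero]
  refine (ind_neg (not_not.2 ?_)).le
  rw [mem_range] at hi
  have hn : (2 : ℝ) ^ (ns * i) * κ ^ 6000 ≤ κ ^ (400 * T) := by
    have h2 : (2 : ℝ) ^ ns ≤ κ ^ 6001 := by
      rw [pow_succ κ 6000, mul_comm]
      exact hns'.trans (mul_le_mul_of_nonneg_right (by linarith) (by positivity))
    have h3 : (2 : ℝ) ^ (ns * i) ≤ κ ^ (6001 * i) := by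
      rw [pow_mul, pow_mul]
      exact pow_le_pow_left₀ (by positivity) h2 i
    calc (2 : ℝ) ^ (ns * i) * κ ^ 6000 ≤ κ ^ (6001 * i) * κ ^ 6000 :=
          mul_le_mul_of_nonneg_right h3 (by positivity)
      _ ≤ _ := by
          rw [← pow_add]
          exact pow_le_pow_right₀ hκ1.le (by omega)
  have h2n : (1 : ℝ) ≤ 2 ^ (ns * i) := one_le_pow₀ one_le_two
  have hp : ∀ a a' : ℕ, a ≤ a' → (2 : ℝ) ^ (ns * i) * κ ^ a ≤ 2 ^ (ns * i) * κ ^ a' :=
    fun a a' h => mul_le_mul_of_nonneg_left (pow_le_pow_right₀ hκ1.le h) (by positivity)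
  have hq : κ ^ (400 * T) ≤ κ ^ (800 * T) := pow_le_pow_right₀ hκ1.le (by omega)
  have hlow : κ ^ 500 < (2 : ℝ) ^ (ns * i) * κ ^ 2000 :=
    (pow_lt_pow_right₀ hκ1 (by norm_num)).trans_le (le_mul_of_one_le_left (by positivity) h2n)
  have h500 : 1 ≤ κ ^ 500 := one_le_pow₀ hκ1.le
  refine ⟨?_, fun ω α a1 a2 a3 a4 a5 a6 a7 a8 => ⟨u, u', hu, hu', h0, h1, huw,
    lev_clean hκ hb hu hw abs_one huw huT g1' hn b1 a1 a3 a5 a6,
    lev_clean hκ hb' hu' hw' (by rw [abs_neg, abs_one]) huw' huT' g2' hn b2 a2 a4 a7 a8⟩⟩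
  obtain ⟨ω, o1, o2, o3⟩ := lev_first hκ hb hw hw0 hT g1' le_rfl (h500.trans_lt hlow)
    ((hp 2000 6000 (by norm_num)).trans (hn.trans hq))
  rw [one_mul] at o2 o3
  have o4 : nv (S.w k s) ω ≤ 2 ^ (ns * i) * κ ^ 3000 := by
    refine o3.trans_eq ?_
    rw [mul_left_comm, ← pow_add]
  obtain ⟨α, p1, p2, p3⟩ := lev_first hκ hb' hw' hw0' hT g2' h500 (hlow.trans_le o2)
    (o4.trans ((hp 3000 6000 (by norm_num)).trans (hn.trans hq)))
  refine ⟨ω, α, o1, p1, o2, o4, p2, le_of_mul_le_mul_left (p3.trans_eq ?_) (pow_pos hκ0 500)⟩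
  rw [← mul_assoc, ← pow_add]

end Crest.Agent.R128
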