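import Crest.Agent.R128.Meas
import Crest.Agent.R128.Greedy

/-! Row 128: maximal inequality and the estimates for short stretches. -/

set_option autoImplicit false

namespace Crest.Agent.R128

open Real MeasureTheory Set

theorem maximal_point {K k c : ℝ} (hK1 : 1 < K) (hk : 0 ≤ k) (hK : K = 2 * π * k + 3) (hc : 0 < c)
    {N H : ℕ} (hH : H ≤ N) (p : ℝ × ℝ) :
    c * ∑ v ∈ Finset.range (N - H),
      ind (∃ n, 1 ≤ n ∧ n ≤ H ∧ c * n ≤ dfc K (fw (aseq k p) (v : ℕ)) n) ≤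
        dfc K (rb k p.1 p.2) N := by
  classical
  have hb : ∀ i, Bd K (fw (aseq k p) i) := fun i j => abs_ac_le hk hK _
  have h := greedy (Φ := fun i j => dfc K (fw (aseq k p) i) (j - i).toNat) (L := 0) (R := N) hc.le
    (by positivity) (fun i j _ _ _ => dfc_nonneg hK1 (hb i) _)
    (fun i j l _ hij hjl _ => by
      have h1 := dfc_superadd hK1 (hb i) (j - i).toNat (l - j).toNat
      rw [fw_shift, show i + ((j - i).toNat : ℤ) = j by omega,
        show (j - i).toNat + (l - j).toNat = (l - i).toNat by omega] at h1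
      exact h1)
    (((Finset.range (N - H)).filter fun v : ℕ =>
      ∃ n, 1 ≤ n ∧ n ≤ H ∧ c * n ≤ dfc K (fw (aseq k p) (v : ℕ)) n).image ((↑) : ℕ → ℤ))
    (by
      intro j hj
      obtain ⟨v, hv, rfl⟩ := Finset.mem_image.1 hj
      obtain ⟨hv1, n, hn1, hn2, hn3⟩ := Finset.mem_filter.1 hv
      have hv2 := Finset.mem_range.1 hv1
      refine ⟨by positivity, v + n, by omega, by omega, ?_⟩
      rw [show ((v : ℤ) + n - v).toNat = n by omega]
      simpa using hn3)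
  rw [Finset.card_image_of_injective _ Nat.cast_injective, Finset.card_filter] at h
  simp only [sub_zero, Int.toNat_natCast, fw_aseq] at h
  refine le_trans (le_of_eq ?_) h
  congr 1
  push_cast
  refine Finset.sum_congr rfl fun v _ => ?_
  unfold ind
  split_ifs <;> rfl

theorem maximal_aux {K k c : ℝ} (hK1 : 1 < K) (hk : 0 ≤ k) (hK : K = 2 * π * k + 3) (hc : 0 < c)
    {N H : ℕ} (hN : 1 ≤ N) (hH : 2 * H ≤ N) :
    c * (Psq {p | ∃ n, 1 ≤ n ∧ n ≤ H ∧ c * n ≤ dfc K (rb k p.1 p.2) n}).toReal ≤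
      2 * Dn K k N := by
  have hE : MeasurableSet {b : ℕ → ℝ | ∃ n, 1 ≤ n ∧ n ≤ H ∧ c * n ≤ dfc K b n} := by
    simp only [Set.ofPred_exists]
    refine MeasurableSet.iUnion fun n => ?_
    simp only [Set.ofPred_and]
    exact (MeasurableSet.const _).inter ((MeasurableSet.const _).inter
      (measurableSet_le measurable_const (measurable_dfc K _)))
  let A : ℕ → Set (ℝ × ℝ) := fun v =>
    {p | ∃ n, 1 ≤ n ∧ n ≤ H ∧ c * n ≤ dfc K (fw (aseq k p) (v : ℕ)) n}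
  have hA : ∀ v, MeasurableSet (A v) := fun v =>
    ((continuous_fw v).comp (continuous_aseq k)).measurable hE
  have hst : ∀ v, Psq (A v) =
      Psq {p | ∃ n, 1 ≤ n ∧ n ≤ H ∧ c * n ≤ dfc K (rb k p.1 p.2) n} := fun v =>
    Psq_stat k (measurable_fst hE) v
  have hi : ∀ v, Integrable (fun p => ind (p ∈ A v)) Psq := fun v =>
    integrable_of_bdd (measurable_ind (hA v)) (C := 1) fun p => by
      rw [abs_of_nonneg (ind_nonneg _)]; exact ind_le_one _
  have hd : Integrable (fun p : ℝ × ℝ => dfc K (rb k p.1 p.2) N) Psq :=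
    integrable_of_bdd ((measurable_dfc K N).comp (continuous_rb k).measurable) (C := 2 * N)
      fun p => by
        rw [abs_of_nonneg (dfc_nonneg hK1 (bd_rb hk hK _ _) _)]
        exact dfc_le hK1 (bd_rb hk hK _ _) _
  have h1 : ∫ p, c * ∑ v ∈ Finset.range (N - H), ind (p ∈ A v) ∂Psq ≤
      ∫ p, dfc K (rb k p.1 p.2) N ∂Psq :=
    integral_mono ((integrable_finsetSum _ fun v _ => hi v).const_mul c) hd
      fun p => maximal_point hK1 hk hK hc (by omega) p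
  rw [integral_const_mul, integral_finsetSum _ fun v _ => hi v] at h1
  simp only [integral_ind (hA _), hst, Finset.sum_const, Finset.card_range, nsmul_eq_mul] at h1
  have hN' : (0 : ℝ) < N := by exact_mod_cast hN
  have h2 : (N : ℝ) ≤ 2 * ((N - H : ℕ) : ℝ) := by exact_mod_cast (by omega : N ≤ 2 * (N - H))
  rw [Dn, mul_div_assoc', le_div_iff₀ hN']
  have h3 : 0 ≤ c * (Psq {p | ∃ n, 1 ≤ n ∧ n ≤ H ∧ c * n ≤ dfc K (rb k p.1 p.2) n}).toReal := by
    positivity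
  nlinarith [mul_le_mul_of_nonneg_left h2 h3]

theorem maximal_one_lt {κ : ℝ} (hκ : 1000 ≤ κ) : 1 < κ ^ 1000 :=
  one_lt_pow₀ (by linarith) (by norm_num)

theorem maximal_good {K δ δ' : ℝ} (hK1 : 1 < K) (hδ : δ' ≤ δ) (h0 : 0 ≤ δ) (h1 : δ' ≤ 1)
    {b : ℕ → ℝ} {H : ℕ} (h : ∀ j, 1 ≤ j → j ≤ H → K ^ (1 - δ') + 2 < |b j|) : Good K δ b H := by
  have hl : 1 ≤ K ^ (1 - δ') := one_le_rpow hK1.le (by linarith)
  have key : ∀ n ≤ H, |sol b 0 1 n| ≤ |sol b 0 1 (n + 1)| ∧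
      (K ^ (1 - δ')) ^ n ≤ |sol b 0 1 (n + 1)| := by
    intro n hn
    induction n with
    | zero => simp
    | succ n ih =>
      obtain ⟨i1, i2⟩ := ih (by omega)
      have hb := h (n + 1) (by omega) hn
      have e : sol b 0 1 (n + 1 + 1) = b (n + 1) * sol b 0 1 (n + 1) - sol b 0 1 n := rfl
      have h2 := abs_sub_abs_le_abs_sub (b (n + 1) * sol b 0 1 (n + 1)) (sol b 0 1 n)
      rw [← e, abs_mul] at h2
      have h3 := abs_nonneg (sol b 0 1 (n + 1))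
      have h4 : K ^ (1 - δ') * |sol b 0 1 (n + 1)| ≤ |sol b 0 1 (n + 1 + 1)| := by nlinarith
      refine ⟨by nlinarith, le_trans ?_ h4⟩
      rw [pow_succ']
      gcongr
  intro n hn
  have h2 := nv_le_norm_tr (isSol_sol b 0 1) n
  rw [nv_basis_zero, mul_one] at h2
  have h3 : K ^ ((1 - δ') * n) ≤ ‖tr b n‖ := by
    rw [rpow_mul (by linarith), rpow_natCast]
    exact (key n hn).2.trans ((abs_succ_le_nv _ _).trans h2)
  rw [← le_logb_iff_rpow_le hK1 (lt_of_lt_of_le (by positivity) h3)] at h3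
  have h4 : (0 : ℝ) ≤ n := by positivity
  unfold dfc
  nlinarith

/-- Recipe: for a point `p`, `a = aseq k p`, let `S = {v ∈ [0, N - H) | ∃ n ∈ [1, H], c n ≤
dfc K (fw a v) n}`.  `greedy` with `Φ i j = dfc K (fw a i) (j - i).toNat` (`dfc_superadd`,
`fw_shift`, `abs_ac_le`), `L = 0`, `R = N` gives `c * #S ≤ dfc K (fw a 0) N`; integrate
(`integral_ind`, `Psq_stat`, `fw_aseq`), `N - H ≥ N / 2`. -/
theorem maximal {κ k c : ℝ} (hκ : 1000 ≤ κ) (hK : κ ^ 1000 = 2 * π * k + 3) (hc : 0 < c)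
    {N H : ℕ} (hN : 1 ≤ N) (hH : 2 * H ≤ N) :
    c * (Psq {p | ∃ n, 1 ≤ n ∧ n ≤ H ∧ c * n ≤ dfc (κ ^ 1000) (rb k p.1 p.2) n}).toReal ≤
      2 * Dn (κ ^ 1000) k N := by
  exact maximal_aux (maximal_one_lt hκ) (by linarith [(k_facts hκ hK).1]) hK hc hN hH

/-- the probability of a coefficient of size `≤ K^(1-δ) + 2` tends to `0` (`Psq_small`,
`k_facts`; the bound is at most `60 K^(-δ)` for `δ ≤ 1`) -/
theorem small_tendsto {δ ε : ℝ} (hδ : 0 < δ) (hδ1 : δ ≤ 1) (hε : 0 < ε) :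
    ∃ κ₀ : ℝ, ∀ κ k : ℝ, κ₀ ≤ κ → κ ^ 1000 = 2 * π * k + 3 → ∀ j : ℕ, 1 ≤ j →
      (Psq {p | |rb k p.1 p.2 j| ≤ (κ ^ 1000) ^ (1 - δ) + 2}).toReal ≤ ε := by
  refine ⟨max 1000 ((60 / ε) ^ δ⁻¹), fun κ k hκ hK j hj => ?_⟩
  have hκ1 : 1000 ≤ κ := (le_max_left _ _).trans hκ
  obtain ⟨h1, -, h3⟩ := k_facts hκ1 hK
  have hK1 := maximal_one_lt hκ1
  have h4 : (60 / ε) ^ δ⁻¹ ≤ κ ^ 1000 :=
    ((le_max_right _ _).trans hκ).trans (le_self_pow₀ (by linarith) (by norm_num))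
  generalize κ ^ 1000 = K at *
  have hK0 : 0 < K := by linarith
  have h5 : 60 / ε ≤ K ^ δ := by
    have := rpow_le_rpow (by positivity) h4 hδ.le
    rwa [rpow_inv_rpow (by positivity) hδ.ne'] at this
  have hl : 1 ≤ K ^ (1 - δ) := one_le_rpow hK1.le (by linarith)
  have h6 : K ^ (1 - δ) * K ^ δ = K := by rw [← rpow_add hK0]; simp
  refine (ENNReal.toReal_le_of_le_ofReal (by positivity)
    (Psq_small (by linarith) (by positivity) hj)).trans ?_
  rw [div_le_iff₀ (by positivity)]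
  rw [div_le_iff₀ hε] at h5
  have h7 : 60 * K ^ (1 - δ) ≤ K * ε := by
    calc 60 * K ^ (1 - δ) ≤ (K ^ δ * ε) * K ^ (1 - δ) := by gcongr
      _ = (K ^ (1 - δ) * K ^ δ) * ε := by ring
      _ = K * ε := by rw [h6]
  nlinarith

/-- Recipe: if `|b j| > K^(1-δ) + 2` for `1 ≤ j ≤ H` then `w = sol b 0 1` satisfies
`|w (n+1)| ≥ K^(1-δ) |w n|`, `|w (n+1)| ≥ K^((1-δ) n)`, so `dfc K b n ≤ δ n`; union bound with
`small_tendsto` for `min δ 1`. -/
theorem not_good_small {δ ε : ℝ} (hδ : 0 < δ) (hε : 0 < ε) (H : ℕ) :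
    ∃ κ₀ : ℝ, ∀ κ k : ℝ, κ₀ ≤ κ → κ ^ 1000 = 2 * π * k + 3 →
      (Psq {p | ¬ Good (κ ^ 1000) δ (rb k p.1 p.2) H}).toReal ≤ ε := by
  obtain ⟨κ₀, h⟩ := small_tendsto (δ := min δ 1) (ε := ε / (H + 1)) (by positivity)
    (min_le_right _ _) (by positivity)
  refine ⟨max 1000 κ₀, fun κ k hκ hK => ?_⟩
  have hK1 := maximal_one_lt ((le_max_left _ _).trans hκ)
  have h1 := h κ k ((le_max_right _ _).trans hκ) hK
  generalize κ ^ 1000 = K at *
  have h2 : {p : ℝ × ℝ | ¬ Good K δ (rb k p.1 p.2) H} ⊆ ⋃ j ∈ Finset.Icc 1 H,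
      {p : ℝ × ℝ | |rb k p.1 p.2 j| ≤ K ^ (1 - min δ 1) + 2} := by
    intro p hp
    by_contra hcon
    apply hp
    refine maximal_good hK1 (min_le_left _ _) hδ.le (min_le_right _ _) fun j h1 h2 => ?_
    by_contra h3
    exact hcon (Set.mem_biUnion (Finset.mem_coe.2 (Finset.mem_Icc.2 ⟨h1, h2⟩)) (not_lt.1 h3))
  have h3 : Psq.real _ ≤ _ := (measureReal_mono h2 (measure_ne_top _ _)).trans (measureReal_biUnion_finset_le _ _)
  refine h3.trans ((Finset.sum_le_card_nsmul _ _ (ε / (H + 1))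
    fun j hj => h1 j (Finset.mem_Icc.1 hj).1).trans ?_)
  rw [Nat.card_Icc, Nat.add_sub_cancel, nsmul_eq_mul, mul_div_assoc', div_le_iff₀ (by positivity)]
  nlinarith

/-- Recipe: `bb K x ≤ ε/2 + ind (|x| ≤ K^(1-ε/2) + 2)` (for `ε ≤ 1`), `bb` is continuous and
between `0` and `1` on the range of `ac`. -/
theorem integral_bb_small {ε : ℝ} (hε : 0 < ε) :
    ∃ κ₀ : ℝ, ∀ κ k : ℝ, κ₀ ≤ κ → κ ^ 1000 = 2 * π * k + 3 → ∀ j : ℕ, 1 ≤ j →
      ∫ p, bb (κ ^ 1000) (rb k p.1 p.2 j) ∂Psq ≤ ε := by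
  obtain ⟨κ₀, h⟩ := small_tendsto (δ := min ε 1 / 2) (ε := ε / 2) (by positivity)
    (by linarith [min_le_right ε 1]) (by positivity)
  refine ⟨max 1000 κ₀, fun κ k hκ hK j hj => ?_⟩
  have hκ1 : 1000 ≤ κ := (le_max_left _ _).trans hκ
  have hK1 := maximal_one_lt hκ1
  have hk : 0 ≤ k := by linarith [(k_facts hκ1 hK).1]
  have h1 := h κ k ((le_max_right _ _).trans hκ) hK j hj
  generalize κ ^ 1000 = K at *
  have hδ : min ε 1 / 2 ≤ ε / 2 := by linarith [min_le_left ε 1]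
  have hδ0 : 0 ≤ min ε 1 / 2 := by positivity
  generalize min ε 1 / 2 = δ at *
  have hS : MeasurableSet {p : ℝ × ℝ | |rb k p.1 p.2 j| ≤ K ^ (1 - δ) + 2} :=
    measurableSet_le ((continuous_apply j).comp (continuous_rb k)).abs.measurable measurable_const
  have hi : Integrable (fun p => ind (p ∈ {p : ℝ × ℝ | |rb k p.1 p.2 j| ≤ K ^ (1 - δ) + 2})) Psq :=
    integrable_of_bdd (measurable_ind hS) (C := 1) fun p => by
      rw [abs_of_nonneg (ind_nonneg _)]; exact ind_le_one _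
  have h2 : ∫ p, bb K (rb k p.1 p.2 j) ∂Psq ≤
      ∫ p, (δ + ind (p ∈ {p : ℝ × ℝ | |rb k p.1 p.2 j| ≤ K ^ (1 - δ) + 2})) ∂Psq := by
    refine integral_mono_of_nonneg (ae_of_all _ fun p => ?_) ((integrable_const δ).add hi)
      (ae_of_all _ fun p => ?_)
    · have h3 := bd_rb hk hK p.1 p.2 j
      have h4 : max 1 (|rb k p.1 p.2 j| - 1) ≤ K := max_le hK1.le (by linarith)
      have h5 := (logb_le_logb hK1 (by positivity) (by linarith)).2 h4
      rw [logb_self_eq_one hK1] at h5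
      simp only [bb, Pi.zero_apply]
      linarith
    · simp only [bb]
      by_cases h3 : |rb k p.1 p.2 j| ≤ K ^ (1 - δ) + 2
      · rw [ind_pos (by exact h3)]
        have := logb_nonneg hK1 (le_max_left 1 (|rb k p.1 p.2 j| - 1))
        linarith
      · rw [ind_neg (by exact h3)]
        have h4 : K ^ (1 - δ) ≤ max 1 (|rb k p.1 p.2 j| - 1) :=
          le_max_of_le_right (by linarith [not_le.1 h3])
        rw [← le_logb_iff_rpow_le hK1 (by positivity)] at h4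
        linarith
  rw [integral_add (integrable_const δ) hi, integral_ind hS, integral_const] at h2
  simp only [probReal_univ, smul_eq_mul, one_mul] at h2
  linarith

end Crest.Agent.R128
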