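import Crest.Agent.R128.Env

/-! Row 128: the one-sided matching equation. -/

set_option autoImplicit false

namespace Crest.Agent.R128

open Real

/-- complex solutions of the recursion on the sites `1, …, j` -/
def CSol (β V : ℕ → ℂ) (j : ℕ) : Prop :=
  ∀ i, i + 1 ≤ j → V (i + 2) = β (i + 1) * V (i + 1) - V i

/-- complex Wronskian -/
def cw (V W : ℕ → ℂ) (i : ℕ) : ℂ := V i * W (i + 1) - V (i + 1) * W i

/-- forward complex solution -/
def csol (β : ℕ → ℂ) (p q : ℂ) : ℕ → ℂ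
  | 0 => p
  | 1 => q
  | m + 2 => β (m + 1) * csol β p q (m + 1) - csol β p q m

/-- the complex solution with data `p` at `j + 1` and `q` at `j` -/
def cback (β : ℕ → ℂ) (j : ℕ) (p q : ℂ) (i : ℕ) : ℂ :=
  csol (fun m => β (j + 1 - m)) p q (j + 1 - i)

theorem cback_succ (β : ℕ → ℂ) (j : ℕ) (p q : ℂ) : cback β j p q (j + 1) = p := by
  simp [cback, csol]

theorem cback_self (β : ℕ → ℂ) (j : ℕ) (p q : ℂ) : cback β j p q j = q := by
  simp [cback, csol]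

theorem cSol_cback (β : ℕ → ℂ) (j : ℕ) (p q : ℂ) : CSol β (cback β j p q) j := by
  intro i hi
  obtain ⟨m, rfl⟩ : ∃ m, j = i + 1 + m := ⟨j - (i + 1), by omega⟩
  have e1 : i + 1 + m + 1 - (i + 2) = m := by omega
  have e2 : i + 1 + m + 1 - (i + 1) = m + 1 := by omega
  have e3 : i + 1 + m + 1 - i = m + 2 := by omega
  have e4 : i + 1 + m + 1 - (m + 1) = i + 1 := by omega
  simp only [cback, e1, e2, e3, csol, e4]
  ring

theorem differentiable_csol {β : ℂ → ℕ → ℂ} (h : ∀ m, Differentiable ℂ fun z => β z m) (p q : ℂ)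
    (m : ℕ) : Differentiable ℂ fun z => csol (β z) p q m := by
  induction m using Nat.twoStepInduction with
  | zero => exact differentiable_const _
  | one => exact differentiable_const _
  | more m h0 h1 => exact ((h (m + 1)).mul h1).sub h0

theorem differentiable_cback {β : ℂ → ℕ → ℂ} (h : ∀ m, Differentiable ℂ fun z => β z m) (j : ℕ)
    (p q : ℂ) (i : ℕ) : Differentiable ℂ fun z => cback (β z) j p q i :=
  differentiable_csol (β := fun z m => β z (j + 1 - m)) (fun m => h _) p q _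

theorem IsSol.cSol {b w : ℕ → ℝ} (hw : IsSol b w) (c : ℝ) (j : ℕ) :
    CSol (fun i => (b i : ℂ)) (fun i => ((c * w i : ℝ) : ℂ)) j := by
  intro i _
  simp only [hw i]
  push_cast
  ring

theorem IsSol.cSol' {b w : ℕ → ℝ} (hw : IsSol b w) (j : ℕ) :
    CSol (fun i => (b i : ℂ)) (fun i => (w i : ℂ)) j := by
  intro i _
  simp only [hw i]
  push_cast
  ring

theorem CSol.mono {β V : ℕ → ℂ} {j j' : ℕ} (h : CSol β V j) (hj : j' ≤ j) : CSol β V j' :=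
  fun i hi => h i (hi.trans hj)

theorem cw_step {β β' V W : ℕ → ℂ} {j : ℕ} (hV : CSol β V j) (hW : CSol β' W j) {i : ℕ}
    (hi : i + 1 ≤ j) :
    cw V W i - cw V W (i + 1) = (β (i + 1) - β' (i + 1)) * V (i + 1) * W (i + 1) := by
  simp only [cw, hV i hi, hW i hi]
  ring

theorem cw_const {β V W : ℕ → ℂ} {j : ℕ} (hV : CSol β V j) (hW : CSol β W j) :
    cw V W 0 = cw V W j := by
  have : ∀ i, i ≤ j → cw V W 0 = cw V W i := by
    intro i hi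
    induction i with
    | zero => rfl
    | succ i ih =>
      have h := cw_step hV hW hi
      rw [sub_self, zero_mul, zero_mul, sub_eq_zero] at h
      rw [ih (by omega), h]
  exact this j le_rfl

theorem CSol.back_le {β V : ℕ → ℂ} {j : ℕ} {L D : ℝ} (hV : CSol β V j) (hL : 1 ≤ L)
    (h1 : ‖V (j + 1)‖ ≤ D) (h0 : ‖V j‖ ≤ D) (hβ : ∀ i, 1 ≤ i → i ≤ j → ‖β i‖ + 1 ≤ L) (t : ℕ) :
    ∀ i, i + t = j → ‖V (i + 1)‖ ≤ L ^ t * D ∧ ‖V i‖ ≤ L ^ t * D := by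
  have hD : 0 ≤ D := (norm_nonneg _).trans h0
  induction t with
  | zero =>
    intro i hi
    rw [add_zero] at hi
    subst hi
    simpa using ⟨h1, h0⟩
  | succ t ih =>
    intro i hi
    obtain ⟨a1, a0⟩ := ih (i + 1) (by omega)
    have hE : 0 ≤ L ^ t * D := by positivity
    have e : L ^ (t + 1) * D = L * (L ^ t * D) := by ring
    rw [e]
    refine ⟨a0.trans (le_mul_of_one_le_left hE hL), ?_⟩
    have e2 : V i = β (i + 1) * V (i + 1) - V (i + 2) := by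
      rw [hV i (by omega)]; ring
    have hb := hβ (i + 1) (by omega) (by omega)
    rw [e2]
    refine (norm_sub_le _ _).trans ?_
    rw [norm_mul]
    have h3 : ‖β (i + 1)‖ * ‖V (i + 1)‖ ≤ ‖β (i + 1)‖ * (L ^ t * D) := by gcongr
    have h4 : (‖β (i + 1)‖ + 1) * (L ^ t * D) ≤ L * (L ^ t * D) := by gcongr
    have h5 : ‖V (i + 2)‖ ≤ L ^ t * D := a1
    linarith

theorem os_geom {f : ℕ → ℂ} {j : ℕ} {C : ℝ} (hC : 0 ≤ C)
    (h : ∀ i t, i + 1 + t = j → ‖f i - f (i + 1)‖ ≤ C * (1 / 2) ^ t) : ‖f 0 - f j‖ ≤ 2 * C := by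
  have key : ∀ t i, i + t = j → ‖f i - f j‖ ≤ 2 * C - 2 * C * (1 / 2) ^ t := by
    intro t
    induction t with
    | zero =>
      intro i hi
      rw [add_zero] at hi
      subst hi
      simp
    | succ t ih =>
      intro i hi
      have h1 := ih (i + 1) (by omega)
      have h2 := h i t (by omega)
      have h3 := norm_sub_le_norm_sub_add_norm_sub (f i) (f (i + 1)) (f j)
      rw [pow_succ]
      linarith
  have h1 := key j 0 (zero_add j)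
  have h2 : 0 ≤ 2 * C * (1 / 2 : ℝ) ^ j := by positivity
  linarith

/-- Wronskian telescoping -/
theorem os_tele {β V : ℕ → ℂ} {b w : ℕ → ℝ} (hw : IsSol b w) {j n : ℕ} {K lam θ Λ D : ℝ}
    (hK : 1 ≤ K) (hlam : 0 < lam) (h4 : 4 * K ≤ lam ^ 2) (hθ : 0 ≤ θ) (hΛ : 0 ≤ Λ)
    (hV : CSol β V j) (h1 : ‖V (j + 1)‖ ≤ D) (h0 : ‖V j‖ ≤ D)
    (hβ : ∀ i, 1 ≤ i → i ≤ j → ‖β i‖ + 1 ≤ 2 * K)
    (hΔ : ∀ i t, 1 ≤ i → i + t = j → ‖β i - b i‖ * lam ^ (n + t) ≤ 26 * K * θ)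
    (hwi : ∀ i t, 1 ≤ i → i + t = j → |w i| * lam ^ (n + t) ≤ Λ) :
    ‖cw V (fun i => (w i : ℂ)) 0 - cw V (fun i => (w i : ℂ)) j‖ ≤
      52 * K * θ * Λ * D / lam ^ (2 * n) := by
  have hD : 0 ≤ D := (norm_nonneg _).trans h0
  have e : 52 * K * θ * Λ * D / lam ^ (2 * n) = 2 * (26 * K * θ * Λ * D / lam ^ (2 * n)) := by
    ring
  rw [e]
  refine os_geom (by positivity) fun i t hi => ?_
  rw [cw_step hV (hw.cSol' j) (by omega), norm_mul, norm_mul, Complex.norm_real, Real.norm_eq_abs]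
  have a1 := hΔ (i + 1) t (by omega) hi
  have a2 := hwi (i + 1) t (by omega) hi
  have a3 := (hV.back_le (by linarith) h1 h0 hβ t (i + 1) hi).2
  have hp : 0 < lam ^ (n + t) := by positivity
  rw [← le_div_iff₀ hp] at a1 a2
  have hr : 2 * K / lam ^ 2 ≤ 1 / 2 := by
    rw [div_le_div_iff₀ (by positivity) (by norm_num)]; linarith
  calc ‖β (i + 1) - b (i + 1)‖ * ‖V (i + 1)‖ * |w (i + 1)|
      ≤ 26 * K * θ / lam ^ (n + t) * ((2 * K) ^ t * D) * (Λ / lam ^ (n + t)) := by gcongr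
    _ = 26 * K * θ * Λ * D / lam ^ (2 * n) * (2 * K / lam ^ 2) ^ t := by
        rw [div_pow, ← pow_mul, pow_add, two_mul n, pow_add, mul_comm 2 t, pow_mul]
        field_simp
    _ ≤ _ := by gcongr

/-- difference of the coefficients of two solutions -/
theorem os_zeta {u w V V' : ℕ → ℂ} {ϖ : ℂ} (h : cw u w 0 = ϖ) (hA : cw V w 0 ≠ 0)
    (hA' : cw V' w 0 ≠ 0) :
    cw u V 0 / cw V w 0 - cw u V' 0 / cw V' w 0 = ϖ * cw V' V 0 / (cw V w 0 * cw V' w 0) := by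
  rw [div_sub_div _ _ hA hA', ← h]
  congr 1
  simp only [cw]
  ring

/-- the complexified coefficients -/
noncomputable def osB (k : ℝ) (S : Side) (z : ℂ) (i : ℕ) : ℂ :=
  2 + 2 * π * k * Complex.cos (2 * π * S.xc k z i)

theorem osB_ofReal (k : ℝ) (S : Side) (s : ℝ) : osB k S s = fun i => (S.b k s i : ℂ) := by
  funext i
  rw [osB, S.xc_ofReal]
  simp only [Side.b, rb, ac, Side.x]
  push_cast
  rfl

theorem differentiable_osB (k : ℝ) (S : Side) (i : ℕ) : Differentiable ℂ fun z => osB k S z i := by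
  have h := S.differentiable_xc k i
  unfold osB
  fun_prop

theorem os_pow {κ : ℝ} (hκ : 1000 ≤ κ) {a b : ℕ} (h : a + 1 ≤ b) : 1000 * κ ^ a ≤ κ ^ b := by
  have h1 : (1 : ℝ) ≤ κ := by linarith
  calc 1000 * κ ^ a ≤ κ * κ ^ a := by gcongr
    _ = κ ^ (a + 1) := by ring
    _ ≤ κ ^ b := pow_le_pow_right₀ h1 h

theorem os_env {κ k : ℝ} (hκ : 1000 ≤ κ) (hK : κ ^ 1000 = 2 * π * k + 3) (S : Side) (s0 : ℝ)
    {J : ℕ} {Λ : ℝ} (hw : ∀ i, 1 ≤ i → i ≤ J → |S.w k s0 i| * κ ^ (990 * (J - i)) ≤ Λ)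
    {i t n : ℕ} (hi : 1 ≤ i) (hJ : i + (n + t) = J) (hn : 1 ≤ n) {z : ℂ}
    (hz : ‖z - s0‖ * Λ ≤ κ ^ (900 * n)) :
    ‖osB k S z i‖ + 1 ≤ 2 * κ ^ 1000 ∧
      ‖osB k S z i - S.b k s0 i‖ * (κ ^ 990) ^ (n + t) ≤ 26 * κ ^ 1000 * (‖z - s0‖ * Λ) := by
  have h1 : (1 : ℝ) ≤ κ := by linarith
  have hκ0 : 0 < κ := by linarith
  obtain ⟨hk1, hk2, -⟩ := k_facts hκ hK
  have e : J - i = n + t := by omega
  have hd := S.env_dev hκ hK s0 hw hi (by omega) (z := z)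
    (hz.trans (pow_le_pow_right₀ h1 (by omega)))
  rw [e] at hd
  set δ := S.xc k z i - S.x k s0 i with hδ
  have hsmall : ‖δ‖ ≤ 1 / 500 := by
    have a1 := os_pow hκ (a := 900 * n) (b := 990 * (n + t)) (by omega)
    have a2 : 0 < κ ^ (900 * n) := by positivity
    have a3 : ‖δ‖ * (1000 * κ ^ (900 * n)) ≤ ‖δ‖ * κ ^ (990 * (n + t)) := by gcongr
    have a4 : (‖δ‖ * 1000) * κ ^ (900 * n) ≤ 2 * κ ^ (900 * n) := by linarith
    have a5 := le_of_mul_le_mul_right a4 a2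
    linarith
  have hpi := Real.pi_lt_d2
  have hpi0 := Real.pi_pos
  have hh : ‖(2 * π * δ : ℂ)‖ = 2 * π * ‖δ‖ := by
    rw [norm_mul, norm_mul, Complex.norm_real, Real.norm_eq_abs, abs_of_pos hpi0]
    simp
  have hc := ccos_lip (2 * π * S.x k s0 i) (h := 2 * π * δ) (by rw [hh]; nlinarith [norm_nonneg δ])
  have e2 : osB k S z i - S.b k s0 i = ((2 * π * k : ℝ) : ℂ) *
      (Complex.cos (((2 * π * S.x k s0 i : ℝ) : ℂ) + 2 * π * δ) -
        Complex.cos ((2 * π * S.x k s0 i : ℝ) : ℂ)) := by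
    have e3 : ((2 * π * S.x k s0 i : ℝ) : ℂ) + 2 * π * δ = 2 * π * S.xc k z i := by
      rw [hδ]; push_cast; ring
    rw [e3, osB]
    simp only [Side.b, rb, ac, Side.x]
    push_cast
    ring
  have hΔ : ‖osB k S z i - S.b k s0 i‖ ≤ 13 * κ ^ 1000 * ‖δ‖ := by
    rw [e2, norm_mul, Complex.norm_real, Real.norm_eq_abs, abs_of_nonneg (by positivity)]
    rw [hh] at hc
    calc 2 * π * k * ‖Complex.cos (((2 * π * S.x k s0 i : ℝ) : ℂ) + 2 * π * δ) -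
          Complex.cos ((2 * π * S.x k s0 i : ℝ) : ℂ)‖ ≤ κ ^ 1000 * (2 * (2 * π * ‖δ‖)) := by gcongr
      _ = (4 * π) * κ ^ 1000 * ‖δ‖ := by ring
      _ ≤ 13 * κ ^ 1000 * ‖δ‖ := by gcongr; linarith
  have hK0 : 0 < κ ^ 1000 := by positivity
  constructor
  · have a1 := S.bd_b (by linarith : 0 ≤ k) hK s0 i
    have a2 : ‖osB k S z i‖ ≤ ‖osB k S z i - S.b k s0 i‖ + |S.b k s0 i| := by
      have := norm_add_le (osB k S z i - S.b k s0 i) (S.b k s0 i : ℂ)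
      rwa [sub_add_cancel, Complex.norm_real, Real.norm_eq_abs] at this
    have a3 : 13 * κ ^ 1000 * ‖δ‖ ≤ 13 * κ ^ 1000 * (1 / 500) := by gcongr
    linarith
  · rw [← pow_mul]
    calc ‖osB k S z i - S.b k s0 i‖ * κ ^ (990 * (n + t))
        ≤ 13 * κ ^ 1000 * ‖δ‖ * κ ^ (990 * (n + t)) := by gcongr
      _ = 13 * κ ^ 1000 * (‖δ‖ * κ ^ (990 * (n + t))) := by ring
      _ ≤ 13 * κ ^ 1000 * (2 * (‖z - s0‖ * Λ)) := by gcongr
      _ = _ := by ring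

/-- size of the decaying solution -/
theorem os_nvu {κ k : ℝ} (hκ : 1000 ≤ κ) (hK : κ ^ 1000 = 2 * π * k + 3) (S : Side) (s0 : ℝ)
    {u : ℕ → ℝ} (hu : IsSol (S.b k s0) u) {ϖ : ℝ} {ω : ℕ}
    (hc : Cl κ (S.b k s0) u (S.w k s0) ϖ ω) {j m : ℕ} (hj : j + m = ω) :
    nv u j ≤ (κ ^ 1000) ^ m * 2 / |S.w k s0 (ω + 1)| := by
  obtain ⟨hk1, -, -⟩ := k_facts hκ hK
  have hκ0 : 0 < κ := by linarith
  have h1 := nv_le_add (S.bd_b (by linarith : 0 ≤ k) hK s0) hu j m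
  rw [hj] at h1
  have h2 : nv u ω ≤ 2 / |S.w k s0 (ω + 1)| := by
    rw [le_div_iff₀ hc.pos]; exact hc.nvu
  rw [mul_div_assoc]
  exact h1.trans (by gcongr)

/-- the denominator `A` stays close to its unperturbed value -/
theorem os_A {κ k : ℝ} (hκ : 1000 ≤ κ) (hK : κ ^ 1000 = 2 * π * k + 3) (S : Side) (s0 : ℝ)
    {u : ℕ → ℝ} {ϖ : ℝ} {ω : ℕ} (hc : Cl κ (S.b k s0) u (S.w k s0) ϖ ω) {j m : ℕ}
    (hj : j + m = ω) {z : ℂ} (hz : ‖z - s0‖ * |S.w k s0 (ω + 1)| ≤ κ ^ (900 * (m + 1)))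
    {V : ℕ → ℂ} (hV : CSol (osB k S z) V j)
    (h1 : ‖V (j + 1)‖ ≤ (κ ^ 1000) ^ m * 2 / |S.w k s0 (ω + 1)|)
    (h0 : ‖V j‖ ≤ (κ ^ 1000) ^ m * 2 / |S.w k s0 (ω + 1)|) :
    ‖cw V (fun i => (S.w k s0 i : ℂ)) 0 - cw V (fun i => (S.w k s0 i : ℂ)) j‖ ≤
      104 * (‖z - s0‖ * |S.w k s0 (ω + 1)|) / κ ^ (980 * (m + 1)) := by
  have hκ1 : (1 : ℝ) ≤ κ := by linarith
  have hκ0 : 0 < κ := by linarith
  have hΛ := hc.pos
  have h4 : 4 * κ ^ 1000 ≤ (κ ^ 990) ^ 2 := by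
    have := os_pow hκ (a := 1000) (b := 990 * 2) (by norm_num)
    have h0 : 0 < κ ^ 1000 := by positivity
    rw [← pow_mul]; linarith
  have h := os_tele (S.isSol_w k s0) (n := m + 1) (K := κ ^ 1000) (lam := κ ^ 990)
    (θ := ‖z - s0‖ * |S.w k s0 (ω + 1)|) (Λ := |S.w k s0 (ω + 1)|) (one_le_pow₀ hκ1)
    (by positivity) h4 (by positivity) hΛ.le hV h1 h0
    (fun i hi hij => (os_env hκ hK S s0 hc.env (n := m + 1) (t := j - i) hi (by omega)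
      (by omega) hz).1)
    (fun i t hi hij => (os_env hκ hK S s0 hc.env (n := m + 1) (t := t) hi (by omega)
      (by omega) hz).2)
    (fun i t hi hij => by
      have := hc.env i hi (by omega)
      rwa [show ω + 1 - i = m + 1 + t by omega, pow_mul] at this)
  refine h.trans (le_of_eq ?_)
  generalize ‖z - s0‖ * |S.w k s0 (ω + 1)| = θ
  generalize |S.w k s0 (ω + 1)| = Λ at hΛ ⊢
  have e : (κ ^ 990) ^ (2 * (m + 1)) = κ ^ (980 * (m + 1)) * (κ ^ 1000 * (κ ^ 1000) ^ m) := by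
    rw [← pow_mul, ← pow_mul, ← pow_add, ← pow_add]
    congr 1
    ring
  rw [e]
  have a1 : 0 < κ ^ (980 * (m + 1)) := by positivity
  have a2 : 0 < κ ^ 1000 := by positivity
  have a3 : 0 < (κ ^ 1000) ^ m := by positivity
  generalize κ ^ (980 * (m + 1)) = x at a1 ⊢
  generalize (κ ^ 1000) ^ m = y at a3 ⊢
  generalize κ ^ 1000 = K at a2 ⊢
  field_simp
  ring

/-- the solution along the orbit `z` that has the data of `u` at the pair `j, j + 1` -/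
noncomputable def osV (k : ℝ) (S : Side) (u : ℕ → ℝ) (j : ℕ) (z : ℂ) : ℕ → ℂ :=
  cback (osB k S z) j (u (j + 1)) (u j)

/-- its coefficient -/
noncomputable def osZ (k : ℝ) (S : Side) (s0 : ℝ) (u : ℕ → ℝ) (j : ℕ) (z : ℂ) : ℂ :=
  cw (fun i => (u i : ℂ)) (osV k S u j z) 0 / cw (osV k S u j z) (fun i => (S.w k s0 i : ℂ)) 0

theorem cw_ofReal (u w : ℕ → ℝ) (j : ℕ) :
    cw (fun i => (u i : ℂ)) (fun i => (w i : ℂ)) j = (wr u w j : ℝ) := by
  simp [cw, wr]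

theorem os_AV {κ k : ℝ} (hκ : 1000 ≤ κ) (hK : κ ^ 1000 = 2 * π * k + 3) (S : Side) (s0 : ℝ)
    {u : ℕ → ℝ} (hu : IsSol (S.b k s0) u) {ϖ : ℝ} (huw : wr u (S.w k s0) 0 = ϖ) {ω : ℕ}
    (hc : Cl κ (S.b k s0) u (S.w k s0) ϖ ω) {j m : ℕ}
    (hj : j + m = ω) {z : ℂ} (hz : ‖z - s0‖ * |S.w k s0 (ω + 1)| ≤ κ ^ (900 * (m + 1))) :
    ‖cw (osV k S u j z) (fun i => (S.w k s0 i : ℂ)) 0 - ϖ‖ ≤
      104 * (‖z - s0‖ * |S.w k s0 (ω + 1)|) / κ ^ (980 * (m + 1)) := by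
  have hn := os_nvu hκ hK S s0 hu hc hj
  have h := os_A hκ hK S s0 hc hj hz (V := osV k S u j z) (cSol_cback _ _ _ _)
    (by rw [osV, cback_succ, Complex.norm_real]; exact (abs_succ_le_nv u j).trans hn)
    (by rw [osV, cback_self, Complex.norm_real]; exact (abs_le_nv u j).trans hn)
  have e : cw (osV k S u j z) (fun i => (S.w k s0 i : ℂ)) j = ϖ := by
    rw [← huw, ← wr_const hu (S.isSol_w k s0) j, ← cw_ofReal]
    simp only [cw, osV, cback_succ, cback_self]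
  rwa [e] at h

theorem os_AV' {κ k : ℝ} (hκ : 1000 ≤ κ) (hK : κ ^ 1000 = 2 * π * k + 3) (S : Side) (s0 : ℝ)
    {u : ℕ → ℝ} (hu : IsSol (S.b k s0) u) {ϖ : ℝ} (hϖ : |ϖ| = 1) (huw : wr u (S.w k s0) 0 = ϖ)
    {ω : ℕ} (hc : Cl κ (S.b k s0) u (S.w k s0) ϖ ω) {j m : ℕ}
    (hj : j + m = ω) {z : ℂ} (hz : ‖z - s0‖ * |S.w k s0 (ω + 1)| ≤ κ ^ (900 * (m + 1))) :
    3 / 4 ≤ ‖cw (osV k S u j z) (fun i => (S.w k s0 i : ℂ)) 0‖ := by
  have hκ0 : 0 < κ := by linarith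
  have h := os_AV hκ hK S s0 hu huw hc hj hz
  have h2 : 104 * (‖z - s0‖ * |S.w k s0 (ω + 1)|) / κ ^ (980 * (m + 1)) ≤ 1 / 4 := by
    have a1 := os_pow hκ (a := 900 * (m + 1)) (b := 980 * (m + 1)) (by omega)
    have a2 : 0 < κ ^ (900 * (m + 1)) := by positivity
    rw [div_le_iff₀ (by positivity)]
    linarith
  have h3 := norm_sub_norm_le (ϖ : ℂ) (cw (osV k S u j z) (fun i => (S.w k s0 i : ℂ)) 0)
  rw [norm_sub_rev, Complex.norm_real, Real.norm_eq_abs, hϖ] at h3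
  linarith

theorem os_step {κ k : ℝ} (hκ : 1000 ≤ κ) (hK : κ ^ 1000 = 2 * π * k + 3) (S : Side) (s0 : ℝ)
    {u : ℕ → ℝ} (hu : IsSol (S.b k s0) u) {ϖ : ℝ} (hϖ : |ϖ| = 1) (huw : wr u (S.w k s0) 0 = ϖ)
    {ω : ℕ} (hc : Cl κ (S.b k s0) u (S.w k s0) ϖ ω) {j m : ℕ}
    (hj : j + 1 + m = ω) {z : ℂ} (hz : ‖z - s0‖ * |S.w k s0 (ω + 1)| ≤ κ ^ (900 * (m + 1))) :
    ‖osZ k S s0 u (j + 1) z - osZ k S s0 u j z‖ ≤
      208 * κ ^ (1910 * m + 910) / |S.w k s0 (ω + 1)| ^ 2 := by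
  have hκ1 : (1 : ℝ) ≤ κ := by linarith
  have hκ0 : 0 < κ := by linarith
  have hΛ := hc.pos
  have a1 := os_AV' hκ hK S s0 hu hϖ huw hc hj hz
  have a0 := os_AV' hκ hK S s0 hu hϖ huw hc (j := j) (m := m + 1) (by omega)
    (hz.trans (pow_le_pow_right₀ hκ1 (by omega)))
  have n1 : cw (osV k S u (j + 1) z) (fun i => (S.w k s0 i : ℂ)) 0 ≠ 0 := by
    intro h; rw [h, norm_zero] at a1; linarith
  have n0 : cw (osV k S u j z) (fun i => (S.w k s0 i : ℂ)) 0 ≠ 0 := by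
    intro h; rw [h, norm_zero] at a0; linarith
  have hW : cw (osV k S u j z) (osV k S u (j + 1) z) 0 =
      -((osB k S z (j + 1) - S.b k s0 (j + 1)) * (u (j + 1) : ℂ) ^ 2) := by
    rw [cw_const (β := osB k S z) (V := osV k S u j z) (W := osV k S u (j + 1) z) (j := j)
      (cSol_cback _ _ _ _) ((cSol_cback _ _ _ _).mono (Nat.le_succ j))]
    have h2 := cSol_cback (osB k S z) (j + 1) (u (j + 1 + 1)) (u (j + 1)) j le_rfl
    rw [cback_self, show j + 2 = j + 1 + 1 from rfl, cback_succ] at h2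
    have h3 : cback (osB k S z) (j + 1) (u (j + 1 + 1)) (u (j + 1)) j =
        osB k S z (j + 1) * u (j + 1) - u (j + 1 + 1) := by
      linear_combination h2
    simp only [cw, osV, cback_succ, cback_self, h3]
    rw [show j + 1 + 1 = j + 2 from rfl, hu j]
    push_cast
    ring
  have hΔ := (os_env hκ hK S s0 hc.env (i := j + 1) (n := m + 1) (t := 0) (by omega) (by omega)
    (by omega) hz).2
  have hn := (abs_le_nv u (j + 1)).trans (os_nvu hκ hK S s0 hu hc hj)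
  rw [osZ, osZ, os_zeta (ϖ := ϖ) (by rw [cw_ofReal, huw]) n1 n0, hW, norm_div, norm_mul, norm_mul,
    norm_neg, norm_mul, norm_pow, Complex.norm_real, Complex.norm_real, Real.norm_eq_abs,
    Real.norm_eq_abs, hϖ, one_mul]
  rw [add_zero, ← le_div_iff₀ (by positivity)] at hΔ
  generalize |S.w k s0 (ω + 1)| = Λ at *
  calc ‖osB k S z (j + 1) - S.b k s0 (j + 1)‖ * |u (j + 1)| ^ 2 /
        (‖cw (osV k S u (j + 1) z) (fun i => (S.w k s0 i : ℂ)) 0‖ *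
          ‖cw (osV k S u j z) (fun i => (S.w k s0 i : ℂ)) 0‖)
      ≤ 26 * κ ^ 1000 * κ ^ (900 * (m + 1)) / (κ ^ 990) ^ (m + 1) * ((κ ^ 1000) ^ m * 2 / Λ) ^ 2 /
        (3 / 4 * (3 / 4)) := by
        gcongr
        exact hΔ.trans (by gcongr)
    _ = 1664 / 9 * κ ^ (1910 * m + 910) / Λ ^ 2 := by
        have e : κ ^ 1000 * κ ^ (900 * (m + 1)) * ((κ ^ 1000) ^ m) ^ 2 =
            κ ^ (1910 * m + 910) * (κ ^ 990) ^ (m + 1) := by
          rw [← pow_mul, ← pow_mul, ← pow_mul, ← pow_add, ← pow_add, ← pow_add]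
          exact congrArg (fun n : ℕ => κ ^ n) (by omega)
        have b1 : 0 < (κ ^ 990) ^ (m + 1) := by positivity
        generalize (κ ^ 990) ^ (m + 1) = x at e b1 ⊢
        generalize (κ ^ 1000) ^ m = y at e ⊢
        generalize κ ^ (900 * (m + 1)) = y' at e ⊢
        generalize κ ^ (1910 * m + 910) = y'' at e ⊢
        generalize κ ^ 1000 = K at e ⊢
        field_simp
        linear_combination 14976 * e
    _ ≤ _ := by gcongr; norm_num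

theorem os_diff {κ k : ℝ} (hκ : 1000 ≤ κ) (hK : κ ^ 1000 = 2 * π * k + 3) (S : Side) (s0 : ℝ)
    {u : ℕ → ℝ} (hu : IsSol (S.b k s0) u) {ϖ : ℝ} (hϖ : |ϖ| = 1) (huw : wr u (S.w k s0) 0 = ϖ)
    {ω : ℕ} (hc : Cl κ (S.b k s0) u (S.w k s0) ϖ ω) {j m : ℕ}
    (hj : j + m = ω) {z : ℂ} (hz : ‖z - s0‖ * |S.w k s0 (ω + 1)| ≤ κ ^ (900 * (m + 1))) :
    DifferentiableAt ℂ (osZ k S s0 u j) z := by
  have a1 := os_AV' hκ hK S s0 hu hϖ huw hc hj hz
  have n1 : cw (osV k S u j z) (fun i => (S.w k s0 i : ℂ)) 0 ≠ 0 := by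
    intro h; rw [h, norm_zero] at a1; linarith
  have hV : ∀ i, Differentiable ℂ fun z => osV k S u j z i := fun i =>
    differentiable_cback (differentiable_osB k S) j _ _ i
  have h0 := hV 0
  have h1 := hV (0 + 1)
  refine DifferentiableAt.div (c := fun z => cw (fun i => (u i : ℂ)) (osV k S u j z) 0)
    (d := fun z => cw (osV k S u j z) (fun i => (S.w k s0 i : ℂ)) 0) ?_ ?_ n1
  · exact ((h1.const_mul _).sub (h0.const_mul _)).differentiableAt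
  · exact ((h0.mul_const _).sub (h1.mul_const _)).differentiableAt

theorem os_quad {κ k : ℝ} (hκ : 1000 ≤ κ) (hK : κ ^ 1000 = 2 * π * k + 3) (S : Side) (s0 : ℝ)
    {u : ℕ → ℝ} (hu : IsSol (S.b k s0) u) {ϖ : ℝ} (hϖ : |ϖ| = 1) (huw : wr u (S.w k s0) 0 = ϖ)
    {ω : ℕ} (hc : Cl κ (S.b k s0) u (S.w k s0) ϖ ω) {ρ : ℝ} (hρ : ρ ≤ κ ^ 600) (j : ℕ) :
    ∀ m, j + m = ω → ∃ c0 c1 c2 : ℂ, ∀ z : ℂ, ‖z - s0‖ * |S.w k s0 (ω + 1)| ≤ ρ →
      ‖osZ k S s0 u j z - (c0 + c1 * (z - s0) + c2 * (z - s0) ^ 2)‖ ≤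
        3328 * ρ ^ 3 / (κ ^ (790 * m + 1790) * |S.w k s0 (ω + 1)| ^ 2) := by
  have hκ1 : (1 : ℝ) ≤ κ := by linarith
  have hκ0 : 0 < κ := by linarith
  have hΛ := hc.pos
  induction j with
  | zero =>
    intro m _
    refine ⟨0, 0, 0, fun z hz => ?_⟩
    have hρ0 : 0 ≤ ρ := le_trans (by positivity) hz
    have e : osZ k S s0 u 0 z = 0 := by
      have : cw (fun i => (u i : ℂ)) (osV k S u 0 z) 0 = 0 := by
        simp only [cw, osV, cback_succ, cback_self]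
        ring
      rw [osZ, this, zero_div]
    rw [e]
    simp only [zero_mul, add_zero, sub_self, norm_zero]
    positivity
  | succ j ih =>
    intro m hm
    obtain ⟨c0, c1, c2, hq⟩ := ih (m + 1) (by omega)
    have hball : ∀ z ∈ Metric.ball (s0 : ℂ) (κ ^ (900 * (m + 1)) / |S.w k s0 (ω + 1)|),
        ‖z - s0‖ * |S.w k s0 (ω + 1)| ≤ κ ^ (900 * (m + 1)) := fun z hz => by
      rw [mem_ball_iff_norm, lt_div_iff₀ hΛ] at hz
      exact hz.le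
    obtain ⟨d0, d1, d2, hd⟩ := cubic_approx (f := fun z => osZ k S s0 u (j + 1) z - osZ k S s0 u j z)
      (c := s0) (R := κ ^ (900 * (m + 1)) / |S.w k s0 (ω + 1)|) (by positivity)
      (fun z hz => ((os_diff hκ hK S s0 hu hϖ huw hc hm (hball z hz)).sub
        (os_diff hκ hK S s0 hu hϖ huw hc (j := j) (m := m + 1) (by omega)
          ((hball z hz).trans (pow_le_pow_right₀ hκ1 (by omega))))).differentiableWithinAt)
      (fun z hz => os_step hκ hK S s0 hu hϖ huw hc hm (hball z hz))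
    refine ⟨c0 + d0, c1 + d1, c2 + d2, fun z hz => ?_⟩
    have hρ0 : 0 ≤ ρ := le_trans (by positivity) hz
    have hzb : z ∈ Metric.ball (s0 : ℂ) (κ ^ (900 * (m + 1)) / |S.w k s0 (ω + 1)|) := by
      rw [mem_ball_iff_norm, lt_div_iff₀ hΛ]
      have a1 := os_pow hκ (a := 600) (b := 900 * (m + 1)) (by omega)
      have a2 : 0 < κ ^ 600 := by positivity
      linarith
    have h1 := hq z hz
    have h2 := hd z hzb
    have e : osZ k S s0 u (j + 1) z - (c0 + d0 + (c1 + d1) * (z - s0) + (c2 + d2) * (z - s0) ^ 2) =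
        (osZ k S s0 u j z - (c0 + c1 * (z - s0) + c2 * (z - s0) ^ 2)) +
        (osZ k S s0 u (j + 1) z - osZ k S s0 u j z - (d0 + d1 * (z - s0) + d2 * (z - s0) ^ 2)) := by
      ring
    rw [e]
    refine (norm_add_le _ _).trans ?_
    generalize |S.w k s0 (ω + 1)| = Λ at *
    have h3 : 8 * (208 * κ ^ (1910 * m + 910) / Λ ^ 2) * (‖z - s0‖ / (κ ^ (900 * (m + 1)) / Λ)) ^ 3 ≤
        1664 * ρ ^ 3 / (κ ^ (790 * m + 1790) * Λ ^ 2) := by
      rw [div_div_eq_mul_div]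
      calc 8 * (208 * κ ^ (1910 * m + 910) / Λ ^ 2) * (‖z - s0‖ * Λ / κ ^ (900 * (m + 1))) ^ 3
          ≤ 8 * (208 * κ ^ (1910 * m + 910) / Λ ^ 2) * (ρ / κ ^ (900 * (m + 1))) ^ 3 := by gcongr
        _ = _ := by
          have e : (κ ^ (900 * (m + 1))) ^ 3 = κ ^ (1910 * m + 910) * κ ^ (790 * m + 1790) := by
            rw [← pow_mul, ← pow_add]
            exact congrArg (fun n : ℕ => κ ^ n) (by omega)
          rw [div_pow, e]
          have b1 : 0 < κ ^ (1910 * m + 910) := by positivity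
          have b2 : 0 < κ ^ (790 * m + 1790) := by positivity
          generalize κ ^ (1910 * m + 910) = x at b1 ⊢
          generalize κ ^ (790 * m + 1790) = y at b2 ⊢
          field_simp
          ring
    have h4 : 3328 * ρ ^ 3 / (κ ^ (790 * (m + 1) + 1790) * Λ ^ 2) ≤
        1664 * ρ ^ 3 / (κ ^ (790 * m + 1790) * Λ ^ 2) := by
      have a1 := os_pow hκ (a := 790 * m + 1790) (b := 790 * (m + 1) + 1790) (by omega)
      have b2 : 0 < κ ^ (790 * m + 1790) := by positivity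
      calc 3328 * ρ ^ 3 / (κ ^ (790 * (m + 1) + 1790) * Λ ^ 2)
          ≤ 3328 * ρ ^ 3 / ((2 * κ ^ (790 * m + 1790)) * Λ ^ 2) := by gcongr; linarith
        _ = _ := by
          generalize κ ^ (790 * m + 1790) = y at b2 ⊢
          field_simp
          ring
    have e2 : 3328 * ρ ^ 3 / (κ ^ (790 * m + 1790) * Λ ^ 2) =
        1664 * ρ ^ 3 / (κ ^ (790 * m + 1790) * Λ ^ 2) +
          1664 * ρ ^ 3 / (κ ^ (790 * m + 1790) * Λ ^ 2) := by ring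
    linarith

/-- the boundary factor is close to one -/
theorem os_ratio {N A A' : ℂ} {ϖ τ : ℝ} (hϖ : |ϖ| = 1) (hτ : τ ≤ 1 / 100) (hN : ‖N - ϖ‖ ≤ τ)
    (hA : ‖A - ϖ‖ ≤ 3 * τ) (hA' : ‖A' - ϖ‖ ≤ τ) :
    A ≠ 0 ∧ A' ≠ 0 ∧ ‖N ^ 2 / (A * A') - 1‖ ≤ 16 * τ := by
  have hτ0 : 0 ≤ τ := (norm_nonneg _).trans hN
  have h1 : ‖(ϖ : ℂ)‖ = 1 := by rw [Complex.norm_real, Real.norm_eq_abs, hϖ]
  have lo : ∀ X : ℂ, 1 - ‖X - ϖ‖ ≤ ‖X‖ := fun X => by
    have := norm_sub_norm_le (ϖ : ℂ) X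
    rw [norm_sub_rev, h1] at this
    linarith
  have hi : ∀ X : ℂ, ‖X‖ ≤ 1 + ‖X - ϖ‖ := fun X => by
    have := norm_add_le (ϖ : ℂ) (X - ϖ)
    rwa [add_sub_cancel, h1] at this
  have a1 := lo A
  have a2 := lo A'
  have n1 : A ≠ 0 := by intro h; rw [h, norm_zero] at a1; rw [h] at hA; linarith
  have n2 : A' ≠ 0 := by intro h; rw [h, norm_zero] at a2; rw [h] at hA'; linarith
  refine ⟨n1, n2, ?_⟩
  have e : N ^ 2 / (A * A') - 1 =
      ((N - ϖ) * N + ϖ * (N - ϖ) - ((A - ϖ) * A' + ϖ * (A' - ϖ))) / (A * A') := by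
    field_simp
    ring
  rw [e, norm_div, norm_mul, div_le_iff₀ (by positivity)]
  have b1 : ‖(N - ϖ) * N‖ ≤ τ * 2 := by
    rw [norm_mul]; gcongr; linarith [hi N]
  have b2 : ‖(ϖ : ℂ) * (N - ϖ)‖ ≤ τ := by rw [norm_mul, h1, one_mul]; exact hN
  have b3 : ‖(A - ϖ) * A'‖ ≤ 3 * τ * (4 / 3) := by
    rw [norm_mul]; gcongr; linarith [hi A']
  have b4 : ‖(ϖ : ℂ) * (A' - ϖ)‖ ≤ τ := by rw [norm_mul, h1, one_mul]; exact hA'
  have b5 := norm_sub_le ((N - ϖ) * N + ϖ * (N - ϖ)) ((A - ϖ) * A' + ϖ * (A' - ϖ))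
  have b6 := norm_add_le ((N - ϖ) * N) (ϖ * (N - ϖ))
  have b7 := norm_add_le ((A - ϖ) * A') (ϖ * (A' - ϖ))
  have b8 : 3 / 4 * (3 / 4) ≤ ‖A‖ * ‖A'‖ := by gcongr <;> linarith
  have b9 : 16 * τ * (3 / 4 * (3 / 4)) ≤ 16 * τ * (‖A‖ * ‖A'‖) := by gcongr
  linarith

/-- The coefficient `ζ = B / A` of a solution `v = A u + B w` (along the orbit with parameter `s`,
measured at the base pair `0, 1`) is a quadratic polynomial in `s` plus the boundary term.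

Recipe.  `x = S.x k s0`, `b = S.b k s0`, `w = S.w k s0`, `Λ = |w (ω+1)|`, `J = ω + 1`; `hc.env` is the
hypothesis `hw` of the lemmas of `Env`.  For complex `z` let `β z i = 2 + 2πk cos (2π xc z i)` and
`Δ z i = β z i - b i`; `‖Δ z i‖ ≤ 2πk · 2 · 2π ‖xc z i - x i‖ ≤ 13 K ‖xc z i - x i‖` (`ccos_lip`),
`‖β z i‖ + 1 ≤ 2 K` when `Δ` is that small.  For `j ≥ 0` and data `(p, q)` let `V j p q z i`
(`i ≤ j + 1`) be the complex solution of `V (i+1) + V (i-1) = β z i * V i` with `V (j+1) = p`,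
`V j = q` (define it by a two-step recursion in `j + 1 - i`; it is entire in `z`, real for real
`z`, and equals any real solution with the same data).  Put `A = V 0 * w 1 - V 1 * w 0`,
`B = u 0 * V 1 - u 1 * V 0`.
(1) Wronskian telescoping: `A = (V j * w (j+1) - V (j+1) * w j) + ∑_{1 ≤ i ≤ j} Δ z i * V i * w i`.
With `max ‖V (i+1)‖ ‖V i‖ ≤ (2K)^(j-i) max ‖p‖ ‖q‖`, `nv u j ≤ K^(ω-j) * 2 / Λ` (`nv_le_add`,
`hc.nvu`), `|w i| ≤ Λ / κ^(990 (J-i))` and `env_dev`: for `θ = ‖z - s0‖ Λ ≤ κ^(900 n)`, `n = J - j`,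
data of size `≤ nv u j`: the sum is at most `200 θ (κ^1000 / κ^1980)^n` (geometric series in
`j - i` with ratio `2K / κ^1980`), in particular `≤ 1/4`.
(2) `ζ j z = B / A` for the data `(u (j+1), u j)` (first term of `A` is `ϖ`), `ζ 0 z = 0`, and
`ζ j z - ζ (j-1) z = - ϖ · Δ z j · (u j)^2 · (ϖ A_j)⁻¹ (ϖ A_{j-1})⁻¹` up to sign conventions: the
Wronskian of the two solutions is constant, equals `-Δ z j (u j)^2` at the pair `(j-1, j)` and
`(A_{j-1} B_j - B_{j-1} A_j) / ϖ` at the pair `(0, 1)`.  Only the bound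
`‖ζ j z - ζ (j-1) z‖ ≤ 4 ‖Δ z j‖ (u j)^2 ≤ 500 K κ^(900 n) κ^(-990 n) K^(2(n-1)) / Λ²` on the disc
`θ < κ^(900 n)` is needed.  `cubic_approx` on that disc and summation over `n ≥ 1` give a quadratic
`Q` with `Λ² ‖ζ ω z - Q z‖ ≤ 10^4 ρ³ / κ^1790` for `θ ≤ ρ`; take real parts of the coefficients.
(3) Scale `v` so that `v ω = u ω` (`ζ` is homogeneous of degree `0`), `g = v (ω+1) / v ω`,
`g0 = u (ω+1) / u ω`.  As in (2), `ζ(v) - ζ ω = ϖ (u ω)^2 (g - g0) / (A_v A_ω)` where now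
`|A_ω - ϖ| ≤ 200 ρ / κ^980`, `|A_v - ϖ| ≤ 200 ρ / κ^980 + 2 / κ^900`, `|Λ² (u ω)² - 1| ≤ 3 / κ^900`
(`hc.uw`), `|g|, |g0| ≤ 1 / κ^900`.  Absorb the constant `- ϖ g0 / Λ²` in `q0`. -/
theorem one_sided {κ k : ℝ} (hκ : 1000 ≤ κ) (hK : κ ^ 1000 = 2 * π * k + 3) (S : Side) (s0 : ℝ)
    {u : ℕ → ℝ} (hu : IsSol (S.b k s0) u) {ϖ : ℝ} (hϖ : |ϖ| = 1) (huw : wr u (S.w k s0) 0 = ϖ)
    {ω : ℕ} (hc : Cl κ (S.b k s0) u (S.w k s0) ϖ ω) {ρ : ℝ} (hρ1 : 1 ≤ ρ) (hρ : ρ ≤ κ ^ 600) :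
    ∃ q0 q1 q2 : ℝ, ∀ s : ℝ, |s - s0| * |S.w k s0 (ω + 1)| ≤ ρ → ∀ v : ℕ → ℝ,
      IsSol (S.b k s) v → v ω ≠ 0 → |v (ω + 1)| ≤ |v ω| / κ ^ 900 →
      wr v (S.w k s0) 0 ≠ 0 ∧
        |S.w k s0 (ω + 1) ^ 2 * (wr u v 0 / wr v (S.w k s0) 0 - (q0 + q1 * s + q2 * s ^ 2)) -
          ϖ * (v (ω + 1) / v ω)| ≤ ρ ^ 3 / κ ^ 1700 := by
  have hκ1 : (1 : ℝ) ≤ κ := by linarith
  have hκ0 : 0 < κ := by linarith
  have hΛ := hc.pos
  obtain ⟨c0, c1, c2, hq⟩ := os_quad hκ hK S s0 hu hϖ huw hc hρ ω 0 (add_zero ω)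
  refine ⟨c0.re - c1.re * s0 + c2.re * s0 ^ 2 - ϖ * (u (ω + 1) / u ω) / S.w k s0 (ω + 1) ^ 2,
    c1.re - 2 * c2.re * s0, c2.re, fun s hs v hv hv0 hv1 => ?_⟩
  have hn : ‖(s : ℂ) - s0‖ = |s - s0| := by
    rw [← Complex.ofReal_sub, Complex.norm_real, Real.norm_eq_abs]
  have hz : ‖(s : ℂ) - s0‖ * |S.w k s0 (ω + 1)| ≤ ρ := by rwa [hn]
  have hz' : ‖(s : ℂ) - s0‖ * |S.w k s0 (ω + 1)| ≤ κ ^ (900 * (0 + 1)) :=
    hz.trans (hρ.trans (pow_le_pow_right₀ hκ1 (by norm_num)))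
  have h900 : 0 < κ ^ 900 := by positivity
  have hτ1 : 1 / κ ^ 900 ≤ ρ / κ ^ 900 := by gcongr
  have hτ : ρ / κ ^ 900 ≤ 1 / 100 := by
    have a1 := os_pow hκ (a := 600) (b := 900) (by norm_num)
    have a2 : 0 < κ ^ 600 := by positivity
    rw [div_le_iff₀ h900]
    linarith
  have hτ2 : 104 * (‖(s : ℂ) - s0‖ * |S.w k s0 (ω + 1)|) / κ ^ (980 * (0 + 1)) ≤ ρ / κ ^ 900 := by
    have a1 := os_pow hκ (a := 900) (b := 980 * (0 + 1)) (by norm_num)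
    calc 104 * (‖(s : ℂ) - s0‖ * |S.w k s0 (ω + 1)|) / κ ^ (980 * (0 + 1))
        ≤ 104 * ρ / (104 * κ ^ 900) := by gcongr; linarith
      _ = ρ / κ ^ 900 := by field_simp
  have hu0 : u ω ≠ 0 := by
    intro h
    have := hc.uw
    rw [h, zero_mul, zero_sub, abs_neg, hϖ] at this
    linarith
  have huω : |u ω| ≤ 2 / |S.w k s0 (ω + 1)| := by
    rw [le_div_iff₀ hΛ]
    exact le_trans (by gcongr; exact abs_le_nv u ω) hc.nvu
  have hg : |v (ω + 1) / v ω| ≤ 1 / κ ^ 900 := by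
    rw [abs_div, div_le_iff₀ (abs_pos.2 hv0)]
    rwa [one_div_mul_eq_div]
  have hg0 : |u (ω + 1) / u ω| ≤ 1 / κ ^ 900 := by
    rw [abs_div, div_le_iff₀ (abs_pos.2 hu0), one_div_mul_eq_div]
    exact hc.small
  have hg1 : |v (ω + 1) / v ω| ≤ 1 := by linarith
  set g := v (ω + 1) / v ω with hgd
  set g0 := u (ω + 1) / u ω with hg0d
  set c := u ω / v ω with hcd
  have hc0 : c ≠ 0 := div_ne_zero hu0 hv0
  have e0 : c * v ω = u ω := by rw [hcd]; field_simp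
  have e1 : c * v (ω + 1) = g * u ω := by rw [hcd, hgd]; field_simp
  have e2 : u (ω + 1) = g0 * u ω := by rw [hg0d]; field_simp
  set V : ℕ → ℂ := fun i => ((c * v i : ℝ) : ℂ) with hVd
  have hV : CSol (osB k S s) V ω := by rw [osB_ofReal]; exact hv.cSol c ω
  have V0 : V ω = u ω := by simp only [hVd, e0]
  have V1 : V (ω + 1) = ((g * u ω : ℝ) : ℂ) := by simp only [hVd, e1]
  have hA := os_A hκ hK S s0 hc (add_zero ω) hz' hV
    (by
      rw [V1, Complex.norm_real, Real.norm_eq_abs, abs_mul, pow_zero, one_mul]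
      exact (mul_le_of_le_one_left (abs_nonneg _) hg1).trans huω)
    (by rw [V0, Complex.norm_real, Real.norm_eq_abs, pow_zero, one_mul]; exact huω)
  have hA1 : ‖cw V (fun i => (S.w k s0 i : ℂ)) ω - ϖ‖ ≤ 2 * (ρ / κ ^ 900) := by
    have e : cw V (fun i => (S.w k s0 i : ℂ)) ω - ϖ =
        ((u ω * S.w k s0 (ω + 1) - ϖ - g * u ω * S.w k s0 ω : ℝ) : ℂ) := by
      simp only [cw, V0, V1]
      push_cast
      ring
    rw [e, Complex.norm_real, Real.norm_eq_abs]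
    refine (abs_sub _ _).trans ?_
    have a1 := hc.uw
    have a2 := hc.env ω hc.one_le (Nat.le_succ ω)
    rw [show ω + 1 - ω = 1 by omega] at a2
    have a3 := os_pow hκ (a := 0) (b := 990 * 1) (by norm_num)
    rw [pow_zero] at a3
    have a4 : |S.w k s0 ω| ≤ |S.w k s0 (ω + 1)| / 2 := by
      have : |S.w k s0 ω| * 2 ≤ |S.w k s0 ω| * κ ^ (990 * 1) := by gcongr; linarith
      linarith
    have a5 : |g * u ω * S.w k s0 ω| ≤
        1 / κ ^ 900 * (2 / |S.w k s0 (ω + 1)|) * (|S.w k s0 (ω + 1)| / 2) := by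
      rw [abs_mul, abs_mul]; gcongr
    have a6 : 1 / κ ^ 900 * (2 / |S.w k s0 (ω + 1)|) * (|S.w k s0 (ω + 1)| / 2) = 1 / κ ^ 900 := by
      field_simp
    linarith
  have hA2 : ‖cw V (fun i => (S.w k s0 i : ℂ)) 0 - ϖ‖ ≤ 3 * (ρ / κ ^ 900) := by
    have := norm_sub_le_norm_sub_add_norm_sub (cw V (fun i => (S.w k s0 i : ℂ)) 0)
      (cw V (fun i => (S.w k s0 i : ℂ)) ω) ϖ
    linarith
  have hA3 := (os_AV hκ hK S s0 hu huw hc (add_zero ω) hz').trans hτ2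
  have hN : ‖((u ω * S.w k s0 (ω + 1) : ℝ) : ℂ) - ϖ‖ ≤ ρ / κ ^ 900 := by
    rw [← Complex.ofReal_sub, Complex.norm_real, Real.norm_eq_abs]
    exact hc.uw.trans hτ1
  obtain ⟨n1, n2, hX⟩ := os_ratio hϖ hτ hN hA2 hA3
  have eA : cw V (fun i => (S.w k s0 i : ℂ)) 0 = ((c * wr v (S.w k s0) 0 : ℝ) : ℂ) := by
    simp only [cw, wr, hVd]
    push_cast
    ring
  have eB : cw (fun i => (u i : ℂ)) V 0 = ((c * wr u v 0 : ℝ) : ℂ) := by
    simp only [cw, wr, hVd]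
    push_cast
    ring
  have hwr : wr v (S.w k s0) 0 ≠ 0 := by
    intro h
    rw [eA, h, mul_zero] at n1
    exact n1 Complex.ofReal_zero
  refine ⟨hwr, ?_⟩
  have eZ : cw (fun i => (u i : ℂ)) V 0 / cw V (fun i => (S.w k s0 i : ℂ)) 0 =
      ((wr u v 0 / wr v (S.w k s0) 0 : ℝ) : ℂ) := by
    rw [eA, eB, ← Complex.ofReal_div, mul_div_mul_left _ _ hc0]
  have hW : cw (osV k S u ω s) V 0 = (((g - g0) * u ω ^ 2 : ℝ) : ℂ) := by
    rw [cw_const (β := osB k S s) (V := osV k S u ω s) (W := V) (j := ω) (cSol_cback _ _ _ _) hV]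
    simp only [cw, osV, cback_succ, cback_self, V0, V1]
    rw [e2]
    push_cast
    ring
  have hZ := os_zeta (u := fun i => (u i : ℂ)) (ϖ := ϖ) (by rw [cw_ofReal, huw]) n1 n2
  rw [eZ, hW] at hZ
  have hq' := hq s hz
  have hw0 : S.w k s0 (ω + 1) ≠ 0 := abs_pos.1 hΛ
  set ζ := wr u v 0 / wr v (S.w k s0) 0 with hζ
  set A := cw V (fun i => (S.w k s0 i : ℂ)) 0
  set A' := cw (osV k S u ω s) (fun i => (S.w k s0 i : ℂ)) 0
  set W := S.w k s0 (ω + 1) with hWd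
  have eE : ((W : ℂ) ^ 2 * (ζ - (c0 + c1 * (s - s0) + c2 * (s - s0) ^ 2)) - ϖ * (g - g0) : ℂ) =
      (W : ℂ) ^ 2 * (osZ k S s0 u ω s - (c0 + c1 * (s - s0) + c2 * (s - s0) ^ 2)) +
        ((ϖ * (g - g0) : ℝ) : ℂ) * (((u ω * W : ℝ) : ℂ) ^ 2 / (A * A') - 1) := by
    have e3 : (ζ : ℂ) = osZ k S s0 u ω s + ϖ * (((g - g0) * u ω ^ 2 : ℝ) : ℂ) / (A * A') := by
      rw [← hZ, osZ]; ring
    rw [e3]
    push_cast
    ring
  have hE : ‖((W : ℂ) ^ 2 * (ζ - (c0 + c1 * (s - s0) + c2 * (s - s0) ^ 2)) - ϖ * (g - g0) : ℂ)‖ ≤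
      ρ ^ 3 / κ ^ 1700 := by
    rw [eE]
    refine (norm_add_le _ _).trans ?_
    rw [norm_mul, norm_mul, norm_pow, Complex.norm_real, Complex.norm_real, Real.norm_eq_abs,
      Real.norm_eq_abs, abs_mul, hϖ, one_mul]
    have b1 : |g - g0| ≤ 2 / κ ^ 900 := by
      have := abs_sub g g0
      have e : 2 / κ ^ 900 = 1 / κ ^ 900 + 1 / κ ^ 900 := by ring
      linarith
    have h1700 : 0 < κ ^ 1700 := by positivity
    have hρ0 : 0 ≤ ρ := by linarith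
    have b2 : |W| ^ 2 * ‖osZ k S s0 u ω s - (c0 + c1 * (s - s0) + c2 * (s - s0) ^ 2)‖ ≤
        ρ ^ 3 / κ ^ 1700 / 2 := by
      have a1 := os_pow hκ (a := 1700) (b := 1701) le_rfl
      have a2 := os_pow hκ (a := 1701) (b := 790 * 0 + 1790) (by norm_num)
      calc |W| ^ 2 * ‖osZ k S s0 u ω s - (c0 + c1 * (s - s0) + c2 * (s - s0) ^ 2)‖
          ≤ |W| ^ 2 * (3328 * ρ ^ 3 / (κ ^ (790 * 0 + 1790) * |W| ^ 2)) := by gcongr
        _ ≤ |W| ^ 2 * (3328 * ρ ^ 3 / ((6656 * κ ^ 1700) * |W| ^ 2)) := by gcongr; linarith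
        _ = ρ ^ 3 / κ ^ 1700 / 2 := by
          generalize κ ^ 1700 = y at h1700 ⊢
          field_simp
          ring
    have b3 : |g - g0| * ‖((u ω * W : ℝ) : ℂ) ^ 2 / (A * A') - 1‖ ≤ ρ ^ 3 / κ ^ 1700 / 2 := by
      have a1 := os_pow hκ (a := 1700) (b := 900 + 900) (by norm_num)
      rw [pow_add] at a1
      have a2 : ρ ≤ ρ ^ 3 := le_self_pow₀ hρ1 (by norm_num)
      calc |g - g0| * ‖((u ω * W : ℝ) : ℂ) ^ 2 / (A * A') - 1‖
          ≤ 2 / κ ^ 900 * (16 * (ρ / κ ^ 900)) := by gcongr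
        _ = 32 * ρ / (κ ^ 900 * κ ^ 900) := by
          generalize κ ^ 900 = y at h900 ⊢
          field_simp
          ring
        _ ≤ 32 * ρ ^ 3 / (64 * κ ^ 1700) :=
          div_le_div₀ (by positivity) (by linarith) (by positivity) (by linarith)
        _ = ρ ^ 3 / κ ^ 1700 / 2 := by
          generalize κ ^ 1700 = y at h1700 ⊢
          field_simp
          ring
    linarith
  refine le_trans (le_of_eq ?_) ((Complex.abs_re_le_norm _).trans hE)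
  congr 1
  simp only [sq, Complex.sub_re, Complex.mul_re, Complex.add_re, Complex.ofReal_re,
    Complex.ofReal_im, Complex.sub_im, Complex.mul_im, Complex.add_im]
  field_simp
  ring

end Crest.Agent.R128
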