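import Crest.Agent.R128.Basic

/-! Row 128: the Riccati variable, contracted solutions. -/

set_option autoImplicit false

namespace Crest.Agent.R128

open Real Finset

theorem Ricc_abs_gi_le (p q : ℕ → ℝ) (j : ℕ) : |p (gi q j)| ≤ nv p j := by
  rcases gi_cases q j with h | h <;> rw [h]
  · exact abs_le_nv _ _
  · exact abs_succ_le_nv _ _

theorem Ricc_isSol_sub {b p q : ℕ → ℝ} (hp : IsSol b p) (hq : IsSol b q) (c : ℝ) :
    IsSol b fun i => p i - c * q i := fun j => by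
  simp only [hp j, hq j]; ring

theorem Ricc_nv_add_le (r q : ℕ → ℝ) (c : ℝ) (j : ℕ) :
    nv (fun i => r i + c * q i) j ≤ nv r j + |c| * nv q j := by
  have h := nv_lin_le r q 1 c j
  simpa only [one_mul, abs_one] using h

/-- Recipe: the solution `p - zt p q j • q` vanishes at `gi q j`; its other entry is
`± wr p q j / q (gi q j)` (`wr_const`, `abs_gi`, `nv_pos`). -/
theorem zt_res {K : ℝ} {b p q : ℕ → ℝ} (hb : Bd K b) (hp : IsSol b p) (hq : IsSol b q)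
    (hw : |wr p q 0| ≤ 1) (hq0 : 0 < nv q 0) (j : ℕ) :
    nv (fun i => p i - zt p q j * q i) j ≤ 1 / nv q j := by
  have hN := nv_pos hb hq hq0 j
  have hW : |wr p q j| ≤ 1 := by rw [wr_const hp hq]; exact hw
  have hG := abs_gi q j
  have h0 : 0 ≤ 1 / nv q j := by positivity
  unfold zt
  rcases gi_cases q j with h | h <;> rw [h] at hG ⊢
  · have hq1 : q j ≠ 0 := by rw [← abs_pos, hG]; exact hN
    refine max_le ?_ ?_ <;> beta_reduce
    · have : p (j + 1) - p j / q j * q (j + 1) = -wr p q j / q j := by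
        unfold wr; field_simp; ring
      rw [this, abs_div, abs_neg, hG]
      gcongr
    · rw [div_mul_cancel₀ _ hq1, sub_self, abs_zero]; exact h0
  · have hq1 : q (j + 1) ≠ 0 := by rw [← abs_pos, hG]; exact hN
    refine max_le ?_ ?_ <;> beta_reduce
    · rw [div_mul_cancel₀ _ hq1, sub_self, abs_zero]; exact h0
    · have : p j - p (j + 1) / q (j + 1) * q j = wr p q j / q (j + 1) := by
        unfold wr; field_simp
      rw [this, abs_div, hG]
      gcongr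

/-- Recipe: with `r = p - zt p q j • q` (a solution, `IsSol.lin`) and `G = gi q (j+1)`:
`zt p q (j+1) - zt p q j = r G / q G`, `|r G| ≤ nv r (j+1) ≤ K * nv r j ≤ K / nv q j`. -/
theorem zt_step {K : ℝ} {b p q : ℕ → ℝ} (hb : Bd K b) (hp : IsSol b p) (hq : IsSol b q)
    (hw : |wr p q 0| ≤ 1) (hq0 : 0 < nv q 0) (j : ℕ) :
    |zt p q (j + 1) - zt p q j| ≤ K / (nv q j * nv q (j + 1)) := by
  have hN := nv_pos hb hq hq0 j
  have hN' := nv_pos hb hq hq0 (j + 1)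
  have hK := hb.one_le
  have hG := abs_gi q (j + 1)
  have hq1 : q (gi q (j + 1)) ≠ 0 := by rw [← abs_pos, hG]; exact hN'
  have h1 : zt p q (j + 1) - zt p q j =
      (p (gi q (j + 1)) - zt p q j * q (gi q (j + 1))) / q (gi q (j + 1)) := by
    rw [sub_div, mul_div_cancel_right₀ _ hq1]; rfl
  have h2 := Ricc_abs_gi_le (fun i => p i - zt p q j * q i) q (j + 1)
  have h3 := nv_succ_le hb (Ricc_isSol_sub hp hq (zt p q j)) j
  have h4 := zt_res hb hp hq hw hq0 j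
  rw [h1, abs_div, hG, ← div_div]
  gcongr
  calc _ ≤ _ := h2
    _ ≤ _ := h3
    _ ≤ K * (1 / nv q j) := by gcongr
    _ = _ := by ring

theorem zt_le (p q : ℕ → ℝ) (j : ℕ) : |zt p q j| ≤ nv p j / nv q j := by
  rw [zt, abs_div, abs_gi]
  exact div_le_div_of_nonneg_right (Ricc_abs_gi_le p q j) (nv_nonneg _ _)

theorem Ricc_wr (b : ℕ → ℝ) : |wr (sol b 1 0) (sol b 0 1) 0| ≤ 1 := by
  simp [wr]

theorem Ricc_w0 (b : ℕ → ℝ) : 0 < nv (sol b 0 1) 0 := by
  rw [nv_basis_zero]; exact one_pos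

theorem Ricc_big {κ : ℝ} (hκ : 1000 ≤ κ) : 1000 * κ ^ 3 ≤ κ ^ 999 := by
  have h1 : κ ^ 4 ≤ κ ^ 999 := pow_le_pow_right₀ (by linarith) (by norm_num)
  have h2 : 0 < κ ^ 3 := by positivity
  have h3 : κ ^ 4 = κ * κ ^ 3 := by ring
  nlinarith

/-- the increment of the Riccati variable -/
theorem Ricc_inc {κ : ℝ} (hκ : 1000 ≤ κ) {x y : ℝ} {i : ℕ} (hx : κ ^ (999 * i) ≤ κ * (4 * x))
    (hy : κ ^ (999 * (i + 1)) ≤ κ * (4 * y)) :
    κ ^ 1000 / (x * y) ≤ 16 * κ ^ 3 / (κ ^ (999 * i)) ^ 2 := by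
  have hκ0 : 0 < κ := by linarith
  have e1 : κ ^ (999 * (i + 1)) = κ ^ (999 * i) * κ ^ 999 := by rw [mul_add, mul_one, pow_add]
  have e2 : κ ^ 1000 = κ * κ ^ 999 := (pow_succ' κ 999)
  rw [e1] at hy
  rw [e2]
  have hA : 0 < κ ^ (999 * i) := pow_pos hκ0 _
  have hB : 0 < κ ^ 999 := pow_pos hκ0 _
  generalize κ ^ (999 * i) = A at *
  generalize κ ^ 999 = B at *
  have hx0 : 0 < x := by
    by_contra h
    have : κ * (4 * x) ≤ 0 := mul_nonpos_of_nonneg_of_nonpos hκ0.le (by linarith)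
    linarith
  have hy0 : 0 < y := by
    by_contra h
    have : κ * (4 * y) ≤ 0 := mul_nonpos_of_nonneg_of_nonpos hκ0.le (by linarith)
    have := mul_pos hA hB
    linarith
  rw [div_le_div_iff₀ (by positivity) (by positivity)]
  have h := mul_le_mul hx hy (by positivity) (by positivity)
  calc κ * B * A ^ 2 = κ * (A * (A * B)) := by ring
    _ ≤ κ * (κ * (4 * x) * (κ * (4 * y))) := by gcongr
    _ = _ := by ring

/-- At a good site the solution `w = sol b 0 1` realises the norm.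
Recipe: `v = sol b 1 0`, `ζ j = zt v w j`, `wr v w 0 = 1`, `‖tr b j‖ ≤ nv w j + nv v j`
(`norm_tr_le_basis`).  `j = 0` trivial.  `j = 1`: `‖tr b 1‖ ≤ |b 1| + 1`, so `WG` at `1` gives
`|b 1| ≥ κ^998 - 1`, `gi w 1 = 2`, `ζ 1 = -1 / b 1`, `nv w 1 = |b 1|`.  Induct for `1 ≤ j ≤ n` on
`‖tr b j‖ ≤ 4 * nv w j ∧ |ζ j| ≤ 1 - 1 / 2 ^ j`: `v = ζ j • w + r`, `nv r j ≤ 1 / nv w j`, so
`nv v (j+1) ≤ nv w (j+1) + K / nv w j`, and `K / nv w j ≤ 4 κ^1001 / κ^(999 j) ≤ ‖tr b (j+1)‖ / 2`;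
then `zt_step` with `nv w i ≥ κ^(999 i) / (4 κ)` bounds the increment by `1 / 2^(j+1)`. -/
theorem norm_tr_le_four {κ : ℝ} (hκ : 1000 ≤ κ) {b : ℕ → ℝ} (hb : Bd (κ ^ 1000) b) {n : ℕ}
    (h : WG κ b n) : ∀ j ≤ n, ‖tr b j‖ ≤ 4 * nv (sol b 0 1) j := by
  have hκ0 : 0 < κ := by linarith
  have hbig := Ricc_big hκ
  have hκ3 : κ ≤ κ ^ 3 := le_self_pow₀ (by linarith) (by norm_num)
  have hv := isSol_sol b 1 0
  have hw := isSol_sol b 0 1
  have key : ∀ j, 1 ≤ j → j ≤ n → ‖tr b j‖ ≤ 4 * nv (sol b 0 1) j ∧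
      |zt (sol b 1 0) (sol b 0 1) j| ≤ 1 - 1 / 2 ^ j := by
    intro j hj
    induction j, hj using Nat.le_induction with
    | base =>
      intro hn
      have h1 : nv (sol b 1 0) 1 = 1 := by
        have : sol b 1 0 (1 + 1) = -1 := by rw [hv 0]; simp
        simp [nv, this]
      have h2 : 1 ≤ nv (sol b 0 1) 1 := by simpa using abs_le_nv (sol b 0 1) 1
      have h3 := norm_tr_le_basis b 1
      have h4 := h 1 hn
      rw [mul_one] at h4
      refine ⟨by linarith, (zt_le _ _ _).trans ?_⟩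
      have h5 : 2 ≤ nv (sol b 0 1) 1 := by
        by_contra h6
        have : κ * ‖tr b 1‖ ≤ κ * 3 := mul_le_mul_of_nonneg_left (by linarith) hκ0.le
        linarith
      rw [h1, div_le_iff₀ (by linarith)]
      linarith
    | succ j hj ih =>
      intro hn
      obtain ⟨ih1, ih2⟩ := ih (by omega)
      have hx : κ ^ (999 * j) ≤ κ * (4 * nv (sol b 0 1) j) :=
        (h j (by omega)).trans (mul_le_mul_of_nonneg_left ih1 hκ0.le)
      have hAB : κ ^ 999 ≤ κ ^ (999 * j) := pow_le_pow_right₀ (by linarith) (by omega)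
      have hN := nv_pos hb hw (Ricc_w0 b) j
      have hN' := nv_pos hb hw (Ricc_w0 b) (j + 1)
      have hz : |zt (sol b 1 0) (sol b 0 1) j| ≤ 1 := by
        have : (0 : ℝ) ≤ 1 / 2 ^ j := by positivity
        linarith
      have h1 := Ricc_nv_add_le (fun i => sol b 1 0 i - zt (sol b 1 0) (sol b 0 1) j * sol b 0 1 i)
        (sol b 0 1) (zt (sol b 1 0) (sol b 0 1) j) (j + 1)
      simp only [sub_add_cancel] at h1
      have h2 := nv_succ_le hb (Ricc_isSol_sub hv hw (zt (sol b 1 0) (sol b 0 1) j)) j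
      have h3 := zt_res hb hv hw (Ricc_wr b) (Ricc_w0 b) j
      have h4 : κ ^ 1000 * (1 / nv (sol b 0 1) j) ≤ 4 * κ ^ 2 := by
        rw [mul_one_div, div_le_iff₀ hN, pow_succ' κ 999]
        calc κ * κ ^ 999 ≤ κ * (κ * (4 * nv (sol b 0 1) j)) :=
              mul_le_mul_of_nonneg_left (hAB.trans hx) hκ0.le
          _ = _ := by ring
      have h5 : 8 * κ ^ 2 ≤ ‖tr b (j + 1)‖ := by
        have h6 : κ ^ 999 ≤ κ ^ (999 * (j + 1)) := pow_le_pow_right₀ (by linarith) (by omega)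
        have h7 := h6.trans (h (j + 1) hn)
        refine le_of_mul_le_mul_left ?_ hκ0
        have : κ * (8 * κ ^ 2) = 8 * κ ^ 3 := by ring
        linarith
      have h6 := norm_tr_le_basis b (j + 1)
      have h7 := mul_le_mul_of_nonneg_left h3 (pow_pos hκ0 1000).le
      have h8 := mul_le_of_le_one_left hN'.le hz
      have h9 : ‖tr b (j + 1)‖ ≤ 4 * nv (sol b 0 1) (j + 1) := by
        change nv (sol b 1 0) (j + 1) ≤ _ at h1
        linarith
      refine ⟨h9, ?_⟩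
      have h10 := (zt_step hb hv hw (Ricc_wr b) (Ricc_w0 b) j).trans (Ricc_inc hκ hx
        ((h (j + 1) hn).trans (mul_le_mul_of_nonneg_left h9 hκ0.le)))
      have h11 : 16 * κ ^ 3 / (κ ^ (999 * j)) ^ 2 ≤ 1 / 2 ^ (j + 1) := by
        have h12 : (2 : ℝ) ^ j ≤ κ ^ (999 * j) := by
          rw [pow_mul]; exact pow_le_pow_left₀ (by norm_num) (by linarith) j
        rw [div_le_div_iff₀ (by positivity) (by positivity)]
        calc 16 * κ ^ 3 * 2 ^ (j + 1) = 32 * κ ^ 3 * 2 ^ j := by ring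
          _ ≤ κ ^ (999 * j) * κ ^ (999 * j) :=
              mul_le_mul (by linarith) h12 (by positivity) (by positivity)
          _ = _ := by rw [one_mul, sq]
      have h12 := abs_sub_abs_le_abs_sub (zt (sol b 1 0) (sol b 0 1) (j + 1))
        (zt (sol b 1 0) (sol b 0 1) j)
      have h13 : (1 : ℝ) / 2 ^ j = 2 * (1 / 2 ^ (j + 1)) := by field_simp; ring
      linarith
  intro j hj
  rcases Nat.eq_zero_or_pos j with rfl | h0
  · rw [nv_basis_zero]
    have := norm_tr_le hb 0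
    rw [pow_zero] at this
    linarith
  · exact (key j h0 hj).1

theorem Ricc_low {κ : ℝ} (hκ : 1000 ≤ κ) {b : ℕ → ℝ} (hb : Bd (κ ^ 1000) b) {n : ℕ}
    (h : WG κ b n) {j : ℕ} (hj : j ≤ n) : κ ^ (999 * j) ≤ κ * (4 * nv (sol b 0 1) j) :=
  (h j hj).trans (mul_le_mul_of_nonneg_left (norm_tr_le_four hκ hb h j hj) (by linarith))

theorem Ricc_sum {κ : ℝ} (hκ : 1000 ≤ κ) {b : ℕ → ℝ} (hb : Bd (κ ^ 1000) b) {n : ℕ}
    (h : WG κ b n) (j d : ℕ) (hd : j + d ≤ n) :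
    |zt (sol b 1 0) (sol b 0 1) (j + d) - zt (sol b 1 0) (sol b 0 1) j| ≤
      32 * κ ^ 3 / (κ ^ (999 * j)) ^ 2 - 32 * κ ^ 3 / (κ ^ (999 * (j + d))) ^ 2 := by
  have hκ0 : 0 < κ := by linarith
  induction d with
  | zero => simp
  | succ d ih =>
    have h1 := ih (by omega)
    have h2 := (zt_step hb (isSol_sol b 1 0) (isSol_sol b 0 1) (Ricc_wr b) (Ricc_w0 b)
      (j + d)).trans (Ricc_inc hκ (Ricc_low hκ hb h (j := j + d) (by omega))
        (Ricc_low hκ hb h (j := j + d + 1) (by omega)))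
    have e1 : κ ^ (999 * (j + (d + 1))) = κ ^ (999 * (j + d)) * κ ^ 999 := by
      rw [← add_assoc, mul_add _ _ 1, mul_one, pow_add]
    have hB : 2 ≤ κ ^ 999 := by
      have := Ricc_big hκ
      have : 1 ≤ κ ^ 3 := one_le_pow₀ (by linarith)
      linarith
    have hA : 0 < κ ^ (999 * (j + d)) := pow_pos hκ0 _
    rw [e1, ← add_assoc]
    generalize κ ^ (999 * (j + d)) = A at *
    generalize κ ^ 999 = B at *
    have h3 : 32 * κ ^ 3 / (A * B) ^ 2 ≤ 16 * κ ^ 3 / A ^ 2 := by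
      rw [div_le_div_iff₀ (by positivity) (by positivity)]
      have h4 : 2 ≤ B ^ 2 := by nlinarith
      calc 32 * κ ^ 3 * A ^ 2 = 16 * κ ^ 3 * (A ^ 2 * 2) := by ring
        _ ≤ 16 * κ ^ 3 * (A ^ 2 * B ^ 2) := by gcongr
        _ = _ := by ring
    have h4 : 32 * κ ^ 3 / A ^ 2 = 2 * (16 * κ ^ 3 / A ^ 2) := by ring
    have h5 := abs_sub_le (zt (sol b 1 0) (sol b 0 1) (j + d + 1))
      (zt (sol b 1 0) (sol b 0 1) (j + d)) (zt (sol b 1 0) (sol b 0 1) j)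
    linarith

theorem Ricc_up {κ : ℝ} {b : ℕ → ℝ} (hb : Bd (κ ^ 1000) b) (j : ℕ) :
    nv (sol b 0 1) j ≤ κ ^ (1000 * j) := by
  have h := nv_add_le hb (isSol_sol b 0 1) 0 j
  rwa [zero_add, nv_basis_zero, mul_one, ← pow_mul] at h

/-- The contracted (Dirichlet) solution of a good stretch.
Recipe: `u = v - zt v w n • w`.  For `1 ≤ j ≤ n`: `u = r_j + (ζ j - ζ n) • w`, so
`nv u j ≤ 1 / nv w j + nv w j * ∑_{j ≤ i < n} K / (nv w i * nv w (i+1))` with `nv w j ≤ κ^(1000 j)`,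
`nv w i ≥ κ^(999 i) / (4 κ)`; the sum is at most `32 κ^3 / κ^(1998 j)` (geometric), total
`≤ 36 κ^3 / κ^(998 j) ≤ 1 / κ^(990 j)`. -/
theorem riccati {κ : ℝ} (hκ : 1000 ≤ κ) {b : ℕ → ℝ} (hb : Bd (κ ^ 1000) b) {n : ℕ}
    (h : WG κ b n) : ∃ u, IsSol b u ∧ u 0 = 1 ∧ u (gi (sol b 0 1) n) = 0 ∧
      (∀ j, 1 ≤ j → j ≤ n → nv u j * κ ^ (990 * j) ≤ 1) ∧ nv u n * nv (sol b 0 1) n ≤ 1 := by
  have hκ0 : 0 < κ := by linarith
  have hv := isSol_sol b 1 0
  have hw := isSol_sol b 0 1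
  have hN := nv_pos hb hw (Ricc_w0 b)
  refine ⟨fun i => sol b 1 0 i - zt (sol b 1 0) (sol b 0 1) n * sol b 0 1 i,
    Ricc_isSol_sub hv hw _, by simp, ?_, fun j hj hjn => ?_, ?_⟩
  · have hq1 : sol b 0 1 (gi (sol b 0 1) n) ≠ 0 := by rw [← abs_pos, abs_gi]; exact hN n
    simp only [zt]
    rw [div_mul_cancel₀ _ hq1, sub_self]
  · have h1 := Ricc_nv_add_le (fun i => sol b 1 0 i - zt (sol b 1 0) (sol b 0 1) j * sol b 0 1 i)
      (sol b 0 1) (zt (sol b 1 0) (sol b 0 1) j - zt (sol b 1 0) (sol b 0 1) n) j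
    have e0 : (fun i => sol b 1 0 i - zt (sol b 1 0) (sol b 0 1) j * sol b 0 1 i +
        (zt (sol b 1 0) (sol b 0 1) j - zt (sol b 1 0) (sol b 0 1) n) * sol b 0 1 i) =
        fun i => sol b 1 0 i - zt (sol b 1 0) (sol b 0 1) n * sol b 0 1 i := by
      funext i; ring
    rw [e0] at h1
    have h2 := zt_res hb hv hw (Ricc_wr b) (Ricc_w0 b) j
    have h3 := Ricc_sum hκ hb h j (n - j) (by omega)
    rw [show j + (n - j) = n by omega, abs_sub_comm] at h3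
    have h4 : |zt (sol b 1 0) (sol b 0 1) j - zt (sol b 1 0) (sol b 0 1) n| ≤
        32 * κ ^ 3 / (κ ^ (999 * j)) ^ 2 := by
      have : 0 ≤ 32 * κ ^ 3 / (κ ^ (999 * n)) ^ 2 := by positivity
      linarith
    have h5 := Ricc_low hκ hb h hjn
    have h6 := Ricc_up hb j
    have hC : κ ≤ κ ^ j := le_self_pow₀ (by linarith) (by omega)
    have e1 : κ ^ (999 * j) = κ ^ (990 * j) * (κ ^ j) ^ 9 := by
      rw [← pow_mul, ← pow_add]; congr 1; omega
    have e2 : κ ^ (1000 * j) = κ ^ (990 * j) * (κ ^ j) ^ 10 := by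
      rw [← pow_mul, ← pow_add]; congr 1; omega
    rw [e1] at h4 h5
    rw [e2] at h6
    have hD : 0 < κ ^ (990 * j) := pow_pos hκ0 _
    have hx := hN j
    generalize κ ^ (990 * j) = D at *
    generalize κ ^ j = C at *
    generalize nv (sol b 0 1) j = x at *
    have hC0 : 0 < C := by linarith
    have hC4 : 1000 * κ ^ 3 ≤ C ^ 8 := by
      have a1 : κ ^ 3 ≤ C ^ 3 := by gcongr
      have a2 : C ^ 4 ≤ C ^ 8 := pow_le_pow_right₀ (by linarith) (by norm_num)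
      have a3 : C ^ 4 = C * C ^ 3 := by ring
      have a4 : 1000 * C ^ 3 ≤ C * C ^ 3 := by gcongr; linarith
      linarith
    have h7 : 1 / x * D ≤ 1 / 2 := by
      rw [one_div_mul_eq_div, div_le_div_iff₀ hx (by norm_num)]
      refine le_of_mul_le_mul_left ?_ hκ0
      have a1 : C ^ 8 ≤ C ^ 9 := pow_le_pow_right₀ (by linarith) (by norm_num)
      have a2 : κ ≤ κ ^ 3 := le_self_pow₀ (by linarith) (by norm_num)
      have a3 : D * (8 * κ * κ) ≤ D * (C ^ 9 * κ) := by gcongr; linarith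
      have a4 : D * (8 * κ) ≤ D * C ^ 9 := by gcongr; linarith
      linarith
    have h8 : 32 * κ ^ 3 / (D * C ^ 9) ^ 2 * (D * C ^ 10) * D ≤ 1 / 2 := by
      have : 32 * κ ^ 3 / (D * C ^ 9) ^ 2 * (D * C ^ 10) * D = 32 * κ ^ 3 / C ^ 8 := by
        field_simp
      rw [this, div_le_div_iff₀ (by positivity) (by norm_num)]
      have : 0 < κ ^ 3 := by positivity
      linarith
    have h9 := mul_le_mul h4 h6 hx.le (by positivity)
    calc _ ≤ (1 / x + 32 * κ ^ 3 / (D * C ^ 9) ^ 2 * (D * C ^ 10)) * D :=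
          mul_le_mul_of_nonneg_right (by linarith) hD.le
      _ ≤ 1 := by rw [add_mul]; linarith
  · have h2 := zt_res hb hv hw (Ricc_wr b) (Ricc_w0 b) n
    rwa [le_div_iff₀ (hN n)] at h2

/-- A solution that does not grow along a good stretch decays.
Recipe: `u = u 0 • r + β • w` with `r` from `riccati` (`IsSol.unique`, `β = u 1 - u 0 * r 1`);
at time `n`: `|β| * nv w n ≤ nv u n + |u 0| * nv r n ≤ 2 ρ * nv u 0` (`nv w n ≥ 1`, as
`nv w n ≥ κ^(999 n) / (4 κ)` for `n ≥ 1`), and `nv w m ≤ κ^(1000 m)`. -/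
theorem decay {κ : ℝ} (hκ : 1000 ≤ κ) {b u : ℕ → ℝ} (hb : Bd (κ ^ 1000) b) {n m : ℕ}
    (h : WG κ b n) (hu : IsSol b u) (hm : 1 ≤ m) (hmn : m ≤ n) {ρ : ℝ} (hρ : 1 ≤ ρ)
    (hn : nv u n ≤ ρ * nv u 0) :
    nv u m ≤ (1 / κ ^ (990 * m) + 8 * ρ * κ * κ ^ (1000 * m) / κ ^ (999 * n)) * nv u 0 := by
  have hκ0 : 0 < κ := by linarith
  obtain ⟨r, hr, hr0, hrG, hr1, -⟩ := riccati hκ hb h
  have hw := isSol_sol b 0 1
  have e : u = fun i => u 0 * r i + (u 1 - u 0 * r 1) * sol b 0 1 i :=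
    hu.unique (hr.lin hw _ _) (by simp [hr0]) (by simp)
  have h1 := nv_lin_le r (sol b 0 1) (u 0) (u 1 - u 0 * r 1) m
  rw [← e] at h1
  have h2 : |u 1 - u 0 * r 1| * nv (sol b 0 1) n ≤ ρ * nv u 0 := by
    have h3 := congrFun e (gi (sol b 0 1) n)
    simp only [hrG, mul_zero, zero_add] at h3
    rw [← abs_gi, ← abs_mul, ← h3]
    exact (Ricc_abs_gi_le _ _ _).trans hn
  have h3 := Ricc_low hκ hb h le_rfl
  have h4 := Ricc_up hb m
  have h5 := hr1 m hm hmn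
  have h6 := abs_le_nv u 0
  have hD : 0 < κ ^ (990 * m) := pow_pos hκ0 _
  have hA : 0 < κ ^ (999 * n) := pow_pos hκ0 _
  have hE : 0 < κ ^ (1000 * m) := pow_pos hκ0 _
  have hN := nv_nonneg u 0
  rw [← le_div_iff₀ hD] at h5
  have h7 : |u 1 - u 0 * r 1| ≤ 8 * ρ * κ * nv u 0 / κ ^ (999 * n) := by
    rw [le_div_iff₀ hA]
    calc _ ≤ |u 1 - u 0 * r 1| * (κ * (4 * nv (sol b 0 1) n)) := by gcongr
      _ = 4 * κ * (|u 1 - u 0 * r 1| * nv (sol b 0 1) n) := by ring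
      _ ≤ 4 * κ * (ρ * nv u 0) := by gcongr
      _ ≤ 8 * κ * (ρ * nv u 0) := by gcongr; norm_num
      _ = _ := by ring
  have h8 := mul_le_mul h6 h5 (nv_nonneg _ _) hN
  have h9 := mul_le_mul h7 h4 (nv_nonneg _ _) (by positivity)
  refine h1.trans ((add_le_add h8 h9).trans (le_of_eq ?_))
  generalize κ ^ (990 * m) = D
  generalize κ ^ (999 * n) = A
  generalize κ ^ (1000 * m) = E
  ring

end Crest.Agent.R128
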