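import Crest.Agent.R128.Scale2
import Crest.Agent.R128.Levels
import Crest.Agent.R128.Meas

/-! Row 128: resonances are exponentially rare. -/

set_option autoImplicit false

namespace Crest.Agent.R128

open Real MeasureTheory Set

theorem ind_mono {P Q : Prop} (h : P → Q) : ind P ≤ ind Q := by
  by_cases hP : P
  · rw [ind_pos hP, ind_pos (h hP)]
  · rw [ind_neg hP]; exact ind_nonneg _

theorem rigid : ∃ ε : ℝ, 0 < ε ∧ ε ≤ 1 / 1000 ∧ ∃ c : ℝ, 0 < c ∧ ∃ (T₀ : ℕ) (κ₀ : ℝ),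
    ∀ κ k : ℝ, κ₀ ≤ κ → κ ^ 1000 = 2 * π * k + 3 → ∀ T : ℕ, T₀ ≤ T →
      (Psq {p | RE (κ ^ 1000) ε T (rb k p.1 p.2) (rb k p.2 p.1)}).toReal ≤ 2 * exp (-(c * T)) := by
  obtain ⟨c, hc0, hc1, κ₁, H⟩ := level_hole
  refine ⟨c / 400000, by positivity, by linarith, c / 240, by positivity,
    max 300 ⌈400000 / c⌉₊, max κ₁ 1000, fun κ k hκ0 hK T hT => ?_⟩
  simp only [max_le_iff] at hκ0 hT
  obtain ⟨hκa, hκ⟩ := hκ0
  obtain ⟨hT1, hT2⟩ := hT
  replace H := H κ k hκa hK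
  have hT3 : 400000 ≤ T * c := (div_le_iff₀ hc0).1 (Nat.ceil_le.1 hT2)
  obtain ⟨ns, hns, hns'⟩ : ∃ ns : ℕ, κ ^ 6000 ≤ 2 ^ ns ∧ (2 : ℝ) ^ ns ≤ 2 * κ ^ 6000 := by
    obtain ⟨n, h1, h2⟩ := exists_nat_pow_near (x := κ ^ 6000) (y := 2)
      (one_le_pow₀ (by linarith)) (by norm_num)
    exact ⟨n + 1, h2.le, by rw [pow_succ]; linarith⟩
  have hm : (T : ℝ) ≤ 60 * (T / 30 : ℕ) := by exact_mod_cast (by omega : T ≤ 60 * (T / 30))
  set A := {p : ℝ × ℝ | RE1 (κ ^ 1000) (c / 400000) T (rb k p.1 p.2) (rb k p.2 p.1)} with hA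
  have hAm : MeasurableSet A :=
    ((continuous_rb k).prodMk (continuous_rb' k)).measurable (measurableSet_RE1 _ _ _)
  have hsec : ∀ ξ : ℝ, volume ({t | (ξ, t) ∈ A} ∩ Ico 0 1) ≤
      ENNReal.ofReal (exp (-(c / 240 * T))) := by
    intro ξ
    set S : Side := ⟨ξ, 0, 0, 1⟩ with hS
    have hS1 : max |S.w0| |S.w1| = 1 := by simp [hS]
    have hb : ∀ s, S.b k s = rb k ξ s := fun s => by simp [hS, Side.b]
    have hb' : ∀ s, S.rev.b k s = rb k s ξ := fun s => by simp [hS, Side.b, Side.rev]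
    have h1 := dy_martingale hc0 hc1 ns (T / 30)
      (fun i => {s | (ξ, s) ∈ A ∧ Lvl κ k S T (ns * i) s}) fun i _ j =>
        H S T (ns * i) (ns * (i + 1)) _ hS1
          (by rw [mul_add, mul_one, pow_add, mul_comm]; gcongr) (fun s hs => hs.2) j
    refine le_trans (measure_mono ?_) (h1.trans (ENNReal.ofReal_le_ofReal (exp_le_exp.2 ?_)))
    · rintro s ⟨hs, hs'⟩
      refine ⟨hs', ?_⟩
      have hs0 := hs
      obtain ⟨d1, d2, p, hp, t1, t2⟩ := hs
      rw [norm_tr_apply] at t1 t2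
      have h2 := count_levels hκ hK (ε := c / 400000) (by positivity) (by linarith) S hS1 s
        (T := T) (m := T / 30) hT1 (by omega) hns hns' (isSol_sol (S.b k s) 1 p)
        (isSol_sol (S.rev.b k s) p 1) rfl rfl (by simp [nv, hp]) (by simp [wr, Side.w, hS])
        (by rw [hb]; exact t1) (by rw [hb']; exact t2) (by rw [hb]; exact d1)
        (by rw [hb']; exact d2)
      refine le_trans (le_trans (Finset.sum_le_sum fun i _ => ?_) h2) ?_
      · exact ind_mono fun h hL => h <| mem_biUnion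
          (show s ∈ {s | (ξ, s) ∈ A ∧ Lvl κ k S T (ns * i) s} from ⟨hs0, hL⟩) (mem_cell _ s)
      · nlinarith
    · nlinarith
  have hA1 : Psq A ≤ ENNReal.ofReal (exp (-(c / 240 * T))) := by
    rw [Psq_apply hAm]
    refine (lintegral_mono hsec).trans ?_
    simp
  have hU : {p : ℝ × ℝ | RE (κ ^ 1000) (c / 400000) T (rb k p.1 p.2) (rb k p.2 p.1)} =
      A ∪ Prod.swap ⁻¹' A := by
    ext p; exact RE_iff _ _ _ _ _
  refine ENNReal.toReal_le_of_le_ofReal (by positivity) ?_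
  rw [hU, two_mul, ENNReal.ofReal_add (by positivity) (by positivity)]
  refine (measure_union_le _ _).trans (add_le_add hA1 ?_)
  rw [measurePreserving_swap_Psq.measure_preimage hAm.nullMeasurableSet]
  exact hA1

end Crest.Agent.R128
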