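import Crest.Agent.R128.OS
import Crest.Agent.R128.LemH

/-! Row 128: one scale: a hole or a resonance. -/

set_option autoImplicit false

namespace Crest.Agent.R128

open Real MeasureTheory Set

theorem sc1_sign {w : ℝ} : ∃ σ : ℝ, (σ = 1 ∨ σ = -1) ∧ σ * |w| = w ∧ σ * w = |w| := by
  rcases le_total 0 w with h | h
  · exact ⟨1, Or.inl rfl, by rw [abs_of_nonneg h, one_mul], by rw [abs_of_nonneg h, one_mul]⟩
  · exact ⟨-1, Or.inr rfl, by rw [abs_of_nonpos h]; ring, by rw [abs_of_nonpos h]; ring⟩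

theorem sc1_le_pow {κ : ℝ} (hκ : 1000 ≤ κ) {n : ℕ} (hn : n ≠ 0) : κ ≤ κ ^ n :=
  le_self_pow₀ (by linarith) hn

theorem sc1_abs {A c c' g K e1 e2 : ℝ} (hA : 1 ≤ A) (hc : 1 / 3 ≤ A * |c|)
    (h1 : |g * (2 + K * c) - 1| ≤ e1) (h2 : |g| ≤ e1) (h3 : |c - c'| ≤ 13 * e2)
    (h4 : e1 * A ≤ 1 / 1000) (h5 : e2 * A ^ 2 ≤ 1 / 10000) :
    c' ≠ 0 ∧ |K * g - 1 / c'| ≤ 1 / 4 := by
  have he2 : 0 ≤ e2 := by linarith [abs_nonneg (c - c')]
  have he1 : 0 ≤ e1 := (abs_nonneg _).trans h2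
  have h6 : |c| - 13 * e2 ≤ |c'| := by linarith [abs_sub_abs_le_abs_sub c c']
  have h7 : e2 * A ≤ e2 * A ^ 2 := mul_le_mul_of_nonneg_left (by nlinarith) he2
  have hc' : 1 / 4 ≤ A * |c'| := by nlinarith
  have hc0 : 0 < |c| := by
    by_contra h
    have : |c| = 0 := le_antisymm (not_lt.1 h) (abs_nonneg _)
    rw [this] at hc
    linarith
  have hc0' : 0 < |c'| := by
    by_contra h
    have : |c'| = 0 := le_antisymm (not_lt.1 h) (abs_nonneg _)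
    rw [this] at hc'
    linarith
  have hi : |1 / c| ≤ 3 * A := by
    rw [abs_div, abs_one, div_le_iff₀ hc0]
    linarith
  have hi' : |1 / c'| ≤ 4 * A := by
    rw [abs_div, abs_one, div_le_iff₀ hc0']
    linarith
  have hcn := abs_pos.1 hc0
  have hcn' := abs_pos.1 hc0'
  refine ⟨hcn', ?_⟩
  have e : K * g - 1 / c' =
      (g * (2 + K * c) - 1 - 2 * g) * (1 / c) + (c' - c) * (1 / c) * (1 / c') := by
    field_simp
    ring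
  have b1 : |g * (2 + K * c) - 1 - 2 * g| ≤ 3 * e1 := by
    refine (abs_sub _ _).trans ?_
    rw [abs_mul, abs_two]
    linarith
  have b2 : |(g * (2 + K * c) - 1 - 2 * g) * (1 / c)| ≤ 3 * e1 * (3 * A) := by
    rw [abs_mul]
    exact mul_le_mul b1 hi (abs_nonneg _) (by positivity)
  have b3 : |(c' - c) * (1 / c) * (1 / c')| ≤ 13 * e2 * (3 * A) * (4 * A) := by
    rw [abs_mul, abs_mul, abs_sub_comm]
    exact mul_le_mul (mul_le_mul h3 hi (abs_nonneg _) (by positivity)) hi' (abs_nonneg _)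
      (by positivity)
  rw [e]
  refine (abs_add_le _ _).trans ?_
  nlinarith

/-- the boundary term is the pole `1 / cos`. -/
theorem sc1_pole {κ k : ℝ} (hκ : 1000 ≤ κ) (hK : κ ^ 1000 = 2 * π * k + 3) {b v w : ℕ → ℝ}
    {ϖ : ℝ} (hϖ : |ϖ| = 1) {ω : ℕ} (hc : Cl κ b v w ϖ ω) {x x' : ℝ} (hb : b (ω + 1) = ac k x)
    (hx : |x - x'| ≤ 2 / κ ^ 500) :
    v ω ≠ 0 ∧ cos (2 * π * x') ≠ 0 ∧
      |2 * π * k * (v (ω + 1) / v ω) - 1 / cos (2 * π * x')| ≤ 1 / 4 := by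
  have hκ0 : 0 < κ := by linarith
  obtain ⟨hk1, hk2, -⟩ := k_facts hκ hK
  have hv : v ω ≠ 0 := fun h => by
    have h1 := hc.uw
    rw [h, zero_mul, zero_sub, abs_neg, hϖ, le_div_iff₀ (by positivity)] at h1
    linarith [sc1_le_pow hκ (n := 900) (by norm_num)]
  have hv' : 0 < |v ω| := abs_pos.2 hv
  refine ⟨hv, sc1_abs (A := κ ^ 10) (c := cos (2 * π * x)) (e1 := 1 / κ ^ 900) (e2 := 1 / κ ^ 500)
    (one_le_pow₀ (by linarith)) ?_ ?_ ?_ ?_ ?_ ?_⟩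
  · have h1 := hc.big
    rw [hb, ac] at h1
    have h2 := abs_add_le 2 (2 * π * k * cos (2 * π * x))
    rw [abs_two, abs_mul, abs_of_nonneg (show 0 ≤ 2 * π * k by positivity)] at h2
    have h3 := mul_le_mul_of_nonneg_right hk2 (abs_nonneg (cos (2 * π * x)))
    have h4 : κ ^ 1000 = κ ^ 990 * κ ^ 10 := by rw [← pow_add]
    have h5 := sc1_le_pow hκ (n := 990) (by norm_num)
    rw [h4, mul_assoc (κ ^ 990)] at h3
    generalize κ ^ 10 * |cos (2 * π * x)| = B at *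
    generalize κ ^ 990 = L at *
    by_contra h
    push Not at h
    nlinarith
  · have h1 := hc.ratio
    rw [hb, ac] at h1
    have e : v (ω + 1) / v ω * (2 + 2 * π * k * cos (2 * π * x)) - 1 =
        (v (ω + 1) * (2 + 2 * π * k * cos (2 * π * x)) - v ω) / v ω := by field_simp
    rw [e, abs_div, div_le_iff₀ hv', one_div, ← div_eq_inv_mul]
    exact h1
  · rw [abs_div, div_le_iff₀ hv', one_div, ← div_eq_inv_mul]
    exact hc.small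
  · refine (abs_cos_sub_cos_le _ _).trans ?_
    rw [← mul_sub, abs_mul, abs_of_pos (show 0 < 2 * π by positivity)]
    have h1 : 2 / κ ^ 500 = 2 * (1 / κ ^ 500) := by ring
    have h2 : 0 < 1 / κ ^ 500 := by positivity
    rw [h1] at hx
    nlinarith [pi_lt_d2, pi_pos, abs_nonneg (x - x')]
  · have h4 : κ ^ 900 = κ ^ 890 * κ ^ 10 := by rw [← pow_add]
    have h5 := sc1_le_pow hκ (n := 890) (by norm_num)
    have h6 : 1 / κ ^ 900 * κ ^ 10 = 1 / κ ^ 890 := by rw [h4]; field_simp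
    rw [h6]
    exact one_div_le_one_div_of_le (by norm_num) (by linarith)
  · have h4 : κ ^ 500 = (κ ^ 240 * κ ^ 240) * (κ ^ 10) ^ 2 := by rw [← pow_mul, ← pow_add, ← pow_add]
    have h5 := sc1_le_pow hκ (n := 240) (by norm_num)
    have h6 : 1 / κ ^ 500 * (κ ^ 10) ^ 2 = 1 / (κ ^ 240 * κ ^ 240) := by rw [h4]; field_simp
    rw [h6]
    exact one_div_le_one_div_of_le (by norm_num) (by nlinarith)

/-- the coordinate at a clean index is almost affine on the interval. -/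
theorem sc1_slope {κ k : ℝ} (hκ : 1000 ≤ κ) (hK : κ ^ 1000 = 2 * π * k + 3) (S : Side)
    {s0 a d ϖ : ℝ} {u : ℕ → ℝ} {ω : ℕ} (hc : Cl κ (S.b k s0) u (S.w k s0) ϖ ω)
    (hs0 : s0 ∈ Icc a (a + d)) (hd : d * |S.w k s0 (ω + 1)| ≤ κ ^ 600) :
    ∀ s ∈ Icc a (a + d), ∀ t ∈ Icc a (a + d),
      |S.x k t (ω + 1) - S.x k s (ω + 1) - S.w k s0 (ω + 1) * (t - s)| ≤
        |S.w k s0 (ω + 1)| / κ ^ 300 * |t - s| :=
  sub_le_of_deriv (φ := fun s => S.x k s (ω + 1)) (φ' := fun s => S.w k s (ω + 1))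
    (fun t _ => S.hasDerivAt_x k t _) fun t ht =>
      (S.env_w hκ hK s0 hc.pos hc.env (by linarith [hc.one_le])
        (le_trans (mul_le_mul_of_nonneg_right
          (abs_le.2 ⟨by linarith [ht.1, hs0.2], by linarith [ht.2, hs0.1]⟩) (abs_nonneg _)) hd)).1

theorem sc1_move {κ : ℝ} (hκ : 1000 ≤ κ) {x y w s t ρ Λ : ℝ}
    (h : |y - x - w * (t - s)| ≤ |w| / κ ^ 300 * |t - s|) (hst : |s - t| ≤ ρ) (hw : |w| ≤ Λ)
    (hρ : ρ * Λ * κ ^ 500 ≤ 1) : |x - y| ≤ 2 / κ ^ 500 := by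
  have hκ0 : 0 < κ := by linarith
  have h1 : |w| / κ ^ 300 ≤ |w| := div_le_self (abs_nonneg _) (one_le_pow₀ (by linarith))
  have h2 := abs_add_le (y - x - w * (t - s)) (w * (t - s))
  rw [sub_add_cancel, abs_mul] at h2
  rw [abs_sub_comm] at hst
  have h3 := mul_le_mul_of_nonneg_right h1 (abs_nonneg (t - s))
  have h4 : |w| * |t - s| ≤ Λ * ρ :=
    mul_le_mul hw hst (abs_nonneg _) ((abs_nonneg _).trans hw)
  rw [abs_sub_comm, le_div_iff₀ (by positivity)]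
  have h5 : |y - x| ≤ 2 * (ρ * Λ) := by linarith
  have h6 := mul_le_mul_of_nonneg_right h5 (show 0 ≤ κ ^ 500 by positivity)
  linarith

/-- combination of the two one-sided equations. -/
theorem sc1_match {κ K ϖ ζ Q₁ Q₂ w₁ w₂ μ g₁ g₂ c₁ c₂ : ℝ} (hκ : 1000 ≤ κ) (hK0 : 0 ≤ K)
    (hK : K ≤ κ ^ 1000) (hϖ : |ϖ| = 1) (hμ1 : 1 ≤ μ) (hμ : μ ≤ κ ^ 500)
    (hw : w₂ ^ 2 = μ ^ 2 * w₁ ^ 2) (h₁ : |w₁ ^ 2 * (ζ - Q₁) - ϖ * g₁| ≤ 8 ^ 3 / κ ^ 1700)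
    (h₂ : |w₂ ^ 2 * (ζ - Q₂) - -ϖ * g₂| ≤ (8 * μ) ^ 3 / κ ^ 1700)
    (p₁ : |K * g₁ - 1 / c₁| ≤ 1 / 4) (p₂ : |K * g₂ - 1 / c₂| ≤ 1 / 4) :
    |K * w₁ ^ 2 * ϖ * (Q₂ - Q₁) - 1 / c₁ - 1 / (μ ^ 2 * c₂)| ≤ 1 := by
  have hκ0 : 0 < κ := by linarith
  have hμ0 : 0 < μ := by linarith
  have hϖ2 : ϖ ^ 2 = 1 := by rw [← sq_abs, hϖ, one_pow]
  have e : K * w₁ ^ 2 * ϖ * (Q₂ - Q₁) - 1 / c₁ - 1 / (μ ^ 2 * c₂) =
      K * ϖ * (w₁ ^ 2 * (ζ - Q₁) - ϖ * g₁) -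
        K * ϖ * (w₂ ^ 2 * (ζ - Q₂) - -ϖ * g₂) * (1 / μ ^ 2) + (K * g₁ - 1 / c₁) +
        (K * g₂ - 1 / c₂) * (1 / μ ^ 2) := by
    have h1 : μ ^ 2 * (1 / μ ^ 2) = 1 := by field_simp
    have h2 : 1 / (μ ^ 2 * c₂) = 1 / c₂ * (1 / μ ^ 2) := by rw [one_div_mul_one_div, mul_comm]
    rw [hw, h2]
    linear_combination (K * ϖ * w₁ ^ 2 * (ζ - Q₂)) * h1 + (K * g₁ + K * g₂ * (1 / μ ^ 2)) * hϖ2
  have hKϖ : |K * ϖ| ≤ κ ^ 1000 := by rwa [abs_mul, hϖ, mul_one, abs_of_nonneg hK0]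
  have hi : 1 / μ ^ 2 ≤ 1 := by
    rw [div_le_one (by positivity)]
    exact one_le_pow₀ hμ1
  have hi0 : 0 < 1 / μ ^ 2 := by positivity
  have h4 : κ ^ 1700 = κ ^ 1000 * κ ^ 500 * (κ ^ 100 * κ ^ 100) := by
    rw [← pow_add, ← pow_add, ← pow_add]
  have h5 := sc1_le_pow hκ (n := 100) (by norm_num)
  have h6 : κ ^ 1000 * (8 ^ 3 * κ ^ 500 / κ ^ 1700) ≤ 1 / 4 := by
    have : κ ^ 1000 * (8 ^ 3 * κ ^ 500 / κ ^ 1700) = 8 ^ 3 / (κ ^ 100 * κ ^ 100) := by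
      rw [h4]; field_simp
    rw [this, div_le_iff₀ (by positivity)]
    nlinarith
  have b1 : |K * ϖ * (w₁ ^ 2 * (ζ - Q₁) - ϖ * g₁)| ≤ 1 / 4 := by
    rw [abs_mul]
    refine le_trans (mul_le_mul hKϖ (h₁.trans ?_) (abs_nonneg _) (by positivity)) h6
    exact div_le_div_of_nonneg_right (le_mul_of_one_le_right (by norm_num) (hμ1.trans hμ))
      (by positivity)
  have b2 : |K * ϖ * (w₂ ^ 2 * (ζ - Q₂) - -ϖ * g₂) * (1 / μ ^ 2)| ≤ 1 / 4 := by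
    rw [mul_assoc, abs_mul]
    refine le_trans (mul_le_mul hKϖ ?_ (abs_nonneg _) (by positivity)) h6
    rw [abs_mul, abs_of_pos hi0]
    refine (mul_le_mul_of_nonneg_right h₂ hi0.le).trans ?_
    have : (8 * μ) ^ 3 / κ ^ 1700 * (1 / μ ^ 2) = 8 ^ 3 * μ / κ ^ 1700 := by field_simp
    rw [this]
    exact div_le_div_of_nonneg_right (mul_le_mul_of_nonneg_left hμ (by norm_num)) (by positivity)
  have b4 : |(K * g₂ - 1 / c₂) * (1 / μ ^ 2)| ≤ 1 / 4 := by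
    rw [abs_mul, abs_of_pos hi0]
    exact (mul_le_of_le_one_right (abs_nonneg _) hi).trans p₂
  rw [e]
  have := abs_le.1 b1
  have := abs_le.1 b2
  have := abs_le.1 p₁
  have := abs_le.1 b4
  rw [abs_le]
  constructor <;> linarith

theorem sc1_vol {a Λ d η : ℝ} (hΛ : 0 < Λ) (hη : 0 < η) (hd : d * Λ ≤ 8) (F : Set ℝ)
    (h : ENNReal.ofReal (η / 4) ≤ volume (Icc 0 (d * Λ) \ {τ | a + τ / Λ ∈ F})) :
    ENNReal.ofReal (η / 32 * d) ≤ volume (Icc a (a + d) \ F) := by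
  have e : Icc 0 (d * Λ) \ {τ | a + τ / Λ ∈ F} =
      (fun τ => τ * Λ⁻¹) ⁻¹' ((fun x => a + x) ⁻¹' (Icc a (a + d) \ F)) := by
    ext τ
    simp only [mem_sdiff, mem_Icc, mem_ofPred_eq, mem_preimage, ← div_eq_mul_inv,
      le_add_iff_nonneg_right, add_le_add_iff_left, div_le_iff₀ hΛ, le_div_iff₀ hΛ, zero_mul]
  rw [e, Real.volume_preimage_mul_right (inv_ne_zero hΛ.ne'), measure_preimage_add, inv_inv,
    abs_of_pos hΛ] at h
  calc ENNReal.ofReal (η / 32 * d) ≤ ENNReal.ofReal (Λ⁻¹ * (η / 4)) := by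
        refine ENNReal.ofReal_le_ofReal ?_
        rw [le_inv_mul_iff₀ hΛ]
        nlinarith
    _ = ENNReal.ofReal Λ⁻¹ * ENNReal.ofReal (η / 4) := ENNReal.ofReal_mul (by positivity)
    _ ≤ ENNReal.ofReal Λ⁻¹ * (ENNReal.ofReal Λ * volume (Icc a (a + d) \ F)) := by gcongr
    _ = _ := by
        rw [← mul_assoc, ← ENNReal.ofReal_mul (by positivity), inv_mul_cancel₀ hΛ.ne',
          ENNReal.ofReal_one, one_mul]

/-- the case `Λ₁ ≤ Λ₂`.  Recipe: `Λ₁ = |S.w k s0 (ω+1)|`, `μ = Λ₂ / Λ₁`, rescale `s = a + t / Λ₁`,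
`M = d Λ₁`, `Y t = S.x k s (ω+1)`, `X t = S.rev.x k s (α+1)`, `σY, σX` the signs of the two `w`'s;
the slope hypotheses of `lemH` follow from `hasDerivAt_x`, `env_w`, `sub_le_of_deriv`
(`κ^300 ≥ 1/η²`).  `one_sided` on both sides (`ρ = 8` and `ρ = 8 μ ≤ κ^600`) for the reference
solutions `u, u'` of `Pt … s0`.  At a point `s` with `Pt`, solutions `v, v'`: the two quotients
agree (`wr v' w' 0 = - wr v w 0`, `wr u' v' 0 = - wr u v 0`), so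
`ϖ (Q₂ s - Q₁ s) = g₁ / Λ₁² + g₂ / Λ₂² + err`; multiply by `2πk Λ₁²` (error `≤ 1000 κ^(-200)`),
`g b = 1 ± κ^(-900)` (`Cl.ratio`), `|b| ≥ κ^990 / 2`, `b = 2 + 2πk cos`, so
`2πk g = 1 / cos ± κ^(-800)`, `|cos| ≥ κ^(-10) / 3`; moving from `s` to `t` changes the coordinates
by at most `2 κ^(-500)`.  Volumes scale by `1 / Λ₁ ≥ d / 8` (`Real.volume_preimage_mul_left`,
or `Measure.addHaar_image_homothety`-type lemmas; `F` need not be measurable: use the image of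
sets under the affine map). -/
theorem scale_aux : ∃ C₀ : ℝ, 1 ≤ C₀ ∧ ∃ η₀ : ℝ, 0 < η₀ ∧ ∀ η : ℝ, 0 < η → η ≤ η₀ →
    ∃ κ₀ : ℝ, ∀ κ k : ℝ, κ₀ ≤ κ → κ ^ 1000 = 2 * π * k + 3 →
    ∀ (S : Side) (ϖ : ℝ) (ω α : ℕ) (s0 a d ρ : ℝ) (F : Set ℝ), |ϖ| = 1 → s0 ∈ Icc a (a + d) →
      Pt κ k S s0 ϖ ω α → |S.w k s0 (ω + 1)| ≤ |S.rev.w k s0 (α + 1)| →
      |S.rev.w k s0 (α + 1)| ≤ κ ^ 500 * |S.w k s0 (ω + 1)| →
      4 ≤ d * |S.w k s0 (ω + 1)| → d * |S.w k s0 (ω + 1)| ≤ 8 →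
      ρ * |S.rev.w k s0 (α + 1)| * κ ^ 500 ≤ 1 →
      (∀ t ∈ F, t ∈ Icc a (a + d) → ∃ s ∈ Icc a (a + d), |s - t| ≤ ρ ∧ Pt κ k S s ϖ ω α) →
      ENNReal.ofReal (η / 32 * d) ≤ volume (Icc a (a + d) \ F) ∨
        (|S.rev.w k s0 (α + 1)| ≤ (1 + C₀ * η) * |S.w k s0 (ω + 1)| ∧
          ∃ (σ : ℝ) (n : ℤ), (σ = 1 ∨ σ = -1) ∧
            0 < σ * (S.w k s0 (ω + 1) * S.rev.w k s0 (α + 1)) ∧ ∀ t ∈ Icc a (a + d),
              |S.rev.x k t (α + 1) - 1 / 2 - σ * S.x k t (ω + 1) - n| ≤ C₀ * η) := by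
  obtain ⟨C₀, hC₀, η₀, hη₀, hH⟩ := lemH
  refine ⟨C₀, hC₀, η₀, hη₀, fun η hη hηη => ⟨max 1000 (1 / η ^ 2), ?_⟩⟩
  intro κ k hκ₀ hK S ϖ ω α s0 a d ρ F hϖ hs0 hPt h12 h21 hd4 hd8 hρ hF
  have hκ : 1000 ≤ κ := (le_max_left _ _).trans hκ₀
  have hκ0 : 0 < κ := by linarith
  have hη2 : 1 / κ ^ 300 ≤ η ^ 2 := by
    have h1 := ((le_max_right _ _).trans hκ₀).trans (sc1_le_pow hκ (n := 300) (by norm_num))
    rwa [one_div_le (by positivity) (by positivity)]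
  obtain ⟨hk1, hk2, -⟩ := k_facts hκ hK
  obtain ⟨u, u', hu, hu', h0, h1, huw, hc, hc'⟩ := hPt
  have huw' : wr u' (S.rev.w k s0) 0 = -ϖ := by
    rw [← huw]
    simp only [wr, Side.w, Side.rev, zero_add, sol_zero, sol_one, h0, h1]
    ring
  have hΛ := hc.pos
  have hΛ' := hc'.pos
  have h8 : 8 * κ ^ 500 ≤ κ ^ 600 := by
    have h4 : κ ^ 600 = κ ^ 100 * κ ^ 500 := by rw [← pow_add]
    rw [h4]
    exact mul_le_mul_of_nonneg_right (by linarith [sc1_le_pow hκ (n := 100) (by norm_num)])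
      (by positivity)
  have h500 : 1000 ≤ κ ^ 500 := hκ.trans (sc1_le_pow hκ (by norm_num))
  obtain ⟨σY, hσY, hσY1, hσY2⟩ := sc1_sign (w := S.w k s0 (ω + 1))
  obtain ⟨σX, hσX, hσX1, hσX2⟩ := sc1_sign (w := S.rev.w k s0 (α + 1))
  have hslY := sc1_slope hκ hK S hc hs0 (by linarith)
  set w₁ := S.w k s0 (ω + 1) with hw₁
  set w₂ := S.rev.w k s0 (α + 1) with hw₂
  set μ : ℝ := |w₂| / |w₁| with hμ
  have hμΛ : μ * |w₁| = |w₂| := div_mul_cancel₀ _ hΛ.ne'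
  have hμ1 : 1 ≤ μ := (one_le_div hΛ).2 h12
  have hμ2 : μ ≤ κ ^ 500 := (div_le_iff₀ hΛ).2 h21
  have hd2 : d * |w₂| ≤ 8 * μ := by
    rw [← hμΛ]
    nlinarith
  have hslX := sc1_slope hκ hK S.rev hc' hs0 (by rw [← hw₂]; linarith)
  rw [← hw₂] at hslX
  obtain ⟨q0, q1, q2, hq⟩ := one_sided hκ hK S s0 hu hϖ huw hc (ρ := 8) (by norm_num)
    (by linarith)
  obtain ⟨p0, p1, p2, hp⟩ := one_sided hκ hK S.rev s0 hu' (by rw [abs_neg, hϖ]) huw' hc'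
    (ρ := 8 * μ) (by linarith) (by linarith)
  rw [← hw₁] at hq
  rw [← hw₂] at hp
  have hmem : ∀ τ ∈ Icc 0 (d * |w₁|), a + τ / |w₁| ∈ Icc a (a + d) := fun τ hτ =>
    ⟨le_add_of_nonneg_right (div_nonneg hτ.1 hΛ.le),
      add_le_add_right ((div_le_iff₀ hΛ).2 hτ.2) a⟩
  have hmem' : ∀ s ∈ Icc a (a + d), (s - a) * |w₁| ∈ Icc 0 (d * |w₁|) := fun s hs =>
    ⟨mul_nonneg (sub_nonneg.2 hs.1) hΛ.le,
      mul_le_mul_of_nonneg_right (by linarith [hs.2]) hΛ.le⟩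
  have hback : ∀ s, a + (s - a) * |w₁| / |w₁| = s := fun s => by
    rw [mul_div_cancel_right₀ _ hΛ.ne', add_sub_cancel]
  have hdiff : ∀ s t : ℝ, a + t / |w₁| - (a + s / |w₁|) = (t - s) / |w₁| := fun s t => by ring
  set C : ℝ := 2 * π * k * w₁ ^ 2 * ϖ with hC
  refine (hH η hη hηη (d * |w₁|) μ σY σX
    (C * ((p0 - q0) + (p1 - q1) * a + (p2 - q2) * a ^ 2))
    (C * ((p1 - q1) + 2 * (p2 - q2) * a) / |w₁|) (C * (p2 - q2) / |w₁| ^ 2)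
    (fun τ => S.rev.x k (a + τ / |w₁|) (α + 1)) (fun τ => S.x k (a + τ / |w₁|) (ω + 1))
    {τ | a + τ / |w₁| ∈ F} hd4 hd8 hμ1 hσY hσX (fun s hs t ht => ?_) (fun s hs t ht => ?_)
    (fun τ hτF hτ => ?_)).elim (fun h => ?_) fun ⟨hμe, n, hn⟩ => ?_
  rotate_left 3
  · exact Or.inl (sc1_vol hΛ hη hd8 F h)
  · refine Or.inr ⟨?_, σX * σY, n, ?_, ?_, fun t ht => ?_⟩
    · rw [← hμΛ]
      exact mul_le_mul_of_nonneg_right (by linarith [(abs_le.1 hμe).2]) hΛ.le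
    · rcases hσX with rfl | rfl <;> rcases hσY with rfl | rfl <;> norm_num
    · have : σX * σY * (w₁ * w₂) = (σY * w₁) * (σX * w₂) := by ring
      rw [this, hσY2, hσX2]
      positivity
    · have := hn _ (hmem' t ht)
      simp only [hback] at this
      exact this
  · have h2 := hslY _ (hmem s hs) _ (hmem t ht)
    have e1 : w₁ * ((t - s) / |w₁|) = σY * (t - s) := by
      rw [← mul_div_assoc, div_eq_iff hΛ.ne']
      linear_combination (-(t - s)) * hσY1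
    have e2 : |w₁| / κ ^ 300 * abs ((t - s) / |w₁|) = 1 / κ ^ 300 * |t - s| := by
      rw [abs_div, abs_abs]; field_simp
    rw [hdiff, e1, e2] at h2
    exact h2.trans (mul_le_mul_of_nonneg_right hη2 (abs_nonneg _))
  · have h2 := hslX _ (hmem s hs) _ (hmem t ht)
    have e1 : w₂ * ((t - s) / |w₁|) = σX * μ * (t - s) := by
      rw [← mul_div_assoc, div_eq_iff hΛ.ne']
      linear_combination (-(t - s)) * hσX1 - σX * (t - s) * hμΛ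
    have e2 : |w₂| / κ ^ 300 * abs ((t - s) / |w₁|) = 1 / κ ^ 300 * μ * |t - s| := by
      rw [abs_div, abs_abs, hμ]; field_simp
    rw [hdiff, e1, e2] at h2
    exact h2.trans (mul_le_mul_of_nonneg_right
      (mul_le_mul_of_nonneg_right hη2 (by linarith)) (abs_nonneg _))
  · obtain ⟨s, hs, hst, v, v', hv, hv', g0, g1, -, hcv, hcv'⟩ := hF _ hτF (hmem τ hτ)
    have hρ0 : 0 ≤ ρ := (abs_nonneg _).trans hst
    have hss0 : |s - s0| ≤ d := abs_le.2 ⟨by linarith [hs.1, hs0.2], by linarith [hs.2, hs0.1]⟩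
    obtain ⟨n1, c1, r1⟩ := sc1_pole hκ hK hϖ hcv (x := S.x k s (ω + 1)) rfl
      (sc1_move hκ (hslY _ hs _ (hmem τ hτ)) hst h12 hρ)
    obtain ⟨n2, c2, r2⟩ := sc1_pole hκ hK (by rw [abs_neg, hϖ]) hcv' (x := S.rev.x k s (α + 1)) rfl
      (sc1_move hκ (hslX _ hs _ (hmem τ hτ)) hst le_rfl hρ)
    have o1 := (hq s ((mul_le_mul_of_nonneg_right hss0 hΛ.le).trans hd8) v hv n1 hcv.small).2
    have o2 := (hp s ((mul_le_mul_of_nonneg_right hss0 hΛ'.le).trans hd2) v' hv' n2 hcv'.small).2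
    have e1 : wr u' v' 0 = -wr u v 0 := by
      simp only [wr, zero_add, h0, h1, g0, g1]
      ring
    have e2 : wr v' (S.rev.w k s0) 0 = -wr v (S.w k s0) 0 := by
      simp only [wr, Side.w, Side.rev, zero_add, sol_zero, sol_one, g0, g1]
      ring
    rw [e1, e2, neg_div_neg_eq] at o2
    refine ⟨(s - a) * |w₁|, hmem' s hs, ?_, c1, c2, ?_⟩
    · have e3 : (s - a) * |w₁| - τ = (s - (a + τ / |w₁|)) * |w₁| := by field_simp; ring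
      rw [e3, abs_mul, abs_abs]
      have h3 : |s - (a + τ / |w₁|)| * |w₁| ≤ ρ * |w₂| := mul_le_mul hst h12 hΛ.le hρ0
      have h4 := mul_le_mul_of_nonneg_left h500 (mul_nonneg hρ0 hΛ'.le)
      linarith
    · have h3 := sc1_match hκ (by positivity) hk2 hϖ hμ1 hμ2
        (by rw [← sq_abs w₂, ← sq_abs w₁, ← hμΛ, mul_pow]) o1 o2 r1 r2
      convert h3 using 4
      field_simp
      ring

/-- the symmetric form: `scale_aux` for `S` or for `S.rev` (`Pt.symm`); from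
`|Y - 1/2 - σ X - n| ≤ e` multiply by `-σ` and use `σ/2 ≡ -1/2 mod 1`. -/
theorem scale_one : ∃ C₀ : ℝ, 1 ≤ C₀ ∧ ∃ η₀ : ℝ, 0 < η₀ ∧ ∀ η : ℝ, 0 < η → η ≤ η₀ →
    ∃ κ₀ : ℝ, ∀ κ k : ℝ, κ₀ ≤ κ → κ ^ 1000 = 2 * π * k + 3 →
    ∀ (S : Side) (ω α : ℕ) (s0 a d ρ : ℝ) (F : Set ℝ), s0 ∈ Icc a (a + d) →
      Pt κ k S s0 1 ω α → |S.w k s0 (ω + 1)| ≤ κ ^ 500 * |S.rev.w k s0 (α + 1)| →
      |S.rev.w k s0 (α + 1)| ≤ κ ^ 500 * |S.w k s0 (ω + 1)| →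
      4 ≤ d * min |S.w k s0 (ω + 1)| |S.rev.w k s0 (α + 1)| →
      d * min |S.w k s0 (ω + 1)| |S.rev.w k s0 (α + 1)| ≤ 8 →
      ρ * max |S.w k s0 (ω + 1)| |S.rev.w k s0 (α + 1)| * κ ^ 500 ≤ 1 →
      (∀ t ∈ F, t ∈ Icc a (a + d) → ∃ s ∈ Icc a (a + d), |s - t| ≤ ρ ∧ Pt κ k S s 1 ω α) →
      ENNReal.ofReal (η / 32 * d) ≤ volume (Icc a (a + d) \ F) ∨
        (|S.rev.w k s0 (α + 1)| ≤ (1 + C₀ * η) * |S.w k s0 (ω + 1)| ∧
          |S.w k s0 (ω + 1)| ≤ (1 + C₀ * η) * |S.rev.w k s0 (α + 1)| ∧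
          ∃ (σ : ℝ) (n : ℤ), (σ = 1 ∨ σ = -1) ∧
            0 < σ * (S.w k s0 (ω + 1) * S.rev.w k s0 (α + 1)) ∧ ∀ t ∈ Icc a (a + d),
              |S.rev.x k t (α + 1) - 1 / 2 - σ * S.x k t (ω + 1) - n| ≤ C₀ * η) := by
  obtain ⟨C₀, hC₀, η₀, hη₀, h⟩ := scale_aux
  refine ⟨C₀, hC₀, η₀, hη₀, fun η hη hηη => ?_⟩
  obtain ⟨κ₀, h⟩ := h η hη hηη
  refine ⟨κ₀, ?_⟩
  intro κ k hκ hK S ω α s0 a d ρ F hs0 hPt h12 h21 hd4 hd8 hρ hF
  have hC : ∀ x y : ℝ, |x| ≤ |y| → |x| ≤ (1 + C₀ * η) * |y| := fun x y hxy =>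
    hxy.trans (le_mul_of_one_le_left (abs_nonneg _)
      (le_add_of_nonneg_right (mul_nonneg (by linarith) hη.le)))
  rcases le_total |S.w k s0 (ω + 1)| |S.rev.w k s0 (α + 1)| with hle | hle
  · rw [min_eq_left hle] at hd4 hd8
    rw [max_eq_right hle] at hρ
    exact (h κ k hκ hK S 1 ω α s0 a d ρ F abs_one hs0 hPt hle h21 hd4 hd8 hρ hF).imp id
      fun h' => ⟨h'.1, hC _ _ hle, h'.2⟩
  · rw [min_eq_right hle] at hd4 hd8
    rw [max_eq_left hle] at hρ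
    refine (h κ k hκ hK S.rev (-1) α ω s0 a d ρ F (by simp) hs0 hPt.symm hle h12 hd4 hd8 hρ
      fun t ht ht' => (hF t ht ht').imp fun s hs => ⟨hs.1, hs.2.1, hs.2.2.symm⟩).imp id ?_
    rintro ⟨h1, σ, n, hσ, h2, h3⟩
    rw [Side.rev_rev] at h1 h2 h3
    rcases hσ with rfl | rfl
    · refine ⟨hC _ _ hle, h1, 1, -1 - n, Or.inl rfl, by rwa [mul_comm (S.w k s0 (ω + 1))],
        fun t ht => ?_⟩
      rw [← abs_neg]
      convert h3 t ht using 2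
      push_cast
      ring
    · refine ⟨hC _ _ hle, h1, -1, n, Or.inr rfl, by rwa [mul_comm (S.w k s0 (ω + 1))],
        fun t ht => ?_⟩
      convert h3 t ht using 2
      ring

end Crest.Agent.R128
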