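import Crest.Agent.R128.Env
import Crest.Agent.R128.LemZ

/-! Row 128: in a resonant interval the next scale is non-resonant on a fixed proportion. -/

set_option autoImplicit false

namespace Crest.Agent.R128

open Real MeasureTheory Set

/-- the rescaled orbit on one side -/
theorem scaleZ_side {κ k : ℝ} (hκ : 1000 ≤ κ) (hK : κ ^ 1000 = 2 * π * k + 3) (S : Side)
    {u : ℕ → ℝ} {ϖ s0 a d Λ ε : ℝ} {ω : ℕ} (hc : Cl κ (S.b k s0) u (S.w k s0) ϖ ω)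
    (hs : s0 ∈ Icc a (a + d)) (hΛ : 0 < Λ) (hΛ1 : Λ ≤ |S.w k s0 (ω + 1)|)
    (hΛ2 : |S.w k s0 (ω + 1)| ≤ (1 + ε) * Λ) (hε1 : ε ≤ 1) (hεκ : 10 / ε ≤ κ) (hε : 0 < ε)
    (hd : d * Λ ≤ 8) {σ : ℝ} (hσ : S.w k s0 (ω + 1) = σ * |S.w k s0 (ω + 1)|) (hσ1 : |σ| = 1) :
    (∀ z : ℂ, ‖z‖ ≤ 10 →
      ‖deriv (fun z : ℂ => S.xc k (a + z / Λ) (ω + 1)) z - σ‖ ≤ 2 * ε ∧
      ‖deriv (fun z : ℂ => S.xc k (a + z / Λ) ω) z‖ ≤ ε) ∧
    ∃ c0 c1 c2 : ℂ, ∀ z : ℂ, ‖z‖ ≤ 10 →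
      k * ‖S.xc k (a + z / Λ) (ω + 1) - (c0 + c1 * z + c2 * z ^ 2)‖ ≤ ε := by
  obtain ⟨L, hL⟩ : ∃ L, L = |S.w k s0 (ω + 1)| := ⟨_, rfl⟩
  have hw : ∀ i, 1 ≤ i → i ≤ ω + 1 → |S.w k s0 i| * κ ^ (990 * (ω + 1 - i)) ≤ L := by
    rw [hL]; exact hc.env
  rw [← hL] at hΛ1 hΛ2 hσ
  have hL0 : 0 < L := hΛ.trans_le hΛ1
  have hL2 : L ≤ 2 * Λ := by nlinarith
  have hκ1 : 1 ≤ κ := by linarith
  have hκ0 : 0 < κ := by linarith
  have hκε : 2 / κ ≤ ε := by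
    rw [div_le_iff₀ hε] at hεκ
    rw [div_le_iff₀ hκ0]
    linarith
  have hpow : ∀ m : ℕ, m ≠ 0 → 2 / κ ^ m ≤ ε := fun m hm =>
    le_trans (div_le_div_of_nonneg_left (by norm_num) hκ0 (le_self_pow₀ hκ1 hm)) hκε
  have hΛc : (Λ : ℂ) ≠ 0 := by exact_mod_cast hΛ.ne'
  have hnear : ∀ z : ℂ, ‖z‖ ≤ 10 → ‖(a + z / Λ : ℂ) - s0‖ * L ≤ 36 := by
    intro z hz
    have h1 : ‖(a + z / Λ : ℂ) - s0‖ ≤ d + 10 / Λ := by
      have e : (a + z / Λ : ℂ) - s0 = ((a - s0 : ℝ) : ℂ) + z / Λ := by push_cast; ring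
      rw [e]
      refine (norm_add_le _ _).trans (add_le_add ?_ ?_)
      · rw [Complex.norm_real, Real.norm_eq_abs, abs_le]
        constructor <;> linarith [hs.1, hs.2]
      · rw [norm_div, Complex.norm_real, Real.norm_eq_abs, abs_of_pos hΛ]
        gcongr
    have hd0 : 0 ≤ d := by linarith [hs.1, hs.2]
    calc ‖(a + z / Λ : ℂ) - s0‖ * L ≤ (d + 10 / Λ) * (2 * Λ) := by gcongr
      _ = 2 * (d * Λ) + 20 := by field_simp; ring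
      _ ≤ 36 := by linarith
  have hder : ∀ (j : ℕ) (z : ℂ), deriv (fun z : ℂ => S.xc k (a + z / Λ) j) z =
      deriv (fun z => S.xc k z j) (a + z / Λ) / Λ := by
    intro j z
    have h1 : HasDerivAt (fun z : ℂ => (a : ℂ) + z / Λ) (1 / Λ) z :=
      ((hasDerivAt_id z).div_const (Λ : ℂ)).const_add (a : ℂ)
    have h2 := ((S.differentiable_xc k j) (a + z / Λ)).hasDerivAt.comp z h1
    have h3 := h2.deriv
    rw [mul_one_div] at h3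
    exact h3
  refine ⟨fun z hz => ?_, ?_⟩
  · have h600 : (36 : ℝ) ≤ κ ^ 600 := le_trans (by linarith) (le_self_pow₀ hκ1 (by norm_num))
    obtain ⟨h1, h2⟩ := S.env_deriv hκ hK s0 hL0 hw (by have := hc.one_le; omega)
      ((hnear z hz).trans h600)
    rw [Nat.add_sub_cancel] at h2
    rw [hder, hder]
    constructor
    · obtain ⟨D, hD⟩ : ∃ D, D = deriv (fun z => S.xc k z (ω + 1)) (a + z / Λ) := ⟨_, rfl⟩
      rw [← hD] at h1 ⊢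
      have e : D / Λ - σ = (D - S.w k s0 (ω + 1)) / Λ + ((σ * (L / Λ - 1) : ℝ) : ℂ) := by
        rw [hσ]; push_cast; field_simp; ring
      rw [e]
      refine (norm_add_le _ _).trans ?_
      have f1 : ‖(D - S.w k s0 (ω + 1)) / Λ‖ ≤ ε := by
        rw [norm_div, Complex.norm_real, Real.norm_eq_abs, abs_of_pos hΛ]
        calc ‖D - S.w k s0 (ω + 1)‖ / Λ ≤ (2 * Λ / κ ^ 300) / Λ := by
              gcongr; exact h1.trans (by gcongr)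
          _ = 2 / κ ^ 300 := by field_simp
          _ ≤ ε := hpow _ (by norm_num)
      have f2 : ‖((σ * (L / Λ - 1) : ℝ) : ℂ)‖ ≤ ε := by
        rw [Complex.norm_real, Real.norm_eq_abs, abs_mul, hσ1, one_mul, abs_le]
        have g1 : 1 ≤ L / Λ := by rw [le_div_iff₀ hΛ]; linarith
        have g2 : L / Λ ≤ 1 + ε := by rw [div_le_iff₀ hΛ]; exact hΛ2
        constructor <;> linarith
      linarith
    · rw [norm_div, Complex.norm_real, Real.norm_eq_abs, abs_of_pos hΛ]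
      calc ‖deriv (fun z => S.xc k z ω) (a + z / Λ)‖ / Λ ≤ (2 * Λ / κ ^ 900) / Λ := by
            gcongr; exact h2.trans (by gcongr)
        _ = 2 / κ ^ 900 := by field_simp
        _ ≤ ε := hpow _ (by norm_num)
  · obtain ⟨c0, c1, c2, h⟩ := S.env_cubic hκ hK s0 hL0 hw
    refine ⟨c0 + c1 * a + c2 * a ^ 2, c1 / Λ + 2 * c2 * a / Λ, c2 / Λ ^ 2, fun z hz => ?_⟩
    have h1 := h (a + z / Λ) ((hnear z hz).trans (by norm_num))
    have e : c0 + c1 * a + c2 * a ^ 2 + (c1 / Λ + 2 * c2 * a / Λ) * z + c2 / Λ ^ 2 * z ^ 2 =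
        c0 + c1 * (a + z / Λ) + c2 * (a + z / Λ) ^ 2 := by field_simp; ring
    rw [e]
    obtain ⟨hk1, hk2, -⟩ := k_facts hκ hK
    have hk3 : k ≤ κ ^ 1000 := by nlinarith [pi_gt_three]
    have e2 : κ ^ 1000 * (1 / κ ^ 1900) = 1 / κ ^ 900 := by
      rw [show (1900 : ℕ) = 1000 + 900 from rfl, pow_add]; field_simp
    calc k * ‖S.xc k (a + z / Λ) (ω + 1) - (c0 + c1 * (a + z / Λ) + c2 * (a + z / Λ) ^ 2)‖
        ≤ κ ^ 1000 * (1 / κ ^ 1900) := by gcongr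
      _ = 1 / κ ^ 900 := e2
      _ ≤ 2 / κ ^ 900 := by gcongr; norm_num
      _ ≤ ε := hpow _ (by norm_num)

theorem scaleZ_sign {x : ℝ} : ∃ σ : ℝ, (σ = 1 ∨ σ = -1) ∧ x = σ * |x| := by
  rcases le_total 0 x with h | h
  · exact ⟨1, Or.inl rfl, by rw [abs_of_nonneg h, one_mul]⟩
  · exact ⟨-1, Or.inr rfl, by rw [abs_of_nonpos h]; ring⟩

theorem scaleZ_vol {a Λ : ℝ} (hΛ : 0 < Λ) (E : Set ℝ) :
    volume ((fun t : ℝ => a + t / Λ) ⁻¹' E) = ENNReal.ofReal Λ * volume E := by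
  have e : (fun t : ℝ => a + t / Λ) ⁻¹' E = (fun t : ℝ => t * Λ⁻¹) ⁻¹' ((fun t => a + t) ⁻¹' E) := by
    ext t; simp [div_eq_mul_inv]
  rw [e, Real.volume_preimage_mul_right (inv_ne_zero hΛ.ne'), measure_preimage_add, inv_inv,
    abs_of_pos hΛ]

/-- Recipe: `Λ = min Λ₁ Λ₂`, `M = d Λ`, `lemZ` (with `2 ε`, `ε ≤ min (ε₀/2) 1`) for
`Y z = S.xc k (a + z / Λ) (ω+1)`, `X z = S.rev.xc k (a + z / Λ) (α+1)`,
`P z = S.rev.xc k (a + z / Λ) α + σ S.xc k (a + z / Λ) ω`; for `‖z‖ ≤ 10` we have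
`‖a + z/Λ - s0‖ Λ_i ≤ 36`.  `env_deriv`, `env_cubic` with `Cl.env` (`J = ω+1 ≥ 2`), `k ≤ κ^1000`,
`κ ≥ 10 / ε`; `x (j+2) = ph k (x (j+1)) - x j` (`ro_succ`); volumes scale by `1/Λ ≥ d/8`;
take `γ = γ_Z / 8`. -/
theorem scale_res : ∃ γ : ℝ, 0 < γ ∧ γ ≤ 1 ∧ ∃ ε₀ : ℝ, 0 < ε₀ ∧ ∀ ε : ℝ, 0 < ε → ε ≤ ε₀ →
    ∃ κ₀ : ℝ, ∀ κ k : ℝ, κ₀ ≤ κ → κ ^ 1000 = 2 * π * k + 3 →
    ∀ (S : Side) (ω α : ℕ) (s0 a d σ : ℝ) (n0 : ℤ), s0 ∈ Icc a (a + d) → Pt κ k S s0 1 ω α →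
      |S.rev.w k s0 (α + 1)| ≤ (1 + ε) * |S.w k s0 (ω + 1)| →
      |S.w k s0 (ω + 1)| ≤ (1 + ε) * |S.rev.w k s0 (α + 1)| →
      4 ≤ d * min |S.w k s0 (ω + 1)| |S.rev.w k s0 (α + 1)| →
      d * min |S.w k s0 (ω + 1)| |S.rev.w k s0 (α + 1)| ≤ 8 →
      (σ = 1 ∨ σ = -1) → 0 < σ * (S.w k s0 (ω + 1) * S.rev.w k s0 (α + 1)) →
      (∀ t ∈ Icc a (a + d), |S.rev.x k t (α + 1) - 1 / 2 - σ * S.x k t (ω + 1) - n0| ≤ ε) →
      ENNReal.ofReal (γ * d) ≤ volume {t ∈ Icc a (a + d) |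
        γ ≤ |cos (2 * π * S.x k t (ω + 1))| ∧
          ∀ n : ℤ, γ ≤ |S.rev.x k t (α + 2) + σ * S.x k t (ω + 2) - n - 1 / 2|} := by
  obtain ⟨γ, hγ0, hγ1, ε₀, hε₀, hZ⟩ := lemZ
  refine ⟨γ / 8, by positivity, by linarith, min (ε₀ / 2) 1, by positivity, fun ε hε hεle => ?_⟩
  have hε1 : ε ≤ 1 := hεle.trans (min_le_right _ _)
  have hε2 : 2 * ε ≤ ε₀ := by linarith [hεle.trans (min_le_left _ _)]
  refine ⟨max 1000 (10 / ε), fun κ k hκ₀ hK S ω α s0 a d σ n0 hs hPt h21 h12 hd4 hd8 hσ hsg hres => ?_⟩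
  have hκ : 1000 ≤ κ := (le_max_left _ _).trans hκ₀
  have hεκ : 10 / ε ≤ κ := (le_max_right _ _).trans hκ₀
  obtain ⟨u, u', -, -, -, -, -, hc, hc'⟩ := hPt
  obtain ⟨Λ, hΛe⟩ : ∃ Λ, Λ = min |S.w k s0 (ω + 1)| |S.rev.w k s0 (α + 1)| := ⟨_, rfl⟩
  rw [← hΛe] at hd4 hd8
  have hp1 := hc.pos
  have hp2 := hc'.pos
  have hΛ : 0 < Λ := by rw [hΛe]; exact lt_min hp1 hp2
  have hΛ1 : Λ ≤ |S.w k s0 (ω + 1)| := by rw [hΛe]; exact min_le_left _ _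
  have hΛ2 : Λ ≤ |S.rev.w k s0 (α + 1)| := by rw [hΛe]; exact min_le_right _ _
  have hU1 : |S.w k s0 (ω + 1)| ≤ (1 + ε) * Λ := by
    rw [hΛe, mul_min_of_nonneg _ _ (by linarith)]
    exact le_min (by nlinarith) h12
  have hU2 : |S.rev.w k s0 (α + 1)| ≤ (1 + ε) * Λ := by
    rw [hΛe, mul_min_of_nonneg _ _ (by linarith)]
    exact le_min h21 (by nlinarith)
  obtain ⟨σY, hσY, hσY'⟩ := scaleZ_sign (x := S.w k s0 (ω + 1))
  have hσX' : S.rev.w k s0 (α + 1) = σ * σY * |S.rev.w k s0 (α + 1)| := by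
    obtain ⟨σX, hσX, hσX'⟩ := scaleZ_sign (x := S.rev.w k s0 (α + 1))
    have h1 : 0 < σ * σY * σX * (|S.w k s0 (ω + 1)| * |S.rev.w k s0 (α + 1)|) := by
      have e : σ * σY * σX * (|S.w k s0 (ω + 1)| * |S.rev.w k s0 (α + 1)|) =
          σ * ((σY * |S.w k s0 (ω + 1)|) * (σX * |S.rev.w k s0 (α + 1)|)) := by ring
      rw [e, ← hσY', ← hσX']
      exact hsg
    have h2 : 0 < σ * σY * σX := (mul_pos_iff_of_pos_right (mul_pos hp1 hp2)).1 h1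
    have h3 : σX = σ * σY := by
      rcases hσ with rfl | rfl <;> rcases hσY with rfl | rfl <;> rcases hσX with rfl | rfl <;>
        first | (exfalso; linarith) | norm_num
    rw [← h3]; exact hσX'
  have habs : ∀ x : ℝ, (x = 1 ∨ x = -1) → |x| = 1 := by
    rintro x (rfl | rfl) <;> simp
  obtain ⟨hY, c0, c1, c2, hYc⟩ := scaleZ_side hκ hK S hc hs hΛ hΛ1 hU1 hε1 hεκ hε hd8 hσY'
    (habs _ hσY)
  obtain ⟨hX, e0, e1, e2, hXc⟩ := scaleZ_side hκ hK S.rev hc' hs hΛ hΛ2 hU2 hε1 hεκ hε hd8 hσX'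
    (by rw [abs_mul, habs _ hσ, habs _ hσY, one_mul])
  obtain ⟨hk1, -, -⟩ := k_facts hκ hK
  have hdiff : ∀ (T : Side) (j : ℕ), Differentiable ℂ fun z : ℂ => T.xc k (a + z / Λ) j :=
    fun T j => (T.differentiable_xc k j).comp (f := fun z : ℂ => (a : ℂ) + z / Λ) (by fun_prop)
  have hreal : ∀ (T : Side) (j : ℕ) (t : ℝ), T.xc k (a + (t : ℂ) / Λ) j = (T.x k (a + t / Λ) j : ℝ) :=
    fun T j t => by rw [← Side.xc_ofReal]; push_cast; rfl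
  have hσn : ‖(σ : ℂ)‖ = 1 := by rw [Complex.norm_real, Real.norm_eq_abs, habs _ hσ]
  have hmem : ∀ t ∈ Icc 0 (d * Λ), a + t / Λ ∈ Icc a (a + d) := fun t ht =>
    ⟨by have := div_nonneg ht.1 hΛ.le; linarith,
      by have := (div_le_iff₀ hΛ).2 ht.2; linarith⟩
  have hmain := hZ (2 * ε) (by positivity) hε2 (d * Λ) k σ σY n0
    (fun z : ℂ => S.rev.xc k (a + z / Λ) (α + 1)) (fun z : ℂ => S.xc k (a + z / Λ) (ω + 1))
    (fun z : ℂ => S.rev.xc k (a + z / Λ) α + σ * S.xc k (a + z / Λ) ω)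
    (fun t => S.rev.x k (a + t / Λ) (α + 1)) (fun t => S.x k (a + t / Λ) (ω + 1))
    (fun t => S.rev.x k (a + t / Λ) α + σ * S.x k (a + t / Λ) ω)
    (e0 - σ * c0) (e1 - σ * c1) (e2 - σ * c2) hd4 hd8 hk1 hσ hσY (hdiff _ _) (hdiff _ _)
    ((hdiff _ _).add ((hdiff _ _).const_mul _)) (fun t => hreal _ _ t) (fun t => hreal _ _ t)
    (fun t => by simp only [hreal]; push_cast; rfl)
    (fun z hz => by
      refine ⟨(hY z hz).1, by simpa using (hX z hz).1, ?_, ?_⟩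
      · have h1 := ((hdiff S.rev α z).hasDerivAt.add
          ((hdiff S ω z).hasDerivAt.const_mul (σ : ℂ))).deriv
        have h2 : deriv (fun z : ℂ => S.rev.xc k (a + z / Λ) α + σ * S.xc k (a + z / Λ) ω) z =
            deriv (fun z : ℂ => S.rev.xc k (a + z / Λ) α) z +
              σ * deriv (fun z : ℂ => S.xc k (a + z / Λ) ω) z := h1
        rw [h2]
        refine (norm_add_le _ _).trans ?_
        rw [norm_mul, hσn, one_mul]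
        linarith [(hY z hz).2, (hX z hz).2]
      · have e : S.rev.xc k (a + z / Λ) (α + 1) - σ * S.xc k (a + z / Λ) (ω + 1) -
            (e0 - σ * c0 + (e1 - σ * c1) * z + (e2 - σ * c2) * z ^ 2) =
            (S.rev.xc k (a + z / Λ) (α + 1) - (e0 + e1 * z + e2 * z ^ 2)) -
              σ * (S.xc k (a + z / Λ) (ω + 1) - (c0 + c1 * z + c2 * z ^ 2)) := by ring
        rw [e]
        have h1 := norm_sub_le (S.rev.xc k (a + z / Λ) (α + 1) - (e0 + e1 * z + e2 * z ^ 2))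
          (σ * (S.xc k (a + z / Λ) (ω + 1) - (c0 + c1 * z + c2 * z ^ 2)))
        rw [norm_mul, hσn, one_mul] at h1
        have h2 := mul_le_mul_of_nonneg_left h1 (by linarith : (0 : ℝ) ≤ k)
        linarith [hYc z hz, hXc z hz])
    (fun t ht => (hres _ (hmem t ht)).trans (by linarith))
  obtain ⟨E, hE⟩ : ∃ E, E = {t ∈ Icc a (a + d) |
        γ / 8 ≤ |cos (2 * π * S.x k t (ω + 1))| ∧
          ∀ n : ℤ, γ / 8 ≤ |S.rev.x k t (α + 2) + σ * S.x k t (ω + 2) - n - 1 / 2|} := ⟨_, rfl⟩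
  rw [← hE]
  have hsub := hmain.trans (measure_mono (t := (fun t : ℝ => a + t / Λ) ⁻¹' E) (by
    rintro t ⟨ht, h1, h2⟩
    rw [hE]
    refine ⟨hmem t ht, by linarith, fun n => ?_⟩
    have h3 := h2 n
    have e : S.rev.x k (a + t / Λ) (α + 2) + σ * S.x k (a + t / Λ) (ω + 2) - n - 1 / 2 =
        ph k (S.rev.x k (a + t / Λ) (α + 1)) + σ * ph k (S.x k (a + t / Λ) (ω + 1)) -
          (S.rev.x k (a + t / Λ) α + σ * S.x k (a + t / Λ) ω) - n - 1 / 2 := by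
      simp only [Side.x, ro_succ]; ring
    simp only at h3 ⊢
    rw [e]
    linarith))
  rw [scaleZ_vol hΛ] at hsub
  have hΛe0 : ENNReal.ofReal Λ ≠ 0 := by simpa using hΛ
  refine (ENNReal.mul_le_mul_iff_right hΛe0 ENNReal.ofReal_ne_top).1 (le_trans ?_ hsub)
  rw [← ENNReal.ofReal_mul hΛ.le]
  refine ENNReal.ofReal_le_ofReal ?_
  nlinarith

end Crest.Agent.R128
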