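import Crest.Agent.R128.Scale1
import Crest.Agent.R128.ScaleZ
import Crest.Agent.R128.Dyadic

/-! Row 128: every good level leaves a hole of fixed proportion. -/

set_option autoImplicit false

namespace Crest.Agent.R128

open Real MeasureTheory Set

theorem exists_level {Λ : ℝ} {n nf : ℕ} (h1 : 4 * 2 ^ n ≤ Λ) (h2 : Λ ≤ 2 ^ nf) :
    ∃ n', n ≤ n' ∧ n' ≤ nf ∧ 4 ≤ 1 / 2 ^ n' * Λ ∧ 1 / 2 ^ n' * Λ ≤ 8 := by
  have hn : (1 : ℝ) ≤ 2 ^ n := one_le_pow₀ (by norm_num)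
  obtain ⟨m, hm1, hm2⟩ := exists_nat_pow_near (x := Λ / 4) (y := 2) (by linarith) (by norm_num)
  have hm : (0 : ℝ) < 2 ^ m := by positivity
  refine ⟨m, ?_, ?_, ?_, ?_⟩
  · have : (2 : ℝ) ^ n < 2 ^ (m + 1) := by linarith
    exact Nat.lt_succ_iff.1 ((pow_lt_pow_iff_right₀ (by norm_num)).1 this)
  · have : (2 : ℝ) ^ m ≤ 2 ^ nf := by linarith
    exact (pow_le_pow_iff_right₀ (by norm_num)).1 this
  · rw [one_div_mul_eq_div, le_div_iff₀ hm]; linarith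
  · rw [one_div_mul_eq_div, div_le_iff₀ hm]; rw [pow_succ] at hm2; linarith

theorem cell_eq (n : ℕ) (s : ℝ) : cell n s =
    Ico ((⌊2 ^ n * s⌋ : ℝ) / 2 ^ n) ((⌊2 ^ n * s⌋ : ℝ) / 2 ^ n + 1 / 2 ^ n) := by
  rw [cell, dy, add_div]

theorem abs_sub_le_of_cell {n : ℕ} {s t r : ℝ} (hs : s ∈ cell n r) (ht : t ∈ cell n r) :
    |s - t| ≤ 1 / 2 ^ n := by
  rw [cell_eq] at hs ht
  rw [abs_le]; constructor <;> linarith [hs.1, hs.2, ht.1, ht.2]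

theorem cell_eq_cell {n : ℕ} {s t : ℝ} (h : t ∈ cell n s) : cell n t = cell n s :=
  cell_eq_of_mem h

theorem volume_Icc_diff_le (a d : ℝ) (F : Set ℝ) :
    volume (Icc a (a + d) \ (F ∩ Ico a (a + d))) ≤ volume (Ico a (a + d) \ F) := by
  have : Icc a (a + d) \ (F ∩ Ico a (a + d)) ⊆ (Ico a (a + d) \ F) ∪ {a + d} := by
    rintro t ⟨⟨h1, h2⟩, h3⟩
    rcases h2.eq_or_lt with h | h
    · exact Or.inr h
    · exact Or.inl ⟨⟨h1, h⟩, fun hF => h3 ⟨hF, h1, h⟩⟩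
  refine (measure_mono this).trans ((measure_union_le _ _).trans ?_)
  simp

theorem volume_le_inter_Ico {a d : ℝ} {G : Set ℝ} (h : G ⊆ Icc a (a + d)) :
    volume G ≤ volume (G ∩ Ico a (a + d)) := by
  have : G ⊆ (G ∩ Ico a (a + d)) ∪ {a + d} := by
    intro t ht
    rcases (h ht).2.eq_or_lt with h' | h'
    · exact Or.inr h'
    · exact Or.inl ⟨ht, (h ht).1, h'⟩
  refine (measure_mono this).trans ((measure_union_le _ _).trans ?_)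
  simp

/-- the tangent solution near a clean point -/
theorem Cl.near {κ k : ℝ} (hκ : 1000 ≤ κ) (hK : κ ^ 1000 = 2 * π * k + 3) {S : Side} {s0 ϖ : ℝ}
    {u : ℕ → ℝ} {ω : ℕ} (hc : Cl κ (S.b k s0) u (S.w k s0) ϖ ω) {s : ℝ}
    (hs : |s - s0| * |S.w k s0 (ω + 1)| ≤ κ ^ 600) :
    |S.w k s0 (ω + 1)| / 2 ≤ |S.w k s (ω + 1)| ∧ nv (S.w k s) ω ≤ 2 * |S.w k s0 (ω + 1)| ∧
      0 < S.w k s (ω + 1) * S.w k s0 (ω + 1) := by
  have hω := hc.one_le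
  obtain ⟨h1, h2⟩ := S.env_w hκ hK s0 hc.pos hc.env (by omega) hs
  rw [Nat.add_sub_cancel] at h2
  set Λ := |S.w k s0 (ω + 1)| with hΛ
  have hΛ0 : 0 < Λ := hc.pos
  have e1 : Λ / κ ^ 300 ≤ Λ / 2 := by
    gcongr; exact le_trans (by linarith) (le_self_pow₀ (by linarith) (by norm_num))
  have e2 : Λ / κ ^ 900 ≤ Λ / 2 := by
    gcongr; exact le_trans (by linarith) (le_self_pow₀ (by linarith) (by norm_num))
  have h3 := abs_sub_abs_le_abs_sub (S.w k s (ω + 1)) (S.w k s0 (ω + 1))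
  have h4 := abs_sub_abs_le_abs_sub (S.w k s0 (ω + 1)) (S.w k s (ω + 1))
  rw [abs_sub_comm] at h4
  refine ⟨by linarith, max_le (by linarith) (by linarith), ?_⟩
  have h5 : |S.w k s (ω + 1) - S.w k s0 (ω + 1)| ≤ Λ / 2 := h1.trans e1
  rw [abs_le] at h5
  rcases abs_cases (S.w k s0 (ω + 1)) with ⟨h, _⟩ | ⟨h, _⟩ <;> nlinarith [h5.1, h5.2]

theorem win_of {κ : ℝ} (hκ : 1000 ≤ κ) {n : ℕ} {b w : ℕ → ℝ} (hb : Bd (κ ^ 1000) b)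
    (hw : IsSol b w) {Λ : ℝ} {ω : ℕ} (h1 : 2 ^ n * κ ^ 1000 ≤ Λ) (h2 : Λ ≤ 2 ^ n * κ ^ 4900)
    (h3 : Λ / 2 ≤ nv w ω) (h4 : nv w ω ≤ 2 * Λ) : Win κ n (nv w ω) ∧ Win κ n (nv w (ω + 1)) := by
  have hκ1 : 1 ≤ κ := by linarith
  have hP : (0 : ℝ) < 2 ^ n := by positivity
  have hK : 2 ≤ κ ^ 1000 := le_trans (by linarith) (le_self_pow₀ hκ1 (by norm_num))
  have h100 : 2 ≤ κ ^ 100 := le_trans (by linarith) (le_self_pow₀ hκ1 (by norm_num))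
  have a1 := nv_succ_le hb hw ω
  have a2 := nv_le_succ hb hw ω
  have a3 : 2 ^ n ≤ nv w ω := by nlinarith
  have a4 : κ ^ 1000 * (2 * (2 ^ n * κ ^ 4900)) ≤ 2 ^ n * κ ^ 6000 := by
    have : κ ^ 6000 = κ ^ 100 * κ ^ 4900 * κ ^ 1000 := by ring
    rw [this]
    have : (0 : ℝ) < 2 ^ n * κ ^ 4900 * κ ^ 1000 := by positivity
    nlinarith
  have a5 : nv w ω ≤ 2 * (2 ^ n * κ ^ 4900) := by linarith
  have a6 := nv_nonneg w ω
  refine ⟨⟨by nlinarith, by nlinarith⟩, by linarith, ?_⟩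
  exact a1.trans ((mul_le_mul_of_nonneg_left a5 (by positivity)).trans a4)

theorem Cl.sign {κ : ℝ} (hκ : 1000 ≤ κ) {b u w : ℕ → ℝ} {ϖ : ℝ} {ω : ℕ} (hw : IsSol b w)
    (hc : Cl κ b u w ϖ ω) : 0 < w (ω + 2) * (b (ω + 1) * w (ω + 1)) := by
  have h1 : |w ω| ≤ |w (ω + 1)| := hc.nvw ▸ abs_le_nv w ω
  have h2 : 4 ≤ κ ^ 990 := le_trans (by linarith) (le_self_pow₀ (by linarith) (by norm_num))
  have h3 : 2 ≤ |b (ω + 1)| := by linarith [hc.big]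
  have h4 : 2 * |w (ω + 1)| ≤ |b (ω + 1) * w (ω + 1)| := by
    rw [abs_mul]; exact mul_le_mul_of_nonneg_right h3 (abs_nonneg _)
  have h5 := hc.pos
  rw [hw ω]
  have h6 := abs_le.1 h1
  rcases abs_cases (b (ω + 1) * w (ω + 1)) with ⟨h, _⟩ | ⟨h, _⟩ <;> nlinarith [h6.1, h6.2]

theorem abs_cos_add_le {x y σ e : ℝ} {n : ℤ} (hσ : σ = 1 ∨ σ = -1)
    (h : |x - 1 / 2 - σ * y - n| ≤ e) : |cos (2 * π * x) + cos (2 * π * y)| ≤ 7 * e := by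
  have h1 : cos (2 * π * (1 / 2 + σ * y + n)) = -cos (2 * π * y) := by
    have : 2 * π * (1 / 2 + σ * y + n) = σ * (2 * π * y) + π + n * (2 * π) := by ring
    rw [this, cos_add_int_mul_two_pi, cos_add_pi]
    rcases hσ with rfl | rfl <;> simp
  have h2 := abs_cos_sub_cos_le (2 * π * x) (2 * π * (1 / 2 + σ * y + n))
  rw [h1, sub_neg_eq_add, ← mul_sub, abs_mul,
    abs_of_pos (show (0 : ℝ) < 2 * π by positivity)] at h2
  have h3 : |x - (1 / 2 + σ * y + n)| ≤ e := by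
    convert h using 2; ring
  nlinarith [pi_le_four, pi_lt_d2, abs_nonneg (x - (1 / 2 + σ * y + n))]

theorem ac_mul_neg {k γ x y : ℝ} (hγ : 0 < γ) (hk : 8 < 2 * π * k * γ)
    (h1 : γ / 2 ≤ |cos (2 * π * y)|) (h2 : |cos (2 * π * x) + cos (2 * π * y)| ≤ γ / 4) :
    ac k y * ac k x < 0 := by
  have hk0 : 0 < 2 * π * k := by
    by_contra h
    nlinarith [not_lt.1 h]
  unfold ac
  have h3 := abs_le.1 h2
  rcases abs_cases (cos (2 * π * y)) with ⟨h, _⟩ | ⟨h, _⟩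
  · exact mul_neg_of_pos_of_neg (by nlinarith) (by nlinarith [h3.2])
  · exact mul_neg_of_neg_of_pos (by nlinarith) (by nlinarith [h3.1])

/-- the conclusion of `scale_one` -/
def SO (κ k η e : ℝ) (S : Side) : Prop :=
  ∀ (ω α : ℕ) (s0 a d ρ : ℝ) (F : Set ℝ), s0 ∈ Icc a (a + d) →
      Pt κ k S s0 1 ω α → |S.w k s0 (ω + 1)| ≤ κ ^ 500 * |S.rev.w k s0 (α + 1)| →
      |S.rev.w k s0 (α + 1)| ≤ κ ^ 500 * |S.w k s0 (ω + 1)| →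
      4 ≤ d * min |S.w k s0 (ω + 1)| |S.rev.w k s0 (α + 1)| →
      d * min |S.w k s0 (ω + 1)| |S.rev.w k s0 (α + 1)| ≤ 8 →
      ρ * max |S.w k s0 (ω + 1)| |S.rev.w k s0 (α + 1)| * κ ^ 500 ≤ 1 →
      (∀ t ∈ F, t ∈ Icc a (a + d) → ∃ s ∈ Icc a (a + d), |s - t| ≤ ρ ∧ Pt κ k S s 1 ω α) →
      ENNReal.ofReal (η / 32 * d) ≤ volume (Icc a (a + d) \ F) ∨
        (|S.rev.w k s0 (α + 1)| ≤ (1 + e) * |S.w k s0 (ω + 1)| ∧
          |S.w k s0 (ω + 1)| ≤ (1 + e) * |S.rev.w k s0 (α + 1)| ∧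
          ∃ (σ : ℝ) (n : ℤ), (σ = 1 ∨ σ = -1) ∧
            0 < σ * (S.w k s0 (ω + 1) * S.rev.w k s0 (α + 1)) ∧ ∀ t ∈ Icc a (a + d),
              |S.rev.x k t (α + 1) - 1 / 2 - σ * S.x k t (ω + 1) - n| ≤ e)

/-- `scale_one` on a dyadic cell -/
theorem cell_step {κ k η e : ℝ} {S : Side} {E : Set ℝ} {nf : ℕ} (H : SO κ k η e S)
    {ω α n' : ℕ} {s0 : ℝ} (hn : n' ≤ nf) (hp : Pt κ k S s0 1 ω α)
    (r1 : |S.w k s0 (ω + 1)| ≤ κ ^ 500 * |S.rev.w k s0 (α + 1)|)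
    (r2 : |S.rev.w k s0 (α + 1)| ≤ κ ^ 500 * |S.w k s0 (ω + 1)|)
    (d1 : 4 ≤ 1 / 2 ^ n' * min |S.w k s0 (ω + 1)| |S.rev.w k s0 (α + 1)|)
    (d2 : 1 / 2 ^ n' * min |S.w k s0 (ω + 1)| |S.rev.w k s0 (α + 1)| ≤ 8)
    (d3 : max |S.w k s0 (ω + 1)| |S.rev.w k s0 (α + 1)| * κ ^ 500 ≤ 2 ^ nf)
    (hE : ∀ s ∈ E, s ∈ cell n' s0 → Pt κ k S s 1 ω α) :
    ENNReal.ofReal (η / 32 / 2 ^ n') ≤ volume (cell n' s0 \ sat nf E) ∨
      (|S.rev.w k s0 (α + 1)| ≤ (1 + e) * |S.w k s0 (ω + 1)| ∧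
        |S.w k s0 (ω + 1)| ≤ (1 + e) * |S.rev.w k s0 (α + 1)| ∧
        ∃ (σ : ℝ) (n : ℤ), (σ = 1 ∨ σ = -1) ∧
          0 < σ * (S.w k s0 (ω + 1) * S.rev.w k s0 (α + 1)) ∧
          ∀ t ∈ Icc ((⌊2 ^ n' * s0⌋ : ℝ) / 2 ^ n') ((⌊2 ^ n' * s0⌋ : ℝ) / 2 ^ n' + 1 / 2 ^ n'),
            |S.rev.x k t (α + 1) - 1 / 2 - σ * S.x k t (ω + 1) - n| ≤ e) := by
  have hs0 := mem_cell n' s0
  have hc := cell_eq n' s0
  have := H ω α s0 ((⌊2 ^ n' * s0⌋ : ℝ) / 2 ^ n') (1 / 2 ^ n') (1 / 2 ^ nf)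
    (sat nf E ∩ cell n' s0) (Ico_subset_Icc_self (hc ▸ hs0)) hp r1 r2 d1 d2
    (by rw [mul_assoc, one_div_mul_eq_div, div_le_one (by positivity)]; exact d3) ?_
  · refine this.imp_left fun h => ?_
    rw [hc] at h ⊢
    rw [div_eq_mul_one_div (η / 32)]
    exact h.trans (volume_Icc_diff_le _ _ _)
  · rintro t ⟨ht1, ht2⟩ -
    obtain ⟨s, hs, hts⟩ : ∃ s ∈ E, t ∈ cell nf s := by simpa [sat] using ht1
    have h1 : s ∈ cell n' s0 := by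
      rw [← cell_eq_cell ht2]
      exact cell_mono hn t (by rw [cell_eq_cell hts]; exact mem_cell nf s)
    exact ⟨s, Ico_subset_Icc_self (hc ▸ h1), abs_sub_le_of_cell (mem_cell nf s) hts, hE s hs h1⟩

theorem mul_le_of_min {κ d r Λ₁ Λ₂ : ℝ} (hκ : 1000 ≤ κ) (hr : r ≤ d) (hd : 0 ≤ d) (h1 : 0 ≤ Λ₁)
    (r1 : Λ₁ ≤ κ ^ 500 * Λ₂) (h : d * min Λ₁ Λ₂ ≤ 8) : r * Λ₁ ≤ κ ^ 600 := by
  have hκ1 : 1 ≤ κ := by linarith
  have h500 : 1 ≤ κ ^ 500 := one_le_pow₀ hκ1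
  have h100 : 8 ≤ κ ^ 100 := le_trans (by linarith) (le_self_pow₀ hκ1 (by norm_num))
  have h2 : Λ₁ ≤ κ ^ 500 * min Λ₁ Λ₂ := by
    rcases min_cases Λ₁ Λ₂ with ⟨h', _⟩ | ⟨h', _⟩ <;> rw [h'] <;> nlinarith
  calc r * Λ₁ ≤ d * (κ ^ 500 * min Λ₁ Λ₂) := by gcongr
    _ = κ ^ 500 * (d * min Λ₁ Λ₂) := by ring
    _ ≤ κ ^ 500 * κ ^ 100 := by gcongr; linarith
    _ = κ ^ 600 := by ring

/-- all points of `E` in the cell are clean at the indices of the reference point -/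
theorem pt_of_near {κ k : ℝ} (hκ : 1000 ≤ κ) (hK : κ ^ 1000 = 2 * π * k + 3) {S : Side}
    {T n n' ω α : ℕ} {s0 s : ℝ} (hp : Pt κ k S s0 1 ω α) (hω : ω + 1 ≤ T) (hα : α + 1 ≤ T)
    (r1 : |S.w k s0 (ω + 1)| ≤ κ ^ 500 * |S.rev.w k s0 (α + 1)|)
    (r2 : |S.rev.w k s0 (α + 1)| ≤ κ ^ 500 * |S.w k s0 (ω + 1)|)
    (d2 : 1 / 2 ^ n' * min |S.w k s0 (ω + 1)| |S.rev.w k s0 (α + 1)| ≤ 8)
    (l1 : 2 ^ n * κ ^ 1000 ≤ |S.w k s0 (ω + 1)|) (u1 : |S.w k s0 (ω + 1)| ≤ 2 ^ n * κ ^ 4900)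
    (l2 : 2 ^ n * κ ^ 1000 ≤ |S.rev.w k s0 (α + 1)|)
    (u2 : |S.rev.w k s0 (α + 1)| ≤ 2 ^ n * κ ^ 4900)
    (hL : Lvl κ k S T n s) (hs : s ∈ cell n' s0) : Pt κ k S s 1 ω α := by
  obtain ⟨u, u', -, -, -, -, -, hc, hc'⟩ := hp
  have hk := (k_facts hκ hK).1
  have hd := abs_sub_le_of_cell hs (mem_cell n' s0)
  obtain ⟨a1, a2, -⟩ := hc.near hκ hK
    (mul_le_of_min hκ hd (by positivity) (abs_nonneg _) r1 d2)
  obtain ⟨b1, b2, -⟩ := hc'.near hκ hK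
    (mul_le_of_min hκ hd (by positivity) (abs_nonneg _) r2 (by rwa [min_comm]))
  obtain ⟨w1, w2⟩ := win_of hκ (S.bd_b (by linarith) hK s) (S.isSol_w k s) l1 u1
    (a1.trans (abs_succ_le_nv _ _)) a2
  obtain ⟨w3, w4⟩ := win_of hκ (S.rev.bd_b (by linarith) hK s) (S.rev.isSol_w k s) l2 u2
    (b1.trans (abs_succ_le_nv _ _)) b2
  exact hL.2 ω α hc.one_le hc'.one_le hω hα w1 w2 w3 w4

theorem Side.continuous_x (S : Side) (k : ℝ) (j : ℕ) : Continuous fun s => S.x k s j :=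
  continuous_iff_continuousAt.2 fun s => (S.hasDerivAt_x k s j).continuousAt

theorem sign_flip {A B C D A' B' C' D' σ σ' : ℝ} (h1 : 0 < A * (B * C)) (h2 : 0 < A' * (B' * C'))
    (h3 : 0 < C * D) (h4 : 0 < C' * D') (h5 : 0 < σ * (D * D')) (h6 : B * B' < 0)
    (h7 : 0 < σ' * (A * A')) (hσ : σ = 1 ∨ σ = -1) (hσ' : σ' = 1 ∨ σ' = -1) : σ' = -σ := by
  have h := mul_pos (mul_pos (mul_pos h1 h2) (mul_pos h3 h4)) (mul_pos h5 h7)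
  have e : A * (B * C) * (A' * (B' * C')) * (C * D * (C' * D')) *
      (σ * (D * D') * (σ' * (A * A'))) = σ * σ' * (B * B') * (A * A' * C * C' * D * D') ^ 2 := by
    ring
  rw [e] at h
  have h8 : 0 < σ * σ' * (B * B') := by
    by_contra hn
    exact absurd h (not_lt.2 (mul_nonpos_of_nonpos_of_nonneg (not_lt.1 hn) (sq_nonneg _)))
  rcases hσ with rfl | rfl <;> rcases hσ' with rfl | rfl <;>
    first | (simp; done) | (exfalso; linarith)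

/-- sizes at the next index for a point near a clean point -/
theorem next_size {κ k : ℝ} (hκ : 1000 ≤ κ) (hK : κ ^ 1000 = 2 * π * k + 3) {S : Side}
    {n ω : ℕ} {s Λ : ℝ} (l : 2 ^ n * κ ^ 1500 ≤ Λ) (u : Λ ≤ 2 ^ n * κ ^ 3500)
    (a1 : Λ / 2 ≤ |S.w k s (ω + 1)|) (a2 : nv (S.w k s) ω ≤ 2 * Λ) :
    nv (S.w k s) (ω + 1) ≤ 2 * κ ^ 1000 * Λ ∧ 2 ^ n * κ ^ 1000 ≤ nv (S.w k s) (ω + 1) ∧
      nv (S.w k s) (ω + 1) ≤ 2 ^ n * κ ^ 4900 := by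
  have hκ1 : 1 ≤ κ := by linarith
  have hk := (k_facts hκ hK).1
  have h1 := nv_succ_le (S.bd_b (by linarith) hK s) (S.isSol_w k s) ω
  have h2 := abs_le_nv (S.w k s) (ω + 1)
  have h3 : nv (S.w k s) (ω + 1) ≤ 2 * κ ^ 1000 * Λ := by
    refine h1.trans ?_
    calc κ ^ 1000 * nv (S.w k s) ω ≤ κ ^ 1000 * (2 * Λ) := by gcongr
      _ = _ := by ring
  have h500 : 2 ≤ κ ^ 500 := le_trans (by linarith) (le_self_pow₀ hκ1 (by norm_num))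
  have h400 : 2 ≤ κ ^ 400 := le_trans (by linarith) (le_self_pow₀ hκ1 (by norm_num))
  refine ⟨h3, ?_, h3.trans ?_⟩
  · have : 2 ^ n * κ ^ 1000 * 2 ≤ 2 ^ n * κ ^ 1500 := by
      calc 2 ^ n * κ ^ 1000 * 2 ≤ 2 ^ n * κ ^ 1000 * κ ^ 500 := by gcongr
        _ = _ := by ring
    linarith
  · calc 2 * κ ^ 1000 * Λ ≤ κ ^ 400 * κ ^ 1000 * (2 ^ n * κ ^ 3500) := by
          gcongr; exact le_trans (by positivity) l
      _ = _ := by ring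

theorem Cl.cos_move {κ k γ : ℝ} (hκ : 1000 ≤ κ) (hK : κ ^ 1000 = 2 * π * k + 3) (hγ : 0 < γ)
    (hκγ : 100 ≤ κ * γ) {S : Side} {s t ϖ : ℝ} {u : ℕ → ℝ} {ω : ℕ}
    (hc : Cl κ (S.b k s) u (S.w k s) ϖ ω) (h : |t - s| * |S.w k s (ω + 1)| * κ ≤ 1)
    (hG : γ ≤ |cos (2 * π * S.x k t (ω + 1))|) : γ / 2 ≤ |cos (2 * π * S.x k s (ω + 1))| := by
  have hκ1 : 1 ≤ κ := by linarith
  have hnn : 0 ≤ |t - s| * |S.w k s (ω + 1)| := by positivity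
  have hz : ‖(t : ℂ) - s‖ = |t - s| := by
    rw [← Complex.ofReal_sub, Complex.norm_real, Real.norm_eq_abs]
  have := S.env_dev hκ hK s hc.env (i := ω + 1) (by omega) le_rfl (z := t)
    (by rw [hz]; exact le_trans (by nlinarith) (one_le_pow₀ hκ1))
  rw [hz, S.xc_ofReal, ← Complex.ofReal_sub, Complex.norm_real, Real.norm_eq_abs] at this
  simp only [Nat.sub_self, mul_zero, pow_zero, mul_one] at this
  have h0 : |t - s| * |S.w k s (ω + 1)| ≤ γ / 100 := by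
    refine le_of_mul_le_mul_right ?_ (show 0 < κ by linarith)
    linarith
  have h1 := abs_cos_sub_cos_le (2 * π * S.x k t (ω + 1)) (2 * π * S.x k s (ω + 1))
  rw [← mul_sub, abs_mul, abs_of_pos (show (0 : ℝ) < 2 * π by positivity)] at h1
  have h2 := abs_sub_abs_le_abs_sub (cos (2 * π * S.x k t (ω + 1)))
    (cos (2 * π * S.x k s (ω + 1)))
  have h3 : 2 * π * |S.x k t (ω + 1) - S.x k s (ω + 1)| ≤ 2 * 4 * (γ / 16) := by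
    gcongr
    · exact pi_le_four
    · linarith
  linarith

/-- inside a resonant cell, points near the set `G` of `scale_res` see a hole at the next scale -/
theorem inner_step {κ k η e γ σ : ℝ} (hκ : 1000 ≤ κ) (hK : κ ^ 1000 = 2 * π * k + 3)
    (hγ : 0 < γ) (hκγ : 100 ≤ κ * γ) (he : 30 * e ≤ γ) {S : Side} {E : Set ℝ}
    {T n n' nf ω α : ℕ} {n0 : ℤ} (H : SO κ k η e S) (hnf : κ ^ 6000 * 2 ^ n ≤ 2 ^ nf)
    (hE : ∀ s ∈ E, Lvl κ k S T n s) {s0 s1 t : ℝ} (hp : Pt κ k S s0 1 ω α) (hω : ω + 2 ≤ T)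
    (hα : α + 2 ≤ T) (r1 : |S.w k s0 (ω + 1)| ≤ 2 * |S.rev.w k s0 (α + 1)|)
    (r2 : |S.rev.w k s0 (α + 1)| ≤ 2 * |S.w k s0 (ω + 1)|)
    (d1 : 4 ≤ 1 / 2 ^ n' * min |S.w k s0 (ω + 1)| |S.rev.w k s0 (α + 1)|)
    (d2 : 1 / 2 ^ n' * min |S.w k s0 (ω + 1)| |S.rev.w k s0 (α + 1)| ≤ 8)
    (l1 : 2 ^ n * κ ^ 1500 ≤ |S.w k s0 (ω + 1)|) (u1 : |S.w k s0 (ω + 1)| ≤ 2 ^ n * κ ^ 3500)
    (l2 : 2 ^ n * κ ^ 1500 ≤ |S.rev.w k s0 (α + 1)|)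
    (u2 : |S.rev.w k s0 (α + 1)| ≤ 2 ^ n * κ ^ 3500)
    (hσ : σ = 1 ∨ σ = -1) (hσ0 : 0 < σ * (S.w k s0 (ω + 1) * S.rev.w k s0 (α + 1)))
    (hs1 : s1 ∈ E) (hs1' : s1 ∈ cell n' s0)
    (hres : |S.rev.x k s1 (α + 1) - 1 / 2 - σ * S.x k s1 (ω + 1) - n0| ≤ e)
    (ht : t ∈ cell nf s1) (hG1 : γ ≤ |cos (2 * π * S.x k t (ω + 1))|)
    (hG2 : ∀ m : ℤ, γ ≤ |S.rev.x k t (α + 2) + σ * S.x k t (ω + 2) - m - 1 / 2|) :
    ∃ n'', n' ≤ n'' ∧ n'' ≤ nf ∧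
      ENNReal.ofReal (η / 32 / 2 ^ n'') ≤ volume (cell n'' s1 \ sat nf E) := by
  have hκ1 : 1 ≤ κ := by linarith
  obtain ⟨hk, hk1, hk2⟩ := k_facts hκ hK
  have hP : (0 : ℝ) < 2 ^ n := by positivity
  have hP1 : (1 : ℝ) ≤ 2 ^ n := one_le_pow₀ (by norm_num)
  have pw : ∀ {i j : ℕ}, i ≤ j → 2 ^ n * κ ^ i ≤ 2 ^ n * κ ^ j := fun h => by
    gcongr
  have h500 : 8 ≤ κ ^ 490 := le_trans (by linarith) (le_self_pow₀ hκ1 (by norm_num))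
  have h2 : 2 ≤ κ ^ 500 := le_trans (by linarith) (le_self_pow₀ hκ1 (by norm_num))
  have h990 : 2 ≤ κ ^ 990 := le_trans (by linarith) (le_self_pow₀ hκ1 (by norm_num))
  have r1' : |S.w k s0 (ω + 1)| ≤ κ ^ 500 * |S.rev.w k s0 (α + 1)| := r1.trans (by gcongr)
  have r2' : |S.rev.w k s0 (α + 1)| ≤ κ ^ 500 * |S.w k s0 (ω + 1)| := r2.trans (by gcongr)
  have hp1 : Pt κ k S s1 1 ω α := pt_of_near hκ hK hp (by omega) (by omega) r1' r2' d2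
    ((pw (by norm_num)).trans l1) (u1.trans (pw (by norm_num))) ((pw (by norm_num)).trans l2)
    (u2.trans (pw (by norm_num))) (hE s1 hs1) hs1'
  obtain ⟨u, u', -, -, -, -, -, hc, hc'⟩ := hp
  obtain ⟨v, v', -, -, -, -, -, hd, hd'⟩ := hp1
  have hds := abs_sub_le_of_cell hs1' (mem_cell n' s0)
  obtain ⟨a1, a2, a3⟩ := hc.near hκ hK
    (mul_le_of_min hκ hds (by positivity) (abs_nonneg _) r1' d2)
  obtain ⟨b1, b2, b3⟩ := hc'.near hκ hK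
    (mul_le_of_min hκ hds (by positivity) (abs_nonneg _) r2' (by rwa [min_comm]))
  obtain ⟨c1, c2, c3⟩ := next_size hκ hK l1 u1 a1 a2
  obtain ⟨e1, e2, e3⟩ := next_size hκ hK l2 u2 b1 b2
  obtain ⟨w1, w2⟩ := win_of hκ (S.bd_b (by linarith) hK s1) (S.isSol_w k s1) c2 c3
    (ω := ω + 1) (by linarith [nv_nonneg (S.w k s1) (ω + 1)])
    (by linarith [nv_nonneg (S.w k s1) (ω + 1)])
  obtain ⟨w3, w4⟩ := win_of hκ (S.rev.bd_b (by linarith) hK s1) (S.rev.isSol_w k s1) e2 e3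
    (ω := α + 1) (by linarith [nv_nonneg (S.rev.w k s1) (α + 1)])
    (by linarith [nv_nonneg (S.rev.w k s1) (α + 1)])
  have hp2 : Pt κ k S s1 1 (ω + 1) (α + 1) :=
    (hE s1 hs1).2 _ _ (by omega) (by omega) hω hα w1 w2 w3 w4
  obtain ⟨f1, f2⟩ : |S.w k s1 (ω + 1)| * κ ^ 990 ≤ |S.w k s1 (ω + 1 + 1)| ∧
      |S.rev.w k s1 (α + 1)| * κ ^ 990 ≤ |S.rev.w k s1 (α + 1 + 1)| := by
    obtain ⟨_, _, -, -, -, -, -, h, h'⟩ := hp2
    exact ⟨by simpa using h.env (ω + 1) (by omega) (by omega),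
      by simpa using h'.env (α + 1) (by omega) (by omega)⟩
  rw [hd.nxt] at c1 c2 c3
  rw [hd'.nxt] at e1 e2 e3
  set Λ₁ := |S.w k s0 (ω + 1)| with hΛ₁
  set Λ₂ := |S.rev.w k s0 (α + 1)| with hΛ₂
  have hΛ₁0 : 0 < Λ₁ := hc.pos
  have hΛ₂0 : 0 < Λ₂ := hc'.pos
  have g1 : Λ₁ / 2 * κ ^ 990 ≤ |S.w k s1 (ω + 1 + 1)| := le_trans (by gcongr) f1
  have g2 : Λ₂ / 2 * κ ^ 990 ≤ |S.rev.w k s1 (α + 1 + 1)| := le_trans (by gcongr) f2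
  have rat : ∀ {x y X Y : ℝ}, 0 < y → x ≤ 2 * y → X ≤ 2 * κ ^ 1000 * x → y / 2 * κ ^ 990 ≤ Y →
      X ≤ κ ^ 500 * Y := fun {x y X Y} hy h1 h2 h3 => by
    calc X ≤ 2 * κ ^ 1000 * (2 * y) := h2.trans (by gcongr)
      _ = 8 * κ ^ 10 * (y / 2 * κ ^ 990) := by ring
      _ ≤ κ ^ 490 * κ ^ 10 * Y := by gcongr
      _ = _ := by ring
  have grow : ∀ {x X : ℝ}, 0 < x → x / 2 * κ ^ 990 ≤ X → x ≤ X := fun {x X} hx h =>
    calc x = x / 2 * 2 := by ring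
      _ ≤ x / 2 * κ ^ 990 := by gcongr
      _ ≤ X := h
  have q1 := rat hΛ₂0 r1 c1 g2
  have q2 := rat hΛ₁0 r2 e1 g1
  have hnf' : 2 ^ n * κ ^ 6000 ≤ 2 ^ nf := by linarith
  obtain ⟨n'', m1, m2, m3, m4⟩ := exists_level
    (Λ := min |S.w k s1 (ω + 1 + 1)| |S.rev.w k s1 (α + 1 + 1)|) (n := n') (nf := nf)
    (by
      rw [one_div_mul_eq_div, le_div_iff₀ (by positivity)] at d1
      exact d1.trans (min_le_min (grow hΛ₁0 g1) (grow hΛ₂0 g2)))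
    ((min_le_left _ _).trans (c3.trans ((pw (by norm_num)).trans hnf')))
  refine ⟨n'', m1, m2, (cell_step H m2 hp2 q1 q2 m3 m4 ?_ fun s hs hs' =>
    pt_of_near hκ hK hp2 hω hα q1 q2 m4 c2 c3 e2 e3 (hE s hs) hs').resolve_right ?_⟩
  · calc _ ≤ 2 ^ n * κ ^ 4900 * κ ^ 500 := by gcongr; exact max_le c3 e3
      _ = 2 ^ n * κ ^ 5400 := by ring
      _ ≤ _ := (pw (by norm_num)).trans hnf'
  rintro ⟨-, -, σ', n1, hσ', hσ1, hr⟩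
  have ht' : t ∈ cell n'' s1 := cell_mono m2 s1 ht
  have hr' := hr t (Ico_subset_Icc_self (cell_eq n'' s1 ▸ ht'))
  have hcos : γ / 2 ≤ |cos (2 * π * S.x k s1 (ω + 1))| := by
    have hts := abs_sub_le_of_cell ht (mem_cell nf s1)
    have hw1 : |S.w k s1 (ω + 1)| ≤ 2 * (2 ^ n * κ ^ 3500) :=
      (abs_succ_le_nv _ _).trans (by linarith)
    refine hd.cos_move hκ hK hγ hκγ ?_ hG1
    calc _ ≤ 1 / 2 ^ nf * (2 * (2 ^ n * κ ^ 3500)) * κ := by gcongr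
      _ ≤ 1 / 2 ^ nf * (κ ^ 500 * (2 ^ n * κ ^ 3500)) * κ := by gcongr
      _ = 2 ^ n * κ ^ 4001 / 2 ^ nf := by ring
      _ ≤ 1 := (div_le_one (by positivity)).2 ((pw (by norm_num)).trans hnf')
  have hneg : S.b k s1 (ω + 1) * S.rev.b k s1 (α + 1) < 0 := by
    refine ac_mul_neg hγ ?_ hcos ((abs_cos_add_le hσ hres).trans (by linarith))
    have h1 : κ ≤ κ ^ 1000 := le_self_pow₀ hκ1 (by norm_num)
    have h2 : κ * γ ≤ 4 * π * k * γ := mul_le_mul_of_nonneg_right (h1.trans hk2) hγ.le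
    linarith
  have hflip := sign_flip (hd.sign hκ (S.isSol_w k s1)) (hd'.sign hκ (S.rev.isSol_w k s1)) a3 b3
    hσ0 hneg hσ1 hσ hσ'
  have := hG2 n1
  rw [hflip] at hr'
  have e0 : S.rev.x k t (α + 2) + σ * S.x k t (ω + 2) - n1 - 1 / 2 =
    S.rev.x k t (α + 1 + 1) - 1 / 2 - -σ * S.x k t (ω + 1 + 1) - n1 := by ring
  rw [e0] at this
  linarith

theorem level_hole : ∃ c : ℝ, 0 < c ∧ c ≤ 1 ∧ ∃ κ₀ : ℝ, ∀ κ k : ℝ, κ₀ ≤ κ →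
    κ ^ 1000 = 2 * π * k + 3 → ∀ (S : Side) (T n nf : ℕ) (E : Set ℝ), max |S.w0| |S.w1| = 1 →
      κ ^ 6000 * 2 ^ n ≤ 2 ^ nf → (∀ s ∈ E, Lvl κ k S T n s) →
      ∀ j : ℤ, ENNReal.ofReal (c / 2 ^ n) ≤ volume (dy n j \ sat nf E) := by
  obtain ⟨C₀, hC₀, η₀, hη₀, H1⟩ := scale_one
  obtain ⟨γ, hγ, hγ1, ε₀, hε₀, H2⟩ := scale_res
  obtain ⟨η, hη, hη1, hη2, hη3⟩ : ∃ η : ℝ, 0 < η ∧ η ≤ η₀ ∧ C₀ * η ≤ ε₀ ∧ 30 * (C₀ * η) ≤ γ := by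
    refine ⟨min η₀ (min (ε₀ / C₀) (γ / (30 * C₀))), by positivity, min_le_left _ _, ?_, ?_⟩
    · rw [← le_div_iff₀' (by positivity)]
      exact (min_le_right _ _).trans (min_le_left _ _)
    · rw [← mul_assoc, ← le_div_iff₀' (by positivity)]
      exact (min_le_right _ _).trans (min_le_right _ _)
  have hη4 : η ≤ 1 := by nlinarith
  obtain ⟨κ₁, H1⟩ := H1 η hη hη1
  obtain ⟨κ₂, H2⟩ := H2 (C₀ * η) (by positivity) hη2
  have hc1 : η / 32 * γ ≤ η / 32 := mul_le_of_le_one_right (by positivity) hγ1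
  refine ⟨η / 32 * γ, by positivity, by linarith, max (max κ₁ κ₂) (max 1000 (100 / γ)),
    fun κ k hκ0 hK S T n nf E hS hnf hE j => ?_⟩
  simp only [max_le_iff] at hκ0
  obtain ⟨⟨hκa, hκb⟩, hκ, hκc⟩ := hκ0
  have hκγ : 100 ≤ κ * γ := (div_le_iff₀ hγ).1 hκc
  replace H1 : SO κ k η (C₀ * η) S := H1 κ k hκa hK S
  replace H2 := H2 κ k hκb hK S
  have hκ1 : 1 ≤ κ := by linarith
  obtain ⟨hk, -, -⟩ := k_facts hκ hK
  have hP : (0 : ℝ) < 2 ^ n := by positivity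
  have hP1 : (1 : ℝ) ≤ 2 ^ n := one_le_pow₀ (by norm_num)
  have pw : ∀ {i j : ℕ}, i ≤ j → 2 ^ n * κ ^ i ≤ 2 ^ n * κ ^ j := fun h => by
    gcongr
  have hnf' : 2 ^ n * κ ^ 6000 ≤ 2 ^ nf := by linarith
  have h4 : 4 ≤ κ ^ 1500 := le_trans (by linarith) (le_self_pow₀ hκ1 (by norm_num))
  have hn : n ≤ nf := by
    have : (2 : ℝ) ^ n ≤ 2 ^ nf := by simpa using (pw (Nat.zero_le 6000)).trans hnf'
    exact (pow_le_pow_iff_right₀ (by norm_num)).1 this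
  have key := dy_cover (c := η / 32 * γ) (by positivity) (by linarith) (E := E) MeasurableSet.univ
    hn j fun s0 hs0 _ _ => ?_
  · rwa [univ_inter, volume_dy, ← ENNReal.ofReal_mul (by positivity), mul_one_div] at key
  obtain ⟨ω, α, hω, hα, l1, u1, r1, r2⟩ := (hE s0 hs0).1
  have l1' : 2 ^ n * κ ^ 1500 ≤ nv (S.w k s0) ω := (pw (by norm_num)).trans l1
  have u1' : nv (S.w k s0) ω ≤ 2 ^ n * κ ^ 3500 := u1.trans (pw (by norm_num))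
  have l2 : 2 ^ n * κ ^ 1500 ≤ nv (S.rev.w k s0) α := by
    refine le_of_mul_le_mul_left (le_trans (le_of_eq ?_) (l1.trans r1)) (by positivity)
    ring
  have u2 : nv (S.rev.w k s0) α ≤ 2 ^ n * κ ^ 3500 :=
    r2.trans ((mul_le_mul_of_nonneg_left u1 (by positivity)).trans (le_of_eq (by ring)))
  have hbig : 4 * 2 ^ n ≤ 2 ^ n * κ ^ 1500 := by rw [mul_comm]; gcongr
  have hω1 : 1 ≤ ω := by
    rcases ω with _ | ω
    · have : nv (S.w k s0) 0 = 1 := by rw [← hS, max_comm]; rfl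
      linarith
    · omega
  have hα1 : 1 ≤ α := by
    rcases α with _ | α
    · have : nv (S.rev.w k s0) 0 = 1 := by rw [← hS]; rfl
      linarith
    · omega
  obtain ⟨w1, w2⟩ := win_of hκ (S.bd_b (by linarith) hK s0) (S.isSol_w k s0)
    ((pw (by norm_num)).trans l1') (u1'.trans (pw (by norm_num))) (ω := ω)
    (by linarith [nv_nonneg (S.w k s0) ω]) (by linarith [nv_nonneg (S.w k s0) ω])
  obtain ⟨w3, w4⟩ := win_of hκ (S.rev.bd_b (by linarith) hK s0) (S.rev.isSol_w k s0)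
    ((pw (by norm_num)).trans l2) (u2.trans (pw (by norm_num))) (ω := α)
    (by linarith [nv_nonneg (S.rev.w k s0) α]) (by linarith [nv_nonneg (S.rev.w k s0) α])
  have hp : Pt κ k S s0 1 ω α := (hE s0 hs0).2 _ _ hω1 hα1 (by omega) (by omega) w1 w2 w3 w4
  obtain ⟨n1, n2⟩ : nv (S.w k s0) ω = |S.w k s0 (ω + 1)| ∧
      nv (S.rev.w k s0) α = |S.rev.w k s0 (α + 1)| := by
    obtain ⟨_, _, -, -, -, -, -, h, h'⟩ := hp
    exact ⟨h.nvw, h'.nvw⟩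
  rw [n1] at l1' u1'
  rw [n2] at l2 u2
  rw [n1, n2] at r1 r2
  obtain ⟨n', m1, m2, m3, m4⟩ := exists_level
    (Λ := min |S.w k s0 (ω + 1)| |S.rev.w k s0 (α + 1)|) (n := n) (nf := nf)
    (hbig.trans (le_min l1' l2))
    ((min_le_left _ _).trans (u1'.trans ((pw (by norm_num)).trans hnf')))
  refine ⟨n', m1, m2, ?_⟩
  rcases cell_step H1 m2 hp r1 r2 m3 m4
    (calc _ ≤ 2 ^ n * κ ^ 3500 * κ ^ 500 := by gcongr; exact max_le u1' u2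
      _ = 2 ^ n * κ ^ 4000 := by ring
      _ ≤ _ := (pw (by norm_num)).trans hnf')
    (fun s hs hs' => pt_of_near hκ hK hp (by omega) (by omega) r1 r2 m4
      ((pw (by norm_num)).trans l1') (u1'.trans (pw (by norm_num))) ((pw (by norm_num)).trans l2)
      (u2.trans (pw (by norm_num))) (hE s hs) hs') with h | ⟨q1, q2, σ, n0, hσ, hσ0, hres⟩
  · exact le_trans (ENNReal.ofReal_le_ofReal (by gcongr)) h
  have hc := cell_eq n' s0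
  have hG := H2 ω α s0 _ _ σ n0 (Ico_subset_Icc_self (hc ▸ mem_cell n' s0)) hp q1 q2 m3 m4 hσ hσ0
    hres
  have he1 : 1 + C₀ * η ≤ 2 := by linarith
  set G := {t ∈ Icc ((⌊2 ^ n' * s0⌋ : ℝ) / 2 ^ n') ((⌊2 ^ n' * s0⌋ : ℝ) / 2 ^ n' + 1 / 2 ^ n') |
    γ ≤ |cos (2 * π * S.x k t (ω + 1))| ∧
      ∀ n : ℤ, γ ≤ |S.rev.x k t (α + 2) + σ * S.x k t (ω + 2) - n - 1 / 2|} with hGd
  have hGm : MeasurableSet G := by
    have c1 := S.continuous_x k (ω + 1)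
    have c2 := S.continuous_x k (ω + 2)
    have c3 := S.rev.continuous_x k (α + 2)
    simp only [hGd, Set.ofPred_and, Set.ofPred_forall]
    exact measurableSet_Icc.inter ((measurableSet_le measurable_const (by fun_prop)).inter
      (MeasurableSet.iInter fun m => measurableSet_le measurable_const (by fun_prop)))
  have key := dy_cover (c := η / 32) (by positivity) (by linarith) (E := E) hGm m2 ⌊2 ^ n' * s0⌋
    fun s1 hs1 hs1' ⟨t, ht, _, hG1, hG2⟩ => inner_step hκ hK hγ hκγ hη3 H1 hnf hE hp hω hα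
      (q2.trans (by gcongr)) (q1.trans (by gcongr)) m3 m4 l1' u1' l2 u2 hσ hσ0 hs1 hs1'
      (hres s1 (Ico_subset_Icc_self (hc ▸ hs1'))) ht hG1 hG2
  refine le_trans ?_ key
  have h5 : volume G ≤ volume (G ∩ cell n' s0) := by
    rw [hc]; exact volume_le_inter_Ico fun t ht => ht.1
  rw [mul_div_assoc, ENNReal.ofReal_mul (by positivity), div_eq_mul_one_div γ]
  exact mul_le_mul_right (hG.trans h5) _

end Crest.Agent.R128
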