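import Crest.Agent.R128.Maximal

/-! Row 128: the random threshold. -/

set_option autoImplicit false

namespace Crest.Agent.R128

open Real MeasureTheory Set

/-- the horizons of the classes -/
def Hs : ℕ → ℕ
  | 0 => 4000
  | i + 1 => Hs i + Hs i / 4

theorem Hs_ge (i : ℕ) : 4000 ≤ Hs i := by
  induction i with
  | zero => exact le_rfl
  | succ i ih => rw [Hs]; omega

theorem Hs_mono : Monotone Hs := monotone_nat_of_le_succ fun i => by rw [Hs]; omega

theorem Hs_sum (n : ℕ) : ∑ i ∈ Finset.range n, 1 / (Hs i : ℝ) ≤ 6 / 4000 - 6 / (Hs n : ℝ) := by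
  induction n with
  | zero => simp [Hs]
  | succ n ih =>
    have h1 : (4000 : ℝ) ≤ Hs n := by exact_mod_cast Hs_ge n
    have h2 : 6 * (Hs n : ℝ) ≤ 5 * Hs (n + 1) := by
      have := Hs_ge n
      exact_mod_cast (by rw [Hs]; omega : 6 * Hs n ≤ 5 * Hs (n + 1))
    have h3 : 6 / (Hs (n + 1) : ℝ) ≤ 5 / (Hs n : ℝ) := by
      rw [div_le_div_iff₀ (by linarith) (by linarith)]; exact h2
    rw [Finset.sum_range_succ]
    have h4 : 6 / (Hs n : ℝ) = 5 / (Hs n : ℝ) + 1 / (Hs n : ℝ) := by ring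
    linarith

theorem thresh_card {S : Finset ℕ} {x y : ℝ} (hxy : x ≤ y) (h : ∀ t ∈ S, x ≤ t ∧ (t : ℝ) ≤ y) :
    (S.card : ℝ) ≤ y - x + 1 := by
  rcases S.eq_empty_or_nonempty with rfl | hS
  · simp only [Finset.card_empty, Nat.cast_zero]; linarith
  have h1 : S ⊆ Finset.Icc (S.min' hS) (S.max' hS) := fun t ht =>
    Finset.mem_Icc.2 ⟨S.min'_le t ht, S.le_max' t ht⟩
  have h2 := Finset.card_le_card h1
  rw [Nat.card_Icc] at h2
  have h3 := S.min'_le _ (S.max'_mem hS)
  have h4 : (S.card : ℝ) + S.min' hS ≤ S.max' hS + 1 := by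
    exact_mod_cast (by omega : S.card + S.min' hS ≤ S.max' hS + 1)
  linarith [(h _ (S.min'_mem hS)).1, (h _ (S.max'_mem hS)).2]

/-- counting grid points in a chain of slightly overlapping intervals -/
theorem thresh_count {s e : ℕ → ℝ} (hs : Monotone s) (he : ∀ i, 0 ≤ e i) (M n : ℕ)
    (P : ℕ → ℕ → Prop) (hP : ∀ t i, P t i → s i ≤ t ∧ (t : ℝ) ≤ s (i + 1) + e i) :
    ∑ t ∈ Finset.range M, ∑ i ∈ Finset.range n, ind (P t i) ≤
      M + ∑ i ∈ Finset.range n, e i + n := by
  classical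
  let cl : ℕ → ℝ := fun i => max 0 (min (s i) M)
  have hcl : Monotone cl := fun i j hij => max_le_max le_rfl (min_le_min (hs hij) le_rfl)
  have h1 : ∀ i, ∑ t ∈ Finset.range M, ind (P t i) ≤ cl (i + 1) - cl i + e i + 1 := by
    intro i
    have h2 : ∑ t ∈ Finset.range M, ind (P t i) =
        (((Finset.range M).filter fun t => P t i).card : ℝ) := by
      rw [Finset.card_filter]
      push_cast
      refine Finset.sum_congr rfl fun t _ => ?_
      unfold ind
      split_ifs <;> rfl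
    rw [h2]
    have h3 := thresh_card (S := (Finset.range M).filter fun t => P t i) (x := cl i)
      (y := cl (i + 1) + e i) (by linarith [hcl (Nat.le_succ i), he i]) fun t ht => by
        obtain ⟨ht1, ht2⟩ := Finset.mem_filter.1 ht
        obtain ⟨h4, h5⟩ := hP t i ht2
        have h6 : (t : ℝ) ≤ M := by exact_mod_cast (Finset.mem_range.1 ht1).le
        refine ⟨max_le (by positivity) ((min_le_left _ _).trans h4), ?_⟩
        have h7 : min (s (i + 1)) M ≤ cl (i + 1) := le_max_right _ _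
        rcases min_cases (s (i + 1)) (M : ℝ) with h8 | h8 <;> linarith [h8.1, he i]
    linarith
  rw [Finset.sum_comm]
  refine (Finset.sum_le_sum fun i _ => h1 i).trans ?_
  rw [Finset.sum_add_distrib, Finset.sum_add_distrib, Finset.sum_range_sub, Finset.sum_const,
    Finset.card_range, nsmul_eq_mul, mul_one]
  have h2 : cl n ≤ M := max_le (by positivity) (min_le_right _ _)
  have h3 : 0 ≤ cl 0 := le_max_left _ _
  linarith

theorem thresh_point {K δ0 : ℝ} (hK1 : 1 < K) (hδ0 : 0 < δ0) (hc : logb K 8 ≤ δ0) (H : ℕ)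
    (b : ℕ → ℝ) :
    ∑ t ∈ Finset.range (H + 1), ∑ i ∈ Finset.range (H + 1),
      ind (FB K (δ0 * (1 + t / ((H + 1 : ℕ) : ℝ))) (Hs i) (min (Hs (i + 1)) H) b) ≤
        3 * ((H + 1 : ℕ) : ℝ) * ind (∃ n, 1 ≤ n ∧ n ≤ H ∧ δ0 * n ≤ dfc K b n) := by
  have hc0 : 0 ≤ logb K 8 := logb_nonneg hK1 (by norm_num)
  set M : ℕ := H + 1 with hM
  have hM0 : (0 : ℝ) < M := by positivity
  by_cases hE : ∃ n, 1 ≤ n ∧ n ≤ H ∧ δ0 * n ≤ dfc K b n
  swap
  · rw [ind_neg hE, mul_zero]
    refine (Finset.sum_eq_zero fun t _ => Finset.sum_eq_zero fun i _ => ind_neg ?_).le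
    rintro ⟨-, h, -, h2, h3⟩
    refine hE ⟨h + 1, by omega, by omega, le_trans ?_ h3⟩
    have h4 : 0 ≤ δ0 * (t / M) * (h + 2) := by positivity
    push_cast
    nlinarith
  rw [ind_pos hE, mul_one]
  set c := logb K 8 with hcdef
  let σ : ℕ → ℝ := fun n => (Finset.range (n + 1)).sup' ⟨0, by simp⟩
    fun m => (dfc K b m - c) / (m + 1)
  have hσ : Monotone σ := fun n n' hn =>
    Finset.sup'_mono _ (Finset.range_subset_range.2 (by omega)) _
  have h1 := thresh_count (s := fun i => (σ (Hs i) - δ0) * (M / δ0))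
    (e := fun i => 2 * c / Hs i * (M / δ0))
    (fun i j hij => mul_le_mul_of_nonneg_right (sub_le_sub_right (hσ (Hs_mono hij)) _)
      (by positivity)) (fun i => by positivity) M M
    (fun t i => FB K (δ0 * (1 + t / (M : ℝ))) (Hs i) (min (Hs (i + 1)) H) b) (by
      rintro t i ⟨h1, h, h2, h3, h4⟩
      have et : (t : ℝ) = (δ0 * (1 + t / (M : ℝ)) - δ0) * (M / δ0) := by field_simp; ring
      generalize δ0 * (1 + t / (M : ℝ)) = δ at *
      have l1 : σ (Hs i) ≤ δ := by
        refine Finset.sup'_le _ _ fun m hm => ?_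
        rw [div_le_iff₀ (by positivity)]
        linarith [h1 m (by have := Finset.mem_range.1 hm; omega)]
      have l2 : δ ≤ σ (Hs (i + 1)) + 2 * c / Hs i := by
        have l3 : (dfc K b (h + 1) - c) / ((h + 1 : ℕ) + 1) ≤ σ (Hs (i + 1)) :=
          Finset.le_sup' (f := fun m : ℕ => (dfc K b m - c) / (m + 1))
            (Finset.mem_range.2 (by omega))
        have l4 : (4000 : ℝ) ≤ Hs i := by exact_mod_cast Hs_ge i
        have l5 : (Hs i : ℝ) ≤ h := by exact_mod_cast h2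
        have l6 : 2 * c / ((h + 1 : ℕ) + 1) ≤ 2 * c / Hs i :=
          div_le_div_of_nonneg_left (by positivity) (by linarith) (by push_cast; linarith)
        have l7 : δ ≤ (dfc K b (h + 1) - c) / ((h + 1 : ℕ) + 1) + 2 * c / ((h + 1 : ℕ) + 1) := by
          rw [← add_div, le_div_iff₀ (by positivity)]
          push_cast
          linarith
        linarith
      rw [et, ← add_mul]
      exact ⟨mul_le_mul_of_nonneg_right (by linarith) (by positivity),
        mul_le_mul_of_nonneg_right (by linarith) (by positivity)⟩)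
  refine h1.trans ?_
  have h2 : ∑ i ∈ Finset.range M, 2 * c / Hs i * (M / δ0) =
      2 * c * (M / δ0) * ∑ i ∈ Finset.range M, 1 / (Hs i : ℝ) := by
    rw [Finset.mul_sum]
    exact Finset.sum_congr rfl fun i _ => by ring
  have h3 : ∑ i ∈ Finset.range M, 1 / (Hs i : ℝ) ≤ 1 / 2 := by
    have h4 : 0 ≤ 6 / (Hs M : ℝ) := by positivity
    linarith [Hs_sum M]
  have h4 : c * (M / δ0) ≤ M := by
    rw [mul_div_assoc', div_le_iff₀ hδ0, mul_comm]; gcongr
  have h5 : 2 * c * (M / δ0) * ∑ i ∈ Finset.range M, 1 / (Hs i : ℝ) ≤ 2 * c * (M / δ0) * (1 / 2) := by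
    gcongr
  rw [h2]
  linarith

/-- Random threshold.  Recipe: `c = logb K 8 ≤ δ0` is assumed.  Fix `b`.  Let
`δ* n = max_{m ≤ n} (dfc K b m - c) / (m + 1)` (monotone in `n`).  `FB K δ (Hs i) (min (Hs (i+1)) H) b`
forces `δ* (Hs i) ≤ δ ≤ δ* (Hs (i+1)) + 2 c / Hs i`, and (for `δ ≥ δ0`) the event
`∃ n ∈ [1, H], δ0 n ≤ dfc K b n`.  On the grid `δ_t = δ0 (1 + t / M)`, `t < M`, `M = H + 1`, the
number of `t` in such an interval (cut to `[δ0, 2 δ0]`) is at most `M / δ0` times its length plus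
`1`; sum over `i ≤ H`: the clipped increments telescope to `≤ δ0`, `∑ 2 c / Hs i ≤ δ0`
(`Hs (i+1) ≥ 6/5 Hs i`), so the number of pairs `(t, i)` is at most `3 M`.  Integrate, use
`maximal`, and choose `t` below the average. -/
theorem exists_threshold {κ k δ0 : ℝ} (hκ : 1000 ≤ κ) (hK : κ ^ 1000 = 2 * π * k + 3)
    (hδ0 : 0 < δ0) (hc : logb (κ ^ 1000) 8 ≤ δ0) {N H : ℕ} (hN : 1 ≤ N) (hH : 2 * H ≤ N) :
    ∃ δ ∈ Icc δ0 (2 * δ0), ∑ i ∈ Finset.range (H + 1),
      (Psq {p | FB (κ ^ 1000) δ (Hs i) (min (Hs (i + 1)) H) (rb k p.1 p.2)}).toReal ≤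
        6 * Dn (κ ^ 1000) k N / δ0 := by
  have hK1 := maximal_one_lt hκ
  have hmax := maximal hκ hK hδ0 hN hH
  generalize κ ^ 1000 = K at *
  set M : ℕ := H + 1 with hM
  have hM0 : (0 : ℝ) < M := by positivity
  let δ : ℕ → ℝ := fun t => δ0 * (1 + t / M)
  let A : ℕ → ℕ → Set (ℝ × ℝ) := fun t i =>
    {p | FB K (δ t) (Hs i) (min (Hs (i + 1)) H) (rb k p.1 p.2)}
  let E : Set (ℝ × ℝ) := {p | ∃ n, 1 ≤ n ∧ n ≤ H ∧ δ0 * n ≤ dfc K (rb k p.1 p.2) n}
  have hA : ∀ t i, MeasurableSet (A t i) := fun t i =>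
    (continuous_rb k).measurable (measurableSet_FB K _ _ _)
  have hE : MeasurableSet E := by
    have hE : MeasurableSet {b : ℕ → ℝ | ∃ n, 1 ≤ n ∧ n ≤ H ∧ δ0 * n ≤ dfc K b n} := by
      simp only [Set.ofPred_exists]
      refine MeasurableSet.iUnion fun n => ?_
      simp only [Set.ofPred_and]
      exact (MeasurableSet.const _).inter ((MeasurableSet.const _).inter
        (measurableSet_le measurable_const (measurable_dfc K _)))
    exact (continuous_rb k).measurable hE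
  have hi : ∀ {S : Set (ℝ × ℝ)}, MeasurableSet S → Integrable (fun p => ind (p ∈ S)) Psq :=
    fun hS => integrable_of_bdd (measurable_ind hS) (C := 1) fun p => by
      rw [abs_of_nonneg (ind_nonneg _)]; exact ind_le_one _
  have h1 : ∫ p, ∑ t ∈ Finset.range M, ∑ i ∈ Finset.range (H + 1), ind (p ∈ A t i) ∂Psq ≤
      ∫ p, 3 * (M : ℝ) * ind (p ∈ E) ∂Psq :=
    integral_mono (integrable_finsetSum _ fun t _ => integrable_finsetSum _ fun i _ => hi (hA t i))
      ((hi hE).const_mul _) fun p => thresh_point hK1 hδ0 hc H (rb k p.1 p.2)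
  rw [integral_const_mul, integral_ind hE,
    integral_finsetSum _ fun t _ => integrable_finsetSum _ fun i _ => hi (hA t i)] at h1
  have h2 : ∀ t, ∫ p, ∑ i ∈ Finset.range (H + 1), ind (p ∈ A t i) ∂Psq =
      ∑ i ∈ Finset.range (H + 1), (Psq (A t i)).toReal := fun t => by
    rw [integral_finsetSum _ fun i _ => hi (hA t i)]
    exact Finset.sum_congr rfl fun i _ => integral_ind (hA t i)
  simp only [h2] at h1
  have h3 : (Psq E).toReal ≤ 2 * Dn K k N / δ0 := by
    rw [le_div_iff₀ hδ0, mul_comm]; exact hmax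
  obtain ⟨t, ht, h4⟩ := Finset.exists_le_of_sum_le (s := Finset.range M)
    (f := fun t => ∑ i ∈ Finset.range (H + 1), (Psq (A t i)).toReal)
    (g := fun _ => 6 * Dn K k N / δ0) ⟨0, by simp [hM]⟩ (by
      refine h1.trans ?_
      rw [Finset.sum_const, Finset.card_range, nsmul_eq_mul]
      calc 3 * (M : ℝ) * (Psq E).toReal ≤ 3 * (M : ℝ) * (2 * Dn K k N / δ0) := by gcongr
        _ = _ := by ring)
  refine ⟨δ t, ⟨?_, ?_⟩, h4⟩
  · exact le_mul_of_one_le_right hδ0.le (le_add_of_nonneg_right (by positivity))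
  · have h5 : (t : ℝ) / M ≤ 1 := by
      rw [div_le_one hM0]; exact_mod_cast (Finset.mem_range.1 ht).le
    simp only [δ]
    nlinarith

end Crest.Agent.R128
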